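import Crest.Agent.R160.Real

/-! The observation channel: `Fc`, `Psi`, `phi`. -/

set_option autoImplicit false

namespace Crest.Agent.R160

open MeasureTheory ProbabilityTheory Set Filter Topology
open scoped ENNReal

theorem measurable_Psi : Measurable (fun p : ℝ × ℝ => Psi p.1 p.2) := by
  unfold Psi
  fun_prop

theorem measurable_Fc : Measurable (fun p : ℝ × ℝ => Fc p.1 p.2) := by
  unfold Fc
  fun_prop

theorem measurable_phi (κ : ℝ) : Measurable (fun p : ℝ × ℝ => phi κ p.1 p.2) := by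
  unfold phi Psi
  fun_prop

theorem Fc_neg (a y : ℝ) : Fc (-a) (-y) = 1 - Fc a y := by
  unfold Fc
  ring

theorem Psi_neg (a ξ : ℝ) : Psi (-a) (1 - ξ) = -Psi a ξ := by
  unfold Psi
  have h : (1 - -a) ^ 2 + 4 * -a * (1 - ξ) = (1 - a) ^ 2 + 4 * a * ξ := by ring
  rw [h, ← neg_div]
  congr 1
  ring

private theorem rad_nonneg {a ξ : ℝ} (hξ : ξ ∈ Icc (0 : ℝ) 1) :
    0 ≤ (1 - a) ^ 2 + 4 * a * ξ := by
  obtain ⟨h0, h1⟩ := hξ
  have h : (1 - a) ^ 2 + 4 * a * ξ = (1 - ξ) * (1 - a) ^ 2 + ξ * (1 + a) ^ 2 := by ring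
  rw [h]
  have : 0 ≤ 1 - ξ := by linarith
  positivity

private theorem Psi_mul (a ξ : ℝ) :
    Psi a ξ * (1 + √((1 - a) ^ 2 + 4 * a * ξ)) = 4 * ξ - 2 + a := by
  unfold Psi
  have : 0 < 1 + √((1 - a) ^ 2 + 4 * a * ξ) := by positivity
  field_simp

private theorem one_add_mul_Psi {a ξ : ℝ} (hξ : ξ ∈ Icc (0 : ℝ) 1) :
    1 + a * Psi a ξ = √((1 - a) ^ 2 + 4 * a * ξ) := by
  have h1 := Psi_mul a ξ
  have h2 := Real.sq_sqrt (rad_nonneg (a := a) hξ)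
  set s := √((1 - a) ^ 2 + 4 * a * ξ) with hs
  have hpos : 0 < 1 + s := by positivity
  have h3 : (1 + a * Psi a ξ - s) * (1 + s) = 0 := by
    have : (1 + a * Psi a ξ - s) * (1 + s) = 1 - s ^ 2 + a * (Psi a ξ * (1 + s)) := by ring
    rw [this, h1, h2]
    ring
  rcases mul_eq_zero.1 h3 with h | h
  · linarith
  · exact absurd h hpos.ne'

private theorem Fc_Psi' {a ξ : ℝ} (hξ : ξ ∈ Icc (0 : ℝ) 1) : Fc a (Psi a ξ) = ξ := by
  have h1 := Psi_mul a ξ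
  rw [← one_add_mul_Psi hξ] at h1
  unfold Fc
  linear_combination h1 / 4

theorem abs_Psi_le {a ξ : ℝ} (ha : |a| ≤ 1 / 2) (hξ : ξ ∈ Icc (0 : ℝ) 1) : |Psi a ξ| ≤ 1 := by
  have h1 := Fc_Psi' (a := a) hξ
  have h2 : 0 ≤ 1 + a * Psi a ξ := by
    rw [one_add_mul_Psi hξ]
    exact Real.sqrt_nonneg _
  obtain ⟨ha1, ha2⟩ := abs_le.1 ha
  obtain ⟨h0, h1'⟩ := hξ
  set y := Psi a ξ
  unfold Fc at h1
  rw [abs_le]
  constructor
  · by_contra hc
    have hc' : 0 < -1 - y := by linarith [not_le.1 hc]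
    have h3 : 0 < 2 + a * y - a := by linarith
    have := mul_pos hc' h3
    nlinarith
  · by_contra hc
    have hc' : 0 < y - 1 := by linarith [not_le.1 hc]
    have h3 : 0 < 2 + a * y + a := by linarith
    have := mul_pos hc' h3
    nlinarith

private theorem abs_mul_le_half {a y : ℝ} (ha : |a| ≤ 1 / 2) (hy : |y| ≤ 1) : |a * y| ≤ 1 / 2 := by
  rw [abs_mul]
  nlinarith [abs_nonneg a, abs_nonneg y]

theorem Fc_mem {a y : ℝ} (ha : |a| ≤ 1 / 2) (hy : |y| ≤ 1) : Fc a y ∈ Icc (0 : ℝ) 1 := by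
  obtain ⟨h1, h2⟩ := abs_le.1 (abs_mul_le_half ha hy)
  obtain ⟨ha1, ha2⟩ := abs_le.1 ha
  obtain ⟨hy1, hy2⟩ := abs_le.1 hy
  unfold Fc
  constructor
  · have h3 : 0 ≤ (y + 1) * (2 + a * y - a) := mul_nonneg (by linarith) (by linarith)
    nlinarith
  · have h3 : 0 ≤ (1 - y) * (2 + a * y + a) := mul_nonneg (by linarith) (by linarith)
    nlinarith

theorem Psi_Fc {a y : ℝ} (ha : |a| ≤ 1 / 2) (hy : |y| ≤ 1) : Psi a (Fc a y) = y := by
  obtain ⟨h1, h2⟩ := abs_le.1 (abs_mul_le_half ha hy)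
  have h3 : (1 - a) ^ 2 + 4 * a * Fc a y = (1 + a * y) ^ 2 := by
    unfold Fc
    ring
  unfold Psi
  rw [h3, Real.sqrt_sq (by linarith), div_eq_iff (by linarith)]
  unfold Fc
  ring

theorem Fc_Psi {a ξ : ℝ} (ha : |a| ≤ 1 / 2) (hξ : ξ ∈ Icc (0 : ℝ) 1) : Fc a (Psi a ξ) = ξ := by
  have _ := ha
  exact Fc_Psi' hξ

private theorem hasDerivAt_Fc (a y : ℝ) : HasDerivAt (Fc a) ((1 + a * y) / 2) y := by
  have h1 : HasDerivAt (fun y : ℝ => (y + 1) / 2 + a * (y ^ 2 - 1) / 4)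
      (1 / 2 + a * (2 * y) / 4) y := by
    have h2 : HasDerivAt (fun y : ℝ => y ^ 2) (2 * y) y := by
      simpa using hasDerivAt_pow 2 y
    exact (((hasDerivAt_id y).add_const 1).div_const 2).add
      (((h2.sub_const 1).const_mul a).div_const 4)
  have h3 : (1 + a * y) / 2 = 1 / 2 + a * (2 * y) / 4 := by ring
  rw [h3]
  exact h1

private theorem injOn_Fc {a : ℝ} (ha : |a| ≤ 1 / 2) : InjOn (Fc a) (Icc (-1 : ℝ) 1) := by
  intro x hx y hy h
  rw [← Psi_Fc ha (abs_le.2 hx), h, Psi_Fc ha (abs_le.2 hy)]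

private theorem image_Fc {a : ℝ} (ha : |a| ≤ 1 / 2) :
    Fc a '' Icc (-1 : ℝ) 1 = Icc (0 : ℝ) 1 := by
  apply Subset.antisymm
  · rintro _ ⟨y, hy, rfl⟩
    exact Fc_mem ha (abs_le.2 hy)
  · intro ξ hξ
    exact ⟨Psi a ξ, abs_le.1 (abs_Psi_le ha hξ), Fc_Psi ha hξ⟩

private theorem dens_nonneg {a y : ℝ} (ha : |a| ≤ 1 / 2) (hy : y ∈ Icc (-1 : ℝ) 1) :
    0 ≤ (1 + a * y) / 2 := by
  obtain ⟨h1, _⟩ := abs_le.1 (abs_mul_le_half ha (abs_le.2 hy))
  linarith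

/-- change of variables, no measurability needed -/
theorem lintegral_Psi' {a : ℝ} (ha : |a| ≤ 1 / 2) (G : ℝ → ℝ≥0∞) :
    ∫⁻ ξ : unitInterval, G (Psi a ξ)
      = ∫⁻ y in Icc (-1 : ℝ) 1, G y * ENNReal.ofReal ((1 + a * y) / 2) := by
  have h1 : ∫⁻ ξ : unitInterval, G (Psi a ξ) = ∫⁻ ξ in Icc (0 : ℝ) 1, G (Psi a ξ) :=
    lintegral_subtype_comap (μ := volume) measurableSet_Icc (fun ξ => G (Psi a ξ))
  rw [h1, ← image_Fc ha, lintegral_image_eq_lintegral_abs_deriv_mul measurableSet_Icc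
    (fun y _ => (hasDerivAt_Fc a y).hasDerivWithinAt) (injOn_Fc ha)]
  refine setLIntegral_congr_fun measurableSet_Icc (fun y hy => ?_)
  rw [Psi_Fc ha (abs_le.2 hy), abs_of_nonneg (dens_nonneg ha hy), mul_comm]

/-- change of variables, no measurability or boundedness needed -/
theorem integral_Psi_comp' {a : ℝ} (ha : |a| ≤ 1 / 2) (G : ℝ → ℝ) :
    ∫ ξ : unitInterval, G (Psi a ξ) = ∫ y in Icc (-1 : ℝ) 1, G y * ((1 + a * y) / 2) := by
  have h1 : ∫ ξ : unitInterval, G (Psi a ξ) = ∫ ξ in Icc (0 : ℝ) 1, G (Psi a ξ) :=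
    integral_subtype_comap (μ := volume) measurableSet_Icc (fun ξ => G (Psi a ξ))
  rw [h1, ← image_Fc ha, integral_image_eq_integral_abs_deriv_smul measurableSet_Icc
    (fun y _ => (hasDerivAt_Fc a y).hasDerivWithinAt) (injOn_Fc ha)]
  refine setIntegral_congr_fun measurableSet_Icc (fun y hy => ?_)
  rw [Psi_Fc ha (abs_le.2 hy), abs_of_nonneg (dens_nonneg ha hy), smul_eq_mul, mul_comm]

private theorem neg_image_Icc : (fun y : ℝ => -y) '' Icc (-1 : ℝ) 1 = Icc (-1 : ℝ) 1 := by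
  ext y
  simp only [mem_image, mem_Icc]
  constructor
  · rintro ⟨x, ⟨h1, h2⟩, rfl⟩
    constructor <;> linarith
  · rintro ⟨h1, h2⟩
    exact ⟨-y, ⟨by linarith, by linarith⟩, neg_neg y⟩

private theorem lintegral_reflect (H : ℝ → ℝ≥0∞) :
    ∫⁻ y in Icc (-1 : ℝ) 1, H y = ∫⁻ y in Icc (-1 : ℝ) 1, H (-y) := by
  conv_lhs => rw [← neg_image_Icc]
  rw [lintegral_image_eq_lintegral_abs_deriv_mul measurableSet_Icc
    (fun y _ => (hasDerivAt_neg y).hasDerivWithinAt) neg_injective.injOn]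
  simp

private theorem integral_reflect (H : ℝ → ℝ) :
    ∫ y in Icc (-1 : ℝ) 1, H y = ∫ y in Icc (-1 : ℝ) 1, H (-y) := by
  conv_lhs => rw [← neg_image_Icc]
  rw [integral_image_eq_integral_abs_deriv_smul measurableSet_Icc
    (fun y _ => (hasDerivAt_neg y).hasDerivWithinAt) neg_injective.injOn]
  simp

private theorem integral_poly (b c d e : ℝ) :
    ∫ y in Icc (-1 : ℝ) 1, (b + c * y + d * y ^ 2 + e * y ^ 3) = 2 * b + 2 * d / 3 := by
  rw [integral_Icc_eq_integral_Ioc, ← intervalIntegral.integral_of_le (by norm_num)]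
  have h : ∀ y ∈ uIcc (-1 : ℝ) 1,
      HasDerivAt (fun y : ℝ => b * y + c * y ^ 2 / 2 + d * y ^ 3 / 3 + e * y ^ 4 / 4)
        (b + c * y + d * y ^ 2 + e * y ^ 3) y := by
    intro y _
    have h1 := ((((hasDerivAt_id y).const_mul b).add
      (((hasDerivAt_pow 2 y).const_mul c).div_const 2)).add
      (((hasDerivAt_pow 3 y).const_mul d).div_const 3)).add
      (((hasDerivAt_pow 4 y).const_mul e).div_const 4)
    refine HasDerivAt.congr_deriv h1 ?_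
    push_cast
    ring
  rw [intervalIntegral.integral_eq_sub_of_hasDerivAt h
    (Continuous.intervalIntegrable (by fun_prop) _ _)]
  ring

/-- change of variables -/
theorem lintegral_Psi {a : ℝ} (ha : |a| ≤ 1 / 2) (G : ℝ → ℝ≥0∞) (hG : Measurable G) :
    ∫⁻ ξ : unitInterval, G (Psi a ξ) = ∫⁻ y in Icc (-1 : ℝ) 1, G y * ENNReal.ofReal ((1 + a * y) / 2) := by
  have _ := hG
  exact lintegral_Psi' ha G

theorem integral_Psi_comp {a : ℝ} (ha : |a| ≤ 1 / 2) (G : ℝ → ℝ) (hG : Measurable G) (C : ℝ)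
    (hC : ∀ y, |G y| ≤ C) :
    ∫ ξ : unitInterval, G (Psi a ξ) = ∫ y in Icc (-1 : ℝ) 1, G y * ((1 + a * y) / 2) := by
  have _ := hG
  have _ := hC
  exact integral_Psi_comp' ha G

theorem integral_Psi {a : ℝ} (ha : |a| ≤ 1 / 2) : ∫ ξ : unitInterval, Psi a ξ = a / 3 := by
  rw [integral_Psi_comp' ha (fun y => y)]
  have h := integral_poly 0 (1 / 2) (a / 2) 0
  rw [show a / 3 = 2 * 0 + 2 * (a / 2) / 3 by ring, ← h]
  congr 1
  ext y
  ring

theorem integral_Psi_sq {a : ℝ} (ha : |a| ≤ 1 / 2) :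
    ∫ ξ : unitInterval, Psi a ξ ^ 2 = 1 / 3 := by
  rw [integral_Psi_comp' ha (fun y => y ^ 2)]
  have h := integral_poly 0 0 (1 / 2) (a / 2)
  rw [show (1 : ℝ) / 3 = 2 * 0 + 2 * (1 / 2) / 3 by ring, ← h]
  congr 1
  ext y
  ring

private theorem exp_neg_artanh_mul {u : ℝ} (hu : |u| ≤ 1 / 2) :
    Real.exp (-Real.artanh u) * (1 + u) = √(1 - u ^ 2) := by
  obtain ⟨h1, h2⟩ := abs_le.1 hu
  have hp : 0 < 1 + u := by linarith
  have hm : 0 < 1 - u := by linarith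
  rw [Real.exp_neg, Real.exp_artanh ⟨by linarith, by linarith⟩]
  symm
  rw [Real.sqrt_eq_iff_mul_self_eq (by nlinarith) (by positivity)]
  have h3 : √((1 + u) / (1 - u)) * √((1 + u) / (1 - u)) = (1 + u) / (1 - u) :=
    Real.mul_self_sqrt (by positivity)
  symm
  calc (√((1 + u) / (1 - u)))⁻¹ * (1 + u) * ((√((1 + u) / (1 - u)))⁻¹ * (1 + u))
      = (√((1 + u) / (1 - u)) * √((1 + u) / (1 - u)))⁻¹ * (1 + u) ^ 2 := by
        rw [mul_inv]; ring
    _ = 1 - u ^ 2 := by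
        rw [h3]; field_simp; ring

private theorem slot_weight {κ y : ℝ} (hκ : |κ| ≤ 1 / 2) (hy : y ∈ Icc (-1 : ℝ) 1) :
    ENNReal.ofReal (Real.exp (-Real.artanh (κ * y))) * ENNReal.ofReal ((1 + κ * y) / 2)
      = ENNReal.ofReal (√(1 - κ ^ 2 * y ^ 2) / 2) := by
  rw [← ENNReal.ofReal_mul (Real.exp_pos _).le, ← mul_div_assoc,
    exp_neg_artanh_mul (abs_mul_le_half hκ (abs_le.2 hy)), mul_pow]

/-- a single observation is calibrated -/
theorem slot_sym {κ : ℝ} (hκ : |κ| ≤ 1 / 2) (G : ℝ → ℝ≥0∞) (hG : Measurable G) :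
    ∫⁻ ξ : unitInterval, G (Psi κ ξ) * ENNReal.ofReal (Real.exp (-Real.artanh (κ * Psi κ ξ)))
      = ∫⁻ ξ : unitInterval,
          G (-Psi κ ξ) * ENNReal.ofReal (Real.exp (-Real.artanh (κ * Psi κ ξ))) := by
  have _ := hG
  rw [lintegral_Psi' hκ (fun y => G y * ENNReal.ofReal (Real.exp (-Real.artanh (κ * y)))),
    lintegral_Psi' hκ (fun y => G (-y) * ENNReal.ofReal (Real.exp (-Real.artanh (κ * y))))]
  have h1 : ∫⁻ y in Icc (-1 : ℝ) 1, G y * ENNReal.ofReal (Real.exp (-Real.artanh (κ * y)))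
        * ENNReal.ofReal ((1 + κ * y) / 2)
      = ∫⁻ y in Icc (-1 : ℝ) 1, G y * ENNReal.ofReal (√(1 - κ ^ 2 * y ^ 2) / 2) := by
    refine setLIntegral_congr_fun measurableSet_Icc (fun y hy => ?_)
    rw [mul_assoc, slot_weight hκ hy]
  have h2 : ∫⁻ y in Icc (-1 : ℝ) 1, G (-y) * ENNReal.ofReal (Real.exp (-Real.artanh (κ * y)))
        * ENNReal.ofReal ((1 + κ * y) / 2)
      = ∫⁻ y in Icc (-1 : ℝ) 1, G (-y) * ENNReal.ofReal (√(1 - κ ^ 2 * (-y) ^ 2) / 2) := by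
    refine setLIntegral_congr_fun measurableSet_Icc (fun y hy => ?_)
    rw [mul_assoc, slot_weight hκ hy, neg_sq]
  rw [h1, h2]
  exact lintegral_reflect (fun y => G y * ENNReal.ofReal (√(1 - κ ^ 2 * y ^ 2) / 2))

/-- the innovation of an observation with prior mean `m` is uniform -/
theorem mixture_uniform {κ m : ℝ} (hκ : |κ| ≤ 1 / 2) (hm : |m| ≤ 1) (Γ : unitInterval → ℝ)
    (hΓ : Measurable Γ) (C : ℝ) (hC : ∀ x, |Γ x| ≤ C) :
    (1 + m) / 2 * (∫ ξ : unitInterval, Γ (projIcc 0 1 zero_le_one (Fc (κ * m) (Psi κ ξ))))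
      + (1 - m) / 2 * (∫ ξ : unitInterval, Γ (projIcc 0 1 zero_le_one (Fc (κ * m) (-Psi κ ξ))))
      = ∫ ξ : unitInterval, Γ ξ := by
  have ha : |κ * m| ≤ 1 / 2 := abs_mul_le_half hκ hm
  set H : ℝ → ℝ := fun y => Γ (projIcc 0 1 zero_le_one (Fc (κ * m) y)) with hH
  have hHm : Measurable H := by
    refine hΓ.comp ?_
    refine (continuous_projIcc.comp ?_).measurable
    unfold Fc
    fun_prop
  have hint : ∀ b : ℝ, IntegrableOn (fun y => H y * ((1 + b * y) / 2)) (Icc (-1 : ℝ) 1) := by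
    intro b
    have h1 : IntegrableOn (fun y : ℝ => (1 + b * y) / 2) (Icc (-1 : ℝ) 1) :=
      Continuous.integrableOn_Icc (by fun_prop)
    exact Integrable.bdd_mul (c := C) h1 hHm.aestronglyMeasurable
      (Eventually.of_forall fun y => by simpa [hH] using hC _)
  have e1 : ∫ ξ : unitInterval, Γ (projIcc 0 1 zero_le_one (Fc (κ * m) (Psi κ ξ)))
      = ∫ y in Icc (-1 : ℝ) 1, H y * ((1 + κ * y) / 2) := integral_Psi_comp' hκ H
  have e2 : ∫ ξ : unitInterval, Γ (projIcc 0 1 zero_le_one (Fc (κ * m) (-Psi κ ξ)))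
      = ∫ y in Icc (-1 : ℝ) 1, H y * ((1 + -κ * y) / 2) := by
    rw [integral_reflect (fun y => H y * ((1 + -κ * y) / 2))]
    refine (integral_Psi_comp' hκ (fun y => H (-y))).trans ?_
    congr 1
    ext y
    simp
  have e3 : ∫ ξ : unitInterval, Γ ξ = ∫ y in Icc (-1 : ℝ) 1, H y * ((1 + κ * m * y) / 2) := by
    rw [← integral_Psi_comp' ha H]
    congr 1
    ext ξ
    simp only [hH]
    rw [Fc_Psi ha ξ.2, projIcc_val]
  rw [e1, e2, e3, ← integral_const_mul, ← integral_const_mul,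
    ← integral_add ((hint κ).const_mul _) ((hint (-κ)).const_mul _)]
  congr 1
  ext y
  ring

theorem abs_phi_le {κ m ξ : ℝ} (hκ0 : 0 ≤ κ) (hκ : κ ≤ 1 / 2) (hm : |m| ≤ 1)
    (hξ : ξ ∈ Icc (0 : ℝ) 1) : |phi κ m ξ| ≤ 2 * κ := by
  have ha : |κ * m| ≤ 1 / 2 := abs_mul_le_half (by rwa [abs_of_nonneg hκ0]) hm
  have hy := abs_Psi_le ha hξ
  obtain ⟨h1, _⟩ := abs_le.1 (abs_mul_le_half ha hy)
  unfold phi
  set y := Psi (κ * m) ξ
  have hpos : 0 < 1 + κ * m * y := by linarith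
  rw [abs_div, abs_of_pos hpos, div_le_iff₀ hpos, abs_mul, abs_of_nonneg hκ0]
  have h2 : κ * |y| ≤ κ * 1 := mul_le_mul_of_nonneg_left hy hκ0
  have h3 : κ * 1 ≤ κ * (2 * (1 + κ * m * y)) := mul_le_mul_of_nonneg_left (by linarith) hκ0
  linarith

theorem abs_Psi_sub_le {a a' ξ : ℝ} (ha : |a| ≤ 1 / 2) (ha' : |a'| ≤ 1 / 2)
    (hξ : ξ ∈ Icc (0 : ℝ) 1) : |Psi a ξ - Psi a' ξ| ≤ |a - a'| := by
  have hy := abs_Psi_le ha hξ
  have hy' := abs_Psi_le ha' hξ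
  have h1 := Fc_Psi ha hξ
  have h2 := Fc_Psi ha' hξ
  obtain ⟨h3, _⟩ := abs_le.1 (abs_mul_le_half ha hy)
  obtain ⟨h4, _⟩ := abs_le.1 (abs_mul_le_half ha hy')
  set y := Psi a ξ
  set y' := Psi a' ξ
  unfold Fc at h1 h2
  have h5 : (y - y') * (2 + a * y + a * y') = (a - a') * (1 - y' ^ 2) := by
    linear_combination 4 * h1 - 4 * h2
  have h6 : 1 ≤ 2 + a * y + a * y' := by linarith
  have h7 : 0 ≤ 1 - y' ^ 2 := by
    have := sq_le_one_iff_abs_le_one y' |>.2 hy'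
    linarith
  have h8 : |y - y'| * (2 + a * y + a * y') = |a - a'| * (1 - y' ^ 2) := by
    have := congrArg abs h5
    rwa [abs_mul, abs_mul, abs_of_nonneg (by linarith : 0 ≤ 2 + a * y + a * y'),
      abs_of_nonneg h7] at this
  nlinarith [abs_nonneg (y - y'), abs_nonneg (a - a'), sq_nonneg y']

theorem abs_phi_sub_le {κ m m' ξ : ℝ} (hκ0 : 0 ≤ κ) (hκ : κ ≤ 1 / 2) (hm : |m| ≤ 1)
    (hm' : |m'| ≤ 1) (hξ : ξ ∈ Icc (0 : ℝ) 1) :
    |phi κ m ξ - phi κ m' ξ| ≤ 4 * κ * |m - m'| := by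
  have hκ' : |κ| ≤ 1 / 2 := by rwa [abs_of_nonneg hκ0]
  have ha : |κ * m| ≤ 1 / 2 := abs_mul_le_half hκ' hm
  have ha' : |κ * m'| ≤ 1 / 2 := abs_mul_le_half hκ' hm'
  have hy := abs_Psi_le ha hξ
  have hy' := abs_Psi_le ha' hξ
  have hd := abs_Psi_sub_le ha ha' hξ
  obtain ⟨h1, _⟩ := abs_le.1 (abs_mul_le_half ha hy)
  obtain ⟨h2, _⟩ := abs_le.1 (abs_mul_le_half ha' hy')
  unfold phi
  set y := Psi (κ * m) ξ
  set y' := Psi (κ * m') ξ
  have hp : 0 < 1 + κ * m * y := by linarith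
  have hp' : 0 < 1 + κ * m' * y' := by linarith
  have hD : |κ * m - κ * m'| = κ * |m - m'| := by
    rw [← mul_sub, abs_mul, abs_of_nonneg hκ0]
  have e : κ * y / (1 + κ * m * y) - κ * y' / (1 + κ * m' * y')
      = κ * ((y - y') - y * y' * (κ * m - κ * m')) / ((1 + κ * m * y) * (1 + κ * m' * y')) := by
    rw [div_sub_div _ _ hp.ne' hp'.ne']
    congr 1
    ring
  have hnum : |(y - y') - y * y' * (κ * m - κ * m')| ≤ 2 * (κ * |m - m'|) := by
    have h3 : |y * y' * (κ * m - κ * m')| ≤ κ * |m - m'| := by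
      rw [abs_mul, abs_mul, hD]
      have h4 : |y| * |y'| ≤ 1 := mul_le_one₀ hy (abs_nonneg _) hy'
      exact mul_le_of_le_one_left (by positivity) h4
    have h5 := abs_sub (y - y') (y * y' * (κ * m - κ * m'))
    rw [hD] at hd
    linarith
  have hden : 1 / 4 ≤ (1 + κ * m * y) * (1 + κ * m' * y') := by
    have := mul_le_mul (show 1 / 2 ≤ 1 + κ * m * y by linarith)
      (show 1 / 2 ≤ 1 + κ * m' * y' by linarith) (by norm_num) hp.le
    linarith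
  rw [e, abs_div, abs_of_pos (mul_pos hp hp'), div_le_iff₀ (mul_pos hp hp'), abs_mul,
    abs_of_nonneg hκ0]
  have hX : 0 ≤ κ * |m - m'| := by positivity
  calc κ * |(y - y') - y * y' * (κ * m - κ * m')| ≤ 1 / 2 * (2 * (κ * |m - m'|)) :=
        mul_le_mul hκ hnum (abs_nonneg _) (by norm_num)
    _ = 4 * (κ * |m - m'|) * (1 / 4) := by ring
    _ ≤ 4 * (κ * |m - m'|) * ((1 + κ * m * y) * (1 + κ * m' * y')) :=
        mul_le_mul_of_nonneg_left hden (by positivity)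
    _ = _ := by ring

theorem integral_phi {κ m : ℝ} (hκ0 : 0 ≤ κ) (hκ : κ ≤ 1 / 2) (hm : |m| ≤ 1) :
    ∫ ξ : unitInterval, phi κ m ξ = 0 := by
  have ha : |κ * m| ≤ 1 / 2 := abs_mul_le_half (by rwa [abs_of_nonneg hκ0]) hm
  have e1 : ∫ ξ : unitInterval, phi κ m ξ
      = ∫ y in Icc (-1 : ℝ) 1, κ * y / (1 + κ * m * y) * ((1 + κ * m * y) / 2) :=
    integral_Psi_comp' ha (fun y => κ * y / (1 + κ * m * y))
  have h := integral_poly 0 (κ / 2) 0 0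
  rw [e1, show (0 : ℝ) = 2 * 0 + 2 * 0 / 3 by ring, ← h]
  refine setIntegral_congr_fun measurableSet_Icc (fun y hy => ?_)
  obtain ⟨h1, _⟩ := abs_le.1 (abs_mul_le_half ha (abs_le.2 hy))
  have hp : 1 + κ * m * y ≠ 0 := by linarith
  rw [div_mul_div_comm, mul_comm (κ * y), mul_div_mul_left _ _ hp]
  ring

theorem phi_Fc {κ m y : ℝ} (hκ0 : 0 ≤ κ) (hκ : κ ≤ 1 / 2) (hm : |m| ≤ 1) (hy : |y| ≤ 1) :
    phi κ m (projIcc 0 1 zero_le_one (Fc (κ * m) y) : unitInterval)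
      = κ * y / (1 + m * (κ * y)) := by
  have ha : |κ * m| ≤ 1 / 2 := abs_mul_le_half (by rwa [abs_of_nonneg hκ0]) hm
  rw [projIcc_of_mem _ (Fc_mem ha hy)]
  unfold phi
  simp only
  rw [Psi_Fc ha hy]
  congr 1
  ring

end Crest.Agent.R160
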