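import Crest.Agent.R160.Tree
import Crest.Agent.R160.Channel

/-! Deterministic facts about the belief-propagation functionals on observation vectors. -/

set_option autoImplicit false

namespace Crest.Agent.R160

open MeasureTheory ProbabilityTheory Set Filter Topology
open scoped ENNReal

universe u

variable {V : Type u}

/-! ### bounded observation vectors -/

theorem Bdd.mono {R R' : ℤ} {Y : Dat V} (h : Bdd R Y) (hR : R ≤ R') : Bdd R' Y := by
  exact ⟨h.abs_le, fun i hi => h.zero i (lt_of_le_of_lt hR hi)⟩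

theorem Bdd.neg {R : ℤ} {Y : Dat V} (h : Bdd R Y) : Bdd R (-Y) := by
  refine ⟨fun i => ?_, fun i hi => ?_⟩
  · simpa using h.abs_le i
  · simp [h.zero i hi]

theorem bdd_indicator {R : ℤ} {O : Set (Slot V)} (hO : ∀ i ∈ O, i.2 ≤ R) {Y : Dat V}
    (hY : ∀ i, |Y i| ≤ 1) : Bdd R (O.indicator Y) := by
  refine ⟨fun i => ?_, fun i hi => ?_⟩
  · by_cases h : i ∈ O
    · rw [indicator_of_mem h]; exact hY i
    · rw [indicator_of_notMem h]; simp
  · exact indicator_of_notMem (fun h => absurd (hO i h) (not_le.2 hi)) _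

theorem measurable_indicator_dat (O : Set (Slot V)) :
    Measurable (fun Y : Dat V => O.indicator Y) := by
  refine measurable_pi_lambda _ (fun i => ?_)
  by_cases h : i ∈ O
  · simp only [indicator_of_mem h]; exact measurable_pi_apply i
  · simp only [indicator_of_notMem h]; exact measurable_const

/-! ### the external field -/

theorem measurable_hn (n : ℕ) (v : V) : Measurable (hn n v : Dat V → ℝ) := by
  unfold hn
  exact Finset.measurable_sum _ (fun r _ =>
    measurable_artanh.comp ((measurable_pi_apply (v, r)).const_mul _))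

theorem measurable_hf (v : V) : Measurable (hf v : Dat V → ℝ) := by
  unfold hf
  exact Measurable.tsum (fun r =>
    measurable_artanh.comp ((measurable_pi_apply (v, r)).const_mul _))

theorem hn_neg (n : ℕ) (v : V) (Y : Dat V) : hn n v (-Y) = -hn n v Y := by
  simp only [hn, Pi.neg_apply, mul_neg, artanh_neg', Finset.sum_neg_distrib]

theorem hf_neg (v : V) (Y : Dat V) : hf v (-Y) = -hf v Y := by
  simp only [hf, Pi.neg_apply, mul_neg, artanh_neg', tsum_neg]

theorem hn_congr (n : ℕ) (v : V) {Y Y' : Dat V}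
    (h : ∀ r : ℤ, r.natAbs ≤ n → Y (v, r) = Y' (v, r)) : hn n v Y = hn n v Y' := by
  unfold hn
  refine Finset.sum_congr rfl (fun r hr => ?_)
  rw [Finset.mem_Icc] at hr
  rw [h r (by omega)]

theorem hf_congr (v : V) {Y Y' : Dat V} (h : ∀ r : ℤ, Y (v, r) = Y' (v, r)) :
    hf v Y = hf v Y' := by
  unfold hf
  simp only [h]

private theorem abs_kap_mul_le {y : ℝ} (hy : |y| ≤ 1) (r : ℤ) : |kap r * y| ≤ kap r := by
  rw [abs_mul, abs_of_pos (kap_pos r)]
  exact mul_le_of_le_one_right (kap_pos r).le hy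

private theorem norm_term_le {R : ℤ} {Y : Dat V} (h : Bdd R Y) (v : V) (s : ℤ) :
    ‖Real.artanh (kap s * Y (v, s))‖ ≤ 2 * (if s ≤ R then kap s else 0) := by
  split_ifs with hs
  · have h1 := abs_kap_mul_le (h.abs_le (v, s)) s
    have h2 := abs_artanh_le (h1.trans (kap_le_half s))
    rw [Real.norm_eq_abs]
    linarith
  · rw [h.zero (v, s) (not_le.1 hs)]
    simp

theorem summable_hf {R : ℤ} {Y : Dat V} (h : Bdd R Y) (v : V) :
    Summable (fun r : ℤ => Real.artanh (kap r * Y (v, r))) := by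
  exact Summable.of_norm_bounded ((summable_kap R).mul_left 2) (norm_term_le h v)

theorem abs_hf_le {R : ℕ} {r : ℤ} (hr : r ≤ R) {Y : Dat V} (h : Bdd r Y) (v : V) :
    |hf v Y| ≤ 2 ^ (R + 2) * kap r := by
  have h1 := tsum_of_norm_bounded ((summable_kap r).hasSum.mul_left 2) (norm_term_le h v)
  have h2 := tsum_kap_le hr
  rw [Real.norm_eq_abs] at h1
  unfold hf
  calc _ ≤ _ := h1
    _ ≤ 2 * (2 ^ (R + 1) * kap r) := by linarith
    _ = _ := by ring

theorem tendsto_hn {R : ℤ} {Y : Dat V} (h : Bdd R Y) (v : V) :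
    Tendsto (fun n => hn n v Y) atTop (𝓝 (hf v Y)) := by
  exact (summable_hf h v).hasSum.comp Finset.tendsto_Icc_neg

/-- revealing one more observation at `w` -/
theorem hf_insert {R : ℤ} {O : Set (Slot V)} {Y : Dat V} (hY : ∀ i, |Y i| ≤ 1)
    (hO : ∀ i ∈ O, i.2 ≤ R) {w : V} {r : ℤ} (hi : (w, r) ∉ O) :
    hf w ((insert (w, r) O).indicator Y) = hf w (O.indicator Y) + Real.artanh (kap r * Y (w, r)) := by
  have hb : Bdd R (O.indicator Y) := bdd_indicator hO hY
  have hs := summable_hf hb w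
  have h1 : ∀ s : ℤ, Real.artanh (kap s * (insert (w, r) O).indicator Y (w, s))
      = Real.artanh (kap s * O.indicator Y (w, s))
        + (if s = r then Real.artanh (kap r * Y (w, r)) else 0) := by
    intro s
    split_ifs with hsr
    · subst hsr
      rw [indicator_of_mem (mem_insert _ _), indicator_of_notMem hi]
      simp
    · rw [add_zero]
      congr 2
      by_cases hm : (w, s) ∈ O
      · rw [indicator_of_mem (mem_insert_of_mem _ hm), indicator_of_mem hm]
      · rw [indicator_of_notMem hm, indicator_of_notMem]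
        rintro (h | h)
        · exact hsr (congrArg Prod.snd h)
        · exact hm h
  unfold hf
  simp only [h1]
  rw [Summable.tsum_add hs (hasSum_ite_eq r _).summable, (hasSum_ite_eq r _).tsum_eq]

namespace Ctx

variable (T : Ctx V)

/-- finite-depth approximation of `af` -/
noncomputable def an (n : ℕ) (v : V) (C : Finset V) (Y : Dat V) : ℝ :=
  hn n v Y + ∑ c ∈ C, gf T.θ (T.fn n c v Y)

/-- the slots seen by `an n v C` -/
def SC (n : ℕ) (v : V) (C : Finset V) : Set (Slot V) :=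
  {i | (i.1 = v ∧ i.2.natAbs ≤ n) ∨ ∃ c ∈ C, i ∈ T.Sn n c v}

/-- all finite-depth cavity magnetisations converge -/
def Conv (Y : Dat V) : Prop :=
  ∀ v u, T.G.Adj v u → ∃ l, Tendsto (fun n => Real.tanh (T.fn n v u Y)) atTop (𝓝 l)

open Classical in
theorem fn_succ (n : ℕ) (v u : V) (Y : Dat V) :
    T.fn (n + 1) v u Y = T.an n v ((T.nb v).erase u) Y := rfl

theorem Sn_zero (v u : V) : T.Sn 0 v u = ∅ := by
  ext i
  simp [Sn]

open Classical in
theorem Sn_succ (n : ℕ) {v u : V} (h : T.G.Adj v u) :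
    T.Sn (n + 1) v u = T.SC n v ((T.nb v).erase u) := by
  ext i
  simp only [Sn, SC, mem_ofPred_eq, Finset.mem_erase, T.mem_nb]
  constructor
  · rintro ⟨h1, h2⟩
    rcases (T.mem_half_iff h).1 h1 with h3 | ⟨c, hc, hcu, h3⟩
    · left
      exact ⟨h3, by omega⟩
    · right
      refine ⟨c, ⟨hcu, hc⟩, h3, ?_⟩
      have := T.dist_of_mem_half hc.symm h3
      omega
  · rintro (⟨h1, h2⟩ | ⟨c, ⟨hcu, hc⟩, h3, h4⟩)
    · rw [h1, SimpleGraph.dist_self]
      exact ⟨T.self_mem_half h, by omega⟩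
    · refine ⟨T.half_subset h hc hcu h3, ?_⟩
      have := T.dist_of_mem_half hc.symm h3
      omega

theorem Sn_subset (n : ℕ) (v u : V) : T.Sn n v u ⊆ {i | i.1 ∈ T.half v u} := by
  intro i hi
  exact hi.1

theorem SC_mono (v : V) (C : Finset V) : Monotone (fun n => T.SC n v C) := by
  intro n m hnm i hi
  rcases hi with ⟨h1, h2⟩ | ⟨c, hc, h1, h2⟩
  · exact Or.inl ⟨h1, h2.trans hnm⟩
  · exact Or.inr ⟨c, hc, h1, lt_of_lt_of_le h2 hnm⟩

theorem iUnion_SC (v : V) (C : Finset V) : ⋃ n, T.SC n v C = {i | i.1 ∈ T.Reg v C} := by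
  ext i
  simp only [mem_iUnion, SC, Sn, Reg, mem_ofPred_eq]
  constructor
  · rintro ⟨n, ⟨h1, _⟩ | ⟨c, hc, h1, _⟩⟩
    · exact Or.inl h1
    · exact Or.inr ⟨c, hc, h1⟩
  · rintro (h1 | ⟨c, hc, h1⟩)
    · exact ⟨_, Or.inl ⟨h1, le_rfl⟩⟩
    · exact ⟨_, Or.inr ⟨c, hc, h1, Nat.lt_succ_self _⟩⟩

/-! ### measurability -/

theorem measurable_fn (n : ℕ) (v u : V) : Measurable (T.fn n v u) := by
  induction n generalizing v u with
  | zero => exact measurable_const
  | succ n ih =>
    exact (measurable_hn n v).add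
      (Finset.measurable_sum _ (fun c _ => measurable_gf.comp (ih c v)))

theorem measurable_an (n : ℕ) (v : V) (C : Finset V) : Measurable (T.an n v C) := by
  exact (measurable_hn n v).add
    (Finset.measurable_sum _ (fun c _ => measurable_gf.comp (T.measurable_fn n c v)))

theorem measurable_alpha (v u : V) : Measurable (T.alpha v u) := by
  have h : ∀ n, Measurable (fun Y => Real.tanh (T.fn n v u Y)) := fun n =>
    continuous_tanh'.measurable.comp (T.measurable_fn n v u)
  exact ((Measurable.limsup h).add (Measurable.liminf h)).div_const 2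

theorem measurable_msg (v u : V) : Measurable (T.msg v u) := by
  exact measurable_artanh.comp ((T.measurable_alpha v u).const_mul _)

theorem measurable_af (v : V) (C : Finset V) : Measurable (T.af v C) := by
  exact (measurable_hf v).add (Finset.measurable_sum _ (fun c _ => T.measurable_msg c v))

theorem measurable_Hf (v : V) : Measurable (T.Hf v) := by
  exact T.measurable_af v _

theorem measurable_mf (v : V) : Measurable (T.mf v) := by
  exact continuous_tanh'.measurable.comp (T.measurable_Hf v)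

theorem measurable_acav (v u : V) : Measurable (T.acav v u) := by
  exact T.measurable_af v _

theorem measurable_xiE (v u : V) : Measurable (T.xiE v u) := by
  have h1 : Measurable (fun Y : Dat V => (T.Hf v Y, T.Hf u Y)) :=
    (T.measurable_Hf v).prodMk (T.measurable_Hf u)
  have h2 := (continuous_Xi T.θ_nonneg T.θ_lt_one).measurable.comp h1
  simp only [Function.comp_def] at h2
  unfold xiE
  exact h2

theorem measurable_Spath (p : ℕ → V) (k : ℕ) : Measurable (T.Spath p k) := by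
  exact Finset.measurable_sum _ (fun j _ => T.measurable_xiE _ _)

theorem measurable_Jf (p : ℕ → V) (k : ℕ) : Measurable (T.Jf p k) := by
  exact (Real.measurable_exp.comp
    (((continuous_lcosh.measurable.comp (T.measurable_Hf _)).add
      (continuous_lcosh.measurable.comp (T.measurable_Hf _))).add
      (T.measurable_Spath p k)).neg).const_mul _

theorem measurable_Jo (w : V) : Measurable (T.Jo w) := by
  exact T.measurable_Jf _ _

theorem measurableSet_good : MeasurableSet {Y : Dat V | T.Good Y} := by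
  have := T.countable_V
  have h : {Y : Dat V | T.Good Y}
      = ⋂ v, ⋂ u, ⋂ (_ : T.G.Adj v u), {Y | T.alpha v u Y = Real.tanh (T.acav v u Y)} := by
    ext Y
    simp [Good]
  rw [h]
  refine MeasurableSet.iInter fun v => MeasurableSet.iInter fun u =>
    MeasurableSet.iInter fun _ => ?_
  exact measurableSet_eq_fun (T.measurable_alpha v u)
    (continuous_tanh'.measurable.comp (T.measurable_acav v u))

/-! ### parity -/

theorem fn_neg (n : ℕ) (v u : V) (Y : Dat V) : T.fn n v u (-Y) = -T.fn n v u Y := by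
  induction n generalizing v u with
  | zero => simp [fn]
  | succ n ih =>
    simp only [fn, hn_neg, ih, gf_neg, Finset.sum_neg_distrib, neg_add]

theorem an_neg (n : ℕ) (v : V) (C : Finset V) (Y : Dat V) : T.an n v C (-Y) = -T.an n v C Y := by
  simp only [an, hn_neg, T.fn_neg, gf_neg, Finset.sum_neg_distrib, neg_add]

private theorem limsup_neg_real (f : ℕ → ℝ) :
    limsup (fun n => -f n) atTop = -liminf f atTop := by
  rw [limsup_eq, liminf_eq, ← Real.sInf_neg]
  congr 1
  ext a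
  simp only [mem_ofPred_eq, Set.mem_neg, neg_le]

private theorem liminf_neg_real (f : ℕ → ℝ) :
    liminf (fun n => -f n) atTop = -limsup f atTop := by
  rw [limsup_eq, liminf_eq, ← Real.sSup_neg]
  congr 1
  ext a
  simp only [mem_ofPred_eq, Set.mem_neg, le_neg]

theorem alpha_neg (v u : V) (Y : Dat V) : T.alpha v u (-Y) = -T.alpha v u Y := by
  unfold alpha
  simp only [T.fn_neg, Real.tanh_neg]
  rw [limsup_neg_real, liminf_neg_real]
  ring

theorem msg_neg (v u : V) (Y : Dat V) : T.msg v u (-Y) = -T.msg v u Y := by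
  simp only [msg, T.alpha_neg, mul_neg, artanh_neg']

theorem af_neg (v : V) (C : Finset V) (Y : Dat V) : T.af v C (-Y) = -T.af v C Y := by
  simp only [af, hf_neg, T.msg_neg, Finset.sum_neg_distrib, neg_add]

theorem Hf_neg (v : V) (Y : Dat V) : T.Hf v (-Y) = -T.Hf v Y := by
  exact T.af_neg _ _ _

theorem mf_neg (v : V) (Y : Dat V) : T.mf v (-Y) = -T.mf v Y := by
  simp only [mf, T.Hf_neg, Real.tanh_neg]

theorem acav_neg (v u : V) (Y : Dat V) : T.acav v u (-Y) = -T.acav v u Y := by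
  exact T.af_neg _ _ _

theorem xiE_neg (v u : V) (Y : Dat V) : T.xiE v u (-Y) = T.xiE v u Y := by
  simp only [xiE, T.Hf_neg, Xi_neg T.θ_nonneg T.θ_lt_one]

theorem Spath_neg (p : ℕ → V) (k : ℕ) (Y : Dat V) : T.Spath p k (-Y) = T.Spath p k Y := by
  simp only [Spath, T.xiE_neg]

theorem Jf_neg (p : ℕ → V) (k : ℕ) (Y : Dat V) : T.Jf p k (-Y) = T.Jf p k Y := by
  simp only [Jf, T.Hf_neg, lcosh_neg, T.Spath_neg]

theorem good_neg (Y : Dat V) : T.Good (-Y) ↔ T.Good Y := by
  simp only [Good, T.alpha_neg, T.acav_neg, Real.tanh_neg, neg_inj]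

/-- odd functionals commute with signs -/
theorem _root_.Crest.Agent.R160.odd_smul {F : Dat V → ℝ} (hF : ∀ Y, F (-Y) = -F Y) {s : ℝ}
    (hs : s = 1 ∨ s = -1) (Y : Dat V) : F (s • Y) = s * F Y := by
  rcases hs with rfl | rfl
  · simp
  · simp [hF]

/-- even functionals ignore signs -/
theorem _root_.Crest.Agent.R160.even_smul {α : Type*} {F : Dat V → α} (hF : ∀ Y, F (-Y) = F Y)
    {s : ℝ} (hs : s = 1 ∨ s = -1) (Y : Dat V) : F (s • Y) = F Y := by
  rcases hs with rfl | rfl
  · simp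
  · simp [hF]

theorem good_smul {s : ℝ} (hs : s = 1 ∨ s = -1) (Y : Dat V) : T.Good (s • Y) ↔ T.Good Y := by
  rcases hs with rfl | rfl
  · simp
  · simp [T.good_neg]

/-! ### locality -/

theorem fn_congr (n : ℕ) {v u : V} (h : T.G.Adj v u) {Y Y' : Dat V}
    (hY : ∀ i ∈ T.Sn n v u, Y i = Y' i) : T.fn n v u Y = T.fn n v u Y' := by
  classical
  induction n generalizing v u with
  | zero => rfl
  | succ n ih =>
    rw [T.Sn_succ n h] at hY
    simp only [fn]
    congr 1
    · exact hn_congr n v (fun r hr => hY (v, r) (Or.inl ⟨rfl, hr⟩))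
    · refine Finset.sum_congr rfl (fun c hc => ?_)
      have hc' : T.G.Adj v c := T.mem_nb.1 (Finset.mem_of_mem_erase hc)
      rw [ih hc'.symm (fun i hi => hY i (Or.inr ⟨c, hc, hi⟩))]

theorem an_congr (n : ℕ) (v : V) {C : Finset V} (hC : C ⊆ T.nb v) {Y Y' : Dat V}
    (hY : ∀ i ∈ T.SC n v C, Y i = Y' i) : T.an n v C Y = T.an n v C Y' := by
  unfold an
  congr 1
  · exact hn_congr n v (fun r hr => hY (v, r) (Or.inl ⟨rfl, hr⟩))
  · refine Finset.sum_congr rfl (fun c hc => ?_)
    have hc' : T.G.Adj v c := T.mem_nb.1 (hC hc)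
    rw [T.fn_congr n hc'.symm (fun i hi => hY i (Or.inr ⟨c, hc, hi⟩))]

theorem alpha_congr {v u : V} (h : T.G.Adj v u) {Y Y' : Dat V}
    (hY : ∀ i : Slot V, i.1 ∈ T.half v u → Y i = Y' i) : T.alpha v u Y = T.alpha v u Y' := by
  have h1 : ∀ n, T.fn n v u Y = T.fn n v u Y' := fun n =>
    T.fn_congr n h (fun i hi => hY i hi.1)
  simp only [alpha, h1]

theorem msg_congr {v u : V} (h : T.G.Adj v u) {Y Y' : Dat V}
    (hY : ∀ i : Slot V, i.1 ∈ T.half v u → Y i = Y' i) : T.msg v u Y = T.msg v u Y' := by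
  simp only [msg, T.alpha_congr h hY]

theorem af_congr (v : V) {C : Finset V} (hC : C ⊆ T.nb v) {Y Y' : Dat V}
    (hY : ∀ i : Slot V, i.1 ∈ T.Reg v C → Y i = Y' i) : T.af v C Y = T.af v C Y' := by
  unfold af
  congr 1
  · exact hf_congr v (fun r => hY (v, r) (Or.inl rfl))
  · refine Finset.sum_congr rfl (fun c hc => ?_)
    have hc' : T.G.Adj v c := T.mem_nb.1 (hC hc)
    exact T.msg_congr hc'.symm (fun i hi => hY i (Or.inr ⟨c, hc, hi⟩))

theorem acav_congr {v u : V} (h : T.G.Adj v u) {Y Y' : Dat V}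
    (hY : ∀ i : Slot V, i.1 ∈ T.half v u → Y i = Y' i) : T.acav v u Y = T.acav v u Y' := by
  classical
  unfold acav
  refine T.af_congr v (Finset.erase_subset _ _) (fun i hi => hY i ?_)
  rw [← T.Reg_erase h]
  convert hi

/-! ### equivariance -/

theorem hf_aut (g : T.G ≃g T.G) (v : V) (Y : Dat V) :
    hf v (fun i => Y (T.slotMap g i)) = hf (g v) Y := rfl

theorem fn_aut (g : T.G ≃g T.G) (n : ℕ) (v u : V) (Y : Dat V) :
    T.fn n v u (fun i => Y (T.slotMap g i)) = T.fn n (g v) (g u) Y := by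
  induction n generalizing v u with
  | zero => rfl
  | succ n ih =>
    simp only [fn]
    rw [T.sum_nb_erase_aut g v u (fun c => gf T.θ (T.fn n c (g v) Y))]
    simp only [ih]
    rfl

theorem alpha_aut (g : T.G ≃g T.G) (v u : V) (Y : Dat V) :
    T.alpha v u (fun i => Y (T.slotMap g i)) = T.alpha (g v) (g u) Y := by
  simp only [alpha, T.fn_aut]

theorem msg_aut (g : T.G ≃g T.G) (v u : V) (Y : Dat V) :
    T.msg v u (fun i => Y (T.slotMap g i)) = T.msg (g v) (g u) Y := by
  simp only [msg, T.alpha_aut]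

theorem Hf_aut (g : T.G ≃g T.G) (v : V) (Y : Dat V) :
    T.Hf v (fun i => Y (T.slotMap g i)) = T.Hf (g v) Y := by
  simp only [Hf, af]
  rw [T.sum_nb_aut g v (fun c => T.msg c (g v) Y)]
  simp only [T.msg_aut]
  rfl

theorem mf_aut (g : T.G ≃g T.G) (v : V) (Y : Dat V) :
    T.mf v (fun i => Y (T.slotMap g i)) = T.mf (g v) Y := by
  simp only [mf, T.Hf_aut]

theorem acav_aut (g : T.G ≃g T.G) (v u : V) (Y : Dat V) :
    T.acav v u (fun i => Y (T.slotMap g i)) = T.acav (g v) (g u) Y := by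
  simp only [acav, af]
  rw [T.sum_nb_erase_aut g v u (fun c => T.msg c (g v) Y)]
  simp only [T.msg_aut]
  rfl

theorem xiE_aut (g : T.G ≃g T.G) (v u : V) (Y : Dat V) :
    T.xiE v u (fun i => Y (T.slotMap g i)) = T.xiE (g v) (g u) Y := by
  simp only [xiE, T.Hf_aut]

theorem Spath_aut (g : T.G ≃g T.G) (p : ℕ → V) (k : ℕ) (Y : Dat V) :
    T.Spath p k (fun i => Y (T.slotMap g i)) = T.Spath (fun j => g (p j)) k Y := by
  simp only [Spath, T.xiE_aut]

/-! ### bounds -/

theorem abs_alpha_le (v u : V) (Y : Dat V) : |T.alpha v u Y| ≤ 1 := by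
  have hb1 : IsBoundedUnder (· ≤ ·) atTop (fun n => Real.tanh (T.fn n v u Y)) :=
    isBoundedUnder_of ⟨1, fun n => (Real.tanh_lt_one _).le⟩
  have hb2 : IsBoundedUnder (· ≥ ·) atTop (fun n => Real.tanh (T.fn n v u Y)) :=
    isBoundedUnder_of ⟨-1, fun n => (Real.neg_one_lt_tanh _).le⟩
  have h1 : limsup (fun n => Real.tanh (T.fn n v u Y)) atTop ≤ 1 :=
    limsup_le_of_le hb2.isCoboundedUnder_le
      (Eventually.of_forall fun n => (Real.tanh_lt_one _).le)
  have h2 : -1 ≤ liminf (fun n => Real.tanh (T.fn n v u Y)) atTop :=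
    le_liminf_of_le hb1.isCoboundedUnder_ge
      (Eventually.of_forall fun n => (Real.neg_one_lt_tanh _).le)
  have h3 := liminf_le_limsup hb1 hb2
  unfold alpha
  rw [abs_le]
  constructor <;> linarith

private theorem abs_θ_mul_le {x : ℝ} (hx : |x| ≤ 1) : |T.θ * x| ≤ T.θ := by
  rw [abs_mul, abs_of_nonneg T.θ_nonneg]
  exact mul_le_of_le_one_right T.θ_nonneg hx

theorem abs_msg_le (v u : V) (Y : Dat V) : |T.msg v u Y| ≤ Real.artanh T.θ := by
  exact abs_artanh_le_artanh T.θ_lt_one (T.abs_θ_mul_le (T.abs_alpha_le v u Y))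

theorem tanh_msg (v u : V) (Y : Dat V) : Real.tanh (T.msg v u Y) = T.θ * T.alpha v u Y := by
  exact Real.tanh_artanh
    (abs_lt.1 (lt_of_le_of_lt (T.abs_θ_mul_le (T.abs_alpha_le v u Y)) T.θ_lt_one))

theorem abs_mf_le (v : V) (Y : Dat V) : |T.mf v Y| ≤ 1 := by
  exact (Real.abs_tanh_lt_one _).le

theorem Hmax_nonneg (R : ℕ) : 0 ≤ T.Hmax R := by
  have := Real.artanh_nonneg T.θ_nonneg
  unfold Hmax
  positivity

theorem abs_af_le {R : ℕ} {Y : Dat V} (h : Bdd R Y) (v : V) {C : Finset V} (hC : C ⊆ T.nb v) :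
    |T.af v C Y| ≤ T.Hmax R := by
  have h1 := abs_hf_le (le_refl (R : ℤ)) h v
  have h2 : (2 : ℝ) ^ (R + 2) * kap R ≤ 2 ^ (R + 2) :=
    mul_le_of_le_one_right (by positivity) ((kap_le_half _).trans (by norm_num))
  have h3 : |∑ c ∈ C, T.msg c v Y| ≤ T.d * Real.artanh T.θ := by
    calc |∑ c ∈ C, T.msg c v Y| ≤ ∑ c ∈ C, |T.msg c v Y| := Finset.abs_sum_le_sum_abs _ _
      _ ≤ ∑ _c ∈ C, Real.artanh T.θ := Finset.sum_le_sum (fun c _ => T.abs_msg_le c v Y)
      _ = C.card * Real.artanh T.θ := by rw [Finset.sum_const, nsmul_eq_mul]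
      _ ≤ T.d * Real.artanh T.θ := by
        refine mul_le_mul_of_nonneg_right ?_ (Real.artanh_nonneg T.θ_nonneg)
        rw [← T.card_nb v]
        exact_mod_cast Finset.card_le_card hC
  unfold af Hmax
  exact (abs_add_le _ _).trans (by linarith)

theorem abs_Hf_le {R : ℕ} {Y : Dat V} (h : Bdd R Y) (v : V) : |T.Hf v Y| ≤ T.Hmax R := by
  exact T.abs_af_le h v (Finset.Subset.refl _)

theorem abs_acav_le {R : ℕ} {Y : Dat V} (h : Bdd R Y) (v u : V) :
    |T.acav v u Y| ≤ T.Hmax R := by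
  classical
  unfold acav
  exact T.abs_af_le h v (by convert Finset.erase_subset u (T.nb v))

theorem xiE_comm (v u : V) (Y : Dat V) : T.xiE v u Y = T.xiE u v Y := by
  exact Xi_comm _ _

theorem xiE_nonneg (v u : V) (Y : Dat V) : 0 ≤ T.xiE v u Y := by
  exact Xi_nonneg T.θ_nonneg T.θ_lt_one _ _

theorem xiE_le {R : ℕ} {Y : Dat V} (h : Bdd R Y) (v u : V) :
    T.xiE v u Y ≤ 2 * T.Hmax R / (1 - T.θ) := by
  refine (Xi_le T.θ_nonneg T.θ_lt_one _ _).trans ?_
  have h1 := T.abs_Hf_le h v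
  have h2 := T.abs_Hf_le h u
  have h3 : 0 < 1 - T.θ := sub_pos.2 T.θ_lt_one
  exact div_le_div_of_nonneg_right (by linarith) h3.le

theorem Spath_nonneg (p : ℕ → V) (k : ℕ) (Y : Dat V) : 0 ≤ T.Spath p k Y := by
  exact Finset.sum_nonneg (fun j _ => T.xiE_nonneg _ _ _)

theorem Spath_congr {p q : ℕ → V} {k : ℕ} (h : ∀ i, i ≤ k → p i = q i) (Y : Dat V) :
    T.Spath p k Y = T.Spath q k Y := by
  unfold Spath
  refine Finset.sum_congr rfl (fun j hj => ?_)
  rw [Finset.mem_range] at hj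
  rw [h j hj.le, h (j + 1) hj]

theorem Spath_rev (p : ℕ → V) (k : ℕ) (Y : Dat V) :
    T.Spath (fun j => p (k - j)) k Y = T.Spath p k Y := by
  unfold Spath
  rw [← Finset.sum_range_reflect (fun j => T.xiE (p j) (p (j + 1)) Y) k]
  refine Finset.sum_congr rfl (fun j hj => ?_)
  rw [Finset.mem_range] at hj
  beta_reduce
  rw [T.xiE_comm, show k - (j + 1) = k - 1 - j by omega, show k - 1 - j + 1 = k - j by omega]

theorem Jf_nonneg (p : ℕ → V) (k : ℕ) (Y : Dat V) : 0 ≤ T.Jf p k Y := by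
  exact mul_nonneg (pow_nonneg T.θ_nonneg k) (Real.exp_pos _).le

theorem Jf_le (p : ℕ → V) (k : ℕ) (Y : Dat V) :
    T.Jf p k Y ≤ T.θ ^ k * Real.exp (-T.Spath p k Y) := by
  refine mul_le_mul_of_nonneg_left (Real.exp_le_exp.2 ?_) (pow_nonneg T.θ_nonneg k)
  have h1 := lcosh_nonneg (T.Hf (p 0) Y)
  have h2 := lcosh_nonneg (T.Hf (p k) Y)
  linarith

theorem Jf_le_pow (p : ℕ → V) (k : ℕ) (Y : Dat V) : T.Jf p k Y ≤ T.θ ^ k := by
  refine (T.Jf_le p k Y).trans (mul_le_of_le_one_right (pow_nonneg T.θ_nonneg k) ?_)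
  rw [Real.exp_le_one_iff]
  have := T.Spath_nonneg p k Y
  linarith

theorem abs_Jo_le (w : V) (Y : Dat V) : |T.Jo w Y| ≤ 1 := by
  unfold Jo
  rw [abs_of_nonneg (T.Jf_nonneg _ _ _)]
  exact (T.Jf_le_pow _ _ _).trans (pow_le_one₀ T.θ_nonneg T.θ_lt_one.le)

/-! ### the recursion -/

theorem Hf_eq {v u : V} (h : T.G.Adj v u) (Y : Dat V) :
    T.Hf v Y = T.acav v u Y + T.msg u v Y := by
  classical
  unfold Hf acav af
  rw [add_assoc]
  congr 1
  convert (Finset.sum_erase_add (T.nb v) (fun c => T.msg c v Y) (T.mem_nb.2 h)).symm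

theorem Good.msg_eq {T : Ctx V} {Y : Dat V} (hY : T.Good Y) {v u : V} (h : T.G.Adj v u) :
    T.msg v u Y = gf T.θ (T.acav v u Y) := by
  unfold msg gf
  rw [hY v u h]

theorem Good.Hf_eq {T : Ctx V} {Y : Dat V} (hY : T.Good Y) {v u : V} (h : T.G.Adj v u) :
    T.Hf v Y = T.acav v u Y + gf T.θ (T.acav u v Y) := by
  rw [T.Hf_eq h, hY.msg_eq h.symm]

theorem Good.xiE_eq {T : Ctx V} {Y : Dat V} (hY : T.Good Y) {v u : V} (h : T.G.Adj v u) :
    T.xiE v u Y = (zeta T.θ (T.acav v u Y) + zeta T.θ (T.acav u v Y)) / 2 := by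
  unfold xiE
  rw [hY.Hf_eq h, hY.Hf_eq h.symm, Xi_eq T.θ_nonneg T.θ_lt_one]

/-- the path sum dominates half the sum of the outward terms of any segment -/
theorem Good.Spath_ge {T : Ctx V} {Y : Dat V} (hY : T.Good Y) {p : ℕ → V} {k : ℕ} (hp : T.NB p k)
    {i l : ℕ} (hil : i + l ≤ k) :
    (∑ j ∈ Finset.range l, zeta T.θ (T.acav (p (i + j + 1)) (p (i + j)) Y)) / 2
      ≤ T.Spath p k Y := by
  have h1 : (∑ j ∈ Finset.range l, zeta T.θ (T.acav (p (i + j + 1)) (p (i + j)) Y)) / 2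
      ≤ ∑ j ∈ Finset.range l, T.xiE (p (i + j)) (p (i + j + 1)) Y := by
    rw [Finset.sum_div]
    refine Finset.sum_le_sum (fun j hj => ?_)
    rw [Finset.mem_range] at hj
    rw [hY.xiE_eq (hp.1 (i + j) (by omega))]
    have := zeta_nonneg T.θ_nonneg T.θ_lt_one (T.acav (p (i + j)) (p (i + j + 1)) Y)
    linarith
  refine h1.trans ?_
  have h2 := Finset.sum_Ico_eq_sum_range (fun j => T.xiE (p j) (p (j + 1)) Y) i (i + l)
  rw [Nat.add_sub_cancel_left] at h2
  rw [← h2]
  unfold Spath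
  refine Finset.sum_le_sum_of_subset_of_nonneg (fun j hj => ?_) (fun j _ _ => T.xiE_nonneg _ _ _)
  rw [Finset.mem_Ico] at hj
  rw [Finset.mem_range]
  omega

theorem alpha_eq_of_tendsto {Y : Dat V} {v u : V} {l : ℝ}
    (h : Tendsto (fun n => Real.tanh (T.fn n v u Y)) atTop (𝓝 l)) : T.alpha v u Y = l := by
  unfold alpha
  rw [h.limsup_eq, h.liminf_eq]
  ring

theorem Conv.tendsto_an {T : Ctx V} {R : ℤ} {Y : Dat V} (hY : T.Conv Y) (hb : Bdd R Y) (v : V)
    {C : Finset V} (hC : C ⊆ T.nb v) :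
    Tendsto (fun n => T.an n v C Y) atTop (𝓝 (T.af v C Y)) := by
  refine (tendsto_hn hb v).add (tendsto_finsetSum _ (fun c hc => ?_))
  obtain ⟨l, hl⟩ := hY c v (T.mem_nb.1 (hC hc)).symm
  have h1 := T.alpha_eq_of_tendsto hl
  have h2 : |T.θ * T.alpha c v Y| < 1 :=
    lt_of_le_of_lt (T.abs_θ_mul_le (T.abs_alpha_le c v Y)) T.θ_lt_one
  rw [← h1] at hl
  exact (hasDerivAt_artanh h2).continuousAt.tendsto.comp (hl.const_mul T.θ)

theorem Conv.good {T : Ctx V} {R : ℤ} {Y : Dat V} (hY : T.Conv Y) (hb : Bdd R Y) : T.Good Y := by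
  classical
  intro v u h
  apply T.alpha_eq_of_tendsto
  rw [← tendsto_add_atTop_iff_nat 1]
  have h1 := hY.tendsto_an hb v (C := (T.nb v).erase u) (Finset.erase_subset _ _)
  have h2 := (continuous_tanh'.tendsto _).comp h1
  exact h2

/-! ### continuity -/

theorem tendsto_Hf_of_mf {Ys : ℕ → Dat V} {Y : Dat V} {v : V}
    (h : Tendsto (fun n => T.mf v (Ys n)) atTop (𝓝 (T.mf v Y))) :
    Tendsto (fun n => T.Hf v (Ys n)) atTop (𝓝 (T.Hf v Y)) := by
  have h1 := (hasDerivAt_artanh (x := T.mf v Y)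
    (Real.abs_tanh_lt_one _)).continuousAt.tendsto.comp h
  simpa only [Function.comp_def, mf, Real.artanh_tanh] using h1

theorem tendsto_Jf {Ys : ℕ → Dat V} {Y : Dat V}
    (h : ∀ v, Tendsto (fun n => T.mf v (Ys n)) atTop (𝓝 (T.mf v Y))) (p : ℕ → V) (k : ℕ) :
    Tendsto (fun n => T.Jf p k (Ys n)) atTop (𝓝 (T.Jf p k Y)) := by
  have hH : ∀ v, Tendsto (fun n => T.Hf v (Ys n)) atTop (𝓝 (T.Hf v Y)) := fun v =>
    T.tendsto_Hf_of_mf (h v)
  have hS : Tendsto (fun n => T.Spath p k (Ys n)) atTop (𝓝 (T.Spath p k Y)) := by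
    refine tendsto_finsetSum _ (fun j _ => ?_)
    have h1 := ((continuous_Xi T.θ_nonneg T.θ_lt_one).tendsto
      (T.Hf (p j) Y, T.Hf (p (j + 1)) Y)).comp ((hH (p j)).prodMk_nhds (hH (p (j + 1))))
    simp only [Function.comp_def] at h1
    unfold xiE
    exact h1
  have h1 := (continuous_lcosh.tendsto _).comp (hH (p 0))
  have h2 := (continuous_lcosh.tendsto _).comp (hH (p k))
  exact ((Real.continuous_exp.tendsto _).comp ((h1.add h2).add hS).neg).const_mul _

/-! ### the jump formula -/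

/-- the change of the posterior mean at `p 0` when one more observation at `p k` is revealed -/
theorem jump {R : ℤ} {O : Set (Slot V)} {Y : Dat V} (hY : ∀ i, |Y i| ≤ 1)
    (hO : ∀ i ∈ O, i.2 ≤ R) {p : ℕ → V} {k : ℕ} (hp : T.NB p k) {r : ℤ} (hi : (p k, r) ∉ O)
    (hg : T.Good (O.indicator Y)) (hg' : T.Good ((insert (p k, r) O).indicator Y)) :
    T.mf (p 0) ((insert (p k, r) O).indicator Y) - T.mf (p 0) (O.indicator Y)
      = T.Jf p k (O.indicator Y)
        * (kap r * Y (p k, r) / (1 + T.mf (p k) (O.indicator Y) * (kap r * Y (p k, r)))) := by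
  set Y0 := O.indicator Y with hY0
  set Y1 := (insert (p k, r) O).indicator Y with hY1
  have hagree : ∀ i : Slot V, i.1 ≠ p k → Y1 i = Y0 i := by
    intro i hik
    by_cases hm : i ∈ O
    · rw [hY0, hY1, indicator_of_mem (mem_insert_of_mem _ hm), indicator_of_mem hm]
    · rw [hY0, hY1, indicator_of_notMem hm, indicator_of_notMem]
      rintro (h | h)
      · exact hik (congrArg Prod.fst h)
      · exact hm h
  have hstep : ∀ m, m ≤ k → T.mf (p 0) Y1 - T.mf (p 0) Y0
      = T.θ ^ m * Real.exp (-(lcosh (T.Hf (p 0) Y0) - lcosh (T.Hf (p m) Y0) + T.Spath p m Y0))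
        * (T.mf (p m) Y1 - T.mf (p m) Y0) := by
    intro m
    induction m with
    | zero => intro _; simp [Spath]
    | succ m ih =>
      intro hm
      have hadj : T.G.Adj (p m) (p (m + 1)) := hp.1 m hm
      have hnot : p k ∉ T.half (p m) (p (m + 1)) := fun hc =>
        (T.mem_half_iff_not hadj).1 hc (hp.mem_half (Nat.lt_of_succ_le hm) le_rfl)
      have ha : T.acav (p m) (p (m + 1)) Y1 = T.acav (p m) (p (m + 1)) Y0 :=
        T.acav_congr hadj (fun i hi => hagree i (fun hc => hnot (hc ▸ hi)))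
      have e0 := hg.Hf_eq hadj
      have e0' := hg.Hf_eq hadj.symm
      have e1 := hg'.Hf_eq hadj
      have e1' := hg'.Hf_eq hadj.symm
      rw [ha] at e1 e1'
      have ex := hg.xiE_eq hadj
      set a := T.acav (p m) (p (m + 1)) Y0
      set b := T.acav (p (m + 1)) (p m) Y0
      set b' := T.acav (p (m + 1)) (p m) Y1
      have hj := jump_step T.θ_nonneg T.θ_lt_one b b' a
      have hz := zeta_lcosh_symm T.θ_nonneg T.θ_lt_one a b
      rw [← e0, ← e0', ← e1, ← e1'] at hj
      rw [← e0, ← e0'] at hz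
      have hS : T.Spath p (m + 1) Y0 = T.Spath p m Y0 + (zeta T.θ a + zeta T.θ b) / 2 := by
        unfold Spath
        rw [Finset.sum_range_succ, ex]
      have hE : Real.exp (-(lcosh (T.Hf (p 0) Y0) - lcosh (T.Hf (p (m + 1)) Y0)
            + T.Spath p (m + 1) Y0))
          = Real.exp (-(lcosh (T.Hf (p 0) Y0) - lcosh (T.Hf (p m) Y0) + T.Spath p m Y0))
            * Real.exp (-zeta T.θ a) := by
        rw [← Real.exp_add, hS]
        congr 1
        linarith
      rw [ih (Nat.le_of_succ_le hm), hE]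
      unfold mf
      rw [hj]
      ring
  have hlast : T.Hf (p k) Y1 = T.Hf (p k) Y0 + Real.artanh (kap r * Y (p k, r)) := by
    unfold Hf af
    rw [hY1, hf_insert hY hO hi, ← hY0, ← hY1, add_right_comm]
    congr 2
    refine Finset.sum_congr rfl (fun c hc => ?_)
    have hc' : T.G.Adj c (p k) := (T.mem_nb.1 hc).symm
    exact T.msg_congr hc' (fun i hi' => hagree i (fun h => T.not_mem_half hc' (h ▸ hi')))
  have hx : |kap r * Y (p k, r)| < 1 :=
    lt_of_le_of_lt ((abs_kap_mul_le (hY _) r).trans (kap_le_half r)) (by norm_num)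
  rw [hstep k le_rfl]
  unfold mf Jf
  rw [hlast, tanh_add_artanh _ hx, ← exp_neg_two_lcosh]
  have hE : Real.exp (-(lcosh (T.Hf (p 0) Y0) + lcosh (T.Hf (p k) Y0) + T.Spath p k Y0))
      = Real.exp (-(lcosh (T.Hf (p 0) Y0) - lcosh (T.Hf (p k) Y0) + T.Spath p k Y0))
        * Real.exp (-(lcosh (T.Hf (p k) Y0) + lcosh (T.Hf (p k) Y0))) := by
    rw [← Real.exp_add]
    congr 1
    ring
  rw [hE]
  ring

end Ctx

end Crest.Agent.R160
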