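import Crest.Agent.R160.Clock

/-! Cavity fields in their own gauge: recursion, independence, Nishimori identity. -/

set_option autoImplicit false

namespace Crest.Agent.R160

open MeasureTheory ProbabilityTheory Set Filter Topology
open scoped ENNReal

universe u

variable {V : Type u}

theorem BM.cont₂ {α : Type*} [MeasurableSpace α] {f g : α → ℝ} (hf : BM f) (hg : BM g)
    {G : ℝ × ℝ → ℝ} (hG : Continuous G) : BM (fun x => G (f x, g x)) := by
  obtain ⟨C, hC⟩ := hf.bdd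
  obtain ⟨D, hD⟩ := hg.bdd
  obtain ⟨M, hM⟩ := ((isCompact_Icc (a := -C) (b := C)).prod
    (isCompact_Icc (a := -D) (b := D))).exists_bound_of_continuousOn hG.continuousOn
  exact BM.of_le (hG.measurable.comp (hf.meas.prodMk hg.meas)) M
    fun x => hM _ ⟨abs_le.1 (hC x), abs_le.1 (hD x)⟩

theorem isMask_Ot_ceil (t : ℝ) : IsMask ⌈t⌉ (Ot t : Clk V → Set (Slot V)) :=
  isMask_Ot (by linarith [Int.le_ceil t])

namespace Ctx

variable (T : Ctx V)

theorem abs_eta (x : Om0 V) (s : Sym2 V) : |T.eta x s| = 1 := by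
  rcases T.eta_eq x s with h | h <;> simp [h]

theorem bm_eta (s : Sym2 V) : BM (fun x => T.eta x s) :=
  BM.of_le (T.measurable_eta s) 1 fun x => (T.abs_eta x s).le

/-- the coordinates of the branch at `v` through the neighbour `c` -/
def brSet (v c : V) : Set (Idx V) := insert (Idx.e s(v, c)) (loc (T.half c v))

theorem loc_disjoint_brSet {v c : V} (h : T.G.Adj v c) : Disjoint (loc {v}) (T.brSet v c) := by
  rw [brSet, disjoint_insert_right]
  refine ⟨?_, loc_disjoint (disjoint_singleton_left.2 (T.not_mem_half h.symm))⟩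
  rw [Sym2.eq_swap]
  exact e_not_mem_loc h.ne'

theorem brSet_disjoint {v c c' : V} (h : T.G.Adj v c) (h' : T.G.Adj v c') (hne : c ≠ c') :
    Disjoint (T.brSet v c) (T.brSet v c') := by
  rw [brSet, brSet, disjoint_insert_right, disjoint_insert_left, mem_insert_iff, not_or]
  refine ⟨⟨?_, e_not_mem_loc (T.not_mem_half h.symm)⟩, e_not_mem_loc (T.not_mem_half h'.symm),
    loc_disjoint (T.half_disjoint h h' hne)⟩
  intro h1
  exact hne (Sym2.congr_right.1 (Idx.e.inj h1)).symm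

/-- cavity field at `v` away from `u`, in the gauge of `v` -/
noncomputable def AO (O : Clk V → Set (Slot V)) (v u : V) (x : Om0 V) : ℝ :=
  T.acav v u (T.BO O v x)

/-- external field at `v`, in the gauge of `v` -/
noncomputable def HO (O : Clk V → Set (Slot V)) (v : V) (x : Om0 V) : ℝ := hf v (T.BO O v x)

section masks

variable {R : ℤ} {O : Clk V → Set (Slot V)}

theorem measurable_AO (hO : IsMask R O) (v u : V) : Measurable (T.AO O v u) :=
  (T.measurable_acav v u).comp (T.measurable_BO hO v)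

theorem abs_AO_le {R : ℕ} (hO : IsMask R O) (v u : V) (x : Om0 V) :
    |T.AO O v u x| ≤ T.Hmax R :=
  T.abs_acav_le (T.bdd_BO hO v x) v u

theorem bm_AO (hO : IsMask R O) (v u : V) : BM (T.AO O v u) :=
  BM.of_le (T.measurable_AO hO v u) _
    (T.abs_AO_le (R := R.toNat) (hO.mono (Int.self_le_toNat R)) v u)

theorem abs_HO_le {R : ℕ} {r : ℤ} (hr : r ≤ R) (hO : IsMask r O) (v : V) (x : Om0 V) :
    |T.HO O v x| ≤ 2 ^ (R + 2) * kap r :=
  abs_hf_le hr (T.bdd_BO hO v x) v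

theorem bm_HO (hO : IsMask R O) (v : V) : BM (T.HO O v) :=
  BM.of_le ((measurable_hf v).comp (T.measurable_BO hO v)) _
    (T.abs_HO_le (R := R.toNat) (Int.self_le_toNat R) hO v)

theorem dependsOn_AO (hl : IsLocal O) {v u : V} (h : T.G.Adj v u) :
    DependsOn (T.AO O v u) (loc (T.half v u)) :=
  T.dependsOn_BO hl h (F := T.acav v u) (fun _ _ hY => T.acav_congr h hY)

theorem dependsOn_HO (hl : IsLocal O) (v : V) : DependsOn (T.HO O v) (loc {v}) :=
  T.dependsOn_BO_self hl v (F := hf v) (fun _ _ hY => hf_congr v hY)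

theorem dependsOn_eta_AO (hl : IsLocal O) {v c : V} (h : T.G.Adj v c) {α : Type*}
    (G : ℝ × ℝ → α) :
    DependsOn (fun x => G (T.eta x s(v, c), T.AO O c v x)) (T.brSet v c) := by
  intro x y hxy
  have h1 : T.eta x s(v, c) = T.eta y s(v, c) :=
    T.dependsOn_eta _ fun j hj => hxy j (Or.inl hj)
  have h2 : T.AO O c v x = T.AO O c v y :=
    T.dependsOn_AO hl h.symm fun j hj => hxy j (Or.inr hj)
  simp only [h1, h2]

/-- even functions of the cavity field -/
theorem even_acav_YO (O : Clk V → Set (Slot V)) (v u : V) {α : Type*} {F : ℝ → α}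
    (hF : ∀ a, F (-a) = F a) (ω : Om V) :
    F (T.acav v u (T.YO O ω)) = F (T.AO O v u ω.1) :=
  T.even_YO O v (F := fun Y => F (T.acav v u Y)) (fun Y => by rw [T.acav_neg, hF]) ω

theorem abs_acav_YO (O : Clk V → Set (Slot V)) (v u : V) (ω : Om V) :
    |T.acav v u (T.YO O ω)| = |T.AO O v u ω.1| :=
  T.even_acav_YO O v u (F := fun a => |a|) abs_neg ω

theorem alpha_BO (hO : IsMask R O) : ∀ᵐ x ∂mu0 V, ∀ v c, T.G.Adj v c →
    T.alpha c v (T.BO O v x) = T.eta x s(v, c) * Real.tanh (T.AO O c v x) := by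
  filter_upwards [T.good_ae0 hO] with x hx v c h
  rw [T.BO_adj O h, odd_smul (T.alpha_neg c v) (T.eta_eq x _), hx c c v h.symm]
  rfl

open Classical in
theorem AO_rec (hO : IsMask R O) : ∀ᵐ x ∂mu0 V, ∀ v u,
    T.AO O v u x = T.HO O v x
      + ∑ c ∈ (T.nb v).erase u, T.eta x s(v, c) * gf T.θ (T.AO O c v x) := by
  filter_upwards [T.good_ae0 hO] with x hx v u
  simp only [AO, HO, acav, af]
  congr 1
  refine Finset.sum_congr rfl fun c hc => ?_
  have h : T.G.Adj v c := T.mem_nb.1 (Finset.mem_of_mem_erase hc)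
  rw [T.BO_adj O h, odd_smul (T.msg_neg c v) (T.eta_eq x _), (hx c).msg_eq h.symm]
  rfl

theorem nishimori_AO (hO : IsMask R O) {v u : V} (h : T.G.Adj v u) {F : ℝ → ℝ}
    (hF : Continuous F) (hodd : ∀ a, F (-a) = -F a) :
    ∫ x, F (T.AO O v u x) ∂mu0 V
      = ∫ x, Real.tanh (T.AO O v u x) * F (T.AO O v u x) ∂mu0 V := by
  classical
  obtain ⟨M, hM⟩ := (isCompact_Icc (a := -T.Hmax R.toNat) (b := T.Hmax R.toNat)).exists_bound_of_continuousOn
    hF.continuousOn
  exact T.nishimori hO v (C := (T.nb v).erase u) (Finset.erase_subset _ _)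
    (F := fun Y => F (T.acav v u Y)) (hF.measurable.comp (T.measurable_acav v u))
    ⟨M, fun Y hY => hM _ (abs_le.1 (T.abs_acav_le (hY.mono (Int.self_le_toNat R)) v u))⟩
    (fun Y => by rw [T.acav_neg, hodd])
    (fun Y Y' hY => by rw [T.acav_congr h (by rwa [← T.Reg_erase h])])

theorem integral_eta_AO (hO : IsMask R O) (hl : IsLocal O) {v c : V} (h : T.G.Adj v c)
    {G : ℝ × ℝ → ℝ} (hG : Continuous G) :
    ∫ x, G (T.eta x s(v, c), T.AO O c v x) ∂mu0 V
      = (1 + T.θ) / 2 * (∫ x, G (1, T.AO O c v x) ∂mu0 V)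
        + (1 - T.θ) / 2 * (∫ x, G (-1, T.AO O c v x) ∂mu0 V) :=
  T.integral_eta s(v, c) (T.measurable_AO hO c v) (T.dependsOn_AO hl h.symm)
    (e_not_mem_loc (T.not_mem_half h.symm)) hG.measurable
    ((T.bm_AO hO c v).cont (φ := fun a => G (1, a)) (by fun_prop))
    ((T.bm_AO hO c v).cont (φ := fun a => G (-1, a)) (by fun_prop))

/-- the external data at `v` and the branches at `v` are independent -/
theorem integral_split (hO : IsMask R O) (hl : IsLocal O) (v : V) {C : Finset V}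
    (hC : C ⊆ T.nb v) {G0 : Om0 V → ℝ} (hG0 : BM G0) (hd : DependsOn G0 (loc {v}))
    {G : V → ℝ × ℝ → ℝ} (hG : ∀ c ∈ C, Continuous (G c)) :
    ∫ x, G0 x * ∏ c ∈ C, G c (T.eta x s(v, c), T.AO O c v x) ∂mu0 V
      = (∫ x, G0 x ∂mu0 V) * ∏ c ∈ C, ∫ x, G c (T.eta x s(v, c), T.AO O c v x) ∂mu0 V := by
  have hadj : ∀ c ∈ C, T.G.Adj v c := fun c hc => T.mem_nb.1 (hC hc)
  have hb : ∀ c ∈ C, BM (fun x => G c (T.eta x s(v, c), T.AO O c v x)) := fun c hc =>
    (T.bm_eta _).cont₂ (T.bm_AO hO c v) (hG c hc)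
  have hdep : ∀ c ∈ C, DependsOn (fun x => G c (T.eta x s(v, c), T.AO O c v x)) (T.brSet v c) :=
    fun c hc => T.dependsOn_eta_AO hl (hadj c hc) (G c)
  rw [integral_mul_of_dependsOn hG0 (BM.prod C hb) hd (B := ⋃ c ∈ C, T.brSet v c),
    integral_prod_of_dependsOn C hb hdep
      (fun c hc c' hc' hne => T.brSet_disjoint (hadj c hc) (hadj c' hc') hne)]
  · intro x y hxy
    refine Finset.prod_congr rfl fun c hc => hdep c hc fun j hj => hxy j ?_
    exact mem_biUnion hc hj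
  · simp only [disjoint_iUnion_right]
    exact fun c hc => T.loc_disjoint_brSet (hadj c hc)

theorem integral_alpha_sq (hO : IsMask R O) {v u : V} (h : T.G.Adj v u) :
    ∫ ω, T.alpha v u (T.YO O ω) ^ 2 ∂mu V = ∫ x, Real.tanh (T.AO O v u x) ^ 2 ∂mu0 V := by
  rw [T.integral_even hO v (F := fun Y => T.alpha v u Y ^ 2)
    ((T.measurable_alpha v u).pow_const 2) (fun Y => by rw [T.alpha_neg, neg_sq])]
  refine integral_congr_ae ?_
  filter_upwards [T.good_ae0 hO] with x hx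
  rw [hx v v u h]
  rfl

end masks

theorem AO_Ot_T0 (g : T.G ≃g T.G) (t : ℝ) (v u : V) (x : Om0 V) :
    T.AO (Ot t) v u (T.T0 g x) = T.AO (Ot t) (g v) (g u) x := by
  rw [AO, T.BO_Ot_T0, T.acav_aut]
  rfl

theorem integral_AO_Ot (t : ℝ) {v u v' u' : V} (h : T.G.Adj v u) (h' : T.G.Adj v' u')
    {F : ℝ → ℝ} (hF : Measurable F) :
    ∫ x, F (T.AO (Ot t) v u x) ∂mu0 V = ∫ x, F (T.AO (Ot t) v' u' x) ∂mu0 V := by
  obtain ⟨g, rfl, rfl⟩ := T.exists_aut_edge h h'
  simp only [← T.AO_Ot_T0 g]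
  exact (integral_comp_mp (T.mp_T0 g) (f := fun x => F (T.AO (Ot t) v u x))
    (hF.comp (T.measurable_AO (isMask_Ot_ceil t) v u)).aestronglyMeasurable).symm

theorem xt_eq_sq (t : ℝ) {v u : V} (h : T.G.Adj v u) :
    T.xt t v u = ∫ x, Real.tanh (T.AO (Ot t) v u x) ^ 2 ∂mu0 V :=
  T.integral_alpha_sq (isMask_Ot_ceil t) h

theorem xt_eq_tanh (t : ℝ) {v u : V} (h : T.G.Adj v u) :
    T.xt t v u = ∫ x, Real.tanh (T.AO (Ot t) v u x) ∂mu0 V := by
  rw [T.xt_eq_sq t h, T.nishimori_AO (isMask_Ot_ceil t) h continuous_tanh' Real.tanh_neg]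
  simp only [sq]

theorem xt_nonneg (t : ℝ) (v u : V) : 0 ≤ T.xt t v u :=
  integral_nonneg fun _ => sq_nonneg _

theorem xt_le_one (t : ℝ) (v u : V) : T.xt t v u ≤ 1 := by
  have h : ∫ ω, T.alpha v u (T.Yt t ω) ^ 2 ∂mu V ≤ ∫ _ω, (1 : ℝ) ∂mu V := by
    refine integral_mono_of_nonneg (ae_of_all _ fun _ => sq_nonneg _) (integrable_const _)
      (ae_of_all _ fun ω => ?_)
    exact (sq_le_one_iff_abs_le_one _).2 (T.abs_alpha_le _ _ _)
  simpa [xt] using h

end Ctx

end Crest.Agent.R160
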