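import Crest.Agent.R160.Post

/-! Clock-dependent sets of observations. -/

set_option autoImplicit false

namespace Crest.Agent.R160

open MeasureTheory ProbabilityTheory Set Filter Topology
open scoped ENNReal

universe u

variable {V : Type u}

/-- membership of a slot depends only on the clock of that slot -/
def IsLocal (O : Clk V → Set (Slot V)) : Prop := ∀ c c' i, c i = c' i → i ∈ O c → i ∈ O c'

theorem measurable_tau (i : Slot V) : Measurable (fun c : Clk V => tau c i) := by
  unfold tau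
  exact measurable_const.add (measurable_subtype_coe.comp (measurable_pi_apply i))

theorem measurableSet_active (i : Slot V) : MeasurableSet {c : Clk V | active c i} := by
  exact measurableSet_lt (measurable_subtype_coe.comp (measurable_pi_apply i)) measurable_const

theorem Ot_mono {s t : ℝ} (h : s ≤ t) (c : Clk V) : Ot s c ⊆ Ot t c := by
  exact fun i hi => ⟨hi.1, lt_of_lt_of_le hi.2 h⟩

theorem isLocal_Ot (t : ℝ) : IsLocal (Ot t : Clk V → Set (Slot V)) := by
  intro c c' i h hi
  simp only [Ot, active, tau, mem_ofPred_eq] at hi ⊢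
  rw [← h]
  exact hi

theorem isLocal_const (O : Set (Slot V)) : IsLocal (fun _ : Clk V => O) := by
  exact fun _ _ _ _ hi => hi

/-- observation up to a measurable random time -/
theorem isMask_Ot_fun {r : ℤ} {s : Clk V → ℝ} (hs : Measurable s) (h : ∀ c, s c ≤ r + 1) :
    IsMask r (fun c => Ot (s c) c) := by
  refine ⟨fun i => (measurableSet_active i).inter (measurableSet_lt (measurable_tau i) hs), ?_⟩
  intro c i hi
  have h1 : tau c i < s c := hi.2
  have h2 := h c
  have h3 : (0 : ℝ) ≤ c i := (c i).2.1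
  unfold tau at h1
  have h4 : (i.2 : ℝ) < ((r + 1 : ℤ) : ℝ) := by push_cast; linarith
  exact Int.lt_add_one_iff.1 (by exact_mod_cast h4)

theorem isMask_Ot {t : ℝ} {r : ℤ} (h : t ≤ r + 1) : IsMask r (Ot t : Clk V → Set (Slot V)) := by
  exact isMask_Ot_fun (s := fun _ => t) measurable_const fun _ => h

theorem isMask_Otau (i : Slot V) : IsMask i.2 (fun c => Ot (tau c i) c) := by
  refine isMask_Ot_fun (measurable_tau i) fun c => ?_
  have h3 : (c i : ℝ) ≤ 1 := (c i).2.2
  unfold tau
  linarith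

theorem isMask_const {R : ℤ} {O : Set (Slot V)} (hO : ∀ i ∈ O, i.2 ≤ R) :
    IsMask R (fun _ : Clk V => O) := by
  exact ⟨fun _ => MeasurableSet.const _, fun _ i hi => hO i hi⟩

theorem IsMask.mono {R R' : ℤ} {O : Clk V → Set (Slot V)} (h : IsMask R O) (hR : R ≤ R') :
    IsMask R' O := by
  exact ⟨h.meas, fun c i hi => (h.le c i hi).trans hR⟩

theorem IsMask.union {R : ℤ} {O O' : Clk V → Set (Slot V)} (h : IsMask R O) (h' : IsMask R O') :
    IsMask R (fun c => O c ∪ O' c) := by
  exact ⟨fun i => (h.meas i).union (h'.meas i), fun c i hi => hi.elim (h.le c i) (h'.le c i)⟩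

theorem IsMask.inter_const {R : ℤ} {O : Clk V → Set (Slot V)} (h : IsMask R O)
    (A : Set (Slot V)) : IsMask R (fun c => O c ∩ A) := by
  exact ⟨fun i => (h.meas i).inter (MeasurableSet.const (i ∈ A)), fun c i hi => h.le c i hi.1⟩

theorem IsMask.insert {R : ℤ} {O : Clk V → Set (Slot V)} (h : IsMask R O) {i : Slot V}
    (hi : i.2 ≤ R) : IsMask R (fun c => insert i (O c)) := by
  refine ⟨fun j => (MeasurableSet.const (j = i)).union (h.meas j), fun c j hj => ?_⟩
  rcases hj with rfl | hj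
  · exact hi
  · exact h.le c j hj

theorem IsMask.iUnion {R : ℤ} {O : ℕ → Clk V → Set (Slot V)} (h : ∀ n, IsMask R (O n)) :
    IsMask R (fun c => ⋃ n, O n c) := by
  refine ⟨fun i => ?_, fun c i hi => ?_⟩
  · have : {c | i ∈ ⋃ n, O n c} = ⋃ n, {c | i ∈ O n c} := by
      ext c
      simp
    rw [this]
    exact MeasurableSet.iUnion fun n => (h n).meas i
  · obtain ⟨n, hn⟩ := mem_iUnion.1 hi
    exact (h n).le c i hn

theorem IsMask.measurable_ind {R : ℤ} {O : Clk V → Set (Slot V)} (h : IsMask R O) :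
    Measurable (fun p : Clk V × Dat V => (O p.1).indicator p.2) := by
  classical
  refine measurable_pi_lambda _ fun i => ?_
  simp only [indicator_apply]
  exact Measurable.ite (measurable_fst (h.meas i))
    ((measurable_pi_apply i).comp measurable_snd) measurable_const

namespace Ctx

variable (T : Ctx V)

section masks

variable {R : ℤ} {O : Clk V → Set (Slot V)}

theorem measurable_YO (hO : IsMask R O) : Measurable (T.YO O) := by
  exact hO.measurable_ind.comp ((measurable_clock.comp measurable_fst).prodMk T.measurable_Yf)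

theorem measurable_BO (hO : IsMask R O) (v : V) : Measurable (T.BO O v) := by
  exact hO.measurable_ind.comp (measurable_clock.prodMk (T.measurable_Bf v))

theorem bdd_YO (hO : IsMask R O) (ω : Om V) : Bdd R (T.YO O ω) := by
  exact bdd_indicator (hO.le _) (T.abs_Yf_le ω)

theorem bdd_BO (hO : IsMask R O) (v : V) (x : Om0 V) : Bdd R (T.BO O v x) := by
  exact bdd_indicator (hO.le _) (T.abs_Bf_le v x)

theorem YO_eq_smul (O : Clk V → Set (Slot V)) (v : V) (ω : Om V) :
    T.YO O ω = T.spin ω v • T.BO O v ω.1 := by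
  funext i
  unfold YO BO
  rw [T.Yf_eq_smul v ω]
  by_cases h : i ∈ O (clock ω.1) <;> simp [h]

theorem BO_adj (O : Clk V → Set (Slot V)) {v c : V} (h : T.G.Adj v c) (x : Om0 V) :
    T.BO O v x = T.eta x s(v, c) • T.BO O c x := by
  funext i
  unfold BO
  rw [T.Bf_adj h x]
  by_cases h : i ∈ O (clock x) <;> simp [h]

open Classical in
theorem BO_self (O : Clk V → Set (Slot V)) (v : V) (r : ℤ) (x : Om0 V) :
    T.BO O v x (v, r) = if (v, r) ∈ O (clock x) then Zv x (v, r) else 0 := by
  unfold BO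
  by_cases h : (v, r) ∈ O (clock x) <;> simp [h, T.Bf_self]

theorem YO_glueC (O : Clk V → Set (Slot V)) (x : Om0 V) (ω : Om V) :
    T.YO O (glueC x ω) = (O (clock x)).indicator (T.Yf ω) := by
  unfold YO
  rw [clock_glueC, T.Yf_glueC]

theorem BO_glueU (O : Clk V → Set (Slot V)) (v : V) (x y : Om0 V) :
    T.BO O v (glue (Uset V) x y) = (O (clock x)).indicator (T.Bf v y) := by
  unfold BO
  rw [clock_glueU, T.Bf_glueU]

theorem YO_flip (O : Clk V → Set (Slot V)) (ω : Om V) : T.YO O (flip ω) = -T.YO O ω := by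
  funext i
  unfold YO
  rw [T.Yf_flip]
  have : (flip ω).1 = ω.1 := rfl
  rw [this]
  by_cases h : i ∈ O (clock ω.1) <;> simp [h]

theorem dependsOn_BO (hO : IsLocal O) {v u : V} (h : T.G.Adj v u) {α : Type*} {F : Dat V → α}
    (hF : ∀ Y Y' : Dat V, (∀ i : Slot V, i.1 ∈ T.half v u → Y i = Y' i) → F Y = F Y') :
    DependsOn (fun x => F (T.BO O v x)) (loc (T.half v u)) := by
  intro a b hab
  refine hF _ _ fun i hi => ?_
  have h1 : clock a i = clock b i := hab (Idx.u i.1 i.2) hi
  have h2 : T.Bf v a i = T.Bf v b i := T.dependsOn_Bf h hi hab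
  unfold BO
  by_cases h3 : i ∈ O (clock a)
  · rw [indicator_of_mem h3, indicator_of_mem (hO _ _ _ h1 h3), h2]
  · rw [indicator_of_notMem h3, indicator_of_notMem (fun h4 => h3 (hO _ _ _ h1.symm h4))]

theorem dependsOn_BO_self (hO : IsLocal O) (v : V) {α : Type*} {F : Dat V → α}
    (hF : ∀ Y Y' : Dat V, (∀ r : ℤ, Y (v, r) = Y' (v, r)) → F Y = F Y') :
    DependsOn (fun x => F (T.BO O v x)) (loc {v}) := by
  intro a b hab
  refine hF _ _ fun r => ?_
  have h1 : clock a (v, r) = clock b (v, r) := hab (Idx.u v r) (mem_singleton v)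
  have h2 : a (Idx.w v r) = b (Idx.w v r) := hab (Idx.w v r) (mem_singleton v)
  have h2' : T.Bf v a (v, r) = T.Bf v b (v, r) := by
    rw [T.Bf_self, T.Bf_self]
    simp only [Zv, h2]
  unfold BO
  by_cases h3 : (v, r) ∈ O (clock a)
  · rw [indicator_of_mem h3, indicator_of_mem (hO _ _ _ h1 h3), h2']
  · rw [indicator_of_notMem h3, indicator_of_notMem (fun h4 => h3 (hO _ _ _ h1.symm h4))]

/-- even functionals may be computed in any gauge -/
theorem even_YO (O : Clk V → Set (Slot V)) (v : V) {α : Type*} {F : Dat V → α}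
    (hF : ∀ Y, F (-Y) = F Y) (ω : Om V) : F (T.YO O ω) = F (T.BO O v ω.1) := by
  rw [T.YO_eq_smul O v ω]
  exact even_smul hF (T.spin_eq ω v) _

theorem integral_even (hO : IsMask R O) (v : V) {F : Dat V → ℝ} (hF : Measurable F)
    (heven : ∀ Y, F (-Y) = F Y) :
    ∫ ω, F (T.YO O ω) ∂mu V = ∫ x, F (T.BO O v x) ∂mu0 V := by
  simp only [T.even_YO O v heven]
  exact integral_comp_mp (f := fun x => F (T.BO O v x)) mp_fst
    (hF.comp (T.measurable_BO hO v)).aestronglyMeasurable

theorem good_ae (hO : IsMask R O) : ∀ᵐ ω ∂mu V, T.Good (T.YO O ω) := by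
  refine ae_glueC (T.measurable_YO hO T.measurableSet_good) (Eventually.of_forall fun x => ?_)
  simp only [T.YO_glueC]
  exact T.good_ae_det (hO.le _)

theorem good_ae0 (hO : IsMask R O) : ∀ᵐ x ∂mu0 V, ∀ v, T.Good (T.BO O v x) := by
  filter_upwards [ae_mu0_of_ae_mu (T.good_ae hO)] with x hx v
  have h1 := hx.1
  rw [T.YO_eq_smul O v, T.good_smul (T.spin_eq _ v)] at h1
  exact h1

/-- the Nishimori identity in the gauge of `v` -/
theorem nishimori (hO : IsMask R O) (v : V) {C : Finset V} (hC : C ⊆ T.nb v) {F : Dat V → ℝ}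
    (hF : Measurable F) (hb : ∃ M, ∀ Y, Bdd R Y → |F Y| ≤ M) (hodd : ∀ Y, F (-Y) = -F Y)
    (hloc : ∀ Y Y' : Dat V, (∀ i : Slot V, i.1 ∈ T.Reg v C → Y i = Y' i) → F Y = F Y') :
    ∫ x, F (T.BO O v x) ∂mu0 V
      = ∫ x, Real.tanh (T.af v C (T.BO O v x)) * F (T.BO O v x) ∂mu0 V := by
  obtain ⟨M, hM⟩ := hb
  have hFY : BM (fun ω => F (T.YO O ω)) :=
    BM.of_le (hF.comp (T.measurable_YO hO)) M fun ω => hM _ (T.bdd_YO hO ω)
  have hth : Measurable fun Y => Real.tanh (T.af v C Y) :=
    continuous_tanh'.measurable.comp (T.measurable_af v C)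
  have htY : BM (fun ω => Real.tanh (T.af v C (T.YO O ω))) :=
    BM.of_le (hth.comp (T.measurable_YO hO)) 1 fun ω => (Real.abs_tanh_lt_one _).le
  have key : ∫ ω, T.spin ω v * F (T.YO O ω) ∂mu V
      = ∫ ω, Real.tanh (T.af v C (T.YO O ω)) * F (T.YO O ω) ∂mu V := by
    rw [integral_glueC ((T.bm_spin v).mul hFY).integrable, integral_glueC (htY.mul hFY).integrable]
    refine integral_congr_ae (Eventually.of_forall fun x => ?_)
    simp only [T.YO_glueC, T.spin_glueC]
    exact T.post_test (hO.le _) v hC hF ⟨M, hM⟩ hloc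
  have h1 : ∀ ω : Om V, T.spin ω v * F (T.YO O ω) = F (T.BO O v ω.1) := by
    intro ω
    rw [T.YO_eq_smul O v ω, odd_smul hodd (T.spin_eq ω v)]
    rcases T.spin_eq ω v with h | h <;> simp [h]
  simp only [h1] at key
  rw [integral_comp_mp (f := fun x => F (T.BO O v x)) mp_fst
    (hF.comp (T.measurable_BO hO v)).aestronglyMeasurable] at key
  rw [key]
  refine T.integral_even hO v (F := fun Y => Real.tanh (T.af v C Y) * F Y) (hth.mul hF) fun Y => ?_
  rw [T.af_neg, hodd, Real.tanh_neg]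
  ring

theorem maskLim {O : ℕ → Clk V → Set (Slot V)} (hO : ∀ n, IsMask R (O n))
    (hmono : ∀ c, Monotone (fun n => O n c)) :
    ∀ᵐ ω ∂mu V, ∀ v, Tendsto (fun n => T.mf v (T.YO (O n) ω)) atTop
      (𝓝 (T.mf v (T.YO (fun c => ⋃ n, O n c) ω))) := by
  have := T.countable_V
  refine ae_glueC ?_ (Eventually.of_forall fun x => ?_)
  · rw [ofPred_forall]
    refine MeasurableSet.iInter fun v => ?_
    exact measurableSet_tendsto_fun
      (fun n => (T.measurable_mf v).comp (T.measurable_YO (hO n)))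
      ((T.measurable_mf v).comp (T.measurable_YO (IsMask.iUnion hO)))
  · simp only [T.YO_glueC]
    exact T.maskLim_det (O := fun n => O n (clock x)) (fun n => (hO n).le _) (hmono _)

end masks

theorem measurable_Yt (t : ℝ) : Measurable (T.Yt t) := by
  exact T.measurable_YO (isMask_Ot (r := ⌈t⌉) (by linarith [Int.le_ceil t]))

theorem bm_mt (t : ℝ) (v : V) : BM (T.mt t v) := by
  exact BM.of_le ((T.measurable_mf v).comp (T.measurable_Yt t)) 1 fun ω => T.abs_mf_le _ _

theorem abs_mt_le (t : ℝ) (v : V) (ω : Om V) : |T.mt t v ω| ≤ 1 := T.abs_mf_le _ _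

theorem Yt_Tg (g : T.G ≃g T.G) (t : ℝ) (ω : Om V) :
    T.Yt t (T.Tg g ω) = fun i => T.Yt t ω (T.slotMap g i) := by
  funext i
  unfold Yt YO
  rw [T.Yf_Tg]
  by_cases h : T.slotMap g i ∈ Ot t (clock ω.1)
  · rw [indicator_of_mem h, indicator_of_mem (show i ∈ Ot t (clock (T.Tg g ω).1) from h)]
  · rw [indicator_of_notMem h,
      indicator_of_notMem (show i ∉ Ot t (clock (T.Tg g ω).1) from h)]

theorem BO_Ot_T0 (g : T.G ≃g T.G) (t : ℝ) (v : V) (x : Om0 V) :
    T.BO (Ot t) v (T.T0 g x) = fun i => T.BO (Ot t) (g v) x (T.slotMap g i) := by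
  funext i
  unfold BO
  rw [T.Bf_T0]
  by_cases h : T.slotMap g i ∈ Ot t (clock x)
  · rw [indicator_of_mem h, indicator_of_mem (show i ∈ Ot t (clock (T.T0 g x)) from h)]
  · rw [indicator_of_notMem h,
      indicator_of_notMem (show i ∉ Ot t (clock (T.T0 g x)) from h)]

theorem mt_Tg (g : T.G ≃g T.G) (t : ℝ) (v : V) (ω : Om V) :
    T.mt t v (T.Tg g ω) = T.mt t (g v) ω := by
  unfold mt
  rw [T.Yt_Tg, T.mf_aut]

theorem xt_eq (t : ℝ) {v u v' u' : V} (h : T.G.Adj v u) (h' : T.G.Adj v' u') :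
    T.xt t v u = T.xt t v' u' := by
  obtain ⟨g, rfl, rfl⟩ := T.exists_aut_edge h h'
  unfold xt
  rw [← integral_comp_mp (f := fun ω => T.alpha v u (T.Yt t ω) ^ 2) (T.mp_Tg g)
    (((T.measurable_alpha v u).comp (T.measurable_Yt t)).pow_const 2).aestronglyMeasurable]
  simp only [T.Yt_Tg, T.alpha_aut]

end Ctx

end Crest.Agent.R160
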