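import Crest.Agent.R160.DecorAux

/-! Decorrelation of equivariant edge functions of i.i.d. labels along a path. -/

set_option autoImplicit false

namespace Crest.Agent.R160

open MeasureTheory ProbabilityTheory Set Filter Topology
open scoped ENNReal InnerProductSpace

universe u

variable {V : Type u}

/-- the σ-algebra generated by the coordinates in `A` -/
@[reducible] def sigA (A : Set (Idx V)) : MeasurableSpace (Om0 V) :=
  MeasurableSpace.comap A.domRestrict MeasurableSpace.pi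

theorem sigA_le_iff {A : Set (Idx V)} {m : MeasurableSpace (Om0 V)} :
    sigA A ≤ m ↔ ∀ j ∈ A, Measurable[m] (fun x : Om0 V => x j) := by
  rw [← measurable_iff_comap_le, measurable_pi_iff]
  exact ⟨fun h j hj => h ⟨j, hj⟩, fun h j => h j.1 j.2⟩

theorem measurable_sigA {A : Set (Idx V)} {j : Idx V} (hj : j ∈ A) :
    Measurable[sigA A] (fun x : Om0 V => x j) :=
  sigA_le_iff.1 le_rfl j hj

theorem sigA_le (A : Set (Idx V)) : sigA A ≤ MeasurableSpace.pi :=
  sigA_le_iff.2 fun j _ => measurable_pi_apply j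

theorem sigA_mono {A B : Set (Idx V)} (h : A ⊆ B) : sigA A ≤ sigA B :=
  sigA_le_iff.2 fun _ hj => measurable_sigA (h hj)

theorem dependsOn_of_sigA {A : Set (Idx V)} {f : Om0 V → ℝ} (hf : Measurable[sigA A] f) :
    DependsOn f A :=
  dependsOn_iff_factorsThrough.2 hf.factorsThrough

theorem tendsto_integral_sum_sq {Ω ι : Type*} [MeasurableSpace Ω] {μ : Measure Ω}
    [IsFiniteMeasure μ] (s : Finset ι) {F : ι → Ω → ℝ} {G : ℕ → ι → Ω → ℝ}
    (hG : ∀ n, ∀ i ∈ s, AEStronglyMeasurable (G n i) μ)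
    (hb : ∀ i ∈ s, ∃ C, ∀ n, ∀ᵐ ω ∂μ, |G n i ω| ≤ C)
    (hl : ∀ i ∈ s, ∀ᵐ ω ∂μ, Tendsto (fun n => G n i ω) atTop (𝓝 (F i ω))) :
    Tendsto (fun n => ∫ ω, (∑ i ∈ s, G n i ω) ^ 2 ∂μ) atTop
      (𝓝 (∫ ω, (∑ i ∈ s, F i ω) ^ 2 ∂μ)) := by
  choose! C hC using hb
  refine tendsto_integral_of_dominated_convergence (fun _ => (∑ i ∈ s, C i) ^ 2)
    (fun n => (Finset.aestronglyMeasurable_fun_sum s (hG n)).pow 2) (integrable_const _)
    (fun n => ?_) ?_
  · filter_upwards [(eventually_all_finset s).2 fun i hi => hC i hi n] with ω hω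
    rw [Real.norm_eq_abs, abs_pow]
    exact pow_le_pow_left₀ (abs_nonneg _)
      ((Finset.abs_sum_le_sum_abs _ _).trans (Finset.sum_le_sum hω)) 2
  · filter_upwards [(eventually_all_finset s).2 hl] with ω hω
    exact (tendsto_finsetSum s hω).pow 2

theorem AB.memLp {Ω : Type*} [MeasurableSpace Ω] {μ : Measure Ω} [IsFiniteMeasure μ]
    {f : Ω → ℝ} (hf : AB μ f) : MemLp f 2 μ := by
  obtain ⟨C, hC⟩ := hf.bdd
  exact MemLp.of_bound hf.meas C (by simpa only [Real.norm_eq_abs] using hC)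

theorem inner_toLp_eq {Ω : Type*} [MeasurableSpace Ω] {μ : Measure Ω} {f g : Ω → ℝ}
    (hf : MemLp f 2 μ) (hg : MemLp g 2 μ) :
    ⟪hf.toLp f, hg.toLp g⟫_ℝ = ∫ ω, f ω * g ω ∂μ := by
  rw [L2.inner_def]
  refine integral_congr_ae ?_
  filter_upwards [hf.coeFn_toLp, hg.coeFn_toLp] with ω h1 h2
  rw [h1, h2]
  simp [mul_comm]

theorem ae_mu_of_ae_mu0 {P : Om V → Prop} (h : ∀ᵐ x ∂mu0 V, P (x, true) ∧ P (x, false)) :
    ∀ᵐ ω ∂mu V, P ω := by
  filter_upwards [mp_fst.quasiMeasurePreserving.ae h] with ω hω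
  rcases ω with ⟨x, b⟩
  cases b
  · exact hω.2
  · exact hω.1

namespace Ctx

variable (T : Ctx V)

/-- the finite range case -/
theorem decor_fin {f : V → V → Om0 V → ℝ}
    (hAB : ∀ u v, T.G.Adj u v → AB (mu0 V) (f u v))
    (hsym : ∀ u v, T.G.Adj u v → f u v =ᵐ[mu0 V] f v u)
    (hequiv : ∀ (g : T.G ≃g T.G) u v, T.G.Adj u v →
      f (g u) (g v) =ᵐ[mu0 V] fun x => f u v (T.T0 g x))
    {m0 : ℕ} (hfin : ∀ p m, m0 ≤ m → T.NB p (m + 1) →
      ∫ x, f (p 0) (p 1) x * f (p m) (p (m + 1)) x ∂mu0 V = 0)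
    {p : ℕ → V} {k : ℕ} (hp : T.NB p k) {a b : V} (hab : T.G.Adj a b) :
    ∫ x, (∑ j ∈ Finset.range k, f (p j) (p (j + 1)) x) ^ 2 ∂mu0 V
      ≤ 100 * k * ∫ x, f a b x ^ 2 ∂mu0 V := by
  classical
  let X : V → V → Lp ℝ 2 (mu0 V) := fun u v =>
    if h : T.G.Adj u v then (hAB u v h).memLp.toLp (f u v) else 0
  have hX : ∀ u v (h : T.G.Adj u v), X u v = (hAB u v h).memLp.toLp (f u v) :=
    fun u v h => dif_pos h
  have hin : ∀ u v u' v', T.G.Adj u v → T.G.Adj u' v' →
      ⟪X u v, X u' v'⟫_ℝ = ∫ x, f u v x * f u' v' x ∂mu0 V := by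
    intro u v u' v' h h'
    rw [hX u v h, hX u' v' h', inner_toLp_eq]
  have key := T.decor_hilbert (x := X) (m0 := m0) ?_ ?_ ?_ hp hab
  · rw [← real_inner_self_eq_norm_sq, ← real_inner_self_eq_norm_sq, hin a b a b hab hab,
      sum_inner] at key
    simp only [pow_two]
    refine le_trans (le_of_eq ?_) key
    have hA : ∀ j ∈ Finset.range k, T.G.Adj (p j) (p (j + 1)) :=
      fun j hj => hp.1 j (Finset.mem_range.1 hj)
    simp only [Finset.sum_mul_sum]
    rw [integral_finsetSum _ fun i hi => (AB.sum _ fun j hj =>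
      (hAB _ _ (hA i hi)).mul (hAB _ _ (hA j hj))).integrable]
    refine Finset.sum_congr rfl fun i hi => ?_
    rw [inner_sum, integral_finsetSum _ fun j hj =>
      ((hAB _ _ (hA i hi)).mul (hAB _ _ (hA j hj))).integrable]
    exact Finset.sum_congr rfl fun j hj => (hin _ _ _ _ (hA i hi) (hA j hj)).symm
  · intro u v h
    rw [hX u v h, hX v u h.symm]
    exact MemLp.toLp_congr _ _ (hsym u v h)
  · intro g u v u' v' h h'
    rw [hin _ _ _ _ (g.map_rel_iff.2 h) (g.map_rel_iff.2 h'), hin _ _ _ _ h h',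
      ← integral_comp_mp (T.mp_T0 g) ((hAB u v h).mul (hAB u' v' h')).meas]
    refine integral_congr_ae ?_
    filter_upwards [hequiv g u v h, hequiv g u' v' h'] with x h1 h2
    rw [h1, h2]
  · intro q m hm hq
    rw [hin _ _ _ _ (hq.1 0 (by omega)) (hq.1 m (by omega))]
    exact hfin q m hm hq

/-- the `n`-neighbourhood of an edge -/
def nbhd (n : ℕ) (u v : V) : Set V := {w | T.G.dist u w ≤ n ∨ T.G.dist v w ≤ n}

theorem nbhd_comm (n : ℕ) (u v : V) : T.nbhd n u v = T.nbhd n v u := by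
  ext w; exact or_comm

theorem nbhd_mono (u v : V) {n n' : ℕ} (h : n ≤ n') : T.nbhd n u v ⊆ T.nbhd n' u v :=
  fun _ hw => hw.imp (fun k => k.trans h) (fun k => k.trans h)

theorem mem_nbhd_aut (g : T.G ≃g T.G) (n : ℕ) (u v w : V) :
    g w ∈ T.nbhd n (g u) (g v) ↔ w ∈ T.nbhd n u v := by
  simp only [nbhd, mem_ofPred_eq, T.dist_aut]

theorem idxMap_mem_loc (g : T.G ≃g T.G) {A B : Set V} (h : ∀ w, g w ∈ B ↔ w ∈ A) (j : Idx V) :
    T.idxMap g j ∈ loc B ↔ j ∈ loc A := by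
  cases j with
  | e s =>
    change (∀ x ∈ s.map g, x ∈ B) ↔ ∀ x ∈ s, x ∈ A
    constructor
    · exact fun k x hx => (h x).1 (k _ (Sym2.mem_map.2 ⟨x, hx, rfl⟩))
    · intro k x hx
      obtain ⟨y, hy, rfl⟩ := Sym2.mem_map.1 hx
      exact (h y).2 (k y hy)
  | u v r => exact h v
  | w v r => exact h v

theorem idxMap_surjective (g : T.G ≃g T.G) : Function.Surjective (T.idxMap g) := by
  intro j
  refine ⟨T.idxMap g.symm j, ?_⟩
  cases j with
  | e s =>
    simp only [idxMap, Sym2.map_map]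
    congr 1
    have : (g ∘ g.symm : V → V) = id := funext fun x => g.apply_symm_apply x
    rw [this, Sym2.map_id]; rfl
  | u v r => simp only [idxMap, RelIso.apply_symm_apply]
  | w v r => simp only [idxMap, RelIso.apply_symm_apply]

theorem comap_T0_sigA (g : T.G ≃g T.G) {A B : Set V} (h : ∀ w, g w ∈ B ↔ w ∈ A) :
    (sigA (loc A)).comap (T.T0 g) = sigA (loc B) := by
  apply le_antisymm
  · rw [MeasurableSpace.comap_comp, ← measurable_iff_comap_le]
    exact (@measurable_pi_iff _ _ _ (sigA (loc B)) _ _).2 fun j =>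
      measurable_sigA ((T.idxMap_mem_loc g h j.1).2 j.2)
  · rw [sigA_le_iff]
    intro j hj
    obtain ⟨j, rfl⟩ := T.idxMap_surjective g j
    exact (measurable_sigA ((T.idxMap_mem_loc g h j).1 hj)).comp (comap_measurable _)

theorem exists_mem_loc_nbhd (u v : V) (j : Idx V) : ∃ n, j ∈ loc (T.nbhd n u v) := by
  cases j with
  | e s =>
    induction s using Sym2.ind with
    | h a b =>
      exact ⟨max (T.G.dist u a) (T.G.dist u b),
        e_mem_loc (Or.inl (le_max_left _ _)) (Or.inl (le_max_right _ _))⟩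
  | u w r => exact ⟨_, Or.inl le_rfl⟩
  | w w r => exact ⟨_, Or.inl le_rfl⟩

/-- the filtration of neighbourhoods of an edge -/
def filt (u v : V) : Filtration ℕ (MeasurableSpace.pi : MeasurableSpace (Om0 V)) where
  seq n := sigA (loc (T.nbhd n u v))
  mono' _ _ h := sigA_mono (loc_mono (T.nbhd_mono u v h))
  le' _ := sigA_le _

theorem iSup_filt (u v : V) : ⨆ n, T.filt u v n = MeasurableSpace.pi := by
  refine le_antisymm (iSup_le fun n => (T.filt u v).le n) (iSup_le fun j => ?_)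
  obtain ⟨n, hn⟩ := T.exists_mem_loc_nbhd u v j
  exact le_trans (measurable_sigA hn).comap_le (le_iSup (fun n => T.filt u v n) n)

theorem nbhd_disjoint {p : ℕ → V} {m n : ℕ} (hp : T.NB p (m + 1)) (hm : 2 * n + 2 ≤ m) :
    Disjoint (T.nbhd n (p 0) (p 1)) (T.nbhd n (p m) (p (m + 1))) := by
  rw [Set.disjoint_left]
  intro w h1 h2
  have key : ∀ i j, i ≤ 1 → m ≤ j → j ≤ m + 1 → T.G.dist (p i) w ≤ n → T.G.dist (p j) w ≤ n →
      False := by
    intro i j hi hj hj' k1 k2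
    have e1 := hp.dist_eq (i := i) (j := j) (by omega) hj'
    have e2 := T.hT.connected.dist_triangle (u := p i) (v := w) (w := p j)
    rw [SimpleGraph.dist_comm (u := w)] at e2
    omega
  rcases h1 with h1 | h1 <;> rcases h2 with h2 | h2
  · exact key 0 m (by omega) le_rfl (by omega) h1 h2
  · exact key 0 (m + 1) (by omega) (by omega) le_rfl h1 h2
  · exact key 1 m le_rfl le_rfl (by omega) h1 h2
  · exact key 1 (m + 1) le_rfl (by omega) le_rfl h1 h2

theorem decor0 {f : V → V → Om0 V → ℝ}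
    (hAB : ∀ u v, T.G.Adj u v → AB (mu0 V) (f u v))
    (hsym : ∀ u v, T.G.Adj u v → f u v =ᵐ[mu0 V] f v u)
    (hequiv : ∀ (g : T.G ≃g T.G) u v, T.G.Adj u v →
      f (g u) (g v) =ᵐ[mu0 V] fun x => f u v (T.T0 g x))
    (hmean : ∀ u v, T.G.Adj u v → ∫ x, f u v x ∂mu0 V = 0)
    {p : ℕ → V} {k : ℕ} (hp : T.NB p k) {a b : V} (hab : T.G.Adj a b) :
    ∫ x, (∑ j ∈ Finset.range k, f (p j) (p (j + 1)) x) ^ 2 ∂mu0 V
      ≤ 100 * k * ∫ x, f a b x ^ 2 ∂mu0 V := by
  let F : ℕ → V → V → Om0 V → ℝ := fun n u v => (mu0 V)[f u v | T.filt u v n]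
  have hFm : ∀ n u v, Measurable[T.filt u v n] (F n u v) :=
    fun n u v => stronglyMeasurable_condExp.measurable
  have hFm' : ∀ n u v, Measurable (F n u v) :=
    fun n u v => (hFm n u v).mono ((T.filt u v).le n) le_rfl
  have h1 : ∀ n, ∫ x, (∑ j ∈ Finset.range k, F n (p j) (p (j + 1)) x) ^ 2 ∂mu0 V
      ≤ 100 * k * ∫ x, f a b x ^ 2 ∂mu0 V := by
    intro n
    refine le_trans (T.decor_fin (f := F n) (m0 := 2 * n + 2)
      (fun u v h => (hAB u v h).condExp ((T.filt u v).le n)) ?_ ?_ ?_ hp hab) ?_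
    · intro u v h
      have : T.filt u v n = T.filt v u n := by
        change sigA (loc (T.nbhd n u v)) = sigA (loc (T.nbhd n v u))
        rw [T.nbhd_comm]
      simp only [F]
      rw [this]
      exact condExp_congr_ae (hsym u v h)
    · intro g u v h
      have e1 := condExp_comp_mp (T.mp_T0 g) ((T.filt u v).le n) (hAB u v h).integrable
      have e2 : (T.filt u v n).comap (T.T0 g) = T.filt (g u) (g v) n :=
        T.comap_T0_sigA g (T.mem_nbhd_aut g n u v)
      rw [e2] at e1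
      exact (condExp_congr_ae (hequiv g u v h)).trans e1.symm
    · intro q m hm hq
      have e1 := indepFun_of_dependsOn (hFm' n _ _) (hFm' n _ _)
        (dependsOn_of_sigA (hFm n (q 0) (q 1))) (dependsOn_of_sigA (hFm n (q m) (q (m + 1))))
        (loc_disjoint (T.nbhd_disjoint hq hm))
      rw [e1.integral_fun_mul_eq_mul_integral (hFm' n _ _).aestronglyMeasurable
        (hFm' n _ _).aestronglyMeasurable]
      have e2 : ∫ x, F n (q 0) (q 1) x ∂mu0 V = ∫ x, f (q 0) (q 1) x ∂mu0 V :=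
        integral_condExp ((T.filt _ _).le n)
      rw [e2, hmean _ _ (hq.1 0 (by omega)), zero_mul]
    · refine mul_le_mul_of_nonneg_left ?_ (by positivity)
      exact integral_comp_condExp_le ((T.filt a b).le n) (hAB a b hab) (φ := fun x => x ^ 2)
        (Even.convexOn_pow even_two) (continuous_pow 2)
  have hA : ∀ j ∈ Finset.range k, T.G.Adj (p j) (p (j + 1)) :=
    fun j hj => hp.1 j (Finset.mem_range.1 hj)
  refine le_of_tendsto' (tendsto_integral_sum_sq (Finset.range k)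
    (G := fun n j => F n (p j) (p (j + 1))) (fun n j _ => (hFm' n _ _).aestronglyMeasurable)
    (fun j hj => ?_) (fun j hj => ?_)) h1
  · obtain ⟨C, hC⟩ := (hAB _ _ (hA j hj)).bdd
    exact ⟨C, fun n => condExp_abs_le hC⟩
  · have e1 := tendsto_ae_condExp (ℱ := T.filt (p j) (p (j + 1))) (μ := mu0 V)
      (f (p j) (p (j + 1)))
    rw [T.iSup_filt] at e1
    have e2 := condExp_of_aestronglyMeasurable' (μ := mu0 V) le_rfl (hAB _ _ (hA j hj)).meas
      (hAB _ _ (hA j hj)).integrable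
    filter_upwards [e1, e2] with x k1 k2
    rwa [k2] at k1

theorem decor {f : V → V → Om V → ℝ}
    (hAB : ∀ u v, T.G.Adj u v → AB (mu V) (f u v))
    (hsym : ∀ u v, T.G.Adj u v → f u v =ᵐ[mu V] f v u)
    (hequiv : ∀ (g : T.G ≃g T.G) u v, T.G.Adj u v →
      f (g u) (g v) =ᵐ[mu V] fun ω => f u v (T.Tg g ω))
    (hflip : ∀ u v, T.G.Adj u v → (fun ω => f u v (flip ω)) =ᵐ[mu V] f u v)
    (hmean : ∀ u v, T.G.Adj u v → ∫ ω, f u v ω ∂mu V = 0)
    {p : ℕ → V} {k : ℕ} (hp : T.NB p k) {a b : V} (hab : T.G.Adj a b) :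
    ∫ ω, (∑ j ∈ Finset.range k, f (p j) (p (j + 1)) ω) ^ 2 ∂mu V
      ≤ 100 * k * ∫ ω, f a b ω ^ 2 ∂mu V := by
  let f0 : V → V → Om0 V → ℝ := fun u v x => f u v (x, true)
  have key : ∀ u v, T.G.Adj u v → f u v =ᵐ[mu V] fun ω => f0 u v ω.1 := by
    intro u v h
    refine ae_mu_of_ae_mu0 ?_
    filter_upwards [ae_mu0_of_ae_mu (hflip u v h)] with x hx
    exact ⟨rfl, hx.1⟩
  have hAB0 : ∀ u v, T.G.Adj u v → AB (mu0 V) (f0 u v) := by
    intro u v h
    obtain ⟨C, hC⟩ := (hAB u v h).bdd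
    refine ⟨?_, C, (ae_mu0_of_ae_mu hC).mono fun x hx => hx.1⟩
    have hm := (hAB u v h).meas
    refine ((hm.stronglyMeasurable_mk.comp_measurable
      (measurable_prodMk_right (y := true))).aestronglyMeasurable).congr ?_
    filter_upwards [ae_mu0_of_ae_mu hm.ae_eq_mk] with x hx
    exact hx.1.symm
  have hA : ∀ j ∈ Finset.range k, T.G.Adj (p j) (p (j + 1)) :=
    fun j hj => hp.1 j (Finset.mem_range.1 hj)
  have main := T.decor0 (f := f0) hAB0
    (fun u v h => (ae_mu0_of_ae_mu (hsym u v h)).mono fun x hx => hx.1) ?_ ?_ hp hab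
  · rw [← integral_comp_mp mp_fst ((AB.sum _ fun j hj => hAB0 _ _ (hA j hj)).pow 2).meas,
      ← integral_comp_mp mp_fst ((hAB0 a b hab).pow 2).meas] at main
    have e1 : ∫ ω, (∑ j ∈ Finset.range k, f (p j) (p (j + 1)) ω) ^ 2 ∂mu V
        = ∫ ω, (∑ j ∈ Finset.range k, f0 (p j) (p (j + 1)) ω.1) ^ 2 ∂mu V := by
      refine integral_congr_ae ?_
      filter_upwards [(eventually_all_finset (Finset.range k)).2 fun j hj => key _ _ (hA j hj)]
        with ω hω
      rw [Finset.sum_congr rfl hω]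
    have e2 : ∫ ω, f a b ω ^ 2 ∂mu V = ∫ ω, f0 a b ω.1 ^ 2 ∂mu V := by
      refine integral_congr_ae ?_
      filter_upwards [key a b hab] with ω hω
      rw [hω]
    rw [e1, e2]
    exact main
  · intro g u v h
    have e1 := (T.mp_Tg g).quasiMeasurePreserving.ae (key u v h)
    filter_upwards [ae_mu0_of_ae_mu (hequiv g u v h), ae_mu0_of_ae_mu e1] with x k1 k2
    exact k1.1.trans k2.1
  · intro u v h
    rw [← integral_comp_mp mp_fst (hAB0 u v h).meas, ← hmean u v h]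
    exact (integral_congr_ae (key u v h)).symm

end Ctx

end Crest.Agent.R160
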