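import Crest.Agent.R160.Space

/-! Hilbert space part of the decorrelation estimate (finite range case). -/

set_option autoImplicit false

namespace Crest.Agent.R160

open MeasureTheory ProbabilityTheory Set Filter Topology
open scoped ENNReal InnerProductSpace

universe u

variable {V : Type u}

namespace Ctx

variable (T : Ctx V)

/-- first chosen child of `v` away from `u` -/
noncomputable def ch1 (u v : V) : V := (T.exists_two_adj v u).choose

/-- second chosen child of `v` away from `u` -/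
noncomputable def ch2 (u v : V) : V := (T.exists_two_adj v u).choose_spec.choose

theorem ch_spec (u v : V) : T.G.Adj v (T.ch1 u v) ∧ T.G.Adj v (T.ch2 u v) ∧ T.ch1 u v ≠ u ∧
    T.ch2 u v ≠ u ∧ T.ch1 u v ≠ T.ch2 u v :=
  (T.exists_two_adj v u).choose_spec.choose_spec

section hilbert

variable {H : Type*} [NormedAddCommGroup H] [InnerProductSpace ℝ H]

/-- binary average at depth `m` behind the directed edge `(u, v)` -/
noncomputable def avg (x : V → V → H) : ℕ → V → V → H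
  | 0, u, v => x u v
  | m + 1, u, v => (1 / 2 : ℝ) • (avg x m v (T.ch1 u v) + avg x m v (T.ch2 u v))

variable {x : V → V → H} {c : ℕ → ℝ}

theorem inner_avg_right
    (hc : ∀ p m, T.NB p (m + 1) → ⟪x (p 0) (p 1), x (p m) (p (m + 1))⟫_ℝ = c m) (m : ℕ) :
    ∀ (p : ℕ → V) (i : ℕ), T.NB p (i + 1) →
      ⟪x (p 0) (p 1), T.avg x m (p i) (p (i + 1))⟫_ℝ = c (i + m) := by
  induction m with
  | zero => intro p i hp; exact hc p i hp
  | succ m ih =>
    intro p i hp
    obtain ⟨h1, h2, h3, h4, -⟩ := T.ch_spec (p i) (p (i + 1))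
    have key : ∀ y, T.G.Adj (p (i + 1)) y → y ≠ p i →
        ⟪x (p 0) (p 1), T.avg x m (p (i + 1)) y⟫_ℝ = c (i + (m + 1)) := by
      intro y hy hne
      have := ih _ (i + 1) (hp.snoc hy hne)
      rw [Function.update_of_ne (by omega), Function.update_of_ne (by omega),
        Function.update_of_ne (by omega), Function.update_self] at this
      rw [this]
      congr 1
      omega
    rw [avg, inner_smul_right, inner_add_right, key _ h1 h3, key _ h2 h4]
    ring

theorem inner_avg_avg (hsym : ∀ u v, T.G.Adj u v → x u v = x v u)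
    (hc : ∀ p m, T.NB p (m + 1) → ⟪x (p 0) (p 1), x (p m) (p (m + 1))⟫_ℝ = c m) (m m' : ℕ) :
    ∀ (p : ℕ → V) (i : ℕ), T.NB p (i + 2) →
      ⟪T.avg x m (p 1) (p 0), T.avg x m' (p (i + 1)) (p (i + 2))⟫_ℝ = c (m + m' + i + 1) := by
  induction m with
  | zero =>
    intro p i hp
    rw [avg, ← hsym _ _ (hp.1 0 (by omega)), T.inner_avg_right hc m' p (i + 1) hp]
    congr 1
    omega
  | succ m ih =>
    intro p i hp
    obtain ⟨h1, h2, h3, h4, -⟩ := T.ch_spec (p 1) (p 0)
    have key : ∀ y, T.G.Adj (p 0) y → y ≠ p 1 →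
        ⟪T.avg x m (p 0) y, T.avg x m' (p (i + 1)) (p (i + 2))⟫_ℝ = c (m + 1 + m' + i + 1) := by
      intro y hy hne
      have := ih _ (i + 1) (hp.cons hy.symm hne)
      refine Eq.trans this ?_
      congr 1
      omega
    rw [avg, real_inner_smul_left, inner_add_left, key _ h1 h3, key _ h2 h4]
    ring

theorem norm_sq_edge
    (hc : ∀ p m, T.NB p (m + 1) → ⟪x (p 0) (p 1), x (p m) (p (m + 1))⟫_ℝ = c m)
    {u v : V} (h : T.G.Adj u v) : ‖x u v‖ ^ 2 = c 0 := by
  obtain ⟨p, hp, rfl, rfl⟩ := T.exists_NB h 1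
  rw [← real_inner_self_eq_norm_sq]
  exact hc p 0 hp

theorem norm_avg_le (hsym : ∀ u v, T.G.Adj u v → x u v = x v u)
    (hc : ∀ p m, T.NB p (m + 1) → ⟪x (p 0) (p 1), x (p m) (p (m + 1))⟫_ℝ = c m)
    {M : ℝ} (hM0 : 0 ≤ M) (hM : ∀ m, |c m| ≤ M * (9 / 10) ^ m) (m : ℕ) :
    ∀ u v, T.G.Adj u v → ‖T.avg x m u v‖ ^ 2 ≤ ((9 / 10) ^ m) ^ 2 * (c 0 + 3 * M / 2) := by
  induction m with
  | zero =>
    intro u v h
    rw [avg, T.norm_sq_edge hc h]
    simp only [pow_zero, one_pow, one_mul]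
    linarith
  | succ m ih =>
    intro u v h
    obtain ⟨h1, h2, -, -, h5⟩ := T.ch_spec u v
    have hc0 : 0 ≤ c 0 := by rw [← T.norm_sq_edge hc h]; positivity
    let p : ℕ → V := fun j => if j = 0 then T.ch1 u v else if j = 1 then v else T.ch2 u v
    have hp : T.NB p (0 + 2) := by
      refine ⟨fun i hi => ?_, fun i hi => ?_⟩
      · interval_cases i
        · exact h1.symm
        · exact h2
      · obtain rfl : i = 0 := by omega
        exact h5.symm
    have e1 : ⟪T.avg x m v (T.ch1 u v), T.avg x m v (T.ch2 u v)⟫_ℝ = c (m + m + 0 + 1) :=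
      T.inner_avg_avg hsym hc m m p 0 hp
    have e2 := (le_abs_self _).trans (hM (m + m + 0 + 1))
    have e3 : ((9 : ℝ) / 10) ^ (m + m + 0 + 1) = ((9 / 10) ^ m) ^ 2 * (9 / 10) := by ring
    rw [avg, norm_smul, mul_pow, norm_add_sq_real, e1, pow_succ (9 / 10 : ℝ) m]
    rw [e3] at e2
    have i1 := ih _ _ h1
    have i2 := ih _ _ h2
    have n1 : ‖(1 / 2 : ℝ)‖ = 1 / 2 := by norm_num
    rw [n1]
    have k1 : 0 ≤ (((9 : ℝ) / 10) ^ m) ^ 2 * c 0 := by positivity
    have k2 : 0 ≤ (((9 : ℝ) / 10) ^ m) ^ 2 * M := by positivity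
    nlinarith

theorem abs_corr_le (hsym : ∀ u v, T.G.Adj u v → x u v = x v u)
    (hc : ∀ p m, T.NB p (m + 1) → ⟪x (p 0) (p 1), x (p m) (p (m + 1))⟫_ℝ = c m)
    {m0 : ℕ} (hfin : ∀ m, m0 ≤ m → c m = 0) (m : ℕ) : |c m| ≤ 2 * c 0 * (9 / 10) ^ m := by
  obtain ⟨v, hv, -⟩ := T.exists_adj_ne T.o T.o T.o
  have hc0 : 0 ≤ c 0 := by rw [← T.norm_sq_edge hc hv]; positivity
  obtain ⟨n, -, hn⟩ := Finset.exists_max_image (Finset.range (m0 + 1))
    (fun m => |c m| / (9 / 10) ^ m) ⟨0, by simp⟩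
  set M := |c n| / (9 / 10) ^ n with hMdef
  have hM0 : 0 ≤ M := by positivity
  have hM : ∀ m, |c m| ≤ M * (9 / 10) ^ m := by
    intro m
    by_cases h : m0 ≤ m
    · rw [hfin m h, abs_zero]; positivity
    · have := hn m (Finset.mem_range.2 (by omega))
      rwa [div_le_iff₀ (by positivity)] at this
  have hM2 : M ≤ 2 * c 0 := by
    obtain ⟨p, hp, -, -⟩ := T.exists_NB hv 1
    have a1 := hp.1 0 (by omega)
    have e1 := T.inner_avg_right hc n p 0 hp
    rw [Nat.zero_add n] at e1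
    have e2 := abs_real_inner_le_norm (x (p 0) (p 1)) (T.avg x n (p 0) (p (0 + 1)))
    rw [e1] at e2
    have e3 := T.norm_avg_le hsym hc hM0 hM n _ _ a1
    have e4 := T.norm_sq_edge hc a1
    have e5 : |c n| ^ 2 ≤ c 0 * (((9 / 10) ^ n) ^ 2 * (c 0 + 3 * M / 2)) := by
      refine (pow_le_pow_left₀ (abs_nonneg _) e2 2).trans ?_
      rw [mul_pow]
      exact mul_le_mul e4.le e3 (by positivity) hc0
    have e6 : |c n| = M * (9 / 10) ^ n := by
      rw [hMdef, div_mul_cancel₀ _ (by positivity)]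
    rw [e6] at e5
    have e7 : M ^ 2 ≤ c 0 * (c 0 + 3 * M / 2) := by
      have hpos : 0 < (((9 : ℝ) / 10) ^ n) ^ 2 := by positivity
      refine le_of_mul_le_mul_right ?_ hpos
      calc M ^ 2 * ((9 / 10) ^ n) ^ 2 = (M * (9 / 10) ^ n) ^ 2 := by ring
        _ ≤ _ := e5
        _ = _ := by ring
    by_contra hcon
    push Not at hcon
    nlinarith
  exact (hM m).trans (mul_le_mul_of_nonneg_right hM2 (by positivity))

theorem sum_geom_rev_le (k : ℕ) : ∑ j ∈ Finset.range k, ((9 : ℝ) / 10) ^ (k - j) ≤ 9 := by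
  induction k with
  | zero => simp
  | succ k ih =>
    rw [Finset.sum_range_succ]
    have : ∑ j ∈ Finset.range k, ((9 : ℝ) / 10) ^ (k + 1 - j)
        = 9 / 10 * ∑ j ∈ Finset.range k, ((9 : ℝ) / 10) ^ (k - j) := by
      rw [Finset.mul_sum]
      refine Finset.sum_congr rfl fun j hj => ?_
      rw [Finset.mem_range] at hj
      rw [show k + 1 - j = (k - j) + 1 by omega, pow_succ]
      ring
    rw [this, Nat.add_sub_cancel_left, pow_one]
    linarith

theorem decor_hilbert (hsym : ∀ u v, T.G.Adj u v → x u v = x v u)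
    (hinv : ∀ (g : T.G ≃g T.G) u v u' v', T.G.Adj u v → T.G.Adj u' v' →
      ⟪x (g u) (g v), x (g u') (g v')⟫_ℝ = ⟪x u v, x u' v'⟫_ℝ)
    {m0 : ℕ} (hfin : ∀ p m, m0 ≤ m → T.NB p (m + 1) →
      ⟪x (p 0) (p 1), x (p m) (p (m + 1))⟫_ℝ = 0)
    {p : ℕ → V} {k : ℕ} (hp : T.NB p k) {a b : V} (hab : T.G.Adj a b) :
    ‖∑ j ∈ Finset.range k, x (p j) (p (j + 1))‖ ^ 2 ≤ 100 * k * ‖x a b‖ ^ 2 := by
  choose q hq using fun m => T.exists_NB hab (m + 1)
  let c : ℕ → ℝ := fun m => ⟪x (q m 0) (q m 1), x (q m m) (q m (m + 1))⟫_ℝ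
  have hc : ∀ p m, T.NB p (m + 1) → ⟪x (p 0) (p 1), x (p m) (p (m + 1))⟫_ℝ = c m := by
    intro p m hp
    obtain ⟨g, hg⟩ := T.exists_aut hp (hq m).1
    rw [← hinv g _ _ _ _ (hp.1 0 (by omega)) (hp.1 m (by omega)), hg 0 (by omega),
      hg 1 (by omega), hg m (by omega), hg (m + 1) le_rfl]
  have hb := T.abs_corr_le hsym hc (m0 := m0) (fun m hm => hfin _ m hm (hq m).1)
  rw [T.norm_sq_edge hc hab]
  have hc0 : 0 ≤ c 0 := by rw [← T.norm_sq_edge hc hab]; positivity
  induction k with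
  | zero => simp
  | succ k ih =>
    have ih' := ih (hp.mono (Nat.le_succ k))
    rw [Finset.sum_range_succ, norm_add_sq_real, T.norm_sq_edge hc (hp.1 k (by omega)), sum_inner]
    have e1 : ∑ j ∈ Finset.range k, ⟪x (p j) (p (j + 1)), x (p k) (p (k + 1))⟫_ℝ
        ≤ ∑ j ∈ Finset.range k, 2 * c 0 * (9 / 10) ^ (k - j) := by
      refine Finset.sum_le_sum fun j hj => ?_
      rw [Finset.mem_range] at hj
      have h1 := hp.shift j
      rw [show k + 1 - j = (k - j) + 1 by omega] at h1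
      have h2 := hc _ _ h1
      simp only [add_zero] at h2
      rw [show j + (k - j) = k by omega, show j + (k - j + 1) = k + 1 by omega] at h2
      rw [h2]
      exact (le_abs_self _).trans (hb _)
    rw [← Finset.mul_sum] at e1
    have e2 := mul_le_mul_of_nonneg_left (sum_geom_rev_le k) (by positivity : 0 ≤ 2 * c 0)
    push_cast
    nlinarith

end hilbert

end Ctx

end Crest.Agent.R160
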