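import Mathlib
import Crest.Prelude.Def_Labels
import Crest.Prelude.Def_TreeIsing

/-!
Definitions for the proof that the free Ising state on a regular tree is a factor of i.i.d. labels
up to and including the reconstruction threshold (row 160, statement S0241).
-/

set_option autoImplicit false

namespace Crest.Agent.R160

open MeasureTheory ProbabilityTheory Set Filter Topology
open scoped ENNReal

universe u

/-! ### One-variable functions -/

/-- the message map `g(a) = artanh (θ tanh a)` -/
noncomputable def gf (θ a : ℝ) : ℝ := Real.artanh (θ * Real.tanh a)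

/-- `exp (-zeta θ a) = (1 - tanh² a) / (1 - θ² tanh² a)` -/
noncomputable def zeta (θ a : ℝ) : ℝ := Real.log (1 + (1 - θ ^ 2) * Real.sinh a ^ 2)

noncomputable def lcosh (a : ℝ) : ℝ := Real.log (Real.cosh a)

/-- the cavity field at the first endpoint of an edge as a function of the two full fields -/
noncomputable def Ainv (θ H1 H2 : ℝ) : ℝ :=
  Classical.epsilon (fun a : ℝ => a + gf θ (H2 - gf θ a) = H1)

/-- `θ * exp (-Xi θ H1 H2)` is the correlation coefficient along an edge -/
noncomputable def Xi (θ H1 H2 : ℝ) : ℝ := (zeta θ (Ainv θ H1 H2) + zeta θ (Ainv θ H2 H1)) / 2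

/-- distribution function of the density `(1 + a y) / 2` on `[-1, 1]` -/
noncomputable def Fc (a y : ℝ) : ℝ := (y + 1) / 2 + a * (y ^ 2 - 1) / 4

/-- inverse of `Fc a` -/
noncomputable def Psi (a ξ : ℝ) : ℝ := (4 * ξ - 2 + a) / (1 + √((1 - a) ^ 2 + 4 * a * ξ))

/-- normalised jump of the posterior mean -/
noncomputable def phi (κ m ξ : ℝ) : ℝ := κ * Psi (κ * m) ξ / (1 + κ * m * Psi (κ * m) ξ)

noncomputable def rho (r : ℤ) : ℝ := (2 : ℝ) ^ (min r 0)

/-- signal strength in round `r` -/
noncomputable def kap (r : ℤ) : ℝ := rho r ^ 4 / 2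

/-! ### The tree -/

/-- a rooted regular tree with a parameter below the reconstruction threshold -/
structure Ctx (V : Type u) where
  G : SimpleGraph V
  lf : G.LocallyFinite
  d : ℕ
  hd : 3 ≤ d
  hT : G.IsTree
  hreg : @SimpleGraph.IsRegularOfDegree V G lf d
  θ : ℝ
  θ_nonneg : 0 ≤ θ
  hθ : ((d : ℝ) - 1) * θ ^ 2 ≤ 1
  o : V

variable {V : Type u}

/-- observation slots: a vertex and a round -/
abbrev Slot (V : Type u) := V × ℤ

/-- observation vectors -/
abbrev Dat (V : Type u) := Slot V → ℝ

/-- clock configurations -/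
abbrev Clk (V : Type u) := Slot V → unitInterval

/-- (clock, innovation) configurations -/
abbrev Wsp (V : Type u) := Slot V → unitInterval × unitInterval

/-- index set of the independent uniform variables -/
inductive Idx (V : Type u) : Type u
  | e (s : Sym2 V) : Idx V
  | u (v : V) (r : ℤ) : Idx V
  | w (v : V) (r : ℤ) : Idx V

abbrev Om0 (V : Type u) := Idx V → unitInterval

abbrev Om (V : Type u) := Om0 V × Bool

noncomputable def mu0 (V : Type u) : Measure (Om0 V) :=
  Measure.infinitePi (fun _ : Idx V => (volume : Measure unitInterval))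

instance (V : Type u) : IsProbabilityMeasure (mu0 V) := by
  unfold mu0; infer_instance

noncomputable def coin : Measure Bool :=
  (2 : ℝ≥0∞)⁻¹ • (Measure.dirac true + Measure.dirac false)

instance : IsProbabilityMeasure coin := ⟨by
  simp only [coin, Measure.smul_apply, Measure.add_apply, measure_univ, smul_eq_mul]
  rw [one_add_one_eq_two, ENNReal.inv_mul_cancel (by norm_num) (by norm_num)]⟩

noncomputable def mu (V : Type u) : Measure (Om V) := (mu0 V).prod coin

instance (V : Type u) : IsProbabilityMeasure (mu V) := by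
  unfold mu; infer_instance

/-- the law of the innovations -/
noncomputable def muW (V : Type u) : Measure (Wsp V) :=
  Measure.infinitePi
    (fun _ : Slot V => (volume : Measure unitInterval).prod (volume : Measure unitInterval))

instance (V : Type u) : IsProbabilityMeasure (muW V) := by
  unfold muW; infer_instance

/-- the coordinates located in a set of vertices -/
def loc (A : Set V) : Set (Idx V) :=
  {j | match j with
    | .e s => ∀ x ∈ s, x ∈ A
    | .u v _ => v ∈ A
    | .w v _ => v ∈ A}

/-- the clock coordinates -/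
def Uset (V : Type u) : Set (Idx V) :=
  {j | match j with
    | .e _ => False
    | .u _ _ => True
    | .w _ _ => False}

open Classical in
/-- take the coordinates in `A` from `x` and the others from `y` -/
noncomputable def glue (A : Set (Idx V)) (x y : Om0 V) : Om0 V := A.piecewise x y

/-- freeze the clocks: clocks from `x`, everything else from `ω` -/
noncomputable def glueC (x : Om0 V) (ω : Om V) : Om V := (glue (Uset V) x ω.1, ω.2)

def clock (ω : Om0 V) : Clk V := fun i => ω (.u i.1 i.2)

def sgn (b : Bool) : ℝ := if b then 1 else -1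

/-- gauge-fixed observation noise, density `(1 + κ z) / 2` on `[-1, 1]` -/
noncomputable def Zv (ω : Om0 V) (i : Slot V) : ℝ := Psi (kap i.2) (ω (.w i.1 i.2))

def flip (ω : Om V) : Om V := (ω.1, !ω.2)

noncomputable def tau (c : Clk V) (i : Slot V) : ℝ := (i.2 : ℝ) + (c i : ℝ)

def active (c : Clk V) (i : Slot V) : Prop := (c i : ℝ) < 1 / 2

/-- the slots observed before time `t` -/
def Ot (t : ℝ) (c : Clk V) : Set (Slot V) := {i | active c i ∧ tau c i < t}

noncomputable def halfI : unitInterval := ⟨1 / 2, by norm_num, by norm_num⟩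

open Classical in
/-- forget everything that happens from time `t` on -/
noncomputable def maskW (t : ℝ) (w : Wsp V) : Wsp V :=
  fun i => if ((w i).1 : ℝ) < 1 / 2 ∧ (i.2 : ℝ) + ((w i).1 : ℝ) < t then w i else (1, halfI)

/-- a measurable set of slots depending on the clocks, using only rounds `≤ R` -/
structure IsMask (R : ℤ) (O : Clk V → Set (Slot V)) : Prop where
  meas : ∀ i, MeasurableSet {c | i ∈ O c}
  le : ∀ c i, i ∈ O c → i.2 ≤ R

/-- observation vectors bounded by one and vanishing after round `R` -/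
structure Bdd (R : ℤ) (Y : Dat V) : Prop where
  abs_le : ∀ i, |Y i| ≤ 1
  zero : ∀ i : Slot V, R < i.2 → Y i = 0

noncomputable def hn (n : ℕ) (v : V) (Y : Dat V) : ℝ :=
  ∑ r ∈ Finset.Icc (-(n : ℤ)) n, Real.artanh (kap r * Y (v, r))

/-- the external field at `v` -/
noncomputable def hf (v : V) (Y : Dat V) : ℝ := ∑' r : ℤ, Real.artanh (kap r * Y (v, r))

namespace Ctx

variable (T : Ctx V)

/-- neighbours -/
noncomputable def nb (v : V) : Finset V := @SimpleGraph.neighborFinset V T.G v (T.lf v)

/-- for adjacent `v`, `u`: the component of `v` after removing the edge -/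
def half (v u : V) : Set V := {w | T.G.dist w v < T.G.dist w u}

/-- `p 0, …, p k` is a non-backtracking path -/
def NB (p : ℕ → V) (k : ℕ) : Prop :=
  (∀ i, i < k → T.G.Adj (p i) (p (i + 1))) ∧ ∀ i, i + 2 ≤ k → p (i + 2) ≠ p i

open Classical in
/-- the ball around the root -/
noncomputable def ball : ℕ → Finset V
  | 0 => {T.o}
  | n + 1 => ball n ∪ (ball n).biUnion T.nb

open Classical in
/-- the neighbour of `v` that is closer to `a` -/
noncomputable def par (a v : V) : V :=
  if h : ∃ x, T.G.Adj v x ∧ T.G.dist a x + 1 = T.G.dist a v then h.choose else v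

/-- the geodesic from the root to `w` -/
noncomputable def geo (w : V) (j : ℕ) : V := (T.par T.o)^[T.G.dist T.o w - j] w

/-- `v` together with the half-trees behind the neighbours in `C` -/
def Reg (v : V) (C : Finset V) : Set V := {w | w = v ∨ ∃ c ∈ C, w ∈ T.half c v}

/-! ### Spins and observations -/

noncomputable def eta (ω : Om0 V) (s : Sym2 V) : ℝ :=
  if (ω (.e s) : ℝ) < (1 + T.θ) / 2 then 1 else -1

/-- product of the edge signs along the path from the root -/
noncomputable def s0 (ω : Om0 V) (v : V) : ℝ :=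
  ((T.hT.existsUnique_path T.o v).choose.edges.map (T.eta ω)).prod

noncomputable def spin (ω : Om V) (v : V) : ℝ := sgn ω.2 * T.s0 ω.1 v

/-- all observations -/
noncomputable def Yf (ω : Om V) : Dat V := fun i => T.spin ω i.1 * Zv ω.1 i

/-- all observations, in the gauge of the vertex `v` -/
noncomputable def Bf (v : V) (ω : Om0 V) : Dat V := fun i => T.s0 ω v * T.s0 ω i.1 * Zv ω i

/-! ### Automorphisms -/

def idxMap (g : T.G ≃g T.G) : Idx V → Idx V
  | .e s => .e (s.map g)
  | .u v r => .u (g v) r
  | .w v r => .w (g v) r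

def slotMap (g : T.G ≃g T.G) (i : Slot V) : Slot V := (g i.1, i.2)

def T0 (g : T.G ≃g T.G) (ω : Om0 V) : Om0 V := fun j => ω (T.idxMap g j)

open Classical in
noncomputable def Tg (g : T.G ≃g T.G) (ω : Om V) : Om V :=
  (T.T0 g ω.1, if T.s0 ω.1 (g T.o) = 1 then ω.2 else !ω.2)

/-! ### Belief propagation -/

open Classical in
/-- finite-depth cavity field at `v` away from `u` -/
noncomputable def fn : ℕ → V → V → Dat V → ℝ
  | 0, _, _, _ => 0
  | n + 1, v, u, Y => hn n v Y + ∑ c ∈ (T.nb v).erase u, gf T.θ (fn n c v Y)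

/-- the slots seen by `fn n v u` -/
def Sn (n : ℕ) (v u : V) : Set (Slot V) :=
  {i | i.1 ∈ T.half v u ∧ T.G.dist v i.1 + i.2.natAbs < n}

/-- cavity magnetisation at `v` away from `u` -/
noncomputable def alpha (v u : V) (Y : Dat V) : ℝ :=
  (limsup (fun n => Real.tanh (T.fn n v u Y)) atTop
    + liminf (fun n => Real.tanh (T.fn n v u Y)) atTop) / 2

/-- message from `c` to `v` -/
noncomputable def msg (c v : V) (Y : Dat V) : ℝ := Real.artanh (T.θ * T.alpha c v Y)

noncomputable def af (v : V) (C : Finset V) (Y : Dat V) : ℝ :=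
  hf v Y + ∑ c ∈ C, T.msg c v Y

/-- full field at `v` -/
noncomputable def Hf (v : V) (Y : Dat V) : ℝ := T.af v (T.nb v) Y

/-- posterior mean of the spin at `v` -/
noncomputable def mf (v : V) (Y : Dat V) : ℝ := Real.tanh (T.Hf v Y)

open Classical in
/-- cavity field at `v` away from `u` -/
noncomputable def acav (v u : V) (Y : Dat V) : ℝ := T.af v ((T.nb v).erase u) Y

/-- the tree recursion holds -/
def Good (Y : Dat V) : Prop :=
  ∀ v u, T.G.Adj v u → T.alpha v u Y = Real.tanh (T.acav v u Y)

noncomputable def xiE (u v : V) (Y : Dat V) : ℝ := Xi T.θ (T.Hf u Y) (T.Hf v Y)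

noncomputable def Spath (p : ℕ → V) (k : ℕ) (Y : Dat V) : ℝ :=
  ∑ j ∈ Finset.range k, T.xiE (p j) (p (j + 1)) Y

/-- posterior covariance of the spins at the ends of the path -/
noncomputable def Jf (p : ℕ → V) (k : ℕ) (Y : Dat V) : ℝ :=
  T.θ ^ k * Real.exp (-(lcosh (T.Hf (p 0) Y) + lcosh (T.Hf (p k) Y) + T.Spath p k Y))

/-- posterior covariance of the spins at the root and at `w` -/
noncomputable def Jo (w : V) (Y : Dat V) : ℝ := T.Jf (T.geo w) (T.G.dist T.o w) Y

/-- bound for all fields when only rounds `≤ R` are used -/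
noncomputable def Hmax (R : ℕ) : ℝ := 2 ^ (R + 2) + T.d * Real.artanh T.θ

/-! ### The localisation process -/

/-- observations in the clock-dependent set `O` -/
noncomputable def YO (O : Clk V → Set (Slot V)) (ω : Om V) : Dat V :=
  (O (clock ω.1)).indicator (T.Yf ω)

/-- the same in the gauge of `v` -/
noncomputable def BO (O : Clk V → Set (Slot V)) (v : V) (ω : Om0 V) : Dat V :=
  (O (clock ω)).indicator (T.Bf v ω)

/-- observations before time `t` -/
noncomputable def Yt (t : ℝ) (ω : Om V) : Dat V := T.YO (Ot t) ω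

/-- the innovation of slot `i` -/
noncomputable def xiOf (c : Clk V) (Y : Dat V) (i : Slot V) : unitInterval :=
  projIcc 0 1 zero_le_one
    (Fc (kap i.2 * T.mf i.1 ((Ot (tau c i) c).indicator Y)) (Y i))

noncomputable def xi (ω : Om V) (i : Slot V) : unitInterval := T.xiOf (clock ω.1) (T.Yf ω) i

open Classical in
/-- clocks and innovations -/
noncomputable def Wf (ω : Om V) : Wsp V :=
  fun i => (clock ω.1 i, if active (clock ω.1) i then T.xi ω i else ω.1 (.w i.1 i.2))

/-- clocks and innovations before time `t` -/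
noncomputable def Xit (t : ℝ) (ω : Om V) : Wsp V := maskW t (T.Wf ω)

/-- the σ-algebra of the innovations before time `t` -/
@[reducible] noncomputable def calW (t : ℝ) : MeasurableSpace (Om V) :=
  MeasurableSpace.comap (T.Xit t) inferInstance

/-- conditional expectation given the innovations before time `t` -/
noncomputable def Pt (t : ℝ) (X : Om V → ℝ) : Om V → ℝ := (mu V)[X | T.calW t]

/-- posterior mean at time `t` -/
noncomputable def mt (t : ℝ) (v : V) (ω : Om V) : ℝ := T.mf v (T.Yt t ω)

/-- the part of `X` that is not explained by the innovations -/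
noncomputable def res (t : ℝ) (X : Om V → ℝ) (ω : Om V) : ℝ := X ω - T.Pt t X ω

noncomputable def delta (t : ℝ) : ℝ := ∫ ω, T.res t (T.mt t T.o) ω ^ 2 ∂mu V

/-- second moment of the cavity magnetisation at time `t` -/
noncomputable def xt (t : ℝ) (v u : V) : ℝ := ∫ ω, T.alpha v u (T.Yt t ω) ^ 2 ∂mu V

/-- uniform summable bound for the covariances during round `r` -/
def TailHyp (r : ℤ) : Prop :=
  ∃ tl : ℕ → ℝ, Summable tl ∧ (∀ k, 0 ≤ tl k) ∧
    ∀ O : Clk V → Set (Slot V), IsMask r O → (∀ c, Ot r c ⊆ O c) → ∀ w : V,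
      ((T.d : ℝ) - 1) ^ T.G.dist T.o w * ∫ ω, T.Jo w (T.YO O ω) ^ 2 ∂mu V ≤ tl (T.G.dist T.o w)

/-- the Osgood-type bound at time `t` with constant `K` -/
def RateHyp (t K : ℝ) : Prop :=
  ∀ lam : ℝ, 1 ≤ lam → ∃ jt mm : V → Wsp V → ℝ,
    (∀ w, Measurable (jt w)) ∧ (∀ w, Measurable (mm w)) ∧
    (∀ w x, |jt w x| ≤ 1) ∧ (∀ w x, |mm w x| ≤ 1) ∧
    ∀ n : ℕ, ∑ w ∈ T.ball n, ∫ ω, ((T.Jo w (T.Yt t ω) - jt w (T.Xit t ω)) ^ 2
        + T.Jo w (T.Yt t ω) ^ 2 * (T.mt t w ω - mm w (T.Xit t ω)) ^ 2) ∂mu V
      ≤ K * (lam * T.delta t + Real.exp (-lam))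

end Ctx

end Crest.Agent.R160
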