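import Crest.Agent.R160.Space

/-! From an almost surely defined factor to an everywhere equivariant one. -/

set_option autoImplicit false

namespace Crest.Agent.R160

open MeasureTheory ProbabilityTheory Set Filter Topology
open scoped ENNReal

universe u

variable {V : Type u}

theorem comap_le_of_factor {Ω α β : Type*} [mα : MeasurableSpace α] [mβ : MeasurableSpace β]
    {f : Ω → α} {k : Ω → β} {h : β → α} (hh : Measurable h) (hf : ∀ ω, f ω = h (k ω)) :
    mα.comap f ≤ mβ.comap k := by
  have : f = h ∘ k := funext hf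
  rw [this, ← MeasurableSpace.comap_comp]
  exact MeasurableSpace.comap_mono hh.comap_le

/-- labels: one uniform variable per vertex produces all clocks and innovations -/
theorem exists_label_map (V : Type u) : ∃ ψ : unitInterval → ℤ → unitInterval × unitInterval,
    MeasurePreserving (fun (x : V → unitInterval) (i : Slot V) => ψ (x i.1) i.2)
      (Crest.ProbabilityR.Labels.labelMeasure V) (muW V) := by
  obtain ⟨ψ, hψ, hmap⟩ := Measure.exists_measurable_map_eq
    (Measure.infinitePi fun _ : ℤ =>
      (volume : Measure unitInterval).prod (volume : Measure unitInterval))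
  have h1 : MeasurePreserving (fun (x : V → unitInterval) (v : V) => ψ (x v))
      (Crest.ProbabilityR.Labels.labelMeasure V)
      (Measure.infinitePi fun _ : V => Measure.infinitePi fun _ : ℤ =>
        (volume : Measure unitInterval).prod (volume : Measure unitInterval)) := by
    refine ⟨by fun_prop, ?_⟩
    unfold Crest.ProbabilityR.Labels.labelMeasure
    rw [Measure.infinitePi_map_pi (fun _ : V => (volume : Measure unitInterval))
      (f := fun _ => ψ) (fun _ => hψ)]
    simp only [hmap]
  have h2 : MeasurePreserving (MeasurableEquiv.curry V ℤ (unitInterval × unitInterval)).symm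
      (Measure.infinitePi fun _ : V => Measure.infinitePi fun _ : ℤ =>
        (volume : Measure unitInterval).prod (volume : Measure unitInterval)) (muW V) :=
    ⟨MeasurableEquiv.measurable _, Measure.infinitePi_map_curry_symm
      (fun (_ : V) (_ : ℤ) => (volume : Measure unitInterval).prod (volume : Measure unitInterval))⟩
  exact ⟨ψ, h2.comp h1⟩

namespace Ctx

variable (T : Ctx V)

open Classical in
/-- forget everything outside the ball of radius `n` around `a` -/
noncomputable def maskB (a : V) (n : ℕ) (w : Wsp V) : Wsp V :=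
  fun i => if T.G.dist a i.1 ≤ n then w i else (0, 0)

/-- pull back along an automorphism -/
def pullW (g : T.G ≃g T.G) (w : Wsp V) : Wsp V := fun i => w (T.slotMap g i)

theorem measurable_maskB (a : V) (n : ℕ) : Measurable (T.maskB a n) := by
  refine measurable_pi_lambda _ fun i => ?_
  unfold maskB
  split_ifs
  · exact measurable_pi_apply _
  · exact measurable_const

theorem measurable_pullW (g : T.G ≃g T.G) : Measurable (T.pullW g) :=
  measurable_pi_lambda _ fun _ => measurable_pi_apply _

theorem maskB_maskB (a : V) {n m : ℕ} (h : n ≤ m) (w : Wsp V) :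
    T.maskB a n w = T.maskB a n (T.maskB a m w) := by
  funext i
  unfold maskB
  split_ifs with h1 h2
  · rfl
  · exact absurd (h1.trans h) h2
  · rfl

theorem maskB_pullW (g : T.G ≃g T.G) (n : ℕ) (w : Wsp V) :
    T.maskB T.o n (T.pullW g w) = T.pullW g (T.maskB (g T.o) n w) := by
  funext i
  simp only [maskB, pullW, slotMap, T.dist_aut]

theorem pullW_pullW (g h : T.G ≃g T.G) (w : Wsp V) :
    T.pullW g (T.pullW h w) = T.pullW (g.trans h) w := rfl

theorem pullW_symm (g : T.G ≃g T.G) (w : Wsp V) : T.pullW g.symm (T.pullW g w) = w := by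
  funext i
  simp [pullW, slotMap]

theorem maskB_pullW_congr {g g' : T.G ≃g T.G} {n : ℕ} (h : ∀ v ∈ T.ball n, g' v = g v)
    (w : Wsp V) : T.maskB T.o n (T.pullW g' w) = T.maskB T.o n (T.pullW g w) := by
  funext i
  unfold maskB
  split_ifs with h1
  · simp only [pullW, slotMap, h _ (T.mem_ball.2 h1)]
  · rfl

theorem exists_countable_aut (n : ℕ) : ∃ Γ : Set (T.G ≃g T.G), Γ.Countable ∧
    ∀ g : T.G ≃g T.G, ∃ g' ∈ Γ, ∀ v ∈ T.ball n, g' v = g v := by
  have := T.countable_V
  let r : (T.G ≃g T.G) → (T.ball n → V) := fun g v => g v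
  refine ⟨range (rangeSplitting r), countable_range _, fun g => ?_⟩
  refine ⟨rangeSplitting r ⟨r g, mem_range_self g⟩, mem_range_self _, fun v hv => ?_⟩
  exact congrFun (apply_rangeSplitting r ⟨r g, mem_range_self g⟩) ⟨v, hv⟩

open Classical in
/-- the everywhere equivariant version -/
noncomputable def PhiW (F : ℕ → Wsp V → ℝ) (w : Wsp V) (v : V) : Bool :=
  decide (∀ᶠ n in atTop, ∃ g : T.G ≃g T.G, g T.o = v ∧ 0 < F n (T.maskB T.o n (T.pullW g w)))

theorem PhiW_pullW (F : ℕ → Wsp V → ℝ) (h : T.G ≃g T.G) (w : Wsp V) (v : V) :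
    T.PhiW F (T.pullW h w) v = T.PhiW F w (h v) := by
  unfold PhiW
  refine decide_eq_decide.2 (eventually_congr (Eventually.of_forall fun n => ?_))
  constructor
  · rintro ⟨g, hg, hF⟩
    exact ⟨g.trans h, by simp [hg], hF⟩
  · rintro ⟨g, hg, hF⟩
    refine ⟨g.trans h.symm, by simp [hg], ?_⟩
    rwa [← T.pullW_pullW, T.pullW_symm]

theorem measurable_PhiW {F : ℕ → Wsp V → ℝ} (hF : ∀ n, Measurable (F n)) :
    Measurable (T.PhiW F) := by
  refine measurable_pi_lambda _ fun v => measurable_to_bool ?_
  choose Γ hΓ hrep using T.exists_countable_aut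
  have : (fun w => T.PhiW F w v) ⁻¹' {true} = ⋃ N : ℕ, ⋂ n : ℕ, ⋂ (_ : N ≤ n), ⋃ g ∈ Γ n,
      ⋃ (_ : g T.o = v), {w | 0 < F n (T.maskB T.o n (T.pullW g w))} := by
    ext w
    simp only [PhiW, mem_preimage, mem_singleton_iff, decide_eq_true_eq, eventually_atTop,
      mem_iUnion, mem_iInter, mem_ofPred_eq, exists_prop]
    refine exists_congr fun N => forall_congr' fun n => forall_congr' fun _ => ?_
    constructor
    · rintro ⟨g, hg, hpos⟩
      obtain ⟨g', hg', hgg⟩ := hrep n g
      refine ⟨g', hg', ?_, ?_⟩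
      · rw [hgg _ (T.mem_ball.2 (by simp)), hg]
      · rwa [T.maskB_pullW_congr hgg]
    · rintro ⟨g, -, hg, hpos⟩
      exact ⟨g, hg, hpos⟩
  rw [this]
  refine MeasurableSet.iUnion fun N => MeasurableSet.iInter fun n =>
    MeasurableSet.iInter fun _ => MeasurableSet.biUnion (hΓ n) fun g _ =>
      MeasurableSet.iUnion fun _ => ?_
  exact measurableSet_lt measurable_const
    ((hF n).comp ((T.measurable_maskB _ _).comp (T.measurable_pullW g)))

theorem exists_PhiW {W : Om V → Wsp V} (hW : Measurable W)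
    (hequiv : ∀ (g : T.G ≃g T.G) ω, W (T.Tg g ω) = T.pullW g (W ω))
    (hσ : (fun ω => T.spin ω T.o)
      =ᵐ[mu V] (mu V)[fun ω => T.spin ω T.o | MeasurableSpace.comap W inferInstance]) :
    ∃ F : ℕ → Wsp V → ℝ, (∀ n, Measurable (F n)) ∧
      ∀ᵐ ω ∂mu V, ∀ v, T.spin ω v = sgn (T.PhiW F (W ω) v) := by
  have := T.countable_V
  let m : V → ℕ → MeasurableSpace (Om V) := fun a n =>
    MeasurableSpace.comap (fun ω => T.maskB a n (W ω)) inferInstance
  have hmle : ∀ a n, m a n ≤ (inferInstance : MeasurableSpace (Om V)) := fun a n =>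
    ((T.measurable_maskB a n).comp hW).comap_le
  let ℱ : Filtration ℕ (inferInstance : MeasurableSpace (Om V)) :=
    { seq := m T.o
      mono' := fun n k hnk =>
        comap_le_of_factor (T.measurable_maskB T.o n) fun ω => T.maskB_maskB T.o hnk (W ω)
      le' := hmle T.o }
  have hsup : ⨆ n, ℱ n = MeasurableSpace.comap W inferInstance := by
    refine le_antisymm (iSup_le fun n => comap_le_of_factor (T.measurable_maskB T.o n)
      fun ω => rfl) ?_
    refine Measurable.comap_le (@measurable_pi_lambda _ _ _ (⨆ n, ℱ n) _ _ fun i => ?_)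
    refine Measurable.of_comap_le ?_
    refine le_trans ?_ (le_iSup (fun n => ℱ n) (T.G.dist T.o i.1))
    exact comap_le_of_factor (measurable_pi_apply i) fun ω => by simp [maskB]
  have hF : ∀ n, ∃ F : Wsp V → ℝ, Measurable F ∧
      (mu V)[fun ω => T.spin ω T.o | m T.o n] = fun ω => F (T.maskB T.o n (W ω)) := by
    intro n
    obtain ⟨F, hF, hF'⟩ := (stronglyMeasurable_condExp (m := m T.o n) (μ := mu V)
      (f := fun ω => T.spin ω T.o)).exists_eq_measurable_comp
    exact ⟨F, hF.measurable, hF'⟩
  choose F hFm hF using hF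
  refine ⟨F, hFm, ?_⟩
  have hlim : ∀ᵐ ω ∂mu V,
      Tendsto (fun n => F n (T.maskB T.o n (W ω))) atTop (𝓝 (T.spin ω T.o)) := by
    have h1 := tendsto_ae_condExp (μ := mu V) (ℱ := ℱ) (fun ω => T.spin ω T.o)
    rw [hsup] at h1
    filter_upwards [h1, hσ] with ω h2 h3
    rw [h3]
    refine h2.congr fun n => ?_
    exact congrFun (hF n) ω
  have hc : ∀ (n : ℕ) (g : T.G ≃g T.G), ∀ᵐ ω ∂mu V, F n (T.maskB T.o n (T.pullW g (W ω)))
      = ((mu V)[fun ω => T.spin ω (g T.o) | m (g T.o) n]) ω := by
    intro n g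
    have h1 := condExp_comp_mp (T.mp_Tg g) (hmle T.o n) (T.bm_spin T.o).integrable
    have h2 : (m T.o n).comap (T.Tg g) = m (g T.o) n := by
      simp only [m, MeasurableSpace.comap_comp]
      refine le_antisymm (comap_le_of_factor (T.measurable_pullW g) fun ω => ?_)
        (comap_le_of_factor (T.measurable_pullW g.symm) fun ω => ?_)
      · simp only [Function.comp, hequiv, T.maskB_pullW]
      · simp only [Function.comp, hequiv, T.maskB_pullW, T.pullW_symm]
    rw [h2, hF n] at h1
    simp only [T.spin_Tg, hequiv] at h1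
    exact h1
  choose Γ hΓ hrep using T.exists_countable_aut
  rw [ae_all_iff]
  intro v
  obtain ⟨g0, hg0⟩ := T.exists_aut_vertex T.o v
  have hlim0 := (T.mp_Tg g0).quasiMeasurePreserving.ae hlim
  have hc0 := ae_all_iff.2 fun n => hc n g0
  have hcΓ := ae_all_iff.2 fun n => (ae_ball_iff (hΓ n)).2 fun g _ => hc n g
  filter_upwards [hlim0, hc0, hcΓ] with ω h1 h2 h3
  rw [T.spin_Tg, hequiv, hg0] at h1
  rcases T.spin_eq ω v with h | h
  · have : T.PhiW F (W ω) v = true := by
      unfold PhiW
      simp only [decide_eq_true_eq]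
      rw [h] at h1
      filter_upwards [h1.eventually (lt_mem_nhds one_pos)] with n hn
      exact ⟨g0, hg0, hn⟩
    rw [this, h]; rfl
  · have : T.PhiW F (W ω) v = false := by
      unfold PhiW
      rw [decide_eq_false_iff_not]
      intro hev
      rw [h] at h1
      obtain ⟨n, hn, g, hg, hpos⟩ :=
        ((h1.eventually (gt_mem_nhds (by norm_num : (-1 : ℝ) < 0))).and hev).exists
      obtain ⟨g', hg', hgg⟩ := hrep n g
      have hg'o : g' T.o = v := by rw [hgg _ (T.mem_ball.2 (by simp)), hg]
      rw [← T.maskB_pullW_congr hgg, h3 n g' hg', hg'o] at hpos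
      rw [h2 n, hg0] at hn
      exact lt_asymm hn hpos
    rw [this, h]; rfl

theorem exists_factor {W : Om V → Wsp V} (hW : MeasurePreserving W (mu V) (muW V))
    (hequiv : ∀ (g : T.G ≃g T.G) ω, W (T.Tg g ω) = fun i => W ω (T.slotMap g i))
    (hσ : (fun ω => T.spin ω T.o)
      =ᵐ[mu V] (mu V)[fun ω => T.spin ω T.o | MeasurableSpace.comap W inferInstance]) :
    ∃ Φ : (V → unitInterval) → (V → Bool),
      Measurable Φ ∧
      (∀ (g : T.G ≃g T.G) (x : V → unitInterval), Φ (x ∘ ⇑g) = Φ x ∘ ⇑g) ∧
      ∀ (S : Finset V) (η : V → Bool), (T.G.induce (S : Set V)).Connected →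
        (Crest.ProbabilityR.Labels.labelMeasure V).map Φ {σ | ∀ v ∈ S, σ v = η v} =
          ENNReal.ofReal (Crest.ProbabilityR.TreeIsing.isingWeight T.G T.θ S η) := by
  obtain ⟨F, hFm, hF⟩ := T.exists_PhiW hW.measurable hequiv hσ
  obtain ⟨ψ, hψ⟩ := exists_label_map V
  have hP := T.measurable_PhiW hFm
  refine ⟨fun x => T.PhiW F (fun i => ψ (x i.1) i.2), hP.comp hψ.measurable, fun g x => ?_,
    fun S η hS => ?_⟩
  · funext v
    exact T.PhiW_pullW F g (fun i => ψ (x i.1) i.2) v
  · have hmeas : MeasurableSet {σ : V → Bool | ∀ v ∈ S, σ v = η v} := by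
      have : {σ : V → Bool | ∀ v ∈ S, σ v = η v} = (S : Set V).pi fun v => {η v} := by
        ext σ; simp
      rw [this]
      exact MeasurableSet.pi S.countable_toSet fun v _ => measurableSet_singleton _
    have h1 : (Crest.ProbabilityR.Labels.labelMeasure V).map
        (fun x => T.PhiW F (fun i => ψ (x i.1) i.2)) = (mu V).map (fun ω => T.PhiW F (W ω)) := by
      have h2 := Measure.map_map (μ := Crest.ProbabilityR.Labels.labelMeasure V) hP hψ.measurable
      have h3 := Measure.map_map (μ := mu V) hP hW.measurable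
      rw [hψ.map_eq] at h2
      rw [hW.map_eq] at h3
      exact h2.symm.trans h3
    have hPW : Measurable fun ω => T.PhiW F (W ω) := hP.comp hW.measurable
    rw [h1, Measure.map_apply hPW hmeas, ← T.measure_cylinder S η hS]
    refine measure_congr ?_
    filter_upwards [hF] with ω hω
    refine propext (forall₂_congr fun v _ => ?_)
    rw [hω v]
    change T.PhiW F (W ω) v = η v ↔ _
    cases T.PhiW F (W ω) v <;> cases η v <;> norm_num [sgn]

end Ctx

end Crest.Agent.R160
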