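import Crest.Agent.R160.Innov

/-! The clocks and innovations are independent and uniform. -/

set_option autoImplicit false

namespace Crest.Agent.R160

open MeasureTheory ProbabilityTheory Set Filter Topology
open scoped ENNReal

universe u

variable {V : Type u}

namespace Ctx

variable (T : Ctx V)

theorem lawW_xiOf_congr (c : Clk V) {Y Y' : Dat V} {j : Slot V} {O : Set (Slot V)}
    (hO : Ot (tau c j) c ⊆ O) (hj : j ∈ O) (h : ∀ i ∈ O, Y i = Y' i) :
    T.xiOf c Y j = T.xiOf c Y' j := by
  have h1 : (Ot (tau c j) c).indicator Y = (Ot (tau c j) c).indicator Y' := by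
    funext i
    by_cases hi : i ∈ Ot (tau c j) c
    · rw [indicator_of_mem hi, indicator_of_mem hi, h i (hO hi)]
    · rw [indicator_of_notMem hi, indicator_of_notMem hi]
  unfold xiOf
  rw [h1, h j hj]

theorem lawW_meas_xiOf (c : Clk V) (j : Slot V) : Measurable (fun Y : Dat V => T.xiOf c Y j) := by
  have h : Measurable (fun Y : Dat V => ((c, Y) : Clk V × Dat V)) :=
    measurable_const.prodMk measurable_id
  have h2 := (T.measurable_xiOf j).comp h
  simpa only [Function.comp_def] using h2

/-- the innovations of active slots, for frozen clocks -/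
theorem lawW_active (c : Clk V) (hc : Function.Injective (tau c))
    {g : Slot V → unitInterval → ℝ} (hg : ∀ i, BM (g i)) (K : Finset (Slot V)) :
    (∀ i ∈ K, active c i) →
      ∫ ω, ∏ i ∈ K, g i (T.xiOf c (T.Yf ω) i) ∂mu V = ∏ i ∈ K, ∫ ξ, g i ξ := by
  classical
  induction K using Finset.induction_on_max_value (tau c) with
  | empty => simp
  | insert a s has hmax ih =>
    intro hact
    have ih' := ih fun i hi => hact i (Finset.mem_insert_of_mem hi)
    have hmem : ∀ j ∈ s, j ∈ Ot (tau c a) c := by
      intro j hj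
      refine ⟨hact j (Finset.mem_insert_of_mem hj), lt_of_le_of_ne (hmax j hj) ?_⟩
      intro h
      exact has (hc h ▸ hj)
    have hP : ∀ Y : Dat V, ∏ j ∈ s, g j (T.xiOf c ((Ot (tau c a) c).indicator Y) j)
        = ∏ j ∈ s, g j (T.xiOf c Y j) := by
      intro Y
      refine Finset.prod_congr rfl fun j hj => ?_
      rw [T.lawW_xiOf_congr c (Ot_mono (hmax j hj) c) (hmem j hj)
        (fun i hi => indicator_of_mem hi Y)]
    have hΓ : BM (fun p : Dat V × unitInterval => g a p.2 * ∏ j ∈ s, g j (T.xiOf c p.1 j)) :=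
      ((hg a).comp measurable_snd).mul (BM.prod s fun j _ =>
        (hg j).comp ((T.lawW_meas_xiOf c j).comp measurable_fst))
    have key := T.innov_det (O := Ot (tau c a) c) (R := a.2) (i := a)
      (fun i hi => (isMask_Otau a).le c i hi) (fun h => lt_irrefl _ h.2) hΓ
    simp only [hP, integral_mul_const, integral_const_mul] at key
    simp only [Finset.prod_insert has]
    rw [← ih', ← key]
    rfl

open Classical in
/-- all second coordinates, for frozen clocks -/
theorem lawW_frozen (c : Clk V) (hc : Function.Injective (tau c))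
    {g : Slot V → unitInterval → ℝ} (hg : ∀ i, BM (g i)) (K : Finset (Slot V)) :
    ∫ ω, ∏ i ∈ K, g i (if active c i then T.xiOf c (T.Yf ω) i else ω.1 (.w i.1 i.2)) ∂mu V
      = ∏ i ∈ K, ∫ ξ, g i ξ := by
  set A : Om V → ℝ := fun ω => ∏ i ∈ K.filter (active c), g i (T.xiOf c (T.Yf ω) i) with hA
  set B : Om0 V → ℝ := fun x => ∏ i ∈ K.filter (fun i => ¬ active c i), g i (x (.w i.1 i.2))
    with hB
  have hsplit : ∀ ω : Om V,
      ∏ i ∈ K, g i (if active c i then T.xiOf c (T.Yf ω) i else ω.1 (.w i.1 i.2))
        = A ω * B ω.1 := by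
    intro ω
    rw [← Finset.prod_filter_mul_prod_filter_not K (active c)]
    congr 1
    · exact Finset.prod_congr rfl fun i hi => by rw [if_pos (Finset.mem_filter.1 hi).2]
    · exact Finset.prod_congr rfl fun i hi => by rw [if_neg (Finset.mem_filter.1 hi).2]
  have bA : BM A := BM.prod _ fun i _ => (hg i).comp ((T.lawW_meas_xiOf c i).comp T.measurable_Yf)
  have bB : BM B := BM.prod _ fun i _ => (hg i).comp (measurable_pi_apply _)
  have bA' : ∀ b : Bool, BM (fun x : Om0 V => A (x, b)) := fun b =>
    bA.comp (measurable_id.prodMk measurable_const)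
  have dA : ∀ b : Bool, DependsOn (fun x : Om0 V => A (x, b))
      {j | (∃ s, j = Idx.e s) ∨ ∃ i : Slot V, active c i ∧ j = Idx.w i.1 i.2} := by
    intro b x y hxy
    refine Finset.prod_congr rfl fun i hi => ?_
    rw [T.lawW_xiOf_congr c (O := {i | active c i}) (fun j hj => hj.1) (Finset.mem_filter.1 hi).2]
    intro j hj
    have h1 : T.s0 x j.1 = T.s0 y j.1 := T.dependsOn_s0 j.1 fun k hk => hxy k (Or.inl hk)
    have h2 : x (.w j.1 j.2) = y (.w j.1 j.2) := hxy _ (Or.inr ⟨j, hj, rfl⟩)
    simp only [Yf, spin, Zv, h1, h2]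
  have dB : DependsOn B {j | ∃ i : Slot V, ¬ active c i ∧ j = Idx.w i.1 i.2} := by
    intro x y hxy
    refine Finset.prod_congr rfl fun i hi => ?_
    rw [hxy _ ⟨i, (Finset.mem_filter.1 hi).2, rfl⟩]
  have hdis : Disjoint {j | (∃ s, j = Idx.e s) ∨ ∃ i : Slot V, active c i ∧ j = Idx.w i.1 i.2}
      {j : Idx V | ∃ i : Slot V, ¬ active c i ∧ j = Idx.w i.1 i.2} := by
    rw [Set.disjoint_left]
    rintro j (⟨s, rfl⟩ | ⟨i, hi, rfl⟩) ⟨i', hi', h⟩
    · cases h
    · injection h with h1 h2
      exact hi' ((Prod.ext h1 h2 : i = i') ▸ hi)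
  have hAavg : DependsOn (fun x : Om0 V => (A (x, true) + A (x, false)) / 2)
      {j | (∃ s, j = Idx.e s) ∨ ∃ i : Slot V, active c i ∧ j = Idx.w i.1 i.2} := by
    intro x y hxy
    have h1 : A (x, true) = A (y, true) := dA true hxy
    have h2 : A (x, false) = A (y, false) := dA false hxy
    simp only [h1, h2]
  have iB : ∫ x, B x ∂mu0 V = ∏ i ∈ K.filter (fun i => ¬ active c i), ∫ ξ, g i ξ := by
    rw [hB, integral_prod_of_dependsOn _ (A := fun i : Slot V => {Idx.w i.1 i.2})
      (fun i _ => (hg i).comp (measurable_pi_apply _))]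
    · exact Finset.prod_congr rfl fun i _ =>
        integral_comp_mp (mp_coord _) (hg i).meas.aestronglyMeasurable
    · intro i _ x y hxy
      simp only [hxy _ (mem_singleton _)]
    · intro i _ j _ hij
      rw [Set.disjoint_singleton]
      intro h
      injection h with h1 h2
      exact hij (Prod.ext h1 h2)
  simp only [hsplit]
  rw [integral_mu (bA.mul (bB.comp measurable_fst)).integrable]
  have : ∀ x : Om0 V, (A (x, true) * B (x, true).1 + A (x, false) * B (x, false).1) / 2
      = (A (x, true) + A (x, false)) / 2 * B x := fun x => by ring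
  simp only [this]
  rw [integral_mul_of_dependsOn (((bA' true).add (bA' false)).div_const 2) bB hAavg dB hdis,
    ← integral_mu bA.integrable, iB, hA,
    T.lawW_active c hc hg _ (fun i hi => (Finset.mem_filter.1 hi).2),
    Finset.prod_filter_mul_prod_filter_not]

theorem lawW_prod {f : Slot V → unitInterval × unitInterval → ℝ} (hf : ∀ i, BM (f i))
    (K : Finset (Slot V)) :
    ∫ ω, ∏ i ∈ K, f i (T.Wf ω i) ∂mu V
      = ∏ i ∈ K, ∫ p, f i p ∂((volume : Measure unitInterval).prod volume) := by
  classical
  have := T.countable_V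
  have hb : BM (fun ω => ∏ i ∈ K, f i (T.Wf ω i)) :=
    BM.prod _ fun i _ => (hf i).comp ((measurable_pi_apply i).comp T.measurable_Wf)
  have bF : ∀ i, BM (fun a : unitInterval => ∫ ξ, f i (a, ξ)) := by
    intro i
    obtain ⟨C, hC⟩ := (hf i).bdd
    refine BM.of_le (hf i).meas.stronglyMeasurable.integral_prod_right'.measurable C fun a => ?_
    have := norm_integral_le_of_norm_le_const (μ := (volume : Measure unitInterval))
      (f := fun ξ => f i (a, ξ)) (C := C) (Eventually.of_forall fun ξ => hC _)
    simpa using this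
  rw [integral_glueC hb.integrable]
  have h1 : (fun x => ∫ ω, ∏ i ∈ K, f i (T.Wf (glueC x ω) i) ∂mu V)
      =ᵐ[mu0 V] fun x => ∏ i ∈ K, ∫ ξ, f i (x (.u i.1 i.2), ξ) := by
    filter_upwards [ae_tau_injective (V := V)] with x hx
    have := T.lawW_frozen (clock x) hx (g := fun i ξ => f i (clock x i, ξ))
      (fun i => (hf i).comp (measurable_const.prodMk measurable_id)) K
    simp only [Wf, xi, clock_glueC, Yf_glueC, glueC_w]
    exact this
  rw [integral_congr_ae h1, integral_prod_of_dependsOn _ (A := fun i : Slot V => {Idx.u i.1 i.2})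
    (fun i _ => (bF i).comp (measurable_pi_apply _))]
  · refine Finset.prod_congr rfl fun i _ => ?_
    rw [integral_prod _ (hf i).integrable]
    exact integral_comp_mp (mp_coord _) (bF i).meas.aestronglyMeasurable
  · intro i _ x y hxy
    simp only [hxy _ (mem_singleton _)]
  · intro i _ j _ hij
    rw [Set.disjoint_singleton]
    intro h
    injection h with h1 h2
    exact hij (Prod.ext h1 h2)

theorem law_W : MeasurePreserving T.Wf (mu V) (muW V) := by
  classical
  refine ⟨T.measurable_Wf, ?_⟩
  unfold muW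
  refine Measure.eq_infinitePi _ fun s t ht => ?_
  have hm : MeasurableSet (Set.pi (s : Set (Slot V)) t) :=
    MeasurableSet.pi s.countable_toSet fun i _ => ht i
  rw [Measure.map_apply T.measurable_Wf hm]
  have key := T.lawW_prod (f := fun i => (t i).indicator (fun _ => (1 : ℝ)))
    (fun i => BM.indicator_one (ht i)) s
  have h1 : ∀ ω, ∏ i ∈ s, (t i).indicator (fun _ => (1 : ℝ)) (T.Wf ω i)
      = (T.Wf ⁻¹' Set.pi (s : Set (Slot V)) t).indicator (fun _ => (1 : ℝ)) ω := by
    intro ω
    by_cases h : ω ∈ T.Wf ⁻¹' Set.pi (s : Set (Slot V)) t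
    · rw [indicator_of_mem h]
      exact Finset.prod_eq_one fun i hi => indicator_of_mem (h i hi) _
    · rw [indicator_of_notMem h]
      simp only [mem_preimage, Set.mem_pi, Finset.mem_coe, not_forall] at h
      obtain ⟨i, hi, h⟩ := h
      exact Finset.prod_eq_zero hi (indicator_of_notMem h _)
  simp only [h1] at key
  rw [integral_indicator_const _ (T.measurable_Wf hm)] at key
  simp only [integral_indicator_const _ (ht _), smul_eq_mul, mul_one, Measure.real,
    ← ENNReal.toReal_prod] at key
  exact (ENNReal.toReal_eq_toReal_iff' (measure_ne_top _ _)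
    (ENNReal.prod_ne_top fun i _ => measure_ne_top _ _)).1 key

end Ctx

end Crest.Agent.R160
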