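import Crest.Agent.R160.RateA

/-! The Osgood-type rate bound: reduction to an estimate along one path. -/

set_option autoImplicit false

namespace Crest.Agent.R160

open MeasureTheory ProbabilityTheory Set Filter Topology
open scoped ENNReal

universe u

variable {V : Type u}

theorem rb_exp_sub_sq_aux {a b : ℝ} (h : a ≤ b) :
    (Real.exp (-a) - Real.exp (-b)) ^ 2 ≤ (a - b) ^ 2 * Real.exp (-(2 * a)) := by
  have h1 : Real.exp (-b) = Real.exp (-a) * Real.exp (-(b - a)) := by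
    rw [← Real.exp_add]; congr 1; ring
  have h2 : -(b - a) + 1 ≤ Real.exp (-(b - a)) := Real.add_one_le_exp _
  have h3 : Real.exp (-(b - a)) ≤ 1 := Real.exp_le_one_iff.2 (by linarith)
  have h4 : Real.exp (-(2 * a)) = Real.exp (-a) ^ 2 := by
    rw [← Real.exp_nat_mul]; congr 1; push_cast; ring
  have h5 : (1 - Real.exp (-(b - a))) ^ 2 ≤ (a - b) ^ 2 := by
    have : (a - b) ^ 2 = (b - a) ^ 2 := by ring
    rw [this]
    exact pow_le_pow_left₀ (by linarith) (by linarith) 2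
  rw [h1, h4]
  have h6 : (Real.exp (-a) - Real.exp (-a) * Real.exp (-(b - a))) ^ 2
      = (1 - Real.exp (-(b - a))) ^ 2 * Real.exp (-a) ^ 2 := by ring
  rw [h6]
  exact mul_le_mul_of_nonneg_right h5 (sq_nonneg _)

theorem rb_exp_sub_sq {a b E : ℝ} (ha : Real.exp (-(2 * a)) ≤ E) (hb : Real.exp (-(2 * b)) ≤ E) :
    (Real.exp (-a) - Real.exp (-b)) ^ 2 ≤ (a - b) ^ 2 * E := by
  rcases le_total a b with h | h
  · exact (rb_exp_sub_sq_aux h).trans (mul_le_mul_of_nonneg_left ha (sq_nonneg _))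
  · have h1 := (rb_exp_sub_sq_aux h).trans (mul_le_mul_of_nonneg_left hb (sq_nonneg _))
    have h2 : (Real.exp (-a) - Real.exp (-b)) ^ 2 = (Real.exp (-b) - Real.exp (-a)) ^ 2 := by ring
    have h3 : (a - b) ^ 2 = (b - a) ^ 2 := by ring
    rw [h2, h3]; exact h1

namespace Ctx

variable (T : Ctx V)

/-- the predicted value of the sum of the edge terms -/
noncomputable def rbSt (t : ℝ) (p : ℕ → V) (k : ℕ) (ω : Om V) : ℝ :=
  ∑ j ∈ Finset.range k, T.Pt t (T.et t (p j) (p (j + 1))) ω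

/-- the predicted covariance -/
noncomputable def rbJt (t : ℝ) (p : ℕ → V) (k : ℕ) (ω : Om V) : ℝ :=
  T.θ ^ k * Real.exp (-(T.Pt t (T.lt t (p 0)) ω + T.Pt t (T.lt t (p k)) ω + T.rbSt t p k ω))

/-- the sum of the residuals of the edge terms -/
noncomputable def rbSig (t : ℝ) (p : ℕ → V) (k : ℕ) (ω : Om V) : ℝ :=
  ∑ j ∈ Finset.range k, T.res t (T.et t (p j) (p (j + 1))) ω

/-- the integrand of the rate bound -/
noncomputable def rbI (t : ℝ) (p : ℕ → V) (k : ℕ) (ω : Om V) : ℝ :=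
  (T.Jf p k (T.Yt t ω) - T.rbJt t p k ω) ^ 2
    + T.Jf p k (T.Yt t ω) ^ 2 * T.res t (T.mt t (p k)) ω ^ 2

/-- the quadratic form of the residuals that controls the integrand -/
noncomputable def rbQ (t : ℝ) (p : ℕ → V) (k : ℕ) (ω : Om V) : ℝ :=
  3 * (T.res t (T.lt t (p 0)) ω ^ 2 + T.res t (T.lt t (p k)) ω ^ 2 + T.rbSig t p k ω ^ 2)
    + T.res t (T.mt t (p k)) ω ^ 2

theorem rb_Spath_eq (t : ℝ) (p : ℕ → V) (k : ℕ) (ω : Om V) :
    T.Spath p k (T.Yt t ω) = ∑ j ∈ Finset.range k, T.et t (p j) (p (j + 1)) ω := rfl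

theorem rb_Jf_eq (t : ℝ) (p : ℕ → V) (k : ℕ) (ω : Om V) :
    T.Jf p k (T.Yt t ω)
      = T.θ ^ k * Real.exp (-(T.lt t (p 0) ω + T.lt t (p k) ω + T.Spath p k (T.Yt t ω))) := rfl

theorem rb_Pt_nonneg (t : ℝ) {X : Om V → ℝ} (hX : ∀ᵐ ω ∂mu V, 0 ≤ X ω) :
    ∀ᵐ ω ∂mu V, 0 ≤ T.Pt t X ω := condExp_nonneg hX

theorem rbSt_nonneg (t : ℝ) (p : ℕ → V) (k : ℕ) : ∀ᵐ ω ∂mu V, 0 ≤ T.rbSt t p k ω := by
  have h : ∀ᵐ ω ∂mu V, ∀ j : ℕ, 0 ≤ T.Pt t (T.et t (p j) (p (j + 1))) ω :=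
    ae_all_iff.2 fun j => T.rb_Pt_nonneg t (Eventually.of_forall fun ω => T.et_nonneg t _ _ ω)
  filter_upwards [h] with ω hω
  exact Finset.sum_nonneg fun j _ => hω j

theorem rb_Plt_nonneg (t : ℝ) (v : V) : ∀ᵐ ω ∂mu V, 0 ≤ T.Pt t (T.lt t v) ω :=
  T.rb_Pt_nonneg t (Eventually.of_forall fun ω => T.lt_nonneg t v ω)

theorem rb_meas_Pt (t : ℝ) (X : Om V → ℝ) : Measurable[T.calW t] (T.Pt t X) :=
  stronglyMeasurable_condExp.measurable

theorem rb_sm_Jt (t : ℝ) (p : ℕ → V) (k : ℕ) : StronglyMeasurable[T.calW t] (T.rbJt t p k) := by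
  have h1 : Measurable[T.calW t] (T.rbSt t p k) :=
    Finset.measurable_fun_sum _ fun j _ => T.rb_meas_Pt t _
  have h2 : Measurable[T.calW t] (T.rbJt t p k) :=
    (Real.measurable_exp.comp
      (((T.rb_meas_Pt t _).add (T.rb_meas_Pt t _)).add h1).neg).const_mul _
  exact h2.stronglyMeasurable

theorem rb_abs_Jt_le (t : ℝ) (p : ℕ → V) (k : ℕ) : ∀ᵐ ω ∂mu V, |T.rbJt t p k ω| ≤ 1 := by
  filter_upwards [T.rbSt_nonneg t p k, T.rb_Plt_nonneg t (p 0), T.rb_Plt_nonneg t (p k)]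
    with ω h1 h2 h3
  have h4 : T.θ ^ k ≤ 1 := pow_le_one₀ T.θ_nonneg T.θ_lt_one.le
  have h5 : 0 ≤ T.θ ^ k := pow_nonneg T.θ_nonneg k
  have h6 : Real.exp (-(T.Pt t (T.lt t (p 0)) ω + T.Pt t (T.lt t (p k)) ω + T.rbSt t p k ω)) ≤ 1 :=
    Real.exp_le_one_iff.2 (by linarith)
  unfold rbJt
  rw [abs_of_nonneg (mul_nonneg h5 (Real.exp_pos _).le)]
  exact mul_le_one₀ h4 (Real.exp_pos _).le h6

theorem rb_AB_Jt (t : ℝ) (p : ℕ → V) (k : ℕ) : AB (mu V) (T.rbJt t p k) :=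
  ⟨((T.rb_sm_Jt t p k).mono (T.calW_le t)).aestronglyMeasurable, 1, T.rb_abs_Jt_le t p k⟩

theorem rb_bm_Jf (t : ℝ) (p : ℕ → V) (k : ℕ) : BM (fun ω => T.Jf p k (T.Yt t ω)) := by
  refine BM.of_le ((T.measurable_Jf p k).comp (T.measurable_Yt t)) 1 fun ω => ?_
  rw [abs_of_nonneg (T.Jf_nonneg p k _)]
  exact (T.Jf_le_pow p k _).trans (pow_le_one₀ T.θ_nonneg T.θ_lt_one.le)

theorem rb_AB_res_lt (t : ℝ) (v : V) : AB (mu V) (T.res t (T.lt t v)) :=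
  T.AB_res t (T.bm_lt t v).ab

theorem rb_AB_res_et (t : ℝ) (u v : V) : AB (mu V) (T.res t (T.et t u v)) :=
  T.AB_res t (T.bm_et t u v).ab

theorem rb_AB_res_mt (t : ℝ) (v : V) : AB (mu V) (T.res t (T.mt t v)) :=
  T.AB_res t (T.bm_mt t v).ab

theorem rb_AB_Sig (t : ℝ) (p : ℕ → V) (k : ℕ) : AB (mu V) (T.rbSig t p k) :=
  AB.sum (Finset.range k) (F := fun j => T.res t (T.et t (p j) (p (j + 1))))
    fun _ _ => T.rb_AB_res_et t _ _

theorem rb_AB_I (t : ℝ) (p : ℕ → V) (k : ℕ) : AB (mu V) (T.rbI t p k) :=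
  (((T.rb_bm_Jf t p k).ab.sub (T.rb_AB_Jt t p k)).pow 2).add
    (((T.rb_bm_Jf t p k).ab.pow 2).mul ((T.rb_AB_res_mt t _).pow 2))

theorem rb_AB_Q (t : ℝ) (p : ℕ → V) (k : ℕ) : AB (mu V) (T.rbQ t p k) :=
  (((((T.rb_AB_res_lt t _).pow 2).add ((T.rb_AB_res_lt t _).pow 2)).add
    ((T.rb_AB_Sig t p k).pow 2)).const_mul 3).add ((T.rb_AB_res_mt t _).pow 2)

theorem rbQ_nonneg (t : ℝ) (p : ℕ → V) (k : ℕ) (ω : Om V) : 0 ≤ T.rbQ t p k ω := by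
  unfold rbQ; positivity

/-- pointwise bound for the integrand -/
theorem rbI_le (t : ℝ) (p : ℕ → V) (k : ℕ) {E : Om V → ℝ}
    (h1 : ∀ᵐ ω ∂mu V, Real.exp (-(2 * T.Spath p k (T.Yt t ω))) ≤ E ω)
    (h2 : ∀ᵐ ω ∂mu V, Real.exp (-(2 * T.rbSt t p k ω)) ≤ E ω) :
    ∀ᵐ ω ∂mu V, T.rbI t p k ω ≤ (T.θ ^ 2) ^ k * (T.rbQ t p k ω * E ω) := by
  filter_upwards [h1, h2, T.rb_Plt_nonneg t (p 0), T.rb_Plt_nonneg t (p k)] with ω h1 h2 h3 h4
  have h5 := T.lt_nonneg t (p 0) ω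
  have h6 := T.lt_nonneg t (p k) ω
  set a := T.lt t (p 0) ω + T.lt t (p k) ω + T.Spath p k (T.Yt t ω) with ha
  set b := T.Pt t (T.lt t (p 0)) ω + T.Pt t (T.lt t (p k)) ω + T.rbSt t p k ω with hb
  have ea : Real.exp (-(2 * a)) ≤ E ω := le_trans (Real.exp_le_exp.2 (by linarith)) h1
  have eb : Real.exp (-(2 * b)) ≤ E ω := le_trans (Real.exp_le_exp.2 (by linarith)) h2
  have hE : 0 ≤ E ω := (Real.exp_pos _).le.trans ea
  have hab : a - b = T.res t (T.lt t (p 0)) ω + T.res t (T.lt t (p k)) ω + T.rbSig t p k ω := by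
    rw [ha, hb, T.rb_Spath_eq]
    simp only [res, rbSig, rbSt, Finset.sum_sub_distrib]
    ring
  have h7 := rb_exp_sub_sq ea eb
  have h8 : (a - b) ^ 2 ≤ 3 * (T.res t (T.lt t (p 0)) ω ^ 2 + T.res t (T.lt t (p k)) ω ^ 2
      + T.rbSig t p k ω ^ 2) := by
    rw [hab]
    nlinarith [sq_nonneg (T.res t (T.lt t (p 0)) ω - T.res t (T.lt t (p k)) ω),
      sq_nonneg (T.res t (T.lt t (p 0)) ω - T.rbSig t p k ω),
      sq_nonneg (T.res t (T.lt t (p k)) ω - T.rbSig t p k ω)]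
  have h9 : Real.exp (-a) ^ 2 ≤ E ω := by
    refine le_trans (le_of_eq ?_) ea
    rw [← Real.exp_nat_mul]; congr 1; push_cast; ring
  have hJ : T.Jf p k (T.Yt t ω) = T.θ ^ k * Real.exp (-a) := rfl
  have hJt : T.rbJt t p k ω = T.θ ^ k * Real.exp (-b) := rfl
  have hθ : (T.θ ^ 2) ^ k = (T.θ ^ k) ^ 2 := by rw [← pow_mul, ← pow_mul, mul_comm]
  unfold rbI rbQ
  rw [hJ, hJt, hθ]
  have e1 : (T.θ ^ k * Real.exp (-a) - T.θ ^ k * Real.exp (-b)) ^ 2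
      + (T.θ ^ k * Real.exp (-a)) ^ 2 * T.res t (T.mt t (p k)) ω ^ 2
      = (T.θ ^ k) ^ 2 * ((Real.exp (-a) - Real.exp (-b)) ^ 2
        + T.res t (T.mt t (p k)) ω ^ 2 * Real.exp (-a) ^ 2) := by ring
  rw [e1]
  refine mul_le_mul_of_nonneg_left ?_ (sq_nonneg _)
  rw [add_mul]
  exact add_le_add (h7.trans (mul_le_mul_of_nonneg_right h8 hE))
    (mul_le_mul_of_nonneg_left h9 (sq_nonneg _))

theorem rb_integral_Q (t : ℝ) (p : ℕ → V) (k : ℕ) :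
    ∫ ω, T.rbQ t p k ω ∂mu V
      = 3 * ((∫ ω, T.res t (T.lt t (p 0)) ω ^ 2 ∂mu V) + (∫ ω, T.res t (T.lt t (p k)) ω ^ 2 ∂mu V)
        + ∫ ω, T.rbSig t p k ω ^ 2 ∂mu V) + T.delta t := by
  have i1 := (T.rb_AB_res_lt t (p 0)).pow 2
  have i2 := (T.rb_AB_res_lt t (p k)).pow 2
  have i3 := (T.rb_AB_Sig t p k).pow 2
  have i4 := (T.rb_AB_res_mt t (p k)).pow 2
  unfold rbQ
  rw [integral_add (((i1.add i2).add i3).const_mul 3).integrable i4.integrable, integral_const_mul,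
    integral_add (i1.add i2).integrable i3.integrable, integral_add i1.integrable i2.integrable,
    T.delta_eq]

theorem rbSig_sq_le (t : ℝ) (p : ℕ → V) (k : ℕ) (ω : Om V) :
    T.rbSig t p k ω ^ 2
      ≤ k * ∑ j ∈ Finset.range k, T.res t (T.et t (p j) (p (j + 1))) ω ^ 2 := by
  have h := sq_sum_le_card_mul_sum_sq (s := Finset.range k)
    (f := fun j => T.res t (T.et t (p j) (p (j + 1))) ω)
  rwa [Finset.card_range] at h

/-- reduction of the rate bound to an estimate along one path -/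
theorem rateHyp_of_path {t K : ℝ}
    (h : ∀ lam : ℝ, 1 ≤ lam → ∃ F : ℕ → ℝ, (∀ k, 0 ≤ F k) ∧
      (∀ p k, T.NB p k → ∫ ω, T.rbI t p k ω ∂mu V ≤ F k) ∧
      ∀ n, ∑ k ∈ Finset.range n, 2 * ((T.d : ℝ) - 1) ^ k * F k
        ≤ K * (lam * T.delta t + Real.exp (-lam))) : T.RateHyp t K := by
  intro lam hlam
  obtain ⟨F, hF0, hF, hsum⟩ := h lam hlam
  have h1 : ∀ w, ∃ f : Wsp V → ℝ, Measurable f ∧ (∀ x, |f x| ≤ 1) ∧
      (fun ω => f (T.Xit t ω)) =ᵐ[mu V] T.rbJt t (T.geo w) (T.G.dist T.o w) := fun w =>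
    exists_bdd_comp (T.Xit t) zero_le_one (T.rb_sm_Jt t _ _) (T.rb_abs_Jt_le t _ _)
  have h2 : ∀ w, ∃ f : Wsp V → ℝ, Measurable f ∧ (∀ x, |f x| ≤ 1) ∧
      (fun ω => f (T.Xit t ω)) =ᵐ[mu V] T.Pt t (T.mt t w) := fun w =>
    exists_bdd_comp (T.Xit t) zero_le_one stronglyMeasurable_condExp
      (condExp_abs_le (Eventually.of_forall fun ω => T.abs_mt_le t w ω))
  choose jt hjm hjb hje using h1
  choose mm hmm hmb hme using h2
  refine ⟨jt, mm, hjm, hmm, hjb, hmb, fun n => ?_⟩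
  calc _ = ∑ w ∈ T.ball n, ∫ ω, T.rbI t (T.geo w) (T.G.dist T.o w) ω ∂mu V := by
        refine Finset.sum_congr rfl fun w _ => integral_congr_ae ?_
        filter_upwards [hje w, hme w] with ω e1 e2
        simp only [rbI, res, Jo, T.geo_last] at e1 e2 ⊢
        rw [e1, e2]
    _ ≤ ∑ w ∈ T.ball n, F (T.G.dist T.o w) :=
        Finset.sum_le_sum fun w _ => hF _ _ (T.geo_NB w)
    _ ≤ ∑ k ∈ Finset.Ico 0 (n + 1), 2 * ((T.d : ℝ) - 1) ^ k * F k :=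
        T.sum_ball_le F hF0 _ 0 (n + 1) fun w hw =>
          ⟨Nat.zero_le _, Nat.lt_succ_of_le (T.mem_ball.1 hw)⟩
    _ ≤ _ := by
        rw [← Finset.range_eq_Ico]
        exact hsum (n + 1)

end Ctx

end Crest.Agent.R160
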