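import Crest.Agent.R160.RayA

/-! Atypical rays are almost independent of any local equivariant observable. -/

set_option autoImplicit false

namespace Crest.Agent.R160

open MeasureTheory ProbabilityTheory Set Filter Topology
open scoped ENNReal

universe u

variable {V : Type u}

namespace Ctx

variable (T : Ctx V)

/-- non-backtracking paths can be extended -/
theorem NB.extend {T : Ctx V} {p : ℕ → V} {i : ℕ} (hp : T.NB p (i + 1)) (n : ℕ) :
    ∃ p' : ℕ → V, T.NB p' (i + 1 + n) ∧ ∀ j, j ≤ i + 1 → p' j = p j := by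
  induction n with
  | zero => exact ⟨p, hp, fun _ _ => rfl⟩
  | succ n ih =>
    obtain ⟨p', hp', h⟩ := ih
    have hp'' : T.NB p' (i + n + 1) := by rwa [show i + n + 1 = i + 1 + n by omega]
    obtain ⟨x, hx, hne, -⟩ := T.exists_adj_ne (p' (i + n + 1)) (p' (i + n)) (p' (i + n))
    refine ⟨Function.update p' (i + n + 2) x, ?_, fun j hj => ?_⟩
    · rw [show i + 1 + (n + 1) = i + n + 2 by omega]
      exact hp''.snoc hx hne
    · rw [Function.update_of_ne (by omega)]
      exact h j hj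

/-- an equivariant family of rare events attached to rays of length `l` -/
structure RayFam (l : ℕ) (P : ℝ) (β : (ℕ → V) → Om0 V → ℝ) : Prop where
  bm : ∀ q, BM (β q)
  nonneg : ∀ q x, 0 ≤ β q x
  le_one : ∀ q x, β q x ≤ 1
  dep : ∀ q, T.NB q l → DependsOn (β q) (loc (T.half (q 1) (q 0)))
  equiv : ∀ (g : T.G ≃g T.G) (q q' : ℕ → V), (∀ i, i ≤ l → g (q i) = q' i) →
    ∀ x, β q' x = β q (T.T0 g x)
  small : ∀ q, T.NB q l → ∫ x, β q x ∂mu0 V ≤ P

section avg

variable {T} {l : ℕ} {P : ℝ} {β : (ℕ → V) → Om0 V → ℝ} {X : V → V → Om V → ℝ}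

theorem RayFam.transport (hβ : T.RayFam l P β) (hl : 1 ≤ l)
    (hX : ∀ u v, T.G.Adj u v → AB (mu V) (X u v))
    (hXg : ∀ (g : T.G ≃g T.G) u v, T.G.Adj u v →
      X (g u) (g v) =ᵐ[mu V] fun ω => X u v (T.Tg g ω))
    {n : ℕ} {p q : ℕ → V} (hp : T.NB p (n + l)) (hq : T.NB q (n + l)) :
    ∫ ω, X (p 0) (p 1) ω * β (fun j => p (n + j)) ω.1 ∂mu V
      = ∫ ω, X (q 0) (q 1) ω * β (fun j => q (n + j)) ω.1 ∂mu V := by
  obtain ⟨g, hg⟩ := T.exists_aut hp hq
  have hadj : T.G.Adj (p 0) (p 1) := hp.1 0 (by omega)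
  have h1 : AB (mu V) (fun ω => X (p 0) (p 1) ω * β (fun j => p (n + j)) ω.1) :=
    (hX _ _ hadj).mul ((hβ.bm _).comp measurable_fst).ab
  rw [← integral_comp_mp (T.mp_Tg g) h1.meas]
  refine integral_congr_ae ?_
  have h2 := hXg g _ _ hadj
  rw [hg 0 (by omega), hg 1 (by omega)] at h2
  filter_upwards [h2] with ω hω
  rw [hω, hβ.equiv g (fun j => p (n + j)) (fun j => q (n + j)) (fun i hi => hg _ (by omega))]
  rfl

theorem RayFam.avg (hβ : T.RayFam l P β) (hl : 1 ≤ l)
    (hX : ∀ u v, T.G.Adj u v → AB (mu V) (X u v))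
    (hXg : ∀ (g : T.G ≃g T.G) u v, T.G.Adj u v →
      X (g u) (g v) =ᵐ[mu V] fun ω => X u v (T.Tg g ω)) (m : ℕ) :
    ∀ (i : ℕ) (p : ℕ → V), T.NB p (i + 1) → ∃ B : Om0 V → ℝ, BM B ∧
      DependsOn B (loc (T.half (p (i + 1)) (p i))) ∧
      (∀ s : ℝ, 0 ≤ s → s ≤ 2 ^ m → ∫ x, Real.exp (s * B x) ∂mu0 V ≤ Real.exp (2 * s * P)) ∧
      ∀ q : ℕ → V, T.NB q (i + m + l) → ∫ ω, X (p 0) (p 1) ω * B ω.1 ∂mu V
        = ∫ ω, X (q 0) (q 1) ω * β (fun j => q (i + m + j)) ω.1 ∂mu V := by
  induction m with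
  | zero =>
    intro i p hp
    obtain ⟨p', hp', h⟩ := hp.extend (l - 1)
    rw [show i + 1 + (l - 1) = i + l by omega] at hp'
    have hr : T.NB (fun j => p' (i + j)) l := by
      have := hp'.shift i
      rwa [Nat.add_sub_cancel_left] at this
    refine ⟨β (fun j => p' (i + j)), hβ.bm _, ?_, fun s hs0 hs1 => ?_, fun q hq => ?_⟩
    · have := hβ.dep _ hr
      simp only [Nat.add_zero] at this
      rwa [h _ le_rfl, h _ (Nat.le_succ i)] at this
    · rw [pow_zero] at hs1
      have hb := hβ.bm (fun j => p' (i + j))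
      calc ∫ x, Real.exp (s * β (fun j => p' (i + j)) x) ∂mu0 V
          ≤ ∫ x, (1 + 2 * s * β (fun j => p' (i + j)) x) ∂mu0 V := by
            refine integral_mono ((hb.const_mul s).cont Real.continuous_exp).integrable
              ((BM.const 1).add (hb.const_mul (2 * s))).integrable fun x => ?_
            have h0 := hβ.nonneg (fun j => p' (i + j)) x
            have h1 := hβ.le_one (fun j => p' (i + j)) x
            have h2 : 0 ≤ s * β (fun j => p' (i + j)) x := mul_nonneg hs0 h0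
            have h3 : s * β (fun j => p' (i + j)) x ≤ 1 := mul_le_one₀ hs1 h0 h1
            have h4 := Real.abs_exp_sub_one_le (x := s * β (fun j => p' (i + j)) x)
              (by rw [abs_of_nonneg h2]; exact h3)
            rw [abs_of_nonneg h2] at h4
            have h5 := (abs_le.1 h4).2
            simp only
            linarith
        _ = 1 + 2 * s * ∫ x, β (fun j => p' (i + j)) x ∂mu0 V := by
            rw [integral_add (integrable_const _) (hb.const_mul (2 * s)).integrable,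
              integral_const_mul]
            simp
        _ ≤ 1 + 2 * s * P := by
            have := hβ.small _ hr
            gcongr
        _ ≤ Real.exp (2 * s * P) := by
            have := Real.add_one_le_exp (2 * s * P)
            linarith
    · rw [← h 0 (by omega), ← h 1 (by omega)]
      exact hβ.transport hl hX hXg hp' hq
  | succ m ih =>
    intro i p hp
    obtain ⟨c₁, c₂, h1, h2, h1u, h2u, h12⟩ := T.exists_two_adj (p (i + 1)) (p i)
    have hadj : T.G.Adj (p (i + 1)) (p i) := (hp.1 i (by omega)).symm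
    have hadj0 : T.G.Adj (p 0) (p 1) := hp.1 0 (by omega)
    obtain ⟨B₁, hb1, hd1, he1, hq1⟩ := ih (i + 1) _ (hp.snoc h1 h1u)
    obtain ⟨B₂, hb2, hd2, he2, hq2⟩ := ih (i + 1) _ (hp.snoc h2 h2u)
    rw [show i + 1 + 1 = i + 2 by omega, Function.update_self,
      Function.update_of_ne (show i + 1 ≠ i + 2 by omega)] at hd1 hd2
    rw [Function.update_of_ne (show 0 ≠ i + 2 by omega),
      Function.update_of_ne (show 1 ≠ i + 2 by omega)] at hq1 hq2
    refine ⟨fun x => (B₁ x + B₂ x) / 2, (hb1.add hb2).div_const 2, ?_, fun s hs0 hs1 => ?_,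
      fun q hq => ?_⟩
    · intro x y hxy
      have e1 : B₁ x = B₁ y := hd1.mono (loc_mono (T.half_subset hadj h1 h1u)) hxy
      have e2 : B₂ x = B₂ y := hd2.mono (loc_mono (T.half_subset hadj h2 h2u)) hxy
      simp only [e1, e2]
    · have e : ∀ x, Real.exp (s * ((B₁ x + B₂ x) / 2))
          = Real.exp (s / 2 * B₁ x) * Real.exp (s / 2 * B₂ x) := by
        intro x
        rw [← Real.exp_add]
        congr 1
        ring
      simp only [e]
      have hs2 : s / 2 ≤ 2 ^ m := by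
        rw [pow_succ] at hs1
        linarith
      rw [integral_mul_of_dependsOn (X := fun x => Real.exp (s / 2 * B₁ x))
        (Y := fun x => Real.exp (s / 2 * B₂ x))
        ((hb1.const_mul _).cont Real.continuous_exp) ((hb2.const_mul _).cont Real.continuous_exp)
        (A := loc (T.half c₁ (p (i + 1)))) (B := loc (T.half c₂ (p (i + 1))))
        (fun x y hxy => by simp only [hd1 hxy]) (fun x y hxy => by simp only [hd2 hxy])
        (loc_disjoint (T.half_disjoint h1 h2 h12))]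
      calc _ ≤ Real.exp (2 * (s / 2) * P) * Real.exp (2 * (s / 2) * P) :=
            mul_le_mul (he1 _ (by linarith) hs2) (he2 _ (by linarith) hs2)
              (integral_nonneg fun x => (Real.exp_pos _).le) (Real.exp_pos _).le
        _ = Real.exp (2 * s * P) := by
            rw [← Real.exp_add]
            congr 1
            ring
    · have hq' : T.NB q (i + 1 + m + l) := by
        rwa [show i + 1 + m + l = i + (m + 1) + l by omega]
      have e1 := hq1 q hq'
      have e2 := hq2 q hq'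
      rw [show i + 1 + m = i + (m + 1) by omega] at e1 e2
      have i1 : Integrable (fun ω : Om V => X (p 0) (p 1) ω * B₁ ω.1) (mu V) :=
        ((hX _ _ hadj0).mul (hb1.comp measurable_fst).ab).integrable
      have i2 : Integrable (fun ω : Om V => X (p 0) (p 1) ω * B₂ ω.1) (mu V) :=
        ((hX _ _ hadj0).mul (hb2.comp measurable_fst).ab).integrable
      have e : ∀ ω : Om V, X (p 0) (p 1) ω * ((B₁ ω.1 + B₂ ω.1) / 2)
          = (X (p 0) (p 1) ω * B₁ ω.1 + X (p 0) (p 1) ω * B₂ ω.1) / 2 := fun ω => by ring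
      simp only [e]
      rw [integral_div, integral_add i1 i2, e1, e2]
      ring

theorem RayFam.bound (hβ : T.RayFam l P β) (hl : 1 ≤ l) {cX : ℝ}
    (hX : ∀ u v, T.G.Adj u v → AB (mu V) (X u v))
    (hXb : ∀ u v, T.G.Adj u v → ∀ᵐ ω ∂mu V, 0 ≤ X u v ω ∧ X u v ω ≤ cX)
    (hXg : ∀ (g : T.G ≃g T.G) u v, T.G.Adj u v →
      X (g u) (g v) =ᵐ[mu V] fun ω => X u v (T.Tg g ω))
    {m : ℕ} {p : ℕ → V} (hp : T.NB p (m + l)) {w : ℝ} (hw1 : (1 / 2) ^ m ≤ w) (hw2 : P ≤ w)
    {lam : ℝ} (hlam : 0 ≤ lam) :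
    ∫ ω, X (p 0) (p 1) ω * β (fun j => p (m + j)) ω.1 ∂mu V
      ≤ Real.exp 2 * w * (lam * (∫ ω, X (p 0) (p 1) ω ∂mu V) + cX * Real.exp (-lam)) := by
  obtain ⟨B, hb, -, he, hq⟩ := hβ.avg hl hX hXg m 0 p (hp.mono (by omega))
  have hadj0 : T.G.Adj (p 0) (p 1) := hp.1 0 (by omega)
  have e := hq p (by rwa [Nat.zero_add])
  rw [Nat.zero_add] at e
  rw [← e]
  have hw : 0 < w := lt_of_lt_of_le (by positivity) hw1
  have hcX : 0 ≤ cX := by
    obtain ⟨ω, hω⟩ := (hXb _ _ hadj0).exists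
    exact hω.1.trans hω.2
  have hs : w⁻¹ ≤ 2 ^ m := by
    rw [inv_le_comm₀ hw (by positivity), ← inv_pow]
    simpa using hw1
  have hE : ∫ x, Real.exp (w⁻¹ * B x) ∂mu0 V ≤ Real.exp 2 := by
    refine (he _ (inv_nonneg.2 hw.le) hs).trans (Real.exp_le_exp.2 ?_)
    have : w⁻¹ * P ≤ 1 := by
      rw [inv_mul_le_iff₀ hw]
      linarith
    linarith
  have hbe : BM (fun x => Real.exp (w⁻¹ * B x)) := (hb.const_mul _).cont Real.continuous_exp
  have hE' : ∫ ω : Om V, Real.exp (w⁻¹ * B ω.1) ∂mu V ≤ Real.exp 2 := by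
    rw [integral_comp_mp (f := fun x => Real.exp (w⁻¹ * B x)) mp_fst
      hbe.meas.aestronglyMeasurable]
    exact hE
  have hXi := hX _ _ hadj0
  have hI : 0 ≤ ∫ ω, X (p 0) (p 1) ω ∂mu V :=
    integral_nonneg_of_ae (by filter_upwards [hXb _ _ hadj0] with ω hω using hω.1)
  have h1e : 1 ≤ Real.exp 2 := Real.one_le_exp (by norm_num)
  have i1 : Integrable (fun ω : Om V => w * lam * X (p 0) (p 1) ω) (mu V) :=
    (hXi.const_mul _).integrable
  have i2 : Integrable (fun ω : Om V => w * cX * Real.exp (-lam) * Real.exp (w⁻¹ * B ω.1))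
      (mu V) := ((hbe.comp measurable_fst).const_mul _).integrable
  calc ∫ ω, X (p 0) (p 1) ω * B ω.1 ∂mu V
      ≤ ∫ ω, (w * lam * X (p 0) (p 1) ω
          + w * cX * Real.exp (-lam) * Real.exp (w⁻¹ * B ω.1)) ∂mu V := by
        refine integral_mono_ae (hXi.mul (hb.comp measurable_fst).ab).integrable (i1.add i2) ?_
        filter_upwards [hXb _ _ hadj0] with ω hω
        have h1 := Real.add_one_le_exp (-lam + w⁻¹ * B ω.1)
        rw [Real.exp_add] at h1
        have h2 : B ω.1 = w * (w⁻¹ * B ω.1) := by field_simp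
        have h3 : 0 < Real.exp (-lam) * Real.exp (w⁻¹ * B ω.1) := by positivity
        have h4 : B ω.1 ≤ w * (lam + Real.exp (-lam) * Real.exp (w⁻¹ * B ω.1)) := by
          rw [h2]
          refine mul_le_mul_of_nonneg_left ?_ hw.le
          rw [← h2]
          linarith
        have h5 := mul_le_mul_of_nonneg_left h4 hω.1
        have h6 := mul_le_mul_of_nonneg_right hω.2 (mul_pos hw h3).le
        nlinarith
    _ = w * lam * (∫ ω, X (p 0) (p 1) ω ∂mu V)
          + w * cX * Real.exp (-lam) * ∫ ω : Om V, Real.exp (w⁻¹ * B ω.1) ∂mu V := by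
        rw [integral_add i1 i2, integral_const_mul, integral_const_mul]
    _ ≤ Real.exp 2 * (w * lam * (∫ ω, X (p 0) (p 1) ω ∂mu V))
          + w * cX * Real.exp (-lam) * Real.exp 2 := by
        refine add_le_add ?_ (mul_le_mul_of_nonneg_left hE' (by positivity))
        exact le_mul_of_one_le_left (by positivity) h1e
    _ = _ := by ring

end avg

/-- the indicator of an atypical ray -/
noncomputable def badInd (t a : ℝ) (l : ℕ) (q : ℕ → V) : Om0 V → ℝ :=
  {x | ∑ j ∈ Finset.range l, zeta T.θ (T.AO (Ot t) (q (j + 1)) (q j) x) < a}.indicator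
    (fun _ => (1 : ℝ))

theorem rayFam_badInd {t a P : ℝ} {l : ℕ}
    (hP : ∀ q, T.NB q l → (mu0 V).real
      {x | ∑ j ∈ Finset.range l, zeta T.θ (T.AO (Ot t) (q (j + 1)) (q j) x) < a} ≤ P) :
    T.RayFam l P (T.badInd t a l) := by
  have hO : IsMask ⌈t⌉ (Ot t : Clk V → Set (Slot V)) := isMask_Ot (by linarith [Int.le_ceil t])
  have hm : ∀ q : ℕ → V, MeasurableSet
      {x | ∑ j ∈ Finset.range l, zeta T.θ (T.AO (Ot t) (q (j + 1)) (q j) x) < a} := by
    intro q
    refine measurableSet_lt (Finset.measurable_sum _ fun j _ => ?_) measurable_const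
    exact (continuous_zeta T.θ_nonneg T.θ_lt_one).measurable.comp (T.measurable_AO hO _ _)
  refine ⟨fun q => BM.indicator_one (hm q), fun q x => ?_, fun q x => ?_, fun q hq => ?_,
    fun g q q' hg x => ?_, fun q hq => ?_⟩
  · exact indicator_nonneg (fun _ _ => zero_le_one) x
  · exact indicator_le_self' (fun _ _ => zero_le_one) x
  · intro x y hxy
    have e : ∑ j ∈ Finset.range l, zeta T.θ (T.AO (Ot t) (q (j + 1)) (q j) x)
        = ∑ j ∈ Finset.range l, zeta T.θ (T.AO (Ot t) (q (j + 1)) (q j) y) := by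
      refine Finset.sum_congr rfl fun j hj => ?_
      have hj' := Finset.mem_range.1 hj
      have h1 := T.dependsOn_AO (isLocal_Ot t) (hq.1 j hj').symm
      have h2 := hq.half_subset (Nat.zero_le j) hj'
      rw [h1.mono (loc_mono h2) hxy]
    classical
    simp only [badInd, indicator_apply, mem_ofPred_eq, e]
  · have e : ∑ j ∈ Finset.range l, zeta T.θ (T.AO (Ot t) (q' (j + 1)) (q' j) x)
        = ∑ j ∈ Finset.range l, zeta T.θ (T.AO (Ot t) (q (j + 1)) (q j) (T.T0 g x)) := by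
      refine Finset.sum_congr rfl fun j hj => ?_
      have hj' := Finset.mem_range.1 hj
      rw [T.AO_Ot_T0, hg j hj'.le, hg (j + 1) hj']
    classical
    simp only [badInd, indicator_apply, mem_ofPred_eq, e]
  · unfold badInd
    rw [integral_indicator (hm q)]
    simpa using hP q hq

theorem bad_bound (hc : ((T.d : ℝ) - 1) * T.θ ^ 2 = 1) (R : ℕ) :
    ∃ c C q : ℝ, 0 < c ∧ 0 < C ∧ 0 ≤ q ∧ q < 1 ∧
      ∀ r : ℤ, r ≤ R → ∀ t : ℝ, r ≤ t → t ≤ r + 1 →
      ∀ (X : V → V → Om V → ℝ) (cX : ℝ),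
        (∀ u v, T.G.Adj u v → AB (mu V) (X u v)) →
        (∀ u v, T.G.Adj u v → ∀ᵐ ω ∂mu V, 0 ≤ X u v ω ∧ X u v ω ≤ cX) →
        (∀ u v, T.G.Adj u v → X u v =ᵐ[mu V] X v u) →
        (∀ (g : T.G ≃g T.G) u v, T.G.Adj u v →
          X (g u) (g v) =ᵐ[mu V] fun ω => X u v (T.Tg g ω)) →
        ∀ (p : ℕ → V) (k j : ℕ), T.NB p k → j < k → ∀ lam : ℝ, 1 ≤ lam →
          ∫ ω, X (p j) (p (j + 1)) ω
              * {ω | T.Spath p k (T.Yt t ω) < c * kap r * k}.indicator (fun _ => (1 : ℝ)) ω ∂mu V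
            ≤ C * q ^ k * (lam * (∫ ω, X (p j) (p (j + 1)) ω ∂mu V) + cX * Real.exp (-lam)) := by
  obtain ⟨c0, hc0, hbad⟩ := T.bad_ray hc R
  set q : ℝ := max (9 / 10) (Real.exp (-(c0 / 4))) with hqdef
  have hq0 : 0 ≤ q := le_max_of_le_left (by norm_num)
  have hq1 : q < 1 := max_lt (by norm_num) (Real.exp_lt_one_iff.2 (by linarith))
  refine ⟨c0 / 8, Real.exp 2 * 2, q, by positivity, by positivity, hq0, hq1, ?_⟩
  intro r hr t ht1 ht2 X cX hX hXb hXs hXg
  have main : ∀ (p : ℕ → V) (k j : ℕ), T.NB p k → j < k → 2 * j ≤ k → ∀ lam : ℝ, 1 ≤ lam →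
      ∫ ω, X (p j) (p (j + 1)) ω
          * {ω | T.Spath p k (T.Yt t ω) < c0 / 8 * kap r * k}.indicator (fun _ => (1 : ℝ)) ω ∂mu V
        ≤ Real.exp 2 * 2 * q ^ k
          * (lam * (∫ ω, X (p j) (p (j + 1)) ω ∂mu V) + cX * Real.exp (-lam)) := by
    intro p k j hp hjk h2j lam hlam
    obtain ⟨m, hm⟩ : ∃ m, m = (k - j) / 2 := ⟨_, rfl⟩
    obtain ⟨l, hl⟩ : ∃ l, l = k - j - m := ⟨_, rfl⟩
    have hl1 : 1 ≤ l := by omega
    have hkl : k ≤ 4 * l := by omega
    have hkm : k ≤ 4 * m + 2 := by omega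
    have hβ := T.rayFam_badInd (t := t) (a := c0 * kap r * l) (l := l)
      (fun q hq => hbad r hr t ht1 ht2 q l hq)
    have hp' : T.NB (fun i => p (j + i)) (m + l) := by
      have := hp.shift j
      rwa [show k - j = m + l by omega] at this
    have hw1 : (1 / 2 : ℝ) ^ m ≤ 2 * q ^ k := by
      have h1 : q ^ (4 * m + 2) ≤ q ^ k := pow_le_pow_of_le_one hq0 hq1.le hkm
      have h2 : (9 / 10 : ℝ) ^ (4 * m + 2) ≤ q ^ (4 * m + 2) :=
        pow_le_pow_left₀ (by norm_num) (le_max_left _ _) _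
      have h3 : (1 / 2 : ℝ) ^ m ≤ ((9 / 10 : ℝ) ^ 4) ^ m :=
        pow_le_pow_left₀ (by norm_num) (by norm_num) _
      rw [pow_add, pow_mul] at h2
      have h4 : (0 : ℝ) ≤ ((9 / 10 : ℝ) ^ 4) ^ m := by positivity
      nlinarith
    have hw2 : Real.exp (-(c0 * l)) ≤ 2 * q ^ k := by
      have h1 : q ^ (4 * l) ≤ q ^ k := pow_le_pow_of_le_one hq0 hq1.le hkl
      have h2 : Real.exp (-(c0 / 4)) ^ (4 * l) ≤ q ^ (4 * l) :=
        pow_le_pow_left₀ (Real.exp_pos _).le (le_max_right _ _) _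
      rw [← Real.exp_nat_mul] at h2
      have h3 : ((4 * l : ℕ) : ℝ) * -(c0 / 4) = -(c0 * l) := by push_cast; ring
      rw [h3] at h2
      have h4 : 0 ≤ q ^ k := pow_nonneg hq0 k
      linarith
    have hb := hβ.bound hl1 hX hXb hXg hp' hw1 hw2 (zero_le_one.trans hlam)
    simp only [Nat.add_zero] at hb
    rw [← mul_assoc] at hb
    refine le_trans ?_ hb
    have hadj : T.G.Adj (p j) (p (j + 1)) := hp.1 j hjk
    have hO : IsMask r (Ot t : Clk V → Set (Slot V)) := isMask_Ot ht2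
    have hms : MeasurableSet {ω | T.Spath p k (T.Yt t ω) < c0 / 8 * kap r * k} :=
      measurableSet_lt ((T.measurable_Spath p k).comp (T.measurable_Yt t)) measurable_const
    refine integral_mono_ae ((hX _ _ hadj).mul (BM.indicator_one hms).ab).integrable
      ((hX _ _ hadj).mul ((hβ.bm _).comp measurable_fst).ab).integrable ?_
    filter_upwards [hXb _ _ hadj, T.good_ae hO] with ω hω hgood
    refine mul_le_mul_of_nonneg_left ?_ hω.1
    by_cases hS : T.Spath p k (T.Yt t ω) < c0 / 8 * kap r * k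
    · have h1 := hgood.Spath_ge hp (i := j + m) (l := l) (by omega)
      have h2 : ∑ i ∈ Finset.range l,
            zeta T.θ (T.acav (p (j + m + i + 1)) (p (j + m + i)) (T.YO (Ot t) ω))
          = ∑ i ∈ Finset.range l,
            zeta T.θ (T.AO (Ot t) (p (j + (m + (i + 1)))) (p (j + (m + i))) ω.1) := by
        refine Finset.sum_congr rfl fun i _ => ?_
        rw [T.even_acav_YO (Ot t) _ _ (F := zeta T.θ) zeta_neg ω,
          show j + m + i + 1 = j + (m + (i + 1)) by omega, show j + m + i = j + (m + i) by omega]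
      rw [h2] at h1
      have h3 : (k : ℝ) ≤ 4 * l := by exact_mod_cast hkl
      have h4 : 0 < c0 * kap r := mul_pos hc0 (kap_pos r)
      have h5 : c0 * kap r * k ≤ c0 * kap r * (4 * l) := mul_le_mul_of_nonneg_left h3 h4.le
      have hS' : T.Spath p k (T.YO (Ot t) ω) < c0 / 8 * kap r * k := hS
      rw [indicator_of_mem (show ω ∈ {ω | T.Spath p k (T.Yt t ω) < c0 / 8 * kap r * k} from hS)]
      unfold badInd
      rw [indicator_of_mem]
      simp only [mem_ofPred_eq]
      linarith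
    · rw [indicator_of_notMem
        (show ω ∉ {ω | T.Spath p k (T.Yt t ω) < c0 / 8 * kap r * k} from hS)]
      exact hβ.nonneg _ _
  intro p k j hp hjk lam hlam
  by_cases h2j : 2 * j ≤ k
  · exact main p k j hp hjk h2j lam hlam
  · have h := main (fun i => p (k - i)) k (k - 1 - j) hp.rev (by omega) (by omega) lam hlam
    simp only [T.Spath_rev] at h
    rw [show k - (k - 1 - j) = j + 1 by omega, show k - (k - 1 - j + 1) = j by omega] at h
    have hs := hXs _ _ (hp.1 j hjk)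
    rw [integral_congr_ae hs]
    refine le_trans (le_of_eq (integral_congr_ae ?_)) h
    filter_upwards [hs] with ω hω
    rw [hω]

end Ctx

end Crest.Agent.R160
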