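import Crest.Agent.R160.RateA
import Crest.Agent.R160.RayB
import Crest.Agent.R160.Decor
import Crest.Agent.R160.RateB1

/-! The Osgood-type rate bound. -/

set_option autoImplicit false

namespace Crest.Agent.R160

open MeasureTheory ProbabilityTheory Set Filter Topology
open scoped ENNReal

universe u

variable {V : Type u}

theorem rb_one_sub_exp_inv_le {y : ℝ} (hy : 0 < y) : (1 - Real.exp (-y))⁻¹ ≤ 1 + 1 / y := by
  have h1 : y + 1 ≤ Real.exp y := Real.add_one_le_exp y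
  have h2 : Real.exp (-y) ≤ (y + 1)⁻¹ := by
    rw [Real.exp_neg]
    exact inv_anti₀ (by linarith) h1
  have h3 : (1 + 1 / y)⁻¹ ≤ 1 - Real.exp (-y) := by
    have : (1 + 1 / y)⁻¹ = 1 - (y + 1)⁻¹ := by field_simp; ring
    rw [this]; linarith
  have h4 : 0 < (1 + 1 / y)⁻¹ := by positivity
  exact (inv_anti₀ h4 h3).trans (le_of_eq (inv_inv _))

theorem rb_sum_geom_le {y : ℝ} (hy : 0 < y) (n : ℕ) :
    ∑ k ∈ Finset.range n, Real.exp (-y) ^ k ≤ 1 + 1 / y := by
  have h0 : 0 ≤ Real.exp (-y) := (Real.exp_pos _).le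
  have h1 : Real.exp (-y) < 1 := Real.exp_lt_one_iff.2 (by linarith)
  refine le_trans ?_ (rb_one_sub_exp_inv_le hy)
  rw [← tsum_geometric_of_lt_one h0 h1]
  exact (summable_geometric_of_lt_one h0 h1).sum_le_tsum _ fun k _ => pow_nonneg h0 k

theorem rb_sum_mul_geom_le {y : ℝ} (hy : 0 < y) (n : ℕ) :
    ∑ k ∈ Finset.range n, (k : ℝ) * Real.exp (-y) ^ k ≤ (1 + 1 / y) ^ 2 := by
  have h0 : 0 ≤ Real.exp (-y) := (Real.exp_pos _).le
  have h1 : Real.exp (-y) < 1 := Real.exp_lt_one_iff.2 (by linarith)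
  have h2 : ‖Real.exp (-y)‖ < 1 := by rwa [Real.norm_of_nonneg h0]
  have h3 := hasSum_coe_mul_geometric_of_norm_lt_one h2
  have h4 : ∑ k ∈ Finset.range n, (k : ℝ) * Real.exp (-y) ^ k
      ≤ Real.exp (-y) / (1 - Real.exp (-y)) ^ 2 :=
    sum_le_hasSum _ (fun k _ => mul_nonneg (Nat.cast_nonneg k) (pow_nonneg h0 k)) h3
  refine h4.trans ?_
  have h5 := rb_one_sub_exp_inv_le hy
  have h6 : 0 ≤ (1 - Real.exp (-y))⁻¹ := inv_nonneg.2 (by linarith)
  rw [div_eq_mul_inv, ← inv_pow]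
  exact (mul_le_of_le_one_left (pow_nonneg h6 2) h1.le).trans (pow_le_pow_left₀ h6 h5 2)

namespace Ctx

variable (T : Ctx V)

theorem rb_d_sub_one_nonneg : (0 : ℝ) ≤ (T.d : ℝ) - 1 := by
  have h : (3 : ℝ) ≤ T.d := by exact_mod_cast T.hd
  linarith

theorem rateHyp_sub (hc : ((T.d : ℝ) - 1) * T.θ ^ 2 < 1) (R : ℕ) :
    ∃ C : ℝ, 0 < C ∧ ∀ t : ℝ, t ≤ R + 1 → T.RateHyp t C := by
  obtain ⟨C1, hC1, h1⟩ := T.res_lt_le R
  obtain ⟨C2, hC2, h2⟩ := T.res_et_le R
  set w : ℝ := ((T.d : ℝ) - 1) * T.θ ^ 2 with hw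
  have hw0 : 0 ≤ w := mul_nonneg T.rb_d_sub_one_nonneg (sq_nonneg _)
  have hs : Summable (fun k : ℕ => 2 * (6 * C1 + 1 + 3 * C2 * (k : ℝ) ^ 2) * w ^ k) := by
    have a1 := (summable_geometric_of_lt_one hw0 hc).mul_left (2 * (6 * C1 + 1))
    have a2 := (summable_pow_mul_geometric_of_norm_lt_one 2
      (show ‖w‖ < 1 by rwa [Real.norm_of_nonneg hw0])).mul_left (6 * C2)
    refine (a1.add a2).congr fun k => ?_
    ring
  have hpos : ∀ k : ℕ, 0 ≤ 2 * (6 * C1 + 1 + 3 * C2 * (k : ℝ) ^ 2) * w ^ k := fun k => by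
    positivity
  have hB : 0 ≤ ∑' k : ℕ, 2 * (6 * C1 + 1 + 3 * C2 * (k : ℝ) ^ 2) * w ^ k := tsum_nonneg hpos
  refine ⟨1 + ∑' k : ℕ, 2 * (6 * C1 + 1 + 3 * C2 * (k : ℝ) ^ 2) * w ^ k, by linarith,
    fun t ht => T.rateHyp_of_path fun lam hlam => ?_⟩
  have hδ := T.delta_nonneg t
  refine ⟨fun k => (T.θ ^ 2) ^ k * ((6 * C1 + 1 + 3 * C2 * (k : ℝ) ^ 2) * T.delta t),
    fun k => by positivity, fun p k _ => ?_, fun n => ?_⟩
  · have hI := T.rbI_le t p k (E := fun _ => 1)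
      (Eventually.of_forall fun ω => Real.exp_le_one_iff.2 (by
        have := T.Spath_nonneg p k (T.Yt t ω); linarith))
      (by
        filter_upwards [T.rbSt_nonneg t p k] with ω hω
        exact Real.exp_le_one_iff.2 (by linarith))
    simp only [mul_one] at hI
    refine (integral_mono_ae (T.rb_AB_I t p k).integrable
      ((T.rb_AB_Q t p k).const_mul _).integrable hI).trans ?_
    rw [integral_const_mul, T.rb_integral_Q]
    refine mul_le_mul_of_nonneg_left ?_ (by positivity)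
    have hsum : AB (mu V)
        (fun ω => ∑ j ∈ Finset.range k, T.res t (T.et t (p j) (p (j + 1))) ω ^ 2) :=
      AB.sum (Finset.range k) (F := fun j ω => T.res t (T.et t (p j) (p (j + 1))) ω ^ 2)
        fun _ _ => (T.rb_AB_res_et t _ _).pow 2
    have hS : ∫ ω, T.rbSig t p k ω ^ 2 ∂mu V ≤ k * (k * (C2 * T.delta t)) := by
      refine (integral_mono ((T.rb_AB_Sig t p k).pow 2).integrable (hsum.const_mul k).integrable
        fun ω => T.rbSig_sq_le t p k ω).trans ?_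
      rw [integral_const_mul, integral_finsetSum _
        fun _ _ => ((T.rb_AB_res_et t _ _).pow 2).integrable]
      refine mul_le_mul_of_nonneg_left ?_ (Nat.cast_nonneg k)
      refine (Finset.sum_le_sum fun j _ => h2 t ht (p j) (p (j + 1))).trans ?_
      rw [Finset.sum_const, Finset.card_range, nsmul_eq_mul]
    have a1 := h1 t ht (p 0)
    have a2 := h1 t ht (p k)
    nlinarith
  · have e : ∀ k : ℕ, 2 * ((T.d : ℝ) - 1) ^ k
        * ((T.θ ^ 2) ^ k * ((6 * C1 + 1 + 3 * C2 * (k : ℝ) ^ 2) * T.delta t))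
        = (2 * (6 * C1 + 1 + 3 * C2 * (k : ℝ) ^ 2) * w ^ k) * T.delta t := fun k => by
      rw [hw, mul_pow]; ring
    simp only [e]
    rw [← Finset.sum_mul]
    have a1 := hs.sum_le_tsum (Finset.range n) fun k _ => hpos k
    have a2 : T.delta t ≤ lam * T.delta t + Real.exp (-lam) := by
      have := Real.exp_pos (-lam)
      nlinarith
    exact mul_le_mul (by linarith) a2 hδ (by linarith)

/-- the indicator of an atypical path -/
noncomputable def rbG (t : ℝ) (p : ℕ → V) (k : ℕ) (y : ℝ) : Om V → ℝ :=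
  {ω | T.Spath p k (T.Yt t ω) < y}.indicator (fun _ => (1 : ℝ))

theorem rb_bm_G (t : ℝ) (p : ℕ → V) (k : ℕ) (y : ℝ) : BM (T.rbG t p k y) :=
  BM.indicator_one (measurableSet_lt ((T.measurable_Spath p k).comp (T.measurable_Yt t))
    measurable_const)

theorem rbG_nonneg (t : ℝ) (p : ℕ → V) (k : ℕ) (y : ℝ) (ω : Om V) : 0 ≤ T.rbG t p k y ω :=
  indicator_nonneg (fun _ _ => zero_le_one) ω

theorem rb_exp_S_le (t : ℝ) (p : ℕ → V) (k : ℕ) (y : ℝ) (ω : Om V) :
    Real.exp (-(2 * T.Spath p k (T.Yt t ω))) ≤ Real.exp (-(2 * y)) + T.rbG t p k y ω := by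
  have h0 := T.Spath_nonneg p k (T.Yt t ω)
  have h1 := Real.exp_pos (-(2 * y))
  by_cases h : T.Spath p k (T.Yt t ω) < y
  · have e : T.rbG t p k y ω = 1 := indicator_of_mem (s := {ω | T.Spath p k (T.Yt t ω) < y}) h _
    have : Real.exp (-(2 * T.Spath p k (T.Yt t ω))) ≤ 1 := Real.exp_le_one_iff.2 (by linarith)
    linarith
  · have := T.rbG_nonneg t p k y ω
    have : Real.exp (-(2 * T.Spath p k (T.Yt t ω))) ≤ Real.exp (-(2 * y)) :=
      Real.exp_le_exp.2 (by linarith)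
    linarith

theorem rb_bm_S (t : ℝ) (p : ℕ → V) (k : ℕ) : BM (fun ω => T.Spath p k (T.Yt t ω)) :=
  BM.sum (Finset.range k) (F := fun j => T.et t (p j) (p (j + 1))) fun _ _ => T.bm_et t _ _

theorem rb_exp_St_le (t : ℝ) (p : ℕ → V) (k : ℕ) (y : ℝ) :
    ∀ᵐ ω ∂mu V, Real.exp (-(2 * T.rbSt t p k ω))
      ≤ Real.exp (-(2 * y)) + T.Pt t (T.rbG t p k y) ω := by
  have hS := T.rb_bm_S t p k
  have hφ : ConvexOn ℝ univ (fun x : ℝ => Real.exp (-(2 * x))) := by
    have h := convexOn_exp.comp_linearMap (-(2 : ℝ) • (LinearMap.id : ℝ →ₗ[ℝ] ℝ))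
    rw [preimage_univ] at h
    refine h.congr fun x _ => ?_
    simp
  have hc : Continuous (fun x : ℝ => Real.exp (-(2 * x))) := by fun_prop
  have h1 := hφ.map_condExp_le_univ (μ := mu V) (T.calW_le t) hc.lowerSemicontinuous
    hS.integrable (hS.cont hc).integrable
  have h2 : (mu V)[fun ω => T.Spath p k (T.Yt t ω) | T.calW t] =ᵐ[mu V] T.rbSt t p k := by
    have h3 := condExp_finsetSum (μ := mu V) (s := Finset.range k)
      (f := fun j => T.et t (p j) (p (j + 1))) (fun _ _ => (T.bm_et t _ _).integrable) (T.calW t)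
    have e : (fun ω => T.Spath p k (T.Yt t ω))
        = ∑ j ∈ Finset.range k, T.et t (p j) (p (j + 1)) := by
      funext ω; rw [Finset.sum_apply]; rfl
    rw [e]
    filter_upwards [h3] with ω hω
    rw [hω, Finset.sum_apply]; rfl
  have h4 : (mu V)[(fun x : ℝ => Real.exp (-(2 * x))) ∘ (fun ω => T.Spath p k (T.Yt t ω))
        | T.calW t]
      ≤ᵐ[mu V] (mu V)[(fun _ => Real.exp (-(2 * y))) + T.rbG t p k y | T.calW t] :=
    condExp_mono (hS.cont hc).integrable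
      ((integrable_const _).add (T.rb_bm_G t p k y).integrable)
      (Eventually.of_forall fun ω => T.rb_exp_S_le t p k y ω)
  have h5 := condExp_add (μ := mu V) (integrable_const (Real.exp (-(2 * y))))
    (T.rb_bm_G t p k y).integrable (T.calW t)
  rw [condExp_const (T.calW_le t)] at h5
  filter_upwards [h1, h2, h4, h5] with ω a1 a2 a4 a5
  rw [← a2]
  exact a1.trans (a4.trans (le_of_eq a5))

/-- the local quadratic form of the residuals -/
noncomputable def rbX (t : ℝ) (u v : V) (ω : Om V) : ℝ :=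
  T.res t (T.lt t u) ω ^ 2 + T.res t (T.lt t v) ω ^ 2 + T.res t (T.et t u v) ω ^ 2
    + T.res t (T.mt t u) ω ^ 2 + T.res t (T.mt t v) ω ^ 2

theorem rb_AB_X (t : ℝ) (u v : V) : AB (mu V) (T.rbX t u v) :=
  (((((T.rb_AB_res_lt t u).pow 2).add ((T.rb_AB_res_lt t v).pow 2)).add
    ((T.rb_AB_res_et t u v).pow 2)).add ((T.rb_AB_res_mt t u).pow 2)).add
      ((T.rb_AB_res_mt t v).pow 2)

theorem rbX_nonneg (t : ℝ) (u v : V) (ω : Om V) : 0 ≤ T.rbX t u v ω := by
  unfold rbX; positivity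

theorem rbX_comm (t : ℝ) (u v : V) : T.rbX t u v = T.rbX t v u := by
  funext ω
  unfold rbX
  rw [T.et_comm t u v]
  ring

theorem rbX_equiv (g : T.G ≃g T.G) (t : ℝ) (u v : V) :
    T.rbX t (g u) (g v) =ᵐ[mu V] fun ω => T.rbX t u v (T.Tg g ω) := by
  have hl : ∀ v, T.res t (T.lt t (g v)) =ᵐ[mu V] fun ω => T.res t (T.lt t v) (T.Tg g ω) :=
    fun v => T.res_equiv g t (T.bm_lt t v).ab
      (Eventually.of_forall fun ω => (T.lt_Tg g t v ω).symm)
  have hm : ∀ v, T.res t (T.mt t (g v)) =ᵐ[mu V] fun ω => T.res t (T.mt t v) (T.Tg g ω) :=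
    fun v => T.res_equiv g t (T.bm_mt t v).ab
      (Eventually.of_forall fun ω => (T.mt_Tg g t v ω).symm)
  have he : T.res t (T.et t (g u) (g v)) =ᵐ[mu V] fun ω => T.res t (T.et t u v) (T.Tg g ω) :=
    T.res_equiv g t (T.bm_et t u v).ab
      (Eventually.of_forall fun ω => (T.et_Tg g t u v ω).symm)
  filter_upwards [hl u, hl v, hm u, hm v, he] with ω a1 a2 a3 a4 a5
  simp only [rbX]
  rw [a1, a2, a3, a4, a5]

theorem rb_res_sq_le (t : ℝ) {X : Om V → ℝ} {M : ℝ} (h : ∀ ω, |X ω| ≤ M) :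
    ∀ᵐ ω ∂mu V, T.res t X ω ^ 2 ≤ (2 * M) ^ 2 := by
  filter_upwards [condExp_abs_le (m := T.calW t) (Eventually.of_forall h : ∀ᵐ ω ∂mu V, |X ω| ≤ M)]
    with ω hω
  have h1 : |T.res t X ω| ≤ 2 * M := by
    refine (abs_sub _ _).trans ?_
    have := h ω
    have h2 : |T.Pt t X ω| ≤ M := hω
    linarith
  rw [← sq_abs]
  exact pow_le_pow_left₀ (abs_nonneg _) h1 2

/-- a bound for `rbX` -/
noncomputable def rbc (R : ℕ) : ℝ :=
  2 * (2 * T.Hmax R) ^ 2 + (2 * (2 * T.Hmax R / (1 - T.θ))) ^ 2 + 2 * (2 * 1) ^ 2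

theorem rbc_nonneg (R : ℕ) : 0 ≤ T.rbc R := by
  unfold rbc; positivity

theorem rbX_le {R : ℕ} {t : ℝ} (ht : t ≤ R + 1) (u v : V) :
    ∀ᵐ ω ∂mu V, T.rbX t u v ω ≤ T.rbc R := by
  have hl : ∀ v ω, |T.lt t v ω| ≤ T.Hmax R := fun v ω => by
    rw [abs_of_nonneg (T.lt_nonneg t v ω)]; exact T.lt_le ht v ω
  have he : ∀ ω, |T.et t u v ω| ≤ 2 * T.Hmax R / (1 - T.θ) := fun ω => by
    rw [abs_of_nonneg (T.et_nonneg t u v ω)]; exact T.et_le ht u v ω
  filter_upwards [T.rb_res_sq_le t (hl u), T.rb_res_sq_le t (hl v), T.rb_res_sq_le t he,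
    T.rb_res_sq_le t (T.abs_mt_le t u), T.rb_res_sq_le t (T.abs_mt_le t v)] with ω a1 a2 a3 a4 a5
  unfold rbX rbc
  linarith

theorem rb_integral_X (t : ℝ) (u v : V) :
    ∫ ω, T.rbX t u v ω ∂mu V
      = (∫ ω, T.res t (T.lt t u) ω ^ 2 ∂mu V) + (∫ ω, T.res t (T.lt t v) ω ^ 2 ∂mu V)
        + (∫ ω, T.res t (T.et t u v) ω ^ 2 ∂mu V) + T.delta t + T.delta t := by
  have i1 := (T.rb_AB_res_lt t u).pow 2
  have i2 := (T.rb_AB_res_lt t v).pow 2
  have i3 := (T.rb_AB_res_et t u v).pow 2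
  have i4 := (T.rb_AB_res_mt t u).pow 2
  have i5 := (T.rb_AB_res_mt t v).pow 2
  unfold rbX
  rw [integral_add (((i1.add i2).add i3).add i4).integrable i5.integrable,
    integral_add ((i1.add i2).add i3).integrable i4.integrable,
    integral_add (i1.add i2).integrable i3.integrable, integral_add i1.integrable i2.integrable,
    T.delta_eq, T.delta_eq]

theorem rbQ_le (t : ℝ) (p : ℕ → V) {k : ℕ} (hk : 0 < k) (ω : Om V) :
    T.rbQ t p k ω ≤ (3 * k + 7) * ∑ j ∈ Finset.range k, T.rbX t (p j) (p (j + 1)) ω := by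
  obtain ⟨k, rfl⟩ : ∃ k', k = k' + 1 := ⟨k - 1, by omega⟩
  set S := ∑ j ∈ Finset.range (k + 1), T.rbX t (p j) (p (j + 1)) ω with hS
  have h0 : T.rbX t (p 0) (p (0 + 1)) ω ≤ S :=
    Finset.single_le_sum (f := fun j => T.rbX t (p j) (p (j + 1)) ω)
      (fun j _ => T.rbX_nonneg t _ _ ω) (Finset.mem_range.2 hk)
  have h1 : T.rbX t (p k) (p (k + 1)) ω ≤ S :=
    Finset.single_le_sum (f := fun j => T.rbX t (p j) (p (j + 1)) ω)
      (fun j _ => T.rbX_nonneg t _ _ ω) (Finset.mem_range.2 (Nat.lt_succ_self k))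
  have h2 : T.rbSig t p (k + 1) ω ^ 2 ≤ ((k + 1 : ℕ) : ℝ) * S := by
    refine (T.rbSig_sq_le t p (k + 1) ω).trans
      (mul_le_mul_of_nonneg_left (Finset.sum_le_sum fun j _ => ?_) (Nat.cast_nonneg _))
    unfold rbX
    nlinarith [sq_nonneg (T.res t (T.lt t (p j)) ω), sq_nonneg (T.res t (T.lt t (p (j + 1))) ω),
      sq_nonneg (T.res t (T.mt t (p j)) ω), sq_nonneg (T.res t (T.mt t (p (j + 1))) ω)]
  have h3 : T.res t (T.lt t (p 0)) ω ^ 2 ≤ S := by
    refine le_trans ?_ h0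
    unfold rbX
    nlinarith [sq_nonneg (T.res t (T.et t (p 0) (p (0 + 1))) ω),
      sq_nonneg (T.res t (T.lt t (p (0 + 1))) ω),
      sq_nonneg (T.res t (T.mt t (p 0)) ω), sq_nonneg (T.res t (T.mt t (p (0 + 1))) ω)]
  have h4 : T.res t (T.lt t (p (k + 1))) ω ^ 2 ≤ S := by
    refine le_trans ?_ h1
    unfold rbX
    nlinarith [sq_nonneg (T.res t (T.et t (p k) (p (k + 1))) ω),
      sq_nonneg (T.res t (T.lt t (p k)) ω),
      sq_nonneg (T.res t (T.mt t (p k)) ω), sq_nonneg (T.res t (T.mt t (p (k + 1))) ω)]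
  have h5 : T.res t (T.mt t (p (k + 1))) ω ^ 2 ≤ S := by
    refine le_trans ?_ h1
    unfold rbX
    nlinarith [sq_nonneg (T.res t (T.et t (p k) (p (k + 1))) ω),
      sq_nonneg (T.res t (T.lt t (p k)) ω), sq_nonneg (T.res t (T.lt t (p (k + 1))) ω),
      sq_nonneg (T.res t (T.mt t (p k)) ω)]
  unfold rbQ
  linarith

theorem rb_Sig_decor (t : ℝ) {p : ℕ → V} {k : ℕ} (hp : T.NB p k) {a b : V} (hab : T.G.Adj a b) :
    ∫ ω, T.rbSig t p k ω ^ 2 ∂mu V ≤ 100 * k * ∫ ω, T.res t (T.et t a b) ω ^ 2 ∂mu V :=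
  T.decor (f := fun u v => T.res t (T.et t u v)) (fun u v _ => T.rb_AB_res_et t u v)
    (fun u v _ => by rw [T.et_comm t u v])
    (fun g u v _ => T.res_equiv g t (T.bm_et t u v).ab
      (Eventually.of_forall fun ω => (T.et_Tg g t u v ω).symm))
    (fun u v _ => T.res_flip t (T.bm_et t u v).ab (Eventually.of_forall fun ω => T.et_flip t u v ω))
    (fun u v _ => T.integral_res t (T.bm_et t u v).ab) hp hab

/-- the contribution of the atypical paths -/
theorem rb_bad (hc : ((T.d : ℝ) - 1) * T.θ ^ 2 = 1) (R : ℕ) :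
    ∃ c C q : ℝ, 0 < c ∧ 0 < C ∧ 0 ≤ q ∧ q < 1 ∧
      ∀ r : ℤ, r ≤ R → ∀ t : ℝ, r ≤ t → t ≤ r + 1 → ∀ (p : ℕ → V) (k : ℕ), T.NB p k →
        ∀ lam : ℝ, 1 ≤ lam →
          ∫ ω, T.rbQ t p k ω * (T.rbG t p k (c * kap r * k) ω
              + T.Pt t (T.rbG t p k (c * kap r * k)) ω) ∂mu V
            ≤ C * ((3 * k + 7) * k * q ^ k) * (lam * T.delta t + Real.exp (-lam)) := by
  obtain ⟨C1, hC1, h1⟩ := T.res_lt_le R
  obtain ⟨C2, hC2, h2⟩ := T.res_et_le R
  obtain ⟨c, C, q, hc0, hC, hq0, hq1, hb⟩ := T.bad_bound hc R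
  have hcX := T.rbc_nonneg R
  refine ⟨c, 2 * C * (2 * C1 + C2 + 2 + T.rbc R), q, hc0, by positivity, hq0, hq1,
    fun r hr t ht0 ht1 p k hp lam hlam => ?_⟩
  have htR : t ≤ R + 1 := by
    have : (r : ℝ) ≤ R := by exact_mod_cast hr
    linarith
  set γ := T.rbG t p k (c * kap r * k) with hγ
  have hγb : AB (mu V) γ := (T.rb_bm_G t p k _).ab
  have hPγ : AB (mu V) (T.Pt t γ) := T.AB_Pt t hγb
  have hδ := T.delta_nonneg t
  have hex := Real.exp_pos (-lam)
  rcases Nat.eq_zero_or_pos k with rfl | hk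
  · have e : γ = 0 := by
      funext ω
      simp [hγ, rbG, Spath]
    have e' : T.Pt t γ = 0 := by rw [e]; exact condExp_zero
    rw [e', e]
    simp
  have hX : ∀ u v, ∀ᵐ ω ∂mu V, 0 ≤ T.rbX t u v ω ∧ T.rbX t u v ω ≤ T.rbc R := fun u v => by
    filter_upwards [T.rbX_le htR u v] with ω hω
    exact ⟨T.rbX_nonneg t u v ω, hω⟩
  have hPX : ∀ u v, ∀ᵐ ω ∂mu V,
      0 ≤ T.Pt t (T.rbX t u v) ω ∧ T.Pt t (T.rbX t u v) ω ≤ T.rbc R := fun u v => by
    have a1 : ∀ᵐ ω ∂mu V, |T.rbX t u v ω| ≤ T.rbc R := by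
      filter_upwards [hX u v] with ω hω
      rw [abs_of_nonneg hω.1]; exact hω.2
    filter_upwards [condExp_abs_le (m := T.calW t) a1,
      T.rb_Pt_nonneg t (Eventually.of_forall fun ω => T.rbX_nonneg t u v ω)] with ω b1 b2
    exact ⟨b2, (le_abs_self _).trans b1⟩
  have hEX : ∀ u v, ∫ ω, T.rbX t u v ω ∂mu V ≤ (2 * C1 + C2 + 2) * T.delta t := fun u v => by
    rw [T.rb_integral_X]
    have := h1 t htR u
    have := h1 t htR v
    have := h2 t htR u v
    linarith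
  have key : ∀ j, j < k → ∫ ω, T.rbX t (p j) (p (j + 1)) ω * (γ ω + T.Pt t γ ω) ∂mu V
      ≤ 2 * C * (2 * C1 + C2 + 2 + T.rbc R) * q ^ k * (lam * T.delta t + Real.exp (-lam)) := by
    intro j hj
    have hXj := T.rb_AB_X t (p j) (p (j + 1))
    have b1 := hb r hr t ht0 ht1 (T.rbX t) (T.rbc R) (fun u v _ => T.rb_AB_X t u v)
      (fun u v _ => hX u v) (fun u v _ => by rw [T.rbX_comm t u v])
      (fun g u v _ => T.rbX_equiv g t u v) p k j hp hj lam hlam
    have b2 := hb r hr t ht0 ht1 (fun u v => T.Pt t (T.rbX t u v)) (T.rbc R)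
      (fun u v _ => T.AB_Pt t (T.rb_AB_X t u v))
      (fun u v _ => hPX u v) (fun u v _ => by rw [T.rbX_comm t u v])
      (fun g u v _ => T.Pt_equiv g t (T.rb_AB_X t u v) (T.rbX_equiv g t u v)) p k j hp hj lam hlam
    have e1 : ∫ ω, T.Pt t (T.rbX t (p j) (p (j + 1))) ω ∂mu V
        = ∫ ω, T.rbX t (p j) (p (j + 1)) ω ∂mu V := integral_condExp (T.calW_le t)
    have e2 : ∫ ω, T.rbX t (p j) (p (j + 1)) ω * T.Pt t γ ω ∂mu V
        = ∫ ω, T.Pt t (T.rbX t (p j) (p (j + 1))) ω * γ ω ∂mu V :=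
      integral_condExp_mul (T.calW_le t) hγb hXj
    rw [e1] at b2
    simp only [mul_add]
    rw [integral_add (hXj.mul hγb).integrable (hXj.mul hPγ).integrable, e2]
    have b3 : lam * (∫ ω, T.rbX t (p j) (p (j + 1)) ω ∂mu V) + T.rbc R * Real.exp (-lam)
        ≤ (2 * C1 + C2 + 2 + T.rbc R) * (lam * T.delta t + Real.exp (-lam)) := by
      have c1 := mul_le_mul_of_nonneg_left (hEX (p j) (p (j + 1))) (by linarith : 0 ≤ lam)
      have c2 : 0 ≤ T.rbc R * (lam * T.delta t) := by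
        have : 0 ≤ lam := by linarith
        positivity
      have c3 : 0 ≤ (2 * C1 + C2 + 2) * Real.exp (-lam) := by positivity
      nlinarith
    have b4 := mul_le_mul_of_nonneg_left b3 (by positivity : 0 ≤ C * q ^ k)
    have b1' : ∫ ω, T.rbX t (p j) (p (j + 1)) ω * γ ω ∂mu V ≤ _ := b1
    have b2' : ∫ ω, T.Pt t (T.rbX t (p j) (p (j + 1))) ω * γ ω ∂mu V ≤ _ := b2
    nlinarith
  have hsum : AB (mu V) (fun ω => ∑ j ∈ Finset.range k,
      T.rbX t (p j) (p (j + 1)) ω * (γ ω + T.Pt t γ ω)) :=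
    AB.sum (Finset.range k) (F := fun j ω => T.rbX t (p j) (p (j + 1)) ω * (γ ω + T.Pt t γ ω))
      fun _ _ => (T.rb_AB_X t _ _).mul (hγb.add hPγ)
  calc _ ≤ ∫ ω, (3 * k + 7) * ∑ j ∈ Finset.range k,
        T.rbX t (p j) (p (j + 1)) ω * (γ ω + T.Pt t γ ω) ∂mu V := by
        refine integral_mono_ae ((T.rb_AB_Q t p k).mul (hγb.add hPγ)).integrable
          (hsum.const_mul _).integrable ?_
        filter_upwards [T.rb_Pt_nonneg t (Eventually.of_forall fun ω => T.rbG_nonneg t p k _ ω :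
          ∀ᵐ ω ∂mu V, 0 ≤ γ ω)] with ω hω
        rw [← Finset.sum_mul, ← mul_assoc]
        exact mul_le_mul_of_nonneg_right (T.rbQ_le t p hk ω)
          (add_nonneg (T.rbG_nonneg t p k _ ω) hω)
    _ ≤ (3 * k + 7) * (k * (2 * C * (2 * C1 + C2 + 2 + T.rbc R) * q ^ k
          * (lam * T.delta t + Real.exp (-lam)))) := by
        rw [integral_const_mul, integral_finsetSum _
          fun _ _ => ((T.rb_AB_X t _ _).mul (hγb.add hPγ)).integrable]
        refine mul_le_mul_of_nonneg_left ?_ (by positivity)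
        refine (Finset.sum_le_sum fun j hj => key j (Finset.mem_range.1 hj)).trans ?_
        rw [Finset.sum_const, Finset.card_range, nsmul_eq_mul]
    _ = _ := by ring

theorem rateHyp_crit (hc : ((T.d : ℝ) - 1) * T.θ ^ 2 = 1) (R : ℕ) :
    ∃ C : ℝ, 0 < C ∧ ∀ r : ℤ, r ≤ R → ∀ t : ℝ, r ≤ t → t ≤ r + 1 →
      T.RateHyp t (C * rho r / kap r ^ 2) := by
  obtain ⟨C1, hC1, h1⟩ := T.res_lt_le R
  obtain ⟨C3, hC3, h3⟩ := T.res_et_le_crit hc R
  obtain ⟨c, C, q, hc0, hC, hq0, hq1, hb⟩ := T.rb_bad hc R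
  have hs : Summable (fun k : ℕ => (3 * (k : ℝ) + 7) * k * q ^ k) := by
    have hq : ‖q‖ < 1 := by rwa [Real.norm_of_nonneg hq0]
    have a1 := (summable_pow_mul_geometric_of_norm_lt_one 2 hq).mul_left 3
    have a2 := (summable_pow_mul_geometric_of_norm_lt_one 1 hq).mul_left 7
    refine (a1.add a2).congr fun k => ?_
    ring
  have hpos : ∀ k : ℕ, 0 ≤ (3 * (k : ℝ) + 7) * k * q ^ k := fun k => by positivity
  set B := ∑' k : ℕ, (3 * (k : ℝ) + 7) * k * q ^ k with hBdef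
  have hB : 0 ≤ B := tsum_nonneg hpos
  set A := (c + 1) / (2 * c) with hA
  have hA0 : 0 < A := by positivity
  refine ⟨2 * ((6 * C1 + 1) * A + 300 * C3 * A ^ 2 + C * B), by positivity,
    fun r hr t ht0 ht1 => T.rateHyp_of_path fun lam hlam => ?_⟩
  have htR : t ≤ R + 1 := by
    have : (r : ℝ) ≤ R := by exact_mod_cast hr
    linarith
  have hδ := T.delta_nonneg t
  have hex := Real.exp_pos (-lam)
  have hκ := kap_pos r
  have hρ := rho_pos r
  set D := lam * T.delta t + Real.exp (-lam) with hD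
  have hδD : T.delta t ≤ D := by nlinarith
  have hD0 : 0 ≤ D := hδ.trans hδD
  set x := Real.exp (-(2 * c * kap r)) with hx
  have hx0 : 0 ≤ x := (Real.exp_pos _).le
  refine ⟨fun k => (T.θ ^ 2) ^ k * (((6 * C1 + 1) * x ^ k + 300 * C3 * rho r * (k * x ^ k)
      + C * ((3 * k + 7) * k * q ^ k)) * D),
    fun k => by positivity, fun p k hp => ?_, fun n => ?_⟩
  · set γ := T.rbG t p k (c * kap r * k) with hγ
    have hγb : AB (mu V) γ := (T.rb_bm_G t p k _).ab
    have hPγ : AB (mu V) (T.Pt t γ) := T.AB_Pt t hγb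
    have hxk : Real.exp (-(2 * (c * kap r * k))) = x ^ k := by
      rw [hx, ← Real.exp_nat_mul]; congr 1; ring
    have hP0 : ∀ᵐ ω ∂mu V, 0 ≤ T.Pt t γ ω :=
      T.rb_Pt_nonneg t (Eventually.of_forall fun ω => T.rbG_nonneg t p k _ ω)
    have hI := T.rbI_le t p k (E := fun ω => x ^ k + (γ ω + T.Pt t γ ω))
      (by
        filter_upwards [hP0] with ω hω
        have := T.rb_exp_S_le t p k (c * kap r * k) ω
        rw [hxk] at this
        linarith)
      (by
        filter_upwards [T.rb_exp_St_le t p k (c * kap r * k)] with ω hω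
        have := T.rbG_nonneg t p k (c * kap r * k) ω
        rw [hxk] at hω
        linarith)
    have hQ := T.rb_AB_Q t p k
    refine (integral_mono_ae (T.rb_AB_I t p k).integrable
      ((hQ.mul ((AB.const _).add (hγb.add hPγ))).const_mul _).integrable hI).trans ?_
    rw [integral_const_mul]
    refine mul_le_mul_of_nonneg_left ?_ (by positivity)
    have e : ∀ ω, T.rbQ t p k ω * (x ^ k + (γ ω + T.Pt t γ ω))
        = x ^ k * T.rbQ t p k ω + T.rbQ t p k ω * (γ ω + T.Pt t γ ω) := fun ω => by ring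
    simp only [e]
    rw [integral_add (hQ.const_mul _).integrable (hQ.mul (hγb.add hPγ)).integrable,
      integral_const_mul, T.rb_integral_Q]
    have b1 := hb r hr t ht0 ht1 p k hp lam hlam
    obtain ⟨b, hab, -, -⟩ := T.exists_adj_ne T.o T.o T.o
    have b2 := (T.rb_Sig_decor t hp hab).trans (mul_le_mul_of_nonneg_left
      (h3 r hr t ht1 T.o b lam hlam) (by positivity))
    have b3 := (h1 t htR (p 0)).trans (mul_le_mul_of_nonneg_left hδD hC1.le)
    have b4 := (h1 t htR (p k)).trans (mul_le_mul_of_nonneg_left hδD hC1.le)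
    have b5 : 3 * ((∫ ω, T.res t (T.lt t (p 0)) ω ^ 2 ∂mu V)
        + (∫ ω, T.res t (T.lt t (p k)) ω ^ 2 ∂mu V) + ∫ ω, T.rbSig t p k ω ^ 2 ∂mu V) + T.delta t
        ≤ (6 * C1 + 1 + 300 * C3 * rho r * k) * D := by
      rw [← hD] at b2
      nlinarith
    have b6 := mul_le_mul_of_nonneg_left b5 (pow_nonneg hx0 k)
    rw [← hD] at b1
    nlinarith
  · have e : ∀ k : ℕ, 2 * ((T.d : ℝ) - 1) ^ k
        * ((T.θ ^ 2) ^ k * (((6 * C1 + 1) * x ^ k + 300 * C3 * rho r * (k * x ^ k)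
          + C * ((3 * k + 7) * k * q ^ k)) * D))
        = 2 * ((6 * C1 + 1) * x ^ k + 300 * C3 * rho r * (k * x ^ k)
          + C * ((3 * k + 7) * k * q ^ k)) * D := fun k => by
      have : ((T.d : ℝ) - 1) ^ k * (T.θ ^ 2) ^ k = 1 := by rw [← mul_pow, hc, one_pow]
      calc _ = 2 * (((T.d : ℝ) - 1) ^ k * (T.θ ^ 2) ^ k) * (((6 * C1 + 1) * x ^ k
            + 300 * C3 * rho r * (k * x ^ k) + C * ((3 * k + 7) * k * q ^ k)) * D) := by ring
        _ = _ := by rw [this]; ring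
    simp only [e]
    rw [← Finset.sum_mul, ← Finset.mul_sum, Finset.sum_add_distrib, Finset.sum_add_distrib,
      ← Finset.mul_sum, ← Finset.mul_sum, ← Finset.mul_sum]
    refine mul_le_mul_of_nonneg_right ?_ hD0
    have hy : 0 < 2 * c * kap r := by positivity
    have hκ2 := kap_le_half r
    have hκρ := kap_le_rho r
    have a0 : 1 + 1 / (2 * c * kap r) ≤ A / kap r := by
      rw [hA, div_div, le_div_iff₀ hy]
      field_simp
      nlinarith
    have a1 := (rb_sum_geom_le hy n).trans a0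
    have a2 := (rb_sum_mul_geom_le hy n).trans (pow_le_pow_left₀ (by positivity) a0 2)
    have a3 : ∑ k ∈ Finset.range n, (3 * (k : ℝ) + 7) * k * q ^ k ≤ B :=
      hs.sum_le_tsum (Finset.range n) fun k _ => hpos k
    rw [← hx] at a1 a2
    set u := rho r / kap r ^ 2 with hu
    have u1 : 1 / kap r ≤ u := by
      rw [hu, div_le_div_iff₀ hκ (by positivity)]
      nlinarith
    have u2 : 1 ≤ u := by
      refine le_trans ?_ u1
      rw [le_div_iff₀ hκ]; linarith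
    have c1 : ∑ k ∈ Finset.range n, x ^ k ≤ A * u := by
      refine a1.trans ?_
      rw [div_eq_mul_one_div]
      exact mul_le_mul_of_nonneg_left u1 hA0.le
    have c2 : rho r * ∑ k ∈ Finset.range n, (k : ℝ) * x ^ k ≤ A ^ 2 * u := by
      refine (mul_le_mul_of_nonneg_left a2 hρ.le).trans (le_of_eq ?_)
      rw [hu]; field_simp
    have c3 : ∑ k ∈ Finset.range n, (3 * (k : ℝ) + 7) * k * q ^ k ≤ B * u :=
      a3.trans (le_mul_of_one_le_right hB u2)
    have d1 := mul_le_mul_of_nonneg_left c1 (by positivity : 0 ≤ 6 * C1 + 1)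
    have d2 := mul_le_mul_of_nonneg_left c2 (by positivity : 0 ≤ 300 * C3)
    have d3 := mul_le_mul_of_nonneg_left c3 hC.le
    rw [mul_div_assoc, ← hu]
    have e1 : 300 * C3 * rho r * ∑ k ∈ Finset.range n, (k : ℝ) * x ^ k
        = 300 * C3 * (rho r * ∑ k ∈ Finset.range n, (k : ℝ) * x ^ k) := by ring
    have e2 : 2 * ((6 * C1 + 1) * A + 300 * C3 * A ^ 2 + C * B) * u
        = 2 * ((6 * C1 + 1) * (A * u) + 300 * C3 * (A ^ 2 * u) + C * (B * u)) := by ring
    rw [e1, e2]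
    linarith

end Ctx

end Crest.Agent.R160
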