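import Crest.Agent.R160.StepD
import Crest.Agent.R160.RateB
import Crest.Agent.R160.LawW
import Crest.Agent.R160.Factor

/-! The posterior means are functions of the innovations; conclusion. -/

set_option autoImplicit false

namespace Crest.Agent.R160

open MeasureTheory ProbabilityTheory Set Filter Topology
open scoped ENNReal

universe u

variable {V : Type u}

theorem eq_zero_of_le_exp {x c : ℝ} (hx : 0 ≤ x) (hc : 0 < c) (B : ℝ)
    (h : ∀ lam : ℝ, 1 ≤ lam → x ≤ B * Real.exp (-(c * lam))) : x = 0 := by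
  refine le_antisymm ?_ hx
  have h1 : Tendsto (fun lam : ℝ => B * Real.exp (-(c * lam))) atTop (𝓝 (B * 0)) := by
    refine Tendsto.const_mul B ?_
    exact Real.tendsto_exp_neg_atTop_nhds_zero.comp (tendsto_id.const_mul_atTop hc)
  rw [mul_zero] at h1
  exact ge_of_tendsto h1 ((eventually_ge_atTop 1).mono h)

theorem one_le_rho_div (r : ℤ) : 1 ≤ rho r / kap r ^ 2 := by
  have h1 := kap_pos r
  have h2 := kap_le_rho r
  have h3 := kap_le_half r
  rw [le_div_iff₀ (by positivity)]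
  nlinarith

namespace Ctx

variable (T : Ctx V)

theorem RateHyp.mono {T : Ctx V} {t K K' : ℝ} (h : T.RateHyp t K) (hK : K ≤ K') :
    T.RateHyp t K' := by
  intro lam hl
  obtain ⟨jt, mm, h1, h2, h3, h4, h5⟩ := h lam hl
  refine ⟨jt, mm, h1, h2, h3, h4, fun n => (h5 n).trans ?_⟩
  have := T.delta_nonneg t
  have h0 : 0 ≤ lam * T.delta t + Real.exp (-lam) := by positivity
  exact mul_le_mul_of_nonneg_right hK h0

theorem rateHyp (R : ℕ) : ∃ C : ℝ, 0 < C ∧ ∀ r : ℤ, r ≤ R → ∀ t : ℝ, r ≤ t → t ≤ r + 1 →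
    T.RateHyp t (C * rho r / kap r ^ 2) := by
  rcases T.hθ.eq_or_lt with hc | hc
  · exact T.rateHyp_crit hc R
  · obtain ⟨C, hC, h⟩ := T.rateHyp_sub hc R
    refine ⟨C, hC, fun r hr t _ ht => (h t ?_).mono ?_⟩
    · have : (r : ℝ) ≤ R := by exact_mod_cast hr
      linarith
    · rw [mul_div_assoc]
      exact le_mul_of_one_le_right hC.le (one_le_rho_div r)

theorem step' (R : ℕ) : ∃ a : ℝ, 0 < a ∧ ∀ r : ℤ, r ≤ R → ∀ s0 s1 : ℝ, (r : ℝ) ≤ s0 → s0 ≤ s1 →
    s1 ≤ r + 1 → ∀ lam : ℝ, 1 ≤ lam →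
      T.delta s1 ≤ Real.exp (a * rho r * (s1 - s0) * lam)
        * (T.delta s0 + a * rho r * (s1 - s0) * Real.exp (-lam)) := by
  obtain ⟨C, hC, h⟩ := T.rateHyp R
  refine ⟨128 * C, by positivity, fun r hr s0 s1 h0 h01 h1 lam hl => ?_⟩
  have hk := kap_pos r
  have hρ := rho_pos r
  have key := T.step (K := C * rho r / kap r ^ 2) (by positivity) (T.tailHyp r) (h r hr) h0 h01 h1 hl
  have e : 128 * kap r ^ 2 * (C * rho r / kap r ^ 2) = 128 * C * rho r := by
    field_simp
  rwa [e] at key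

/-- the residual vanishes at some early time -/
theorem exists_delta_zero : ∃ r : ℤ, r ≤ 0 ∧ T.delta r = 0 := by
  obtain ⟨a, ha, hs⟩ := T.step' 0
  obtain ⟨C, hC, hd⟩ := T.delta_le 0
  obtain ⟨N, hN⟩ : ∃ N : ℕ, a * (1 / 2 : ℝ) ^ N ≤ 1 / 2 := by
    obtain ⟨N, hN⟩ := exists_pow_lt_of_lt_one (x := 1 / (2 * a)) (y := (1 / 2 : ℝ))
      (by positivity) (by norm_num)
    refine ⟨N, ?_⟩
    rw [lt_div_iff₀ (by positivity)] at hN
    linarith
  set b := a * (1 / 2 : ℝ) ^ N with hb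
  have hb0 : 0 < b := by positivity
  have hrho : ∀ m : ℕ, rho (-(N : ℤ) - m) = (1 / 2 : ℝ) ^ N * (1 / 2) ^ m := by
    intro m
    rw [rho_of_nonpos (by omega), ← pow_add, one_div, inv_pow, ← zpow_natCast, ← zpow_neg]
    congr 1
    push_cast
    ring
  refine ⟨-(N : ℤ), by omega, ?_⟩
  refine eq_zero_of_le_exp (T.delta_nonneg _) (c := 1 / 2) (by norm_num) (1 / 2) fun lam hl => ?_
  have hl0 : 0 ≤ lam := by linarith
  -- iterate backwards
  have key : ∀ m : ℕ, T.delta ((-(N : ℤ) : ℤ) : ℝ) ≤ Real.exp (b * (1 - (1 / 2) ^ m) * lam)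
      * (T.delta ((-(N : ℤ) - m : ℤ) : ℝ) + b * (1 - (1 / 2) ^ m) * Real.exp (-lam)) := by
    intro m
    induction m with
    | zero => simp
    | succ m ih =>
      have h1 := hs (-(N : ℤ) - (m + 1 : ℕ)) (by omega) ((-(N : ℤ) - (m + 1 : ℕ) : ℤ) : ℝ)
        ((-(N : ℤ) - m : ℤ) : ℝ) le_rfl (by push_cast; linarith) (by push_cast; linarith) lam hl
      have e1 : (((-(N : ℤ) - m : ℤ) : ℝ) - ((-(N : ℤ) - (m + 1 : ℕ) : ℤ) : ℝ)) = 1 := by
        push_cast; ring
      rw [e1, hrho (m + 1), mul_one, ← mul_assoc, ← hb] at h1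
      set c := b * (1 / 2 : ℝ) ^ (m + 1) with hc
      set S := b * (1 - (1 / 2 : ℝ) ^ m) with hS
      have hc0 : 0 ≤ c := by positivity
      have hS0 : 0 ≤ S := by
        have : (1 / 2 : ℝ) ^ m ≤ 1 := pow_le_one₀ (by norm_num) (by norm_num)
        have : 0 ≤ 1 - (1 / 2 : ℝ) ^ m := by linarith
        positivity
      have e2 : b * (1 - (1 / 2 : ℝ) ^ (m + 1)) = S + c := by
        rw [hS, hc, pow_succ]; ring
      rw [e2]
      refine ih.trans ?_
      have h2 : 1 ≤ Real.exp (c * lam) := Real.one_le_exp (by positivity)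
      have h3 : S * Real.exp (-lam) ≤ Real.exp (c * lam) * (S * Real.exp (-lam)) :=
        le_mul_of_one_le_left (by positivity) h2
      rw [add_mul S c lam, Real.exp_add, mul_assoc (Real.exp (S * lam))]
      refine mul_le_mul_of_nonneg_left ?_ (Real.exp_pos _).le
      nlinarith
  have hlim : Tendsto (fun m : ℕ => Real.exp (lam / 2) * (C * ((1 / 2 : ℝ) ^ m)
      + 1 / 2 * Real.exp (-lam))) atTop (𝓝 (Real.exp (lam / 2) * (C * 0 + 1 / 2 * Real.exp (-lam)))) := by
    refine Tendsto.const_mul _ (Tendsto.add_const _ (Tendsto.const_mul _ ?_))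
    exact tendsto_pow_atTop_nhds_zero_of_lt_one (by norm_num) (by norm_num)
  have e3 : Real.exp (lam / 2) * (C * 0 + 1 / 2 * Real.exp (-lam))
      = 1 / 2 * Real.exp (-(1 / 2 * lam)) := by
    rw [mul_zero, zero_add, mul_left_comm, ← Real.exp_add]
    congr 2
    ring
  rw [e3] at hlim
  refine ge_of_tendsto' hlim fun m => (key m).trans ?_
  have hm1 : (1 / 2 : ℝ) ^ m ≤ 1 := pow_le_one₀ (by norm_num) (by norm_num)
  have hm0 : (0 : ℝ) < (1 / 2 : ℝ) ^ m := by positivity
  have hN1 : (1 / 2 : ℝ) ^ N ≤ 1 := pow_le_one₀ (by norm_num) (by norm_num)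
  have hN0 : (0 : ℝ) < (1 / 2 : ℝ) ^ N := by positivity
  have hS : b * (1 - (1 / 2 : ℝ) ^ m) ≤ 1 / 2 := by nlinarith
  have hS0 : 0 ≤ b * (1 - (1 / 2 : ℝ) ^ m) := mul_nonneg hb0.le (by linarith)
  have hd' := hd (-(N : ℤ) - m) (by omega) ((-(N : ℤ) - m : ℤ) : ℝ) (by linarith)
  rw [hrho m] at hd'
  have hsq : ((1 / 2 : ℝ) ^ N * (1 / 2) ^ m) ^ 2 ≤ (1 / 2 : ℝ) ^ m := by
    have h1 : (1 / 2 : ℝ) ^ N * (1 / 2) ^ m ≤ (1 / 2) ^ m := mul_le_of_le_one_left hm0.le hN1
    have h2 : 0 ≤ (1 / 2 : ℝ) ^ N * (1 / 2) ^ m := by positivity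
    nlinarith
  refine mul_le_mul (Real.exp_le_exp.2 ?_) (add_le_add (hd'.trans ?_) ?_) ?_ (Real.exp_pos _).le
  · nlinarith
  · exact mul_le_mul_of_nonneg_left hsq hC.le
  · exact mul_le_mul_of_nonneg_right hS (Real.exp_pos _).le
  · have := T.delta_nonneg ((-(N : ℤ) - m : ℤ) : ℝ)
    positivity

theorem delta_succ_zero {r : ℤ} (h : T.delta r = 0) : T.delta ((r + 1 : ℤ) : ℝ) = 0 := by
  obtain ⟨a, ha, hs⟩ := T.step' r.toNat
  obtain ⟨M, hM⟩ := exists_nat_gt (2 * a)
  have hM0 : (0 : ℝ) < M := by linarith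
  have hρ := rho_pos r
  have hρ1 := rho_le_one r
  have key : ∀ j : ℕ, j ≤ M → T.delta ((r : ℝ) + j / M) = 0 := by
    intro j
    induction j with
    | zero => intro _; simpa using h
    | succ j ih =>
      intro hj
      have hj' : (j : ℝ) + 1 ≤ M := by exact_mod_cast hj
      have ih' := ih (by omega)
      refine eq_zero_of_le_exp (T.delta_nonneg _) (c := 1 / 2) (by norm_num) (1 / 2)
        fun lam hl => ?_
      have h1 := hs r (Int.self_le_toNat r) ((r : ℝ) + j / M) ((r : ℝ) + (j + 1 : ℕ) / M)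
        (by have : (0 : ℝ) ≤ j / M := by positivity
            linarith)
        (by push_cast; gcongr; linarith)
        (by push_cast
            have : ((j : ℝ) + 1) / M ≤ 1 := by rw [div_le_one hM0]; exact hj'
            linarith) lam hl
      have e1 : (r : ℝ) + (j + 1 : ℕ) / M - ((r : ℝ) + j / M) = 1 / M := by
        push_cast; ring
      rw [e1, ih', zero_add] at h1
      have hc : a * rho r * (1 / M) ≤ 1 / 2 := by
        rw [mul_one_div, div_le_iff₀ hM0]
        nlinarith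
      have hc0 : 0 ≤ a * rho r * (1 / M) := by positivity
      refine h1.trans ?_
      have e2 : Real.exp (-(1 / 2 * lam)) = Real.exp (1 / 2 * lam) * Real.exp (-lam) := by
        rw [← Real.exp_add]; congr 1; ring
      rw [e2, mul_left_comm]
      refine mul_le_mul hc (mul_le_mul_of_nonneg_right (Real.exp_le_exp.2 ?_) (Real.exp_pos _).le)
        (by positivity) (by norm_num)
      exact mul_le_mul_of_nonneg_right hc (by linarith)
  have := key M le_rfl
  rw [div_self hM0.ne'] at this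
  simpa using this

theorem delta_nat_zero (n : ℕ) : T.delta n = 0 := by
  obtain ⟨r, hr, h0⟩ := T.exists_delta_zero
  have key : ∀ m : ℕ, T.delta ((r + m : ℤ) : ℝ) = 0 := by
    intro m
    induction m with
    | zero => simpa using h0
    | succ m ih =>
      have := T.delta_succ_zero ih
      rwa [show r + m + 1 = r + (m + 1 : ℕ) by push_cast; ring] at this
  have := key (n - r).toNat
  rwa [show r + ((n - r).toNat : ℕ) = (n : ℤ) by omega, Int.cast_natCast] at this

theorem spin_ae_eq : (fun ω => T.spin ω T.o)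
    =ᵐ[mu V] (mu V)[fun ω => T.spin ω T.o | MeasurableSpace.comap T.Wf inferInstance] := by
  have hle : MeasurableSpace.comap T.Wf inferInstance ≤ (inferInstance : MeasurableSpace (Om V)) :=
    T.measurable_Wf.comap_le
  have hσ : AB (mu V) (fun ω => T.spin ω T.o) := (T.bm_spin T.o).ab
  have hP := hσ.condExp hle
  have hsq := (hσ.sub hP).pow 2
  have hzero : ∫ ω, (T.spin ω T.o - ((mu V)[fun ω => T.spin ω T.o |
      MeasurableSpace.comap T.Wf inferInstance]) ω) ^ 2 ∂mu V = 0 := by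
    refine le_antisymm ?_ (integral_nonneg fun _ => sq_nonneg _)
    have hlim : Tendsto (fun n : ℕ => (144 : ℝ) / n) atTop (𝓝 0) :=
      tendsto_const_div_atTop_nhds_zero_nat 144
    refine ge_of_tendsto hlim ((eventually_gt_atTop 0).mono fun n hn => ?_)
    have hm : AB (mu V) (T.mt n T.o) := (T.bm_mt n T.o).ab
    have h1 := proj_le hle hσ (T.AB_Pt n hm)
      ((stronglyMeasurable_condExp.mono (T.calW_le_Wf n)).aestronglyMeasurable)
    refine h1.trans (le_trans (le_of_eq ?_) (T.recovery hn))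
    have h2 : (fun ω => T.res n (T.mt n T.o) ω ^ 2) =ᵐ[mu V] 0 :=
      (integral_eq_zero_iff_of_nonneg (fun _ => sq_nonneg _)
        ((T.AB_res n hm).pow 2).integrable).1 (T.delta_nat_zero n)
    refine integral_congr_ae ?_
    filter_upwards [h2] with ω hω
    have h3 : T.res n (T.mt n T.o) ω = 0 := pow_eq_zero_iff (two_ne_zero) |>.1 hω
    have h4 : T.Pt n (T.mt n T.o) ω = T.mt n T.o ω := by
      unfold Ctx.res at h3; linarith
    rw [h4]
  have h2 := (integral_eq_zero_iff_of_nonneg (fun _ => sq_nonneg _) hsq.integrable).1 hzero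
  filter_upwards [h2] with ω hω
  have h3 := pow_eq_zero_iff (two_ne_zero) |>.1 hω
  linarith

theorem main : ∃ Φ : (V → unitInterval) → (V → Bool),
      Measurable Φ ∧
      (∀ (g : T.G ≃g T.G) (x : V → unitInterval), Φ (x ∘ ⇑g) = Φ x ∘ ⇑g) ∧
      ∀ (S : Finset V) (η : V → Bool), (T.G.induce (S : Set V)).Connected →
        (Crest.ProbabilityR.Labels.labelMeasure V).map Φ {σ | ∀ v ∈ S, σ v = η v} =
          ENNReal.ofReal (Crest.ProbabilityR.TreeIsing.isingWeight T.G T.θ S η) :=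
  T.exists_factor T.law_W T.Wf_Tg T.spin_ae_eq

end Ctx

end Crest.Agent.R160
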