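import Crest.Agent.R160.Clock

/-! The innovation process: measurability and symmetries. -/

set_option autoImplicit false

namespace Crest.Agent.R160

open MeasureTheory ProbabilityTheory Set Filter Topology
open scoped ENNReal

universe u

variable {V : Type u}

theorem measurable_maskW (t : ℝ) : Measurable (maskW t : Wsp V → Wsp V) := by
  classical
  refine measurable_pi_lambda _ fun i => ?_
  unfold maskW
  have h1 : Measurable fun w : Wsp V => ((w i).1 : ℝ) :=
    measurable_subtype_coe.comp (measurable_fst.comp (measurable_pi_apply i))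
  refine Measurable.ite ?_ (measurable_pi_apply i) measurable_const
  exact (measurableSet_lt h1 measurable_const).inter
    (measurableSet_lt (measurable_const.add h1) measurable_const)

theorem maskW_maskW {s t : ℝ} (h : s ≤ t) (w : Wsp V) : maskW s (maskW t w) = maskW s w := by
  funext i
  unfold maskW
  by_cases h1 : ((w i).1 : ℝ) < 1 / 2 ∧ (i.2 : ℝ) + ((w i).1 : ℝ) < t
  · simp only [if_pos h1]
  · simp only [if_neg h1]
    have h2 : ¬ (((w i).1 : ℝ) < 1 / 2 ∧ (i.2 : ℝ) + ((w i).1 : ℝ) < s) :=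
      fun h2 => h1 ⟨h2.1, lt_of_lt_of_le h2.2 h⟩
    rw [if_neg h2, ite_self]

theorem projIcc_one_sub (a : ℝ) :
    projIcc (0 : ℝ) 1 zero_le_one (1 - a) = unitInterval.symm (projIcc 0 1 zero_le_one a) := by
  apply Subtype.ext
  simp only [unitInterval.coe_symm_eq, coe_projIcc, max_def, min_def]
  split_ifs <;> linarith

/-- a symmetry that acts on the values of `X` by a bi-measurable map preserves `σ(X)` -/
theorem comap_eq_of_equiv {Ω E : Type*} [mE : MeasurableSpace E] (X : Ω → E) (S : Ω → Ω)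
    {φ ψ : E → E} (hφ : Measurable φ) (hψ : Measurable ψ) (h : ∀ w, ψ (φ w) = w)
    (hX : ∀ ω, X (S ω) = φ (X ω)) : (mE.comap X).comap S = mE.comap X := by
  rw [MeasurableSpace.comap_comp]
  have h1 : X ∘ S = φ ∘ X := funext hX
  have h2 : mE.comap φ = mE := by
    refine le_antisymm hφ.comap_le ?_
    have h3 : ψ ∘ φ = id := funext h
    conv_lhs => rw [← MeasurableSpace.comap_id (m := mE), ← h3, ← MeasurableSpace.comap_comp]
    exact MeasurableSpace.comap_mono hψ.comap_le
  rw [h1, ← MeasurableSpace.comap_comp, h2]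

namespace Ctx

variable (T : Ctx V)

open Classical in
/-- the innovations before time `t` as a function of the clocks and the observations -/
noncomputable def XiF (t : ℝ) (c : Clk V) (Y : Dat V) : Wsp V :=
  fun i => if i ∈ Ot t c then (c i, T.xiOf c Y i) else (1, halfI)

theorem measurable_xiOf (i : Slot V) :
    Measurable (fun p : Clk V × Dat V => T.xiOf p.1 p.2 i) := by
  unfold xiOf
  refine continuous_projIcc.measurable.comp (measurable_Fc.comp
    (f := fun p : Clk V × Dat V =>
      (kap i.2 * T.mf i.1 ((Ot (tau p.1 i) p.1).indicator p.2), p.2 i)) ?_)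
  exact (((T.measurable_mf i.1).comp (isMask_Otau i).measurable_ind).const_mul _).prodMk
    ((measurable_pi_apply i).comp measurable_snd)

theorem measurable_xi (i : Slot V) : Measurable (fun ω => T.xi ω i) := by
  have h1 : Measurable (fun ω : Om V => ((clock ω.1, T.Yf ω) : Clk V × Dat V)) :=
    (measurable_clock.comp measurable_fst).prodMk T.measurable_Yf
  have h2 := (T.measurable_xiOf i).comp h1
  simp only [Function.comp_def] at h2
  unfold xi
  exact h2

theorem measurable_XiF (t : ℝ) : Measurable (fun p : Clk V × Dat V => T.XiF t p.1 p.2) := by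
  classical
  refine measurable_pi_lambda _ fun i => ?_
  unfold XiF
  refine Measurable.ite ?_
    (((measurable_pi_apply i).comp measurable_fst).prodMk (T.measurable_xiOf i)) measurable_const
  exact measurable_fst ((isMask_Ot (r := ⌈t⌉) (by linarith [Int.le_ceil t])).meas i)

theorem XiF_indicator (t : ℝ) (c : Clk V) (Y : Dat V) :
    T.XiF t c ((Ot t c).indicator Y) = T.XiF t c Y := by
  funext i
  unfold XiF
  by_cases h : i ∈ Ot t c
  · rw [if_pos h, if_pos h]
    unfold xiOf
    rw [indicator_indicator, inter_eq_left.2 (Ot_mono h.2.le c), indicator_of_mem h]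
  · rw [if_neg h, if_neg h]

theorem Xit_eq' (t : ℝ) (ω : Om V) : T.Xit t ω = T.XiF t (clock ω.1) (T.Yf ω) := by
  funext i
  unfold Xit maskW XiF Wf
  by_cases h : i ∈ Ot t (clock ω.1)
  · rw [if_pos h, if_pos h.1]
    exact if_pos h
  · rw [if_neg h]
    exact if_neg h

theorem Xit_eq (t : ℝ) (ω : Om V) : T.Xit t ω = T.XiF t (clock ω.1) (T.Yt t ω) := by
  rw [T.Xit_eq', ← T.XiF_indicator]
  rfl

theorem measurable_Wf : Measurable T.Wf := by
  classical
  refine measurable_pi_lambda _ fun i => ?_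
  unfold Wf
  have hc : Measurable fun ω : Om V => clock ω.1 := measurable_clock.comp measurable_fst
  refine ((measurable_pi_apply i).comp hc).prodMk ?_
  exact Measurable.ite (hc (measurableSet_active i)) (T.measurable_xi i)
    ((measurable_pi_apply _).comp measurable_fst)

theorem measurable_Xit (t : ℝ) : Measurable (T.Xit t) := by
  exact (measurable_maskW t).comp T.measurable_Wf

theorem calW_le (t : ℝ) : T.calW t ≤ (inferInstance : MeasurableSpace (Om V)) :=
  (T.measurable_Xit t).comap_le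

theorem calW_le_Wf (t : ℝ) : T.calW t ≤ MeasurableSpace.comap T.Wf inferInstance := by
  exact ((measurable_maskW t).comp (comap_measurable T.Wf)).comap_le

theorem Wf_Tg (g : T.G ≃g T.G) (ω : Om V) :
    T.Wf (T.Tg g ω) = fun i => T.Wf ω (T.slotMap g i) := by
  funext i
  have h1 : T.xi (T.Tg g ω) i = T.xi ω (T.slotMap g i) := by
    unfold xi xiOf
    have h2 : (Ot (tau (clock (T.Tg g ω).1) i) (clock (T.Tg g ω).1)).indicator (T.Yf (T.Tg g ω))
        = fun j => (Ot (tau (clock ω.1) (T.slotMap g i)) (clock ω.1)).indicator (T.Yf ω)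
          (T.slotMap g j) := T.Yt_Tg g (tau (clock ω.1) (T.slotMap g i)) ω
    rw [h2, T.mf_aut, T.Yf_Tg]
    rfl
  unfold Wf
  rw [h1]
  rfl

theorem Xit_Tg (g : T.G ≃g T.G) (t : ℝ) (ω : Om V) :
    T.Xit t (T.Tg g ω) = fun i => T.Xit t ω (T.slotMap g i) := by
  unfold Xit
  rw [T.Wf_Tg]
  rfl

theorem comap_Tg_calW (g : T.G ≃g T.G) (t : ℝ) : (T.calW t).comap (T.Tg g) = T.calW t := by
  refine comap_eq_of_equiv (T.Xit t) (T.Tg g) (φ := fun w i => w (T.slotMap g i))
    (ψ := fun w i => w (T.slotMap g.symm i))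
    (measurable_pi_lambda _ fun i => measurable_pi_apply _)
    (measurable_pi_lambda _ fun i => measurable_pi_apply _) (fun w => ?_) (T.Xit_Tg g t)
  funext i
  simp [slotMap]

theorem Xit_flip (t : ℝ) (ω : Om V) :
    T.Xit t (flip ω) = fun i => ((T.Xit t ω i).1, unitInterval.symm (T.Xit t ω i).2) := by
  funext i
  rw [T.Xit_eq', T.Xit_eq', T.Yf_flip]
  have h0 : (flip ω).1 = ω.1 := rfl
  rw [h0]
  unfold XiF
  by_cases h : i ∈ Ot t (clock ω.1)
  · simp only [if_pos h]
    congr 1
    unfold xiOf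
    rw [indicator_neg', T.mf_neg, Pi.neg_apply, mul_neg, Fc_neg, projIcc_one_sub]
  · simp only [if_neg h]
    congr 1
    apply Subtype.ext
    simp only [halfI, unitInterval.coe_symm_eq]
    norm_num

theorem comap_flip_calW (t : ℝ) : (T.calW t).comap flip = T.calW t := by
  have hm : Measurable fun (w : Wsp V) (i : Slot V) => ((w i).1, unitInterval.symm (w i).2) :=
    measurable_pi_lambda _ fun i => (measurable_fst.comp (measurable_pi_apply i)).prodMk
      (unitInterval.continuous_symm.measurable.comp (measurable_snd.comp (measurable_pi_apply i)))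
  refine comap_eq_of_equiv (T.Xit t) flip hm hm (fun w => ?_) (T.Xit_flip t)
  funext i
  simp

theorem Pt_Tg (g : T.G ≃g T.G) (t : ℝ) {X : Om V → ℝ} (hX : Integrable X (mu V)) :
    T.Pt t (fun ω => X (T.Tg g ω)) =ᵐ[mu V] fun ω => T.Pt t X (T.Tg g ω) := by
  have h := condExp_comp_mp (T.mp_Tg g) (T.calW_le t) hX
  rw [T.comap_Tg_calW] at h
  exact h.symm

theorem Pt_flip (t : ℝ) {X : Om V → ℝ} (hX : Integrable X (mu V)) :
    T.Pt t (fun ω => X (flip ω)) =ᵐ[mu V] fun ω => T.Pt t X (flip ω) := by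
  have h := condExp_comp_mp mp_flip (T.calW_le t) hX
  rw [T.comap_flip_calW] at h
  exact h.symm

theorem AB_Pt (t : ℝ) {X : Om V → ℝ} (hX : AB (mu V) X) : AB (mu V) (T.Pt t X) :=
  hX.condExp (T.calW_le t)

theorem AB_res (t : ℝ) {X : Om V → ℝ} (hX : AB (mu V) X) : AB (mu V) (T.res t X) :=
  hX.sub (T.AB_Pt t hX)

theorem integral_res (t : ℝ) {X : Om V → ℝ} (hX : AB (mu V) X) :
    ∫ ω, T.res t X ω ∂mu V = 0 := by
  unfold res
  rw [integral_sub hX.integrable (T.AB_Pt t hX).integrable]
  unfold Pt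
  rw [integral_condExp (T.calW_le t), sub_self]

theorem Pt_congr (t : ℝ) {X X' : Om V → ℝ} (h : X =ᵐ[mu V] X') : T.Pt t X =ᵐ[mu V] T.Pt t X' :=
  condExp_congr_ae h

/-- if `X' = X ∘ Tg g` then the same holds for the conditional expectations -/
theorem Pt_equiv (g : T.G ≃g T.G) (t : ℝ) {X X' : Om V → ℝ} (hX : AB (mu V) X)
    (h : X' =ᵐ[mu V] fun ω => X (T.Tg g ω)) :
    T.Pt t X' =ᵐ[mu V] fun ω => T.Pt t X (T.Tg g ω) := by
  exact (T.Pt_congr t h).trans (T.Pt_Tg g t hX.integrable)

theorem res_equiv (g : T.G ≃g T.G) (t : ℝ) {X X' : Om V → ℝ} (hX : AB (mu V) X)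
    (h : X' =ᵐ[mu V] fun ω => X (T.Tg g ω)) :
    T.res t X' =ᵐ[mu V] fun ω => T.res t X (T.Tg g ω) := by
  filter_upwards [h, T.Pt_equiv g t hX h] with ω h1 h2
  unfold res
  rw [h1, h2]

theorem res_flip (t : ℝ) {X : Om V → ℝ} (hX : AB (mu V) X)
    (h : (fun ω => X (flip ω)) =ᵐ[mu V] X) :
    (fun ω => T.res t X (flip ω)) =ᵐ[mu V] T.res t X := by
  filter_upwards [h, T.Pt_flip t hX.integrable, T.Pt_congr t h] with ω h1 h2 h3
  unfold res
  rw [h1, ← h2, h3]

theorem delta_eq (t : ℝ) (v : V) : ∫ ω, T.res t (T.mt t v) ω ^ 2 ∂mu V = T.delta t := by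
  obtain ⟨g, rfl⟩ := T.exists_aut_vertex T.o v
  have hX := (T.bm_mt t T.o).ab (μ := mu V)
  have h1 := T.res_equiv g t hX (X' := T.mt t (g T.o))
    (Eventually.of_forall fun ω => (T.mt_Tg g t T.o ω).symm)
  unfold delta
  rw [← integral_comp_mp (f := fun ω => T.res t (T.mt t T.o) ω ^ 2) (T.mp_Tg g)
    ((T.AB_res t hX).pow 2).meas]
  refine integral_congr_ae ?_
  filter_upwards [h1] with ω h2
  rw [h2]

theorem delta_nonneg (t : ℝ) : 0 ≤ T.delta t :=
  integral_nonneg fun _ => sq_nonneg _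

/-- `delta t` is the squared distance to the functions of the innovations -/
theorem delta_le_of {t : ℝ} {G : Wsp V → ℝ} (hG : BM G) :
    T.delta t ≤ ∫ ω, (T.mt t T.o ω - G (T.Xit t ω)) ^ 2 ∂mu V := by
  exact proj_le (T.calW_le t) (T.bm_mt t T.o).ab (hG.comp (T.measurable_Xit t)).ab
    (hG.meas.comp (comap_measurable (T.Xit t))).stronglyMeasurable.aestronglyMeasurable

theorem delta_le_sq (t : ℝ) : T.delta t ≤ ∫ ω, T.mt t T.o ω ^ 2 ∂mu V := by
  simpa using T.delta_le_of (t := t) (BM.const 0)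

end Ctx

end Crest.Agent.R160
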