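import Crest.Agent.R160.Defs

/-! Generic measure-theoretic helpers: essentially bounded functions, conditional expectations,
independence. -/

set_option autoImplicit false

namespace Crest.Agent.R160

open MeasureTheory ProbabilityTheory Set Filter Topology
open scoped ENNReal

/-- bounded and measurable -/
structure BM {α : Type*} [MeasurableSpace α] (f : α → ℝ) : Prop where
  meas : Measurable f
  bdd : ∃ C, ∀ x, |f x| ≤ C

/-- almost everywhere measurable and essentially bounded -/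
structure AB {α : Type*} [MeasurableSpace α] (μ : Measure α) (f : α → ℝ) : Prop where
  meas : AEStronglyMeasurable f μ
  bdd : ∃ C, ∀ᵐ x ∂μ, |f x| ≤ C

section BM

variable {α β : Type*} [MeasurableSpace α] [MeasurableSpace β] {f g : α → ℝ} {μ : Measure α}

theorem BM.of_le (hf : Measurable f) (C : ℝ) (hC : ∀ x, |f x| ≤ C) : BM f := ⟨hf, C, hC⟩

theorem BM.const (c : ℝ) : BM (fun _ : α => c) := ⟨measurable_const, |c|, fun _ => le_rfl⟩

theorem BM.ab (hf : BM f) : AB μ f := by
  obtain ⟨C, hC⟩ := hf.bdd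
  exact ⟨hf.meas.aestronglyMeasurable, C, Eventually.of_forall hC⟩

theorem BM.comp (hf : BM f) {h : β → α} (hh : Measurable h) : BM (fun x => f (h x)) := by
  obtain ⟨C, hC⟩ := hf.bdd
  exact ⟨hf.meas.comp hh, C, fun x => hC _⟩

theorem BM.add (hf : BM f) (hg : BM g) : BM (fun x => f x + g x) := by
  obtain ⟨C, hC⟩ := hf.bdd
  obtain ⟨D, hD⟩ := hg.bdd
  exact ⟨hf.meas.add hg.meas, C + D, fun x => (abs_add_le _ _).trans (add_le_add (hC x) (hD x))⟩

theorem BM.neg (hf : BM f) : BM (fun x => -f x) := by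
  obtain ⟨C, hC⟩ := hf.bdd
  exact ⟨hf.meas.neg, C, fun x => by rw [abs_neg]; exact hC x⟩

theorem BM.sub (hf : BM f) (hg : BM g) : BM (fun x => f x - g x) := by
  simpa only [sub_eq_add_neg] using hf.add hg.neg

theorem BM.mul (hf : BM f) (hg : BM g) : BM (fun x => f x * g x) := by
  obtain ⟨C, hC⟩ := hf.bdd
  obtain ⟨D, hD⟩ := hg.bdd
  refine ⟨hf.meas.mul hg.meas, C * D, fun x => ?_⟩
  rw [abs_mul]
  exact mul_le_mul (hC x) (hD x) (abs_nonneg _) ((abs_nonneg _).trans (hC x))

theorem BM.const_mul (hf : BM f) (c : ℝ) : BM (fun x => c * f x) := (BM.const c).mul hf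

theorem BM.div_const (hf : BM f) (c : ℝ) : BM (fun x => f x / c) := by
  simpa only [div_eq_mul_inv] using hf.mul (BM.const c⁻¹)

theorem BM.abs (hf : BM f) : BM (fun x => |f x|) := by
  obtain ⟨C, hC⟩ := hf.bdd
  exact ⟨hf.meas.abs, C, fun x => by rw [abs_abs]; exact hC x⟩

theorem BM.pow (hf : BM f) (n : ℕ) : BM (fun x => f x ^ n) := by
  induction n with
  | zero => simpa using BM.const (α := α) 1
  | succ n ih => simpa only [pow_succ] using ih.mul hf

theorem BM.sum {ι : Type*} (s : Finset ι) {F : ι → α → ℝ} (h : ∀ i ∈ s, BM (F i)) :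
    BM (fun x => ∑ i ∈ s, F i x) := by
  classical
  induction s using Finset.induction_on with
  | empty => simpa using BM.const (α := α) 0
  | insert a s ha ih =>
    simp only [Finset.sum_insert ha]
    exact (h a (Finset.mem_insert_self _ _)).add (ih fun i hi => h i (Finset.mem_insert_of_mem hi))

theorem BM.prod {ι : Type*} (s : Finset ι) {F : ι → α → ℝ} (h : ∀ i ∈ s, BM (F i)) :
    BM (fun x => ∏ i ∈ s, F i x) := by
  classical
  induction s using Finset.induction_on with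
  | empty => simpa using BM.const (α := α) 1
  | insert a s ha ih =>
    simp only [Finset.prod_insert ha]
    exact (h a (Finset.mem_insert_self _ _)).mul (ih fun i hi => h i (Finset.mem_insert_of_mem hi))

/-- a continuous function of a bounded measurable function -/
theorem BM.cont (hf : BM f) {φ : ℝ → ℝ} (hφ : Continuous φ) : BM (fun x => φ (f x)) := by
  obtain ⟨C, hC⟩ := hf.bdd
  obtain ⟨D, hD⟩ := (isCompact_Icc (a := -C) (b := C)).exists_bound_of_continuousOn
    hφ.continuousOn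
  exact ⟨hφ.measurable.comp hf.meas, D, fun x => hD _ (abs_le.1 (hC x))⟩

theorem BM.indicator_one {s : Set α} (hs : MeasurableSet s) :
    BM (s.indicator (fun _ => (1 : ℝ))) := by
  refine ⟨measurable_const.indicator hs, 1, fun x => ?_⟩
  by_cases h : x ∈ s <;> simp [h]

theorem AB.integrable [IsFiniteMeasure μ] (hf : AB μ f) : Integrable f μ := by
  obtain ⟨C, hC⟩ := hf.bdd
  exact Integrable.of_bound hf.meas C (by simpa only [Real.norm_eq_abs] using hC)

theorem BM.integrable [IsFiniteMeasure μ] (hf : BM f) : Integrable f μ := hf.ab.integrable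

theorem AB.const (c : ℝ) : AB μ (fun _ : α => c) := (BM.const c).ab

theorem AB.congr (hf : AB μ f) (h : f =ᵐ[μ] g) : AB μ g := by
  obtain ⟨C, hC⟩ := hf.bdd
  refine ⟨hf.meas.congr h, C, ?_⟩
  filter_upwards [hC, h] with x hx hx'
  rwa [← hx']

theorem AB.add (hf : AB μ f) (hg : AB μ g) : AB μ (fun x => f x + g x) := by
  obtain ⟨C, hC⟩ := hf.bdd
  obtain ⟨D, hD⟩ := hg.bdd
  refine ⟨hf.meas.add hg.meas, C + D, ?_⟩
  filter_upwards [hC, hD] with x h1 h2
  exact (abs_add_le _ _).trans (add_le_add h1 h2)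

theorem AB.neg (hf : AB μ f) : AB μ (fun x => -f x) := by
  obtain ⟨C, hC⟩ := hf.bdd
  refine ⟨hf.meas.neg, C, ?_⟩
  filter_upwards [hC] with x h1
  rwa [abs_neg]

theorem AB.sub (hf : AB μ f) (hg : AB μ g) : AB μ (fun x => f x - g x) := by
  simpa only [sub_eq_add_neg] using hf.add hg.neg

theorem AB.mul (hf : AB μ f) (hg : AB μ g) : AB μ (fun x => f x * g x) := by
  obtain ⟨C, hC⟩ := hf.bdd
  obtain ⟨D, hD⟩ := hg.bdd
  refine ⟨hf.meas.mul hg.meas, C * D, ?_⟩
  filter_upwards [hC, hD] with x h1 h2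
  rw [abs_mul]
  exact mul_le_mul h1 h2 (abs_nonneg _) ((abs_nonneg _).trans h1)

theorem AB.const_mul (hf : AB μ f) (c : ℝ) : AB μ (fun x => c * f x) := (AB.const c).mul hf

theorem AB.div_const (hf : AB μ f) (c : ℝ) : AB μ (fun x => f x / c) := by
  simpa only [div_eq_mul_inv] using hf.mul (AB.const c⁻¹)

theorem AB.abs (hf : AB μ f) : AB μ (fun x => |f x|) := by
  obtain ⟨C, hC⟩ := hf.bdd
  refine ⟨continuous_abs.comp_aestronglyMeasurable hf.meas, C, ?_⟩
  filter_upwards [hC] with x h1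
  rwa [abs_abs]

theorem AB.pow (hf : AB μ f) (n : ℕ) : AB μ (fun x => f x ^ n) := by
  induction n with
  | zero => simpa using AB.const (μ := μ) 1
  | succ n ih => simpa only [pow_succ] using ih.mul hf

theorem AB.sum {ι : Type*} (s : Finset ι) {F : ι → α → ℝ} (h : ∀ i ∈ s, AB μ (F i)) :
    AB μ (fun x => ∑ i ∈ s, F i x) := by
  classical
  induction s using Finset.induction_on with
  | empty => simpa using AB.const (μ := μ) 0
  | insert a s ha ih =>
    simp only [Finset.sum_insert ha]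
    exact (h a (Finset.mem_insert_self _ _)).add (ih fun i hi => h i (Finset.mem_insert_of_mem hi))

theorem AB.cont (hf : AB μ f) {φ : ℝ → ℝ} (hφ : Continuous φ) : AB μ (fun x => φ (f x)) := by
  obtain ⟨C, hC⟩ := hf.bdd
  obtain ⟨D, hD⟩ := (isCompact_Icc (a := -C) (b := C)).exists_bound_of_continuousOn
    hφ.continuousOn
  refine ⟨hφ.comp_aestronglyMeasurable hf.meas, D, ?_⟩
  filter_upwards [hC] with x h1
  exact hD _ (abs_le.1 h1)

theorem AB.comp_mp {ν : Measure β} {h : β → α} (hf : AB μ f) (hh : MeasurePreserving h ν μ) :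
    AB ν (fun x => f (h x)) := by
  obtain ⟨C, hC⟩ := hf.bdd
  exact ⟨hf.meas.comp_measurePreserving hh, C, hh.quasiMeasurePreserving.ae hC⟩

theorem integral_comp_mp {ν : Measure β} {h : β → α} (hh : MeasurePreserving h ν μ)
    (hf : AEStronglyMeasurable f μ) : ∫ x, f (h x) ∂ν = ∫ x, f x ∂μ := by
  rw [← hh.map_eq] at hf ⊢
  exact (integral_map hh.measurable.aemeasurable hf).symm

end BM

section condExp

variable {Ω : Type*} {m' m m0 : MeasurableSpace Ω} {μ : Measure Ω} [IsProbabilityMeasure μ]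
  {X G : Ω → ℝ}

theorem condExp_abs_le {C : ℝ} (hX : ∀ᵐ ω ∂μ, |X ω| ≤ C) : ∀ᵐ ω ∂μ, |(μ[X | m]) ω| ≤ C := by
  exact ae_bdd_abs_condExp_of_ae_bdd_abs hX

theorem AB.condExp (hm : m ≤ m0) (hX : AB μ X) : AB μ (μ[X | m]) := by
  obtain ⟨C, hC⟩ := hX.bdd
  exact ⟨(stronglyMeasurable_condExp.mono hm).aestronglyMeasurable, C, condExp_abs_le hC⟩

theorem integral_mul_condExp (hm : m ≤ m0) (hX : AB μ X) (hG : AB μ G)
    (hGm : AEStronglyMeasurable[m] G μ) :
    ∫ ω, G ω * (μ[X | m]) ω ∂μ = ∫ ω, G ω * X ω ∂μ := by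
  have h1 := condExp_mul_of_aestronglyMeasurable_left (μ := μ) (m := m) hGm
    (hG.mul hX).integrable hX.integrable
  have h2 : ∫ ω, (μ[G * X | m]) ω ∂μ = ∫ ω, (G * X) ω ∂μ := integral_condExp hm
  rw [integral_congr_ae h1] at h2
  exact h2

/-- conditional expectation is self-adjoint -/
theorem integral_condExp_mul (hm : m ≤ m0) (hX : AB μ X) (hG : AB μ G) :
    ∫ ω, G ω * (μ[X | m]) ω ∂μ = ∫ ω, (μ[G | m]) ω * X ω ∂μ := by
  have h1 := integral_mul_condExp hm hX (hG.condExp hm)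
    stronglyMeasurable_condExp.aestronglyMeasurable
  have h2 := integral_mul_condExp hm hG (hX.condExp hm)
    stronglyMeasurable_condExp.aestronglyMeasurable
  rw [← h1]
  simp only [mul_comm] at h2 ⊢
  exact h2.symm

/-- conditional expectation is the best approximation -/
theorem proj_le (hm : m ≤ m0) (hX : AB μ X) (hG : AB μ G) (hGm : AEStronglyMeasurable[m] G μ) :
    ∫ ω, (X ω - (μ[X | m]) ω) ^ 2 ∂μ ≤ ∫ ω, (X ω - G ω) ^ 2 ∂μ := by
  have hY := hX.condExp hm
  have hD : AB μ (fun ω => (μ[X | m]) ω - G ω) := hY.sub hG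
  have hDm : AEStronglyMeasurable[m] (fun ω => (μ[X | m]) ω - G ω) μ :=
    stronglyMeasurable_condExp.aestronglyMeasurable.sub hGm
  have h1 := integral_mul_condExp hm hX hD hDm
  have i1 := ((hX.sub hY).pow 2).integrable
  have i2 := (hD.mul hX).integrable
  have i3 := (hD.mul hY).integrable
  have i4 := (((hD.mul hX).sub (hD.mul hY)).const_mul 2).integrable
  have h2 : ∫ ω, ((X ω - (μ[X | m]) ω) ^ 2 + 2 * (((μ[X | m]) ω - G ω) * X ω
      - ((μ[X | m]) ω - G ω) * (μ[X | m]) ω)) ∂μ = ∫ ω, (X ω - (μ[X | m]) ω) ^ 2 ∂μ := by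
    rw [integral_add i1 i4, integral_const_mul, integral_sub i2 i3, h1]
    simp
  rw [← h2]
  refine integral_mono (i1.add i4) ((hX.sub hG).pow 2).integrable
    fun ω => ?_
  simp only
  nlinarith [sq_nonneg ((μ[X | m]) ω - G ω)]

/-- integrated conditional Jensen inequality -/
theorem integral_comp_condExp_le (hm : m ≤ m0) (hX : AB μ X) {φ : ℝ → ℝ}
    (hφ : ConvexOn ℝ univ φ) (hc : Continuous φ) :
    ∫ ω, φ ((μ[X | m]) ω) ∂μ ≤ ∫ ω, φ (X ω) ∂μ := by
  have h1 := hφ.map_condExp_le_univ (μ := μ) hm hc.lowerSemicontinuous hX.integrable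
    (hX.cont hc).integrable
  have h2 : ∫ ω, (μ[φ ∘ X | m]) ω ∂μ = ∫ ω, (φ ∘ X) ω ∂μ := integral_condExp hm
  exact le_trans (integral_mono_ae ((hX.condExp hm).cont hc).integrable integrable_condExp h1)
    h2.le

theorem integral_condExp_sq_mono (hm' : m' ≤ m) (hm : m ≤ m0)
    (hX : AB μ X) : ∫ ω, (μ[X | m']) ω ^ 2 ∂μ ≤ ∫ ω, (μ[X | m]) ω ^ 2 ∂μ := by
  have h1 : μ[μ[X | m] | m'] =ᵐ[μ] μ[X | m'] := condExp_condExp_of_le hm' hm
  have h2 := integral_comp_condExp_le (hm'.trans hm) (hX.condExp hm) (φ := fun x => x ^ 2)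
    (Even.convexOn_pow even_two) (continuous_pow 2)
  refine le_trans (le_of_eq ?_) h2
  refine integral_congr_ae ?_
  filter_upwards [h1] with ω hω
  rw [hω]

/-- Jensen for the positive part of the square -/
theorem integral_condExp_sq_sub_pos_le (hm : m ≤ m0) (hX : AB μ X) (c : ℝ) :
    ∫ ω, max ((μ[X | m]) ω ^ 2 - c) 0 ∂μ ≤ ∫ ω, max (X ω ^ 2 - c) 0 ∂μ := by
  refine integral_comp_condExp_le hm hX (φ := fun x => max (x ^ 2 - c) 0) ?_ (by fun_prop)
  have h1 : ConvexOn ℝ univ (fun x : ℝ => x ^ 2 - c) := by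
    simp only [sub_eq_add_neg]
    exact (Even.convexOn_pow (𝕜 := ℝ) even_two).add_const (-c)
  exact h1.sup (convexOn_const 0 convex_univ)

/-- conditional expectations are transported by measure-preserving maps -/
theorem condExp_comp_mp {Ω' : Type*} {m0' : MeasurableSpace Ω'} {ν : Measure Ω'}
    [IsProbabilityMeasure ν] {h : Ω' → Ω} (hh : @MeasurePreserving Ω' Ω m0' m0 h ν μ)
    (hm : m ≤ m0) (hX : Integrable X μ) :
    (fun x => (μ[X | m]) (h x)) =ᵐ[ν] ν[fun x => X (h x) | m.comap h] := by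
  have hm' : m.comap h ≤ m0' := (MeasurableSpace.comap_mono hm).trans hh.measurable.comap_le
  have hi : Integrable (fun x => (μ[X | m]) (h x)) ν :=
    (hh.integrable_comp integrable_condExp.aestronglyMeasurable).2 integrable_condExp
  have hXi : Integrable (fun x => X (h x)) ν := (hh.integrable_comp hX.aestronglyMeasurable).2 hX
  refine ae_eq_condExp_of_forall_setIntegral_eq hm' hXi (fun s _ _ => hi.integrableOn) ?_ ?_
  · rintro s ⟨t, ht, rfl⟩ -
    have key : ∀ f : Ω → ℝ, AEStronglyMeasurable f μ →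
        ∫ x in h ⁻¹' t, f (h x) ∂ν = ∫ x in t, f x ∂μ := by
      intro f hf
      rw [← hh.map_eq] at hf ⊢
      exact (setIntegral_map (hm t ht) hf hh.measurable.aemeasurable).symm
    rw [key _ integrable_condExp.aestronglyMeasurable, key _ hX.aestronglyMeasurable]
    exact setIntegral_condExp hm hX ht
  · have hmeas : @Measurable Ω' Ω (m.comap h) m h := Measurable.of_comap_le le_rfl
    exact (stronglyMeasurable_condExp.comp_measurable hmeas).aestronglyMeasurable

/-- Doob–Dynkin with a bound -/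
theorem exists_bdd_comp {E : Type*} [mE : MeasurableSpace E] (Ξ : Ω → E) {C : ℝ} (hC : 0 ≤ C)
    (hG : StronglyMeasurable[mE.comap Ξ] G) (hb : ∀ᵐ ω ∂μ, |G ω| ≤ C) :
    ∃ f : E → ℝ, Measurable f ∧ (∀ x, |f x| ≤ C) ∧ (fun ω => f (Ξ ω)) =ᵐ[μ] G := by
  obtain ⟨g, hg, hgG⟩ := hG.exists_eq_measurable_comp
  refine ⟨fun x => max (-C) (min C (g x)),
    measurable_const.max (measurable_const.min hg.measurable), fun x => ?_, ?_⟩
  · rw [abs_le]
    exact ⟨le_max_left _ _, max_le (by linarith) (min_le_left _ _)⟩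
  · filter_upwards [hb] with ω hω
    have h1 : g (Ξ ω) = G ω := by rw [hgG]; rfl
    have h2 := abs_le.1 hω
    simp only [h1]
    rw [min_eq_right h2.2, max_eq_right h2.1]

/-- Lévy's upward theorem in `L²` for an essentially bounded variable -/
theorem tendsto_condExp_sq (ℱ : Filtration ℕ m0) (hX : AB μ X) :
    Tendsto (fun n => ∫ ω, ((μ[X | ℱ n]) ω - (μ[X | ⨆ n, ℱ n]) ω) ^ 2 ∂μ) atTop (𝓝 0) := by
  obtain ⟨C, hC⟩ := hX.bdd
  have hle : ⨆ n, ℱ n ≤ m0 := iSup_le fun n => ℱ.le n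
  have h := tendsto_integral_of_dominated_convergence (μ := μ)
    (F := fun n ω => ((μ[X | ℱ n]) ω - (μ[X | ⨆ n, ℱ n]) ω) ^ 2) (f := fun _ => (0 : ℝ))
    (fun _ => (C + C) ^ 2)
    (fun n => (((hX.condExp (ℱ.le n)).sub (hX.condExp hle)).pow 2).meas)
    (integrable_const _)
    (fun n => by
      filter_upwards [condExp_abs_le (m := ℱ n) hC, condExp_abs_le (m := ⨆ n, ℱ n) hC]
        with ω h1 h2
      rw [Real.norm_eq_abs, abs_pow]
      exact pow_le_pow_left₀ (abs_nonneg _) ((abs_sub _ _).trans (add_le_add h1 h2)) 2)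
    (by
      filter_upwards [tendsto_ae_condExp (ℱ := ℱ) (μ := μ) X] with ω hω
      have := (hω.sub_const ((μ[X | ⨆ n, ℱ n]) ω)).pow 2
      simpa using this)
  simpa using h

end condExp

section indep

variable {Ω α β : Type*} [MeasurableSpace Ω] [MeasurableSpace α] [MeasurableSpace β]
  {μ : Measure Ω} [IsProbabilityMeasure μ] {X : Ω → α} {Y : Ω → β}

theorem lintegral_indep (h : IndepFun X Y μ) (hX : Measurable X) (hY : Measurable Y)
    {F : α × β → ℝ≥0∞} (hF : Measurable F) :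
    ∫⁻ ω, F (X ω, Y ω) ∂μ = ∫⁻ ω, ∫⁻ ω', F (X ω, Y ω') ∂μ ∂μ := by
  have h1 := h.map_prod_eq_prod_map_map hX.aemeasurable hY.aemeasurable
  have h2 : ∫⁻ ω, F (X ω, Y ω) ∂μ = ∫⁻ p, F p ∂(μ.map fun ω => (X ω, Y ω)) :=
    (lintegral_map hF (hX.prodMk hY)).symm
  rw [h2, h1, lintegral_prod _ hF.aemeasurable, lintegral_map hF.lintegral_prod_right' hX]
  refine lintegral_congr fun ω => ?_
  exact lintegral_map (hF.comp measurable_prodMk_left) hY

theorem integral_indep (h : IndepFun X Y μ) (hX : Measurable X) (hY : Measurable Y)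
    {F : α × β → ℝ} (hF : BM F) :
    ∫ ω, F (X ω, Y ω) ∂μ = ∫ ω, ∫ ω', F (X ω, Y ω') ∂μ ∂μ := by
  have h1 := h.map_prod_eq_prod_map_map hX.aemeasurable hY.aemeasurable
  have h2 : ∫ ω, F (X ω, Y ω) ∂μ = ∫ p, F p ∂(μ.map fun ω => (X ω, Y ω)) :=
    (integral_map (hX.prodMk hY).aemeasurable hF.meas.aestronglyMeasurable).symm
  have := Measure.isProbabilityMeasure_map (μ := μ) hX.aemeasurable
  have := Measure.isProbabilityMeasure_map (μ := μ) hY.aemeasurable
  rw [h2, h1, integral_prod _ hF.integrable, integral_map hX.aemeasurable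
    (hF.meas.stronglyMeasurable.integral_prod_right').aestronglyMeasurable]
  refine integral_congr_ae (Eventually.of_forall fun ω => ?_)
  exact integral_map hY.aemeasurable (hF.meas.comp measurable_prodMk_left).aestronglyMeasurable

end indep

end Crest.Agent.R160
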