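import Crest.Agent.R160.Cav
import Crest.Agent.R160.Innov

/-! Second moments of the magnetisation. -/

set_option autoImplicit false

namespace Crest.Agent.R160

open MeasureTheory ProbabilityTheory Set Filter Topology
open scoped ENNReal

universe u

variable {V : Type u}

namespace MomA

/-- Cauchy–Schwarz for bounded measurable functions -/
theorem sq_integral_mul_le {α : Type*} [MeasurableSpace α] {μ : Measure α} [IsFiniteMeasure μ]
    {f g : α → ℝ} (hf : BM f) (hg : BM g) :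
    (∫ x, f x * g x ∂μ) ^ 2 ≤ (∫ x, f x ^ 2 ∂μ) * ∫ x, g x ^ 2 ∂μ := by
  have h := discrim_le_zero (a := ∫ x, f x ^ 2 ∂μ) (b := 2 * ∫ x, f x * g x ∂μ)
    (c := ∫ x, g x ^ 2 ∂μ) (fun s => by
      have h1 : 0 ≤ ∫ x, (s * f x + g x) ^ 2 ∂μ := integral_nonneg fun _ => sq_nonneg _
      have h2 : ∀ x, (s * f x + g x) ^ 2
          = (s * s * f x ^ 2 + 2 * s * (f x * g x)) + g x ^ 2 := fun x => by ring
      simp only [h2] at h1
      rw [integral_add (((hf.pow 2).const_mul _).add ((hf.mul hg).const_mul _)).integrable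
          (hg.pow 2).integrable,
        integral_add ((hf.pow 2).const_mul _).integrable ((hf.mul hg).const_mul _).integrable,
        integral_const_mul, integral_const_mul] at h1
      linarith)
  rw [discrim] at h
  linarith

/-- second moment of a sum of independent terms -/
theorem integral_sum_sq_le {ι : Type*} (s : Finset ι) {X : ι → Om0 V → ℝ}
    (hX : ∀ i ∈ s, BM (X i)) {A : ι → Set (Idx V)} (hA : ∀ i ∈ s, DependsOn (X i) (A i))
    (hd : ∀ i ∈ s, ∀ j ∈ s, i ≠ j → Disjoint (A i) (A j)) :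
    ∫ x, (∑ i ∈ s, X i x) ^ 2 ∂mu0 V
      ≤ ∑ i ∈ s, ∫ x, X i x ^ 2 ∂mu0 V + (∑ i ∈ s, ∫ x, X i x ∂mu0 V) ^ 2 := by
  classical
  have h1 : ∫ x, (∑ i ∈ s, X i x) ^ 2 ∂mu0 V
      = ∑ i ∈ s, ∑ j ∈ s, ∫ x, X i x * X j x ∂mu0 V := by
    simp only [sq, Finset.sum_mul_sum]
    rw [integral_finsetSum _ fun i hi =>
      (BM.sum s fun j hj => (hX i hi).mul (hX j hj)).integrable]
    exact Finset.sum_congr rfl fun i hi =>
      integral_finsetSum _ fun j hj => ((hX i hi).mul (hX j hj)).integrable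
  rw [h1, sq (∑ i ∈ s, ∫ x, X i x ∂mu0 V), Finset.sum_mul_sum, ← Finset.sum_add_distrib]
  refine Finset.sum_le_sum fun i hi => ?_
  rw [← Finset.add_sum_erase s _ hi, ← Finset.add_sum_erase s _ hi]
  have h2 : ∑ j ∈ s.erase i, ∫ x, X i x * X j x ∂mu0 V
      = ∑ j ∈ s.erase i, (∫ x, X i x ∂mu0 V) * ∫ x, X j x ∂mu0 V :=
    Finset.sum_congr rfl fun j hj => by
      have hj' := Finset.mem_erase.1 hj
      exact integral_mul_of_dependsOn (hX i hi) (hX j hj'.2) (hA i hi) (hA j hj'.2)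
        (hd i hi j hj'.2 hj'.1.symm)
  rw [h2]
  simp only [sq]
  linarith [mul_self_nonneg (∫ x, X i x ∂mu0 V)]

/-- indicator of an active clock -/
noncomputable def act (v : V) (r : ℤ) (x : Om0 V) : ℝ :=
  if (x (.u v r) : ℝ) < 1 / 2 then 1 else 0

/-- the observation of an active slot -/
noncomputable def obs (v : V) (r : ℤ) (x : Om0 V) : ℝ := act v r x * Zv x (v, r)

theorem act_eq (v : V) (r : ℤ) :
    act v r = ((fun x : Om0 V => x (.u v r)) ⁻¹' Iio halfI).indicator (fun _ => (1 : ℝ)) := by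
  ext x
  simp only [act, indicator, mem_preimage, mem_Iio]
  congr 1

theorem meas_act (v : V) (r : ℤ) : MeasurableSet ((fun x : Om0 V => x (.u v r)) ⁻¹' Iio halfI) :=
  (measurable_pi_apply _) measurableSet_Iio

theorem bm_act (v : V) (r : ℤ) : BM (act v r) := by
  rw [act_eq]; exact BM.indicator_one (meas_act v r)

theorem integral_act (v : V) (r : ℤ) : ∫ x, act v r x ∂mu0 V = 1 / 2 := by
  rw [act_eq, integral_indicator_const _ (meas_act v r), Measure.real,
    (mp_coord (Idx.u v r)).measure_preimage measurableSet_Iio.nullMeasurableSet,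
    unitInterval.volume_Iio]
  simp [halfI]

theorem dependsOn_act (v : V) (r : ℤ) : DependsOn (act v r) {Idx.u v r} := by
  intro x y h
  simp only [act, h _ rfl]

theorem bm_Zv (i : Slot V) : BM (fun x : Om0 V => Zv x i) :=
  BM.of_le (measurable_Zv i) 1 fun x => abs_Zv_le x i

theorem dependsOn_Zv (v : V) (r : ℤ) : DependsOn (fun x : Om0 V => Zv x (v, r)) {Idx.w v r} := by
  intro x y h
  simp only [Zv, h _ rfl]

theorem abs_kap_le (r : ℤ) : |kap r| ≤ 1 / 2 := by
  rw [abs_of_pos (kap_pos r)]; exact kap_le_half r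

theorem integral_Zv (v : V) (r : ℤ) : ∫ x, Zv x (v, r) ∂mu0 V = kap r / 3 := by
  rw [← integral_Psi (abs_kap_le r)]
  exact integral_comp_mp (mp_coord (Idx.w v r)) (f := fun ξ : unitInterval => Psi (kap r) ξ)
    (measurable_Psi.comp (measurable_const.prodMk measurable_subtype_coe)).aestronglyMeasurable

theorem integral_Zv_sq (v : V) (r : ℤ) : ∫ x, Zv x (v, r) ^ 2 ∂mu0 V = 1 / 3 := by
  rw [← integral_Psi_sq (abs_kap_le r)]
  exact integral_comp_mp (mp_coord (Idx.w v r)) (f := fun ξ : unitInterval => Psi (kap r) ξ ^ 2)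
    ((measurable_Psi.comp (measurable_const.prodMk measurable_subtype_coe)).pow_const
      2).aestronglyMeasurable

theorem bm_obs (v : V) (r : ℤ) : BM (obs v r) := (bm_act v r).mul (bm_Zv _)

theorem dependsOn_obs (v : V) (r : ℤ) : DependsOn (obs v r) {Idx.u v r, Idx.w v r} := by
  intro x y h
  have h1 : act v r x = act v r y := dependsOn_act v r fun j hj => h j (Or.inl hj)
  have h2 : Zv x (v, r) = Zv y (v, r) := dependsOn_Zv v r fun j hj => h j (Or.inr hj)
  simp only [obs, h1, h2]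

theorem integral_obs (v : V) (r : ℤ) : ∫ x, obs v r x ∂mu0 V = kap r / 6 := by
  simp only [obs]
  rw [integral_mul_of_dependsOn (bm_act v r) (bm_Zv _) (dependsOn_act v r) (dependsOn_Zv v r)
    (by simp), integral_act, integral_Zv]
  ring

theorem integral_obs_sq (v : V) (r : ℤ) : ∫ x, obs v r x ^ 2 ∂mu0 V = 1 / 6 := by
  have h : ∀ x, obs v r x ^ 2 = act v r x * Zv x (v, r) ^ 2 := fun x => by
    simp only [obs, act]
    split_ifs <;> simp
  simp only [h]
  rw [integral_mul_of_dependsOn (bm_act v r) ((bm_Zv _).pow 2) (dependsOn_act v r)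
    (B := {Idx.w v r}) (fun x y hxy => by simp only [dependsOn_Zv v r hxy]) (by simp),
    integral_act, integral_Zv_sq]
  ring

theorem one_sub_pow_ge {b : ℕ} (hb : 2 ≤ b) {y : ℝ} (h1 : y ≤ 1) :
    1 - b * y + y ^ 2 ≤ (1 - y) ^ b := by
  obtain ⟨k, rfl⟩ := Nat.exists_eq_add_of_le hb
  have h2 : 1 + (k : ℝ) * (-y) ≤ (1 + -y) ^ k := one_add_mul_le_pow (by linarith) k
  have h3 : (1 - y) ^ 2 * (1 + (k : ℝ) * (-y)) ≤ (1 - y) ^ 2 * (1 + -y) ^ k :=
    mul_le_mul_of_nonneg_left h2 (sq_nonneg _)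
  have h4 : 0 ≤ (k : ℝ) * (y ^ 2 * (2 - y)) := by
    have : 0 ≤ 2 - y := by linarith
    positivity
  rw [pow_add, sub_eq_add_neg 1 y]
  rw [sub_eq_add_neg 1 y] at h3
  push_cast
  nlinarith

end MomA

open MomA

namespace Ctx

variable (T : Ctx V)

theorem BO_Ot_self {t : ℝ} {r : ℤ} (ht : (r : ℝ) + 1 / 2 ≤ t) (v : V) (x : Om0 V) :
    T.BO (Ot t) v x (v, r) = obs v r x := by
  rw [T.BO_self, obs, act]
  by_cases h : (x (.u v r) : ℝ) < 1 / 2
  · rw [if_pos h, if_pos, one_mul]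
    refine ⟨h, ?_⟩
    have : tau (clock x) (v, r) = (r : ℝ) + (x (.u v r) : ℝ) := rfl
    rw [this]
    linarith
  · rw [if_neg h, if_neg, zero_mul]
    exact fun h' => h h'.1

/-- the gauge-fixed cavity magnetisation of a branch -/
noncomputable def brT (t : ℝ) (v c : V) (x : Om0 V) : ℝ :=
  T.θ * (T.eta x s(v, c) * Real.tanh (T.AO (Ot t) c v x))

theorem bm_brT (t : ℝ) (v c : V) : BM (T.brT t v c) :=
  ((T.bm_eta _).mul ((T.bm_AO (isMask_Ot_ceil t) c v).cont continuous_tanh')).const_mul _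

theorem dependsOn_brT (t : ℝ) {v c : V} (h : T.G.Adj v c) :
    DependsOn (T.brT t v c) (T.brSet v c) :=
  T.dependsOn_eta_AO (isLocal_Ot t) h (fun p => T.θ * (p.1 * Real.tanh p.2))

theorem integral_brT (t : ℝ) {v c : V} (h : T.G.Adj v c) :
    ∫ x, T.brT t v c x ∂mu0 V = T.θ ^ 2 * T.xt t c v := by
  have hc := continuous_tanh'
  have h1 := T.integral_eta_AO (isMask_Ot_ceil t) (isLocal_Ot t) h
    (G := fun p => p.1 * Real.tanh p.2) (by fun_prop)
  simp only [one_mul, neg_mul, integral_neg, ← T.xt_eq_tanh t h.symm] at h1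
  simp only [brT]
  rw [integral_const_mul, h1]
  ring

theorem integral_brT_sq (t : ℝ) {v c : V} (h : T.G.Adj v c) :
    ∫ x, T.brT t v c x ^ 2 ∂mu0 V = T.θ ^ 2 * T.xt t c v := by
  have h1 : ∀ x, T.brT t v c x ^ 2 = T.θ ^ 2 * Real.tanh (T.AO (Ot t) c v x) ^ 2 := fun x => by
    rw [brT, mul_pow, mul_pow, sq (T.eta x _), T.eta_mul_self, one_mul]
  simp only [h1]
  rw [integral_const_mul, T.xt_eq_sq t h.symm]

theorem integral_brT_poly (t : ℝ) {v c : V} (h : T.G.Adj v c) (a b : ℝ) :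
    ∫ x, (1 + a * T.brT t v c x + b * T.brT t v c x ^ 2) ∂mu0 V
      = 1 + (a + b) * (T.θ ^ 2 * T.xt t c v) := by
  have hb := T.bm_brT t v c
  rw [integral_add ((BM.const 1).add (hb.const_mul a)).integrable
      ((hb.pow 2).const_mul b).integrable,
    integral_add (BM.const 1).integrable (hb.const_mul a).integrable,
    integral_const_mul, integral_const_mul, T.integral_brT t h, T.integral_brT_sq t h]
  simp
  ring

open Classical in
theorem card_erase {v u : V} (h : T.G.Adj v u) : ((T.nb v).erase u).card = T.d - 1 := by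
  rw [Finset.card_erase_of_mem (T.mem_nb.2 h), T.card_nb]

open Classical in
theorem integral_prod_brT (t : ℝ) {v u : V} (h : T.G.Adj v u) (a b : ℝ) (hab : a + b = -1) :
    ∫ x, ∏ c ∈ (T.nb v).erase u, (1 + a * T.brT t v c x + b * T.brT t v c x ^ 2) ∂mu0 V
      = (1 - T.θ ^ 2 * T.xt t v u) ^ (T.d - 1) := by
  have hadj : ∀ c ∈ (T.nb v).erase u, T.G.Adj v c :=
    fun c hc => T.mem_nb.1 (Finset.mem_of_mem_erase hc)
  rw [integral_prod_of_dependsOn _
    (X := fun c x => 1 + a * T.brT t v c x + b * T.brT t v c x ^ 2)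
    (fun c _ => ((BM.const 1).add ((T.bm_brT t v c).const_mul a)).add
      (((T.bm_brT t v c).pow 2).const_mul b))
    (A := fun c => T.brSet v c)
    (fun c hc x y hxy => by simp only [T.dependsOn_brT t (hadj c hc) hxy])
    (fun c hc c' hc' hne => T.brSet_disjoint (hadj c hc) (hadj c' hc') hne),
    ← T.card_erase h, ← Finset.prod_const]
  refine Finset.prod_congr rfl fun c hc => ?_
  rw [T.integral_brT_poly t (hadj c hc), hab, T.xt_eq t (hadj c hc).symm h]
  ring

theorem xt_rec {R : ℕ} {r : ℤ} (hr : r ≤ R) {t : ℝ} (ht : t ≤ r + 1) {v u : V}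
    (h : T.G.Adj v u) :
    (1 - T.θ ^ 2 * T.xt t v u) ^ (T.d - 1) - 2 ^ (R + 2) * kap r ≤ 1 - T.xt t v u := by
  classical
  have hO : IsMask r (Ot t : Clk V → Set (Slot V)) := isMask_Ot ht
  set C := (T.nb v).erase u with hC
  have hP : ∀ a b : ℝ, BM (fun x => ∏ c ∈ C, (1 + a * T.brT t v c x + b * T.brT t v c x ^ 2)) :=
    fun a b => BM.prod C fun c _ => ((BM.const 1).add ((T.bm_brT t v c).const_mul a)).add
      (((T.bm_brT t v c).pow 2).const_mul b)
  have hA : BM (fun x => Real.tanh (T.AO (Ot t) v u x)) := (T.bm_AO hO v u).cont continuous_tanh'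
  have key : ∫ x, (2 * ∏ c ∈ C, (1 + (-1) * T.brT t v c x + 0 * T.brT t v c x ^ 2)
        - 1 / 2 * ∏ c ∈ C, (1 + 0 * T.brT t v c x + (-1) * T.brT t v c x ^ 2)
        - 1 / 2 * ∏ c ∈ C, (1 + (-2) * T.brT t v c x + 1 * T.brT t v c x ^ 2)
        - 2 ^ (R + 2) * kap r) ∂mu0 V
      ≤ ∫ x, (1 - Real.tanh (T.AO (Ot t) v u x)) ∂mu0 V := by
    refine integral_mono_ae
      (((((hP _ _).const_mul _).sub ((hP _ _).const_mul _)).sub ((hP _ _).const_mul _)).sub
        (BM.const _)).integrable ((BM.const 1).sub hA).integrable ?_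
    filter_upwards [T.AO_rec hO] with x hx
    have h1 := one_sub_tanh_sum_ge C (fun c => T.eta x s(v, c) * gf T.θ (T.AO (Ot t) c v x))
    have h2 : ∀ c, Real.tanh (T.eta x s(v, c) * gf T.θ (T.AO (Ot t) c v x)) = T.brT t v c x := by
      intro c
      rw [brT]
      rcases T.eta_eq x s(v, c) with he | he <;>
        simp [he, Real.tanh_neg, tanh_gf T.θ_nonneg T.θ_lt_one]
    simp only [h2] at h1
    have h3 := abs_tanh_sub_le (T.AO (Ot t) v u x)
      (∑ c ∈ C, T.eta x s(v, c) * gf T.θ (T.AO (Ot t) c v x))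
    have h4 : T.AO (Ot t) v u x - ∑ c ∈ C, T.eta x s(v, c) * gf T.θ (T.AO (Ot t) c v x)
        = T.HO (Ot t) v x := by rw [hx v u]; ring
    rw [h4] at h3
    have h5 := T.abs_HO_le hr hO v x
    have h6 := (abs_le.1 (h3.trans h5)).2
    have e1 : ∏ c ∈ C, (1 + (-1) * T.brT t v c x + 0 * T.brT t v c x ^ 2)
        = ∏ c ∈ C, (1 - T.brT t v c x) := Finset.prod_congr rfl fun c _ => by ring
    have e2 : ∏ c ∈ C, (1 + 0 * T.brT t v c x + (-1) * T.brT t v c x ^ 2)
        = (∏ c ∈ C, (1 - T.brT t v c x)) * ∏ c ∈ C, (1 + T.brT t v c x) := by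
      rw [← Finset.prod_mul_distrib]; exact Finset.prod_congr rfl fun c _ => by ring
    have e3 : ∏ c ∈ C, (1 + (-2) * T.brT t v c x + 1 * T.brT t v c x ^ 2)
        = (∏ c ∈ C, (1 - T.brT t v c x)) * ∏ c ∈ C, (1 - T.brT t v c x) := by
      rw [← Finset.prod_mul_distrib]; exact Finset.prod_congr rfl fun c _ => by ring
    rw [e1, e2, e3]
    linarith
  rw [integral_sub ((((hP _ _).const_mul _).sub ((hP _ _).const_mul _)).sub
      ((hP _ _).const_mul _)).integrable (BM.const _).integrable,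
    integral_sub (((hP _ _).const_mul _).sub ((hP _ _).const_mul _)).integrable
      ((hP _ _).const_mul _).integrable,
    integral_sub ((hP _ _).const_mul _).integrable ((hP _ _).const_mul _).integrable,
    integral_const_mul, integral_const_mul, integral_const_mul,
    T.integral_prod_brT t h _ _ (by norm_num), T.integral_prod_brT t h _ _ (by norm_num),
    T.integral_prod_brT t h _ _ (by norm_num),
    integral_sub (BM.const 1).integrable hA.integrable, ← T.xt_eq_tanh t h] at key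
  simp only [integral_const, probReal_univ, one_smul] at key
  linarith

theorem xt_le (R : ℕ) : ∃ C : ℝ, 0 < C ∧ ∀ r : ℤ, r ≤ R → ∀ t : ℝ, t ≤ r + 1 →
    ∀ v u, T.G.Adj v u → T.xt t v u ≤ C * rho r ^ 2 := by
  have hd := T.hd
  have hb2 : 2 ≤ T.d - 1 := by omega
  have hbc : ((T.d - 1 : ℕ) : ℝ) = (T.d : ℝ) - 1 := by
    rw [Nat.cast_sub (by omega), Nat.cast_one]
  set b : ℝ := ((T.d - 1 : ℕ) : ℝ) with hbdef
  have hb : (2 : ℝ) ≤ b := by rw [hbdef]; exact_mod_cast hb2
  have hb0 : 0 < b := by linarith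
  refine ⟨b * 2 ^ (R + 1), by positivity, fun r hr t ht v u h => ?_⟩
  have h1 := T.xt_rec hr ht h
  have hx0 := T.xt_nonneg t v u
  have hx1 := T.xt_le_one t v u
  set x := T.xt t v u
  have hθ : T.θ ^ 2 * x ≤ x / b := by
    rw [le_div_iff₀ hb0]
    have := T.hθ
    rw [← hbc] at this
    nlinarith
  have hy1 : x / b ≤ 1 := by rw [div_le_one hb0]; linarith
  have h2 : (1 - x / b) ^ (T.d - 1) ≤ (1 - T.θ ^ 2 * x) ^ (T.d - 1) :=
    pow_le_pow_left₀ (by linarith) (by linarith) _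
  have h3 := one_sub_pow_ge hb2 (y := x / b) hy1
  rw [← hbdef, mul_div_cancel₀ _ hb0.ne'] at h3
  have h4 : (x / b) ^ 2 ≤ (2 ^ (R + 1) * rho r ^ 2) ^ 2 := by
    have h5 : (2 : ℝ) ^ (R + 2) * kap r = 2 ^ (R + 1) * rho r ^ 4 := by rw [kap]; ring
    have h6 : (1 : ℝ) ≤ 2 ^ (R + 1) := one_le_pow₀ (by norm_num)
    have h7 : 0 ≤ 2 ^ (R + 1) * rho r ^ 4 := by positivity
    calc (x / b) ^ 2 ≤ 2 ^ (R + 1) * rho r ^ 4 := by linarith
      _ ≤ 2 ^ (R + 1) * (2 ^ (R + 1) * rho r ^ 4) := le_mul_of_one_le_left h7 h6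
      _ = _ := by ring
  have h8 := (pow_le_pow_iff_left₀ (by positivity) (by positivity) two_ne_zero).1 h4
  rw [div_le_iff₀ hb0] at h8
  linarith

theorem delta_le (R : ℕ) : ∃ C : ℝ, 0 < C ∧ ∀ r : ℤ, r ≤ R → ∀ t : ℝ, t ≤ r + 1 →
    T.delta t ≤ C * rho r ^ 2 := by
  obtain ⟨C, hC, h⟩ := T.xt_le R
  obtain ⟨u, hu, -, -⟩ := T.exists_adj_ne T.o T.o T.o
  refine ⟨4 * C, by positivity, fun r hr t ht => (T.delta_le_sq t).trans ?_⟩
  have hb : ∀ v w, BM (fun ω => T.alpha v w (T.Yt t ω) ^ 2) := fun v w =>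
    (BM.of_le ((T.measurable_alpha v w).comp (T.measurable_Yt t)) 1
      fun ω => T.abs_alpha_le _ _ _).pow 2
  have h1 : ∫ ω, T.mt t T.o ω ^ 2 ∂mu V
      ≤ ∫ ω, (2 * T.alpha T.o u (T.Yt t ω) ^ 2 + 2 * T.alpha u T.o (T.Yt t ω) ^ 2) ∂mu V := by
    refine integral_mono_ae ((T.bm_mt t T.o).pow 2).integrable
      (((hb _ _).const_mul 2).add ((hb _ _).const_mul 2)).integrable ?_
    filter_upwards [T.good_ae (isMask_Ot ht)] with ω hω
    have h2 : |T.mt t T.o ω| ≤ |T.alpha T.o u (T.Yt t ω)| + |T.alpha u T.o (T.Yt t ω)| := by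
      rw [mt, mf, T.Hf_eq hu]
      refine (abs_tanh_add_le _ _).trans ?_
      have hω' : T.alpha T.o u (T.Yt t ω) = Real.tanh (T.acav T.o u (T.Yt t ω)) := hω T.o u hu
      rw [T.tanh_msg, ← hω', abs_mul, abs_of_nonneg T.θ_nonneg]
      have := mul_le_of_le_one_left (abs_nonneg (T.alpha u T.o (T.Yt t ω))) T.θ_lt_one.le
      linarith
    rw [← sq_abs (T.mt t T.o ω), ← sq_abs (T.alpha T.o u _), ← sq_abs (T.alpha u T.o _)]
    have h3 := pow_le_pow_left₀ (abs_nonneg _) h2 2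
    nlinarith [sq_nonneg (|T.alpha T.o u (T.Yt t ω)| - |T.alpha u T.o (T.Yt t ω)|)]
  rw [integral_add ((hb _ _).const_mul 2).integrable ((hb _ _).const_mul 2).integrable,
    integral_const_mul, integral_const_mul] at h1
  have h4 := h r hr t ht _ _ hu
  have h5 := h r hr t ht _ _ hu.symm
  simp only [xt] at h4 h5
  linarith

theorem xt_lower (hc : ((T.d : ℝ) - 1) * T.θ ^ 2 = 1) {r : ℤ} {t : ℝ} (ht : (r : ℝ) ≤ t)
    {v u : V} (h : T.G.Adj v u) : kap r / 100 ≤ T.xt t v u := by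
  classical
  have hO : IsMask ⌈t⌉ (Ot t : Clk V → Set (Slot V)) := isMask_Ot_ceil t
  set C := (T.nb v).erase u with hC
  set k := kap (r - 1) with hk
  have hk0 : 0 < k := kap_pos _
  have hk1 : k ≤ 1 / 2 := kap_le_half _
  have hadj : ∀ c ∈ C, T.G.Adj v c := fun c hc => T.mem_nb.1 (Finset.mem_of_mem_erase hc)
  -- the test function
  set L : Dat V → ℝ := fun Y => k * Y (v, r - 1) + ∑ c ∈ C, T.θ * T.alpha c v Y with hL
  have hN := T.nishimori hO v (C := C) (Finset.erase_subset _ _) (F := L)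
    ((measurable_const.mul (measurable_pi_apply _)).add
      (Finset.measurable_sum _ fun c _ => measurable_const.mul (T.measurable_alpha c v)))
    ⟨k + ∑ _c ∈ C, T.θ, fun Y hY => by
      refine (abs_add_le _ _).trans (add_le_add ?_ ?_)
      · rw [abs_mul, abs_of_pos hk0]
        exact mul_le_of_le_one_right hk0.le (hY.abs_le _)
      · refine (Finset.abs_sum_le_sum_abs _ _).trans (Finset.sum_le_sum fun c _ => ?_)
        rw [abs_mul, abs_of_nonneg T.θ_nonneg]
        exact mul_le_of_le_one_right T.θ_nonneg (T.abs_alpha_le _ _ _)⟩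
    (fun Y => by simp [hL, T.alpha_neg, add_comm])
    (fun Y Y' hY => by
      simp only [hL]
      rw [hY (v, r - 1) (Or.inl rfl)]
      congr 1
      refine Finset.sum_congr rfl fun c hc => ?_
      rw [T.alpha_congr (hadj c hc).symm fun i hi => hY i (Or.inr ⟨c, hc, hi⟩)])
  -- the terms
  set X : Option V → Om0 V → ℝ := fun i x =>
    i.elim (k * obs v (r - 1) x) (fun c => T.brT t v c x) with hX
  set A : Option V → Set (Idx V) := fun i => i.elim (loc {v}) (fun c => T.brSet v c) with hA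
  have hXb : ∀ i ∈ C.insertNone, BM (X i) := by
    rintro (_ | c) _
    · exact (bm_obs v (r - 1)).const_mul k
    · exact T.bm_brT t v c
  have hae : ∀ᵐ x ∂mu0 V, L (T.BO (Ot t) v x) = ∑ i ∈ C.insertNone, X i x := by
    filter_upwards [T.alpha_BO hO] with x hx
    rw [Finset.sum_insertNone]
    simp only [hL, hX, Option.elim]
    rw [T.BO_Ot_self (by push_cast; linarith)]
    congr 1
    exact Finset.sum_congr rfl fun c hc => by rw [hx v c (hadj c hc), brT]
  have hsum : ∑ c ∈ C, T.θ ^ 2 * T.xt t c v = T.xt t v u := by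
    rw [Finset.sum_congr rfl fun c hc => by rw [T.xt_eq t (hadj c hc).symm h], Finset.sum_const,
      T.card_erase h, nsmul_eq_mul, Nat.cast_sub (by have := T.hd; omega), Nat.cast_one,
      ← mul_assoc, hc, one_mul]
  have hm : ∑ i ∈ C.insertNone, ∫ x, X i x ∂mu0 V = k ^ 2 / 6 + T.xt t v u := by
    rw [Finset.sum_insertNone]
    simp only [hX, Option.elim]
    rw [integral_const_mul, integral_obs, ← hk,
      Finset.sum_congr rfl fun c hc => T.integral_brT t (hadj c hc), hsum]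
    ring
  have hq : ∑ i ∈ C.insertNone, ∫ x, X i x ^ 2 ∂mu0 V = k ^ 2 / 6 + T.xt t v u := by
    rw [Finset.sum_insertNone]
    simp only [hX, Option.elim, mul_pow]
    rw [integral_const_mul, integral_obs_sq,
      Finset.sum_congr rfl fun c hc => T.integral_brT_sq t (hadj c hc), hsum]
    ring
  have h2 := integral_sum_sq_le C.insertNone hXb (A := A)
    (by
      rintro (_ | c) hc
      · intro x y hxy
        have : obs v (r - 1) x = obs v (r - 1) y := dependsOn_obs v (r - 1) fun j hj => hxy j (by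
          rcases hj with rfl | rfl <;> exact rfl)
        simp only [hX, Option.elim, this]
      · exact T.dependsOn_brT t (hadj c (Finset.some_mem_insertNone.1 hc)))
    (by
      rintro (_ | c) hc (_ | c') hc' hne
      · exact absurd rfl hne
      · exact T.loc_disjoint_brSet (hadj c' (Finset.some_mem_insertNone.1 hc'))
      · exact (T.loc_disjoint_brSet (hadj c (Finset.some_mem_insertNone.1 hc))).symm
      · exact T.brSet_disjoint (hadj c (Finset.some_mem_insertNone.1 hc))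
          (hadj c' (Finset.some_mem_insertNone.1 hc')) (fun h => hne (by rw [h])))
  rw [hm, hq] at h2
  have hS : BM (fun x => ∑ i ∈ C.insertNone, X i x) := BM.sum _ hXb
  have hA' : BM (fun x => Real.tanh (T.AO (Ot t) v u x)) := (T.bm_AO hO v u).cont continuous_tanh'
  have h3 : k ^ 2 / 6 + T.xt t v u
      = ∫ x, Real.tanh (T.AO (Ot t) v u x) * ∑ i ∈ C.insertNone, X i x ∂mu0 V := by
    rw [← hm, ← integral_finsetSum _ fun i hi => (hXb i hi).integrable,
      ← integral_congr_ae hae, hN]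
    refine integral_congr_ae ?_
    filter_upwards [hae] with x hx
    rw [hx]
    rfl
  have h4 := sq_integral_mul_le (μ := mu0 V) hA' hS
  rw [← h3, ← T.xt_eq_sq t h] at h4
  have hx0 := T.xt_nonneg t v u
  have h5 := h4.trans (mul_le_mul_of_nonneg_left h2 hx0)
  have h6 := kap_le_kap_pred r
  rw [← hk] at h6
  set x := T.xt t v u
  have hZ : 0 < k ^ 2 / 6 + x := by positivity
  have h7 : k ^ 2 / 6 + x ≤ x * (1 + (k ^ 2 / 6 + x)) := by
    refine le_of_mul_le_mul_left ?_ hZ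
    nlinarith
  by_contra hlt
  have h8 : x < k / 6 := by linarith [not_le.1 hlt]
  have h9 : x * (k ^ 2 / 6 + x) ≤ k / 6 * (k ^ 2 / 6 + k / 6) :=
    mul_le_mul h8.le (by linarith) hZ.le (by positivity)
  have h10 : k * k ^ 2 ≤ 1 / 2 * k ^ 2 := mul_le_mul_of_nonneg_right hk1 (sq_nonneg _)
  have h11 : 0 < k ^ 2 := by positivity
  nlinarith

theorem recovery {n : ℕ} (hn : 0 < n) :
    ∫ ω, (T.spin ω T.o - T.mt n T.o ω) ^ 2 ∂mu V ≤ 144 / n := by
  classical
  have hO : IsMask n (Ot (n : ℝ) : Clk V → Set (Slot V)) := isMask_Ot (by push_cast; linarith)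
  have hn' : (0 : ℝ) < n := by exact_mod_cast hn
  set m : Om0 V → ℝ := fun x => T.mf T.o (T.BO (Ot n) T.o x) with hm
  have hmb : BM m := BM.of_le ((T.measurable_mf T.o).comp (T.measurable_BO hO T.o)) 1
    fun x => T.abs_mf_le _ _
  have h1 : ∫ ω, (T.spin ω T.o - T.mt n T.o ω) ^ 2 ∂mu V = ∫ x, (1 - m x) ^ 2 ∂mu0 V := by
    rw [← integral_comp_mp mp_fst (f := fun x => (1 - m x) ^ 2)
      (((BM.const 1).sub hmb).pow 2).meas.aestronglyMeasurable]
    refine integral_congr_ae (ae_of_all _ fun ω => ?_)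
    simp only [mt, Yt, hm]
    rw [T.YO_eq_smul _ T.o, odd_smul (T.mf_neg T.o) (T.spin_eq ω T.o)]
    rcases T.spin_eq ω T.o with h | h <;> rw [h] <;> ring
  have hloc : ∀ {F : Dat V → ℝ} (Y Y' : Dat V),
      (∀ i : Slot V, i.1 ∈ T.Reg T.o (T.nb T.o) → Y i = Y' i) → F Y = F Y' := fun Y Y' h => by
    rw [T.Reg_nb] at h
    rw [funext fun i => h i (mem_univ _)]
  have h2 : ∫ x, m x ∂mu0 V = ∫ x, m x ^ 2 ∂mu0 V := by
    have := T.nishimori hO T.o (C := T.nb T.o) (Finset.Subset.refl _) (F := T.mf T.o)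
      (T.measurable_mf T.o) ⟨1, fun Y _ => T.abs_mf_le _ _⟩ (T.mf_neg T.o) hloc
    simp only [sq]
    exact this
  have h3 : ∫ x, (1 - m x) ^ 2 ∂mu0 V = 1 - ∫ x, m x ^ 2 ∂mu0 V := by
    have e : ∀ x, (1 - m x) ^ 2 = 1 - 2 * m x + m x ^ 2 := fun x => by ring
    simp only [e]
    rw [integral_add ((BM.const 1).sub (hmb.const_mul 2)).integrable (hmb.pow 2).integrable,
      integral_sub (BM.const 1).integrable (hmb.const_mul 2).integrable, integral_const_mul, h2]
    simp only [integral_const, probReal_univ, one_smul]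
    ring
  have hN := T.nishimori hO T.o (C := T.nb T.o) (Finset.Subset.refl _)
    (F := fun Y => ∑ r ∈ Finset.range n, Y (T.o, (r : ℤ)))
    (Finset.measurable_sum _ fun r _ => measurable_pi_apply _)
    ⟨∑ _r ∈ Finset.range n, 1, fun Y hY =>
      (Finset.abs_sum_le_sum_abs _ _).trans (Finset.sum_le_sum fun r _ => hY.abs_le _)⟩
    (fun Y => by simp) hloc
  have hobs : ∀ x, ∑ r ∈ Finset.range n, T.BO (Ot n) T.o x (T.o, (r : ℤ))
      = ∑ r ∈ Finset.range n, obs T.o (r : ℤ) x := fun x =>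
    Finset.sum_congr rfl fun r hr => T.BO_Ot_self (by
      have : (r : ℝ) + 1 ≤ n := by exact_mod_cast Finset.mem_range.1 hr
      push_cast
      linarith) _ _
  simp only [hobs] at hN
  have hmean : ∑ r ∈ Finset.range n, ∫ x, obs T.o (r : ℤ) x ∂mu0 V = n / 12 := by
    simp only [integral_obs, kap_of_nonneg (Int.natCast_nonneg _), Finset.sum_const,
      Finset.card_range, nsmul_eq_mul]
    ring
  have h4 := integral_sum_sq_le (Finset.range n) (X := fun r x => obs T.o (r : ℤ) x)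
    (fun r _ => bm_obs _ _) (A := fun r => {Idx.u T.o (r : ℤ), Idx.w T.o (r : ℤ)})
    (fun r _ => dependsOn_obs _ _) (fun r _ r' _ hne => by simp [hne.symm])
  rw [hmean] at h4
  simp only [integral_obs_sq, Finset.sum_const, Finset.card_range, nsmul_eq_mul] at h4
  rw [integral_finsetSum _ fun r _ => (bm_obs _ _).integrable, hmean] at hN
  have h5 := sq_integral_mul_le (μ := mu0 V) hmb
    (BM.sum (Finset.range n) (F := fun r x => obs T.o (r : ℤ) x) fun r _ => bm_obs _ _)
  have hN' : (n : ℝ) / 12 = ∫ x, m x * ∑ r ∈ Finset.range n, obs T.o (r : ℤ) x ∂mu0 V := hN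
  rw [← hN'] at h5
  have hq0 : 0 ≤ ∫ x, m x ^ 2 ∂mu0 V := integral_nonneg fun _ => sq_nonneg _
  have hq1 : ∫ x, m x ^ 2 ∂mu0 V ≤ 1 := by
    have : 0 ≤ ∫ x, (1 - m x) ^ 2 ∂mu0 V := integral_nonneg fun _ => sq_nonneg _
    linarith
  have h6 := h5.trans (mul_le_mul_of_nonneg_left h4 hq0)
  rw [h1, h3, le_div_iff₀ hn']
  set q := ∫ x, m x ^ 2 ∂mu0 V
  refine le_of_mul_le_mul_left ?_ hn'
  nlinarith

end Ctx

end Crest.Agent.R160
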