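import Crest.Agent.R160.Real

/-! One-variable estimates used for the sub-Gaussian bound on the cavity field. -/

set_option autoImplicit false

namespace Crest.Agent.R160.MomBAux

open Set

/-- the bootstrap: a recursive bound at the threshold gives a Gaussian bound -/
theorem bootstrap {φ : ℝ → ℝ} {θ y0 B : ℝ} {b : ℕ} (h0 : 0 < θ) (h1 : θ < 1)
    (hb : (b : ℝ) * θ ^ 2 = 1) (hy : 0 ≤ y0) (hB : 0 ≤ B) (hφ : ∀ l, 0 ≤ φ l)
    (hrec : ∀ l, 0 ≤ l → φ l ≤ Real.exp (l * y0) * φ (θ * (l + 1)) ^ b)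
    (hbase : ∀ l, 0 ≤ l → l ≤ 2 * θ / (1 - θ) + 1 + 1 / θ → φ l ≤ Real.exp B) :
    ∀ l, 0 ≤ l → φ l ≤ Real.exp ((B + (2 * θ / (1 - θ) + 1) * y0) * (l ^ 2 + 1)) := by
  have h1' : 0 < 1 - θ := sub_pos.2 h1
  set c := 2 * θ / (1 - θ) with hc
  have hc0 : 0 ≤ c := by positivity
  have hcθ : c * (1 - θ) = 2 * θ := by rw [hc]; field_simp
  set M := B + (c + 1) * y0 with hM
  have hM1 : B ≤ M := by have : 0 ≤ (c + 1) * y0 := by positivity
                         linarith
  have hM0 : 0 ≤ M := hB.trans hM1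
  have hinv : θ * (1 / θ) = 1 := by field_simp
  have hinv1 : 1 ≤ 1 / θ := by rw [le_div_iff₀ h0]; linarith
  have key : ∀ n : ℕ, ∀ l, c + 1 ≤ l → l ≤ n → φ l ≤ Real.exp (M * (l - c) ^ 2) := by
    intro n
    induction n with
    | zero => intro l hl hn; simp only [Nat.cast_zero] at hn; linarith
    | succ n ih =>
      intro l hl hn
      push_cast at hn
      have hs : 1 ≤ l - c := by linarith
      by_cases hL : l ≤ c + 1 + 1 / θ
      · refine (hbase l (by linarith) hL).trans (Real.exp_le_exp.2 ?_)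
        have : 1 ≤ (l - c) ^ 2 := one_le_pow₀ hs
        nlinarith
      · push Not at hL
        have e1 : θ * (l + 1) - c = θ * (l - c - 1) := by linarith
        have e2 : c + 1 ≤ θ * (l + 1) := by
          have : θ * (1 / θ) ≤ θ * (l - c - 1) := mul_le_mul_of_nonneg_left (by linarith) h0.le
          linarith
        have e3 : θ * (l + 1) ≤ n := by
          have : (1 - θ) * (c + 1 + 1 / θ) ≤ (1 - θ) * l :=
            mul_le_mul_of_nonneg_left hL.le h1'.le
          nlinarith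
        have h2 := ih _ e2 e3
        refine (hrec l (by linarith)).trans ?_
        have h3 : φ (θ * (l + 1)) ^ b ≤ Real.exp (M * (θ * (l + 1) - c) ^ 2) ^ b :=
          pow_le_pow_left₀ (hφ _) h2 b
        refine (mul_le_mul_of_nonneg_left h3 (Real.exp_pos _).le).trans ?_
        rw [← Real.exp_nat_mul, ← Real.exp_add, e1]
        refine Real.exp_le_exp.2 ?_
        have e4 : (b : ℝ) * (M * (θ * (l - c - 1)) ^ 2) = M * (l - c - 1) ^ 2 := by
          rw [mul_pow]
          linear_combination (M * (l - c - 1) ^ 2) * hb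
        rw [e4]
        have e5 : l * y0 ≤ (c + 1) * y0 * (l - c) := by
          have : l ≤ (c + 1) * (l - c) := by nlinarith
          nlinarith
        have e6 : (c + 1) * y0 * (l - c) ≤ M * (l - c) :=
          mul_le_mul_of_nonneg_right (by linarith) (by linarith)
        have e7 : M * (l - c) ≤ M * (2 * (l - c) - 1) :=
          mul_le_mul_of_nonneg_left (by linarith) hM0
        nlinarith
  intro l hl
  by_cases hL : c + 1 ≤ l
  · obtain ⟨n, hn⟩ := exists_nat_ge l
    refine (key n l hL hn).trans (Real.exp_le_exp.2 (mul_le_mul_of_nonneg_left ?_ hM0))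
    nlinarith
  · push Not at hL
    refine (hbase l hl (by linarith)).trans (Real.exp_le_exp.2 ?_)
    nlinarith [sq_nonneg l]

theorem abs_le_abs_sinh (a : ℝ) : |a| ≤ |Real.sinh a| := by
  rw [Real.abs_sinh]
  exact Real.self_le_sinh_iff.2 (abs_nonneg a)

/-- on bounded ranges `cosh (l a) - 1` is dominated by `tanh a ^ 2` -/
theorem cosh_le_one_add {L H l a : ℝ} (hl0 : 0 ≤ l) (hl : l ≤ L) (ha : |a| ≤ H) :
    Real.cosh (l * a)
      ≤ 1 + (L * Real.cosh (L * H) * Real.cosh H) ^ 2 * Real.tanh a ^ 2 := by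
  have hH : 0 ≤ H := (abs_nonneg a).trans ha
  have hL : 0 ≤ L := hl0.trans hl
  have h1 : 1 ≤ Real.cosh (l * a) := Real.one_le_cosh _
  have h2 : Real.cosh (l * a) ^ 2 = Real.sinh (l * a) ^ 2 + 1 := Real.cosh_sq _
  have hla : |l * a| ≤ L * H := by
    rw [abs_mul, abs_of_nonneg hl0]
    exact mul_le_mul hl ha (abs_nonneg _) hL
  have h3 : Real.cosh (l * a) ≤ Real.cosh (L * H) :=
    Real.cosh_le_cosh.2 (hla.trans (le_abs_self _))
  have h4 : Real.cosh a ≤ Real.cosh H := Real.cosh_le_cosh.2 (ha.trans (le_abs_self _))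
  have h5 : ∀ y : ℝ, |Real.sinh y| = |Real.tanh y| * Real.cosh y := by
    intro y
    have := (Real.cosh_pos y)
    rw [Real.tanh_eq_sinh_div_cosh, abs_div, abs_of_pos this]
    field_simp
  have h6 : |a| ≤ |Real.tanh a| * Real.cosh H :=
    (abs_le_abs_sinh a).trans ((h5 a).le.trans (mul_le_mul_of_nonneg_left h4 (abs_nonneg _)))
  have h7 : |Real.sinh (l * a)| ≤ L * Real.cosh (L * H) * Real.cosh H * |Real.tanh a| := by
    rw [h5]
    have e1 : |Real.tanh (l * a)| ≤ L * (|Real.tanh a| * Real.cosh H) := by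
      refine (abs_tanh_le _).trans ?_
      rw [abs_mul, abs_of_nonneg hl0]
      exact mul_le_mul hl h6 (abs_nonneg _) hL
    calc |Real.tanh (l * a)| * Real.cosh (l * a)
        ≤ L * (|Real.tanh a| * Real.cosh H) * Real.cosh (L * H) :=
          mul_le_mul e1 h3 (by linarith) ((abs_nonneg _).trans e1)
      _ = _ := by ring
  have h8 : Real.sinh (l * a) ^ 2
      ≤ (L * Real.cosh (L * H) * Real.cosh H) ^ 2 * Real.tanh a ^ 2 := by
    rw [← sq_abs (Real.sinh _), ← sq_abs (Real.tanh a), ← mul_pow]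
    exact pow_le_pow_left₀ (abs_nonneg _) h7 2
  nlinarith

theorem exp_abs_le_two_cosh (y : ℝ) : Real.exp |y| ≤ 2 * Real.cosh y := by
  rw [← Real.cosh_abs, Real.cosh_eq]
  have := Real.exp_pos (-|y|)
  linarith

theorem pow_four_le_cosh (y : ℝ) : y ^ 4 ≤ 48 * Real.cosh y := by
  have h1 := Real.pow_div_factorial_le_exp |y| (abs_nonneg y) 4
  have h2 := exp_abs_le_two_cosh y
  have h3 : |y| ^ 4 = y ^ 4 := by rw [← abs_pow, abs_of_nonneg (by positivity)]
  rw [h3] at h1
  norm_num [Nat.factorial] at h1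
  linarith

/-- a concave quadratic minorant of `min (z, 1)` -/
theorem quad_le_min {a L Q z : ℝ} (ha0 : 0 ≤ a) (ha1 : a ≤ 1) (hL : 1 ≤ L) (hQ : 0 ≤ Q)
    (hz : a * Q ≤ z) : a / L * (Q - Q ^ 2 / (4 * L)) ≤ min z 1 := by
  have hL0 : 0 < L := by linarith
  have h1 : 0 ≤ Q ^ 2 / (4 * L) := by positivity
  have h2 : a / L ≤ a := div_le_self ha0 hL
  have h3 : 0 ≤ a / L := by positivity
  refine le_min ?_ ?_
  · calc a / L * (Q - Q ^ 2 / (4 * L)) ≤ a / L * Q := mul_le_mul_of_nonneg_left (by linarith) h3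
      _ ≤ a * Q := mul_le_mul_of_nonneg_right h2 hQ
      _ ≤ z := hz
  · have h4 : Q - Q ^ 2 / (4 * L) ≤ L := by
      have : Q ^ 2 / (4 * L) = (Q - 2 * L) ^ 2 / (4 * L) + Q - L := by field_simp; ring
      have h5 : 0 ≤ (Q - 2 * L) ^ 2 / (4 * L) := by positivity
      linarith
    calc a / L * (Q - Q ^ 2 / (4 * L)) ≤ a / L * L := mul_le_mul_of_nonneg_left h4 h3
      _ = a := by field_simp
      _ ≤ 1 := ha1

end Crest.Agent.R160.MomBAux
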