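import Crest.Agent.R160.MomA
import Crest.Agent.R160.MomBAux

/-! Sub-Gaussian bounds for the cavity field at the threshold. -/

set_option autoImplicit false

namespace Crest.Agent.R160

open MeasureTheory ProbabilityTheory Set Filter Topology
open scoped ENNReal

universe u

variable {V : Type u}

namespace Ctx

variable (T : Ctx V)

theorem θ_pos_of_crit (hc : ((T.d : ℝ) - 1) * T.θ ^ 2 = 1) : 0 < T.θ := by
  rcases T.θ_nonneg.eq_or_lt with h | h
  · rw [← h] at hc; norm_num at hc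
  · exact h

/-- one branch: exponential moment of the message, using the Nishimori identity -/
theorem MomB_branch {R : ℤ} {O : Clk V → Set (Slot V)} (hO : IsMask R O) (hl : IsLocal O)
    {v c : V} (h : T.G.Adj v c) (lam : ℝ) :
    ∫ x, Real.exp (lam * (T.eta x s(v, c) * gf T.θ (T.AO O c v x))) ∂mu0 V
      ≤ ∫ x, Real.cosh (T.θ * (|lam| + 1) * T.AO O c v x) ∂mu0 V := by
  have h0 := T.θ_nonneg
  have h1 := T.θ_lt_one
  have hg := continuous_gf h0 h1
  have hA := T.bm_AO hO c v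
  have e1 := T.integral_eta_AO hO hl h
    (G := fun p : ℝ × ℝ => Real.exp (lam * (p.1 * gf T.θ p.2))) (by fun_prop)
  have e2 := T.nishimori_AO hO h.symm (F := fun a => Real.sinh (lam * gf T.θ a)) (by fun_prop)
    (fun a => by simp only [gf_neg, mul_neg, Real.sinh_neg])
  simp only at e1 e2
  have bC : BM fun x => Real.cosh (lam * gf T.θ (T.AO O c v x)) :=
    hA.cont (φ := fun a => Real.cosh (lam * gf T.θ a)) (by fun_prop)
  have bS : BM fun x => Real.sinh (lam * gf T.θ (T.AO O c v x)) :=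
    hA.cont (φ := fun a => Real.sinh (lam * gf T.θ a)) (by fun_prop)
  have bT : BM fun x => Real.tanh (T.AO O c v x) := hA.cont continuous_tanh'
  have e3 : ∫ x, Real.exp (lam * (1 * gf T.θ (T.AO O c v x))) ∂mu0 V
      = (∫ x, Real.cosh (lam * gf T.θ (T.AO O c v x)) ∂mu0 V)
        + ∫ x, Real.sinh (lam * gf T.θ (T.AO O c v x)) ∂mu0 V := by
    rw [← integral_add bC.integrable bS.integrable]
    simp only [one_mul, Real.cosh_add_sinh]
  have e4 : ∫ x, Real.exp (lam * (-1 * gf T.θ (T.AO O c v x))) ∂mu0 V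
      = (∫ x, Real.cosh (lam * gf T.θ (T.AO O c v x)) ∂mu0 V)
        - ∫ x, Real.sinh (lam * gf T.θ (T.AO O c v x)) ∂mu0 V := by
    rw [← integral_sub bC.integrable bS.integrable]
    simp only [neg_mul, one_mul, mul_neg, Real.cosh_sub_sinh]
  have e5 : ∫ x, Real.exp (lam * (T.eta x s(v, c) * gf T.θ (T.AO O c v x))) ∂mu0 V
      = ∫ x, (Real.cosh (lam * gf T.θ (T.AO O c v x))
          + T.θ * (Real.tanh (T.AO O c v x) * Real.sinh (lam * gf T.θ (T.AO O c v x))))
            ∂mu0 V := by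
    rw [integral_add bC.integrable ((bT.mul bS).const_mul _).integrable, integral_const_mul,
      ← e2, e1, e3, e4]
    ring
  rw [e5]
  refine integral_mono (bC.add ((bT.mul bS).const_mul _)).integrable
    (hA.cont (φ := fun a => Real.cosh (T.θ * (|lam| + 1) * a)) (by fun_prop)).integrable
    fun x => ?_
  simp only
  set a := T.AO O c v x
  have h2 := cosh_add_sinh_mul_tanh_le lam (gf T.θ a)
  rw [tanh_gf h0 h1] at h2
  have h3 : Real.cosh ((|lam| + 1) * gf T.θ a) ≤ Real.cosh (T.θ * (|lam| + 1) * a) := by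
    refine Real.cosh_le_cosh.2 ?_
    have h4 : 0 ≤ |lam| + 1 := by positivity
    rw [abs_mul, abs_mul, abs_mul, abs_of_nonneg h4, abs_of_nonneg h0]
    have := mul_le_mul_of_nonneg_left (abs_gf_le h0 h1 a) h4
    linarith
  linarith

/-- the recursive bound for the exponential moments -/
theorem MomB_rec {R : ℕ} {r : ℤ} (hr : r ≤ R) {t : ℝ} (ht : t ≤ r + 1) {v u : V}
    (h : T.G.Adj v u) (lam : ℝ) :
    ∫ x, Real.exp (lam * T.AO (Ot t) v u x) ∂mu0 V
      ≤ Real.exp (|lam| * (2 ^ (R + 2) * kap r))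
        * (∫ x, Real.cosh (T.θ * (|lam| + 1) * T.AO (Ot t) v u x) ∂mu0 V) ^ (T.d - 1) := by
  classical
  have hO : IsMask r (Ot t : Clk V → Set (Slot V)) := isMask_Ot ht
  have hl : IsLocal (Ot t : Clk V → Set (Slot V)) := isLocal_Ot t
  have hg := continuous_gf T.θ_nonneg T.θ_lt_one
  have bH : BM fun x => Real.exp (lam * T.HO (Ot t) v x) :=
    (T.bm_HO hO v).cont (φ := fun a => Real.exp (lam * a)) (by fun_prop)
  have dH : DependsOn (fun x => Real.exp (lam * T.HO (Ot t) v x)) (loc {v}) := by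
    intro x y hxy
    simp only [T.dependsOn_HO hl v hxy]
  have e1 := T.integral_split hO hl v (C := (T.nb v).erase u) (Finset.erase_subset _ _) bH dH
    (G := fun _ (p : ℝ × ℝ) => Real.exp (lam * (p.1 * gf T.θ p.2))) (fun _ _ => by fun_prop)
  simp only at e1
  have e2 : ∫ x, Real.exp (lam * T.AO (Ot t) v u x) ∂mu0 V
      = ∫ x, Real.exp (lam * T.HO (Ot t) v x) * ∏ c ∈ (T.nb v).erase u,
          Real.exp (lam * (T.eta x s(v, c) * gf T.θ (T.AO (Ot t) c v x))) ∂mu0 V := by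
    refine integral_congr_ae ?_
    filter_upwards [T.AO_rec hO] with x hx
    rw [hx v u, mul_add, Real.exp_add, Finset.mul_sum, Real.exp_sum]
  rw [e2, e1]
  have hcard : ((T.nb v).erase u).card = T.d - 1 := by
    rw [Finset.card_erase_of_mem (T.mem_nb.2 h), T.card_nb]
  refine mul_le_mul ?_ ?_ (Finset.prod_nonneg fun c _ => integral_nonneg fun x =>
    (Real.exp_pos _).le) (Real.exp_pos _).le
  · have : ∫ _x : Om0 V, Real.exp (|lam| * (2 ^ (R + 2) * kap r)) ∂mu0 V
        = Real.exp (|lam| * (2 ^ (R + 2) * kap r)) := by simp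
    rw [← this]
    refine integral_mono bH.integrable (integrable_const _) fun x => ?_
    refine Real.exp_le_exp.2 ((le_abs_self _).trans ?_)
    rw [abs_mul]
    exact mul_le_mul_of_nonneg_left (T.abs_HO_le hr hO v x) (abs_nonneg _)
  · rw [← hcard, ← Finset.prod_const]
    refine Finset.prod_le_prod (fun c _ => integral_nonneg fun x => (Real.exp_pos _).le)
      fun c hc => ?_
    have hvc : T.G.Adj v c := T.mem_nb.1 (Finset.mem_of_mem_erase hc)
    refine (T.MomB_branch hO hl hvc lam).trans (le_of_eq ?_)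
    exact T.integral_AO_Ot t hvc.symm h (F := fun a => Real.cosh (T.θ * (|lam| + 1) * a))
      (by fun_prop)

theorem mgf_le (hc : ((T.d : ℝ) - 1) * T.θ ^ 2 = 1) (R : ℕ) :
    ∃ C : ℝ, 0 < C ∧ ∀ r : ℤ, r ≤ R → ∀ t : ℝ, t ≤ r + 1 → ∀ v u, T.G.Adj v u → ∀ lam : ℝ,
      ∫ x, Real.cosh (lam * T.AO (Ot t) v u x) ∂mu0 V
        ≤ Real.exp (C * (T.xt t v u + kap r) * (lam ^ 2 + 1)) := by
  have h0 := T.θ_pos_of_crit hc
  have h1 := T.θ_lt_one
  have h1' : 0 < 1 - T.θ := sub_pos.2 h1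
  set L := 2 * T.θ / (1 - T.θ) + 1 + 1 / T.θ with hL
  set C0 := (L * Real.cosh (L * T.Hmax R) * Real.cosh (T.Hmax R)) ^ 2 with hC0
  set C1 := (2 * T.θ / (1 - T.θ) + 1) * 2 ^ (R + 2) with hC1
  have hC0' : 0 ≤ C0 := sq_nonneg _
  have hC1' : 0 < C1 := by positivity
  refine ⟨C0 + C1, by positivity, fun r hr t ht v u h lam => ?_⟩
  have hO : IsMask r (Ot t : Clk V → Set (Slot V)) := isMask_Ot ht
  have hA := T.bm_AO hO v u
  have hx := T.xt_nonneg t v u
  have hk := kap_pos r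
  have hd : 1 ≤ T.d := le_trans (by norm_num) T.hd
  have key := MomBAux.bootstrap
    (φ := fun l => ∫ x, Real.cosh (l * T.AO (Ot t) v u x) ∂mu0 V) (θ := T.θ)
    (y0 := 2 ^ (R + 2) * kap r) (B := C0 * T.xt t v u) (b := T.d - 1) h0 h1
    (by rw [Nat.cast_sub hd]; simpa using hc) (by positivity) (by positivity)
    (fun l => integral_nonneg fun x => (Real.cosh_pos _).le)
    (fun l hl => by
      have e1 := T.MomB_rec hr ht h l
      have e2 := T.MomB_rec hr ht h (-l)
      rw [abs_neg] at e2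
      rw [abs_of_nonneg hl] at e1 e2
      have b1 : BM fun x => Real.exp (l * T.AO (Ot t) v u x) :=
        hA.cont (φ := fun a => Real.exp (l * a)) (by fun_prop)
      have b2 : BM fun x => Real.exp (-l * T.AO (Ot t) v u x) :=
        hA.cont (φ := fun a => Real.exp (-l * a)) (by fun_prop)
      have e3 : ∫ x, Real.cosh (l * T.AO (Ot t) v u x) ∂mu0 V
          = ((∫ x, Real.exp (l * T.AO (Ot t) v u x) ∂mu0 V)
            + ∫ x, Real.exp (-l * T.AO (Ot t) v u x) ∂mu0 V) / 2 := by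
        rw [← integral_add b1.integrable b2.integrable, ← integral_div]
        simp only [Real.cosh_eq, neg_mul]
      rw [e3]
      linarith)
    (fun l hl hlL => by
      have bT : BM fun x => Real.tanh (T.AO (Ot t) v u x) ^ 2 := (hA.cont continuous_tanh').pow 2
      have e1 : ∫ x, (1 + C0 * Real.tanh (T.AO (Ot t) v u x) ^ 2) ∂mu0 V
          = 1 + C0 * T.xt t v u := by
        rw [integral_add (integrable_const _) (bT.const_mul _).integrable, integral_const_mul,
          T.xt_eq_sq t h]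
        simp
      have e2 : ∫ x, Real.cosh (l * T.AO (Ot t) v u x) ∂mu0 V
          ≤ ∫ x, (1 + C0 * Real.tanh (T.AO (Ot t) v u x) ^ 2) ∂mu0 V :=
        integral_mono (hA.cont (φ := fun a => Real.cosh (l * a)) (by fun_prop)).integrable
          ((BM.const 1).add (bT.const_mul _)).integrable fun x =>
            MomBAux.cosh_le_one_add hl hlL (T.abs_AO_le (hO.mono hr) v u x)
      have e3 := Real.add_one_le_exp (C0 * T.xt t v u)
      linarith)
    |lam| (abs_nonneg lam)
  have e : ∫ x, Real.cosh (lam * T.AO (Ot t) v u x) ∂mu0 V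
      = ∫ x, Real.cosh (|lam| * T.AO (Ot t) v u x) ∂mu0 V := by
    refine integral_congr_ae (Eventually.of_forall fun x => ?_)
    simp only
    rw [← Real.cosh_abs, ← Real.cosh_abs (|lam| * _), abs_mul, abs_mul, abs_abs]
  rw [e]
  refine key.trans (Real.exp_le_exp.2 ?_)
  rw [sq_abs]
  refine mul_le_mul_of_nonneg_right ?_ (by positivity)
  have e4 : (2 * T.θ / (1 - T.θ) + 1) * (2 ^ (R + 2) * kap r) = C1 * kap r := by rw [hC1]; ring
  rw [e4]
  nlinarith [mul_nonneg hC0' hk.le, mul_nonneg hC1'.le hx]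

/-- Markov's inequality with `cosh` -/
theorem MomB_markov {R : ℤ} {O : Clk V → Set (Slot V)} (hO : IsMask R O) (v u : V) {M s : ℝ}
    (hM : 0 < M) (hs : 0 ≤ s)
    (hmgf : ∀ lam : ℝ, ∫ x, Real.cosh (lam * T.AO O v u x) ∂mu0 V
      ≤ Real.exp (M * (lam ^ 2 + 1))) :
    (mu0 V).real {x | s ≤ |T.AO O v u x|} ≤ 2 * Real.exp M * Real.exp (-s ^ 2 / (4 * M)) := by
  set lam := s / (2 * M) with hlam
  have hl : 0 ≤ lam := by positivity
  have hA := T.bm_AO hO v u
  have bC : BM fun x => Real.cosh (lam * T.AO O v u x) :=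
    hA.cont (φ := fun a => Real.cosh (lam * a)) (by fun_prop)
  have h1 := mul_meas_ge_le_integral_of_nonneg (μ := mu0 V)
    (f := fun x => Real.cosh (lam * T.AO O v u x))
    (Eventually.of_forall fun x => (Real.cosh_pos _).le) bC.integrable (Real.exp (lam * s) / 2)
  have h2 : (mu0 V).real {x | s ≤ |T.AO O v u x|}
      ≤ (mu0 V).real {x | Real.exp (lam * s) / 2 ≤ Real.cosh (lam * T.AO O v u x)} := by
    refine measureReal_mono fun x hx => ?_
    simp only [mem_ofPred_eq] at hx ⊢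
    have e1 := MomBAux.exp_abs_le_two_cosh (lam * T.AO O v u x)
    have e2 : Real.exp (lam * s) ≤ Real.exp |lam * T.AO O v u x| := by
      refine Real.exp_le_exp.2 ?_
      rw [abs_mul, abs_of_nonneg hl]
      exact mul_le_mul_of_nonneg_left hx hl
    linarith
  have h3 : 0 < Real.exp (lam * s) / 2 := by positivity
  have h4 : Real.exp (lam * s) / 2 * (mu0 V).real {x | s ≤ |T.AO O v u x|}
      ≤ Real.exp (M * (lam ^ 2 + 1)) :=
    (mul_le_mul_of_nonneg_left h2 h3.le).trans (h1.trans (hmgf lam))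
  have h5 : Real.exp (M * (lam ^ 2 + 1))
      = Real.exp (lam * s) / 2 * (2 * Real.exp M * Real.exp (-s ^ 2 / (4 * M))) := by
    have : M * (lam ^ 2 + 1) = lam * s + (M + -s ^ 2 / (4 * M)) := by
      rw [hlam]; field_simp; ring
    rw [this, Real.exp_add, Real.exp_add]
    ring
  rw [h5] at h4
  exact le_of_mul_le_mul_left h4 h3

theorem mt_tail (hc : ((T.d : ℝ) - 1) * T.θ ^ 2 = 1) (R : ℕ) :
    ∃ C : ℝ, 0 < C ∧ ∀ r : ℤ, r ≤ R → ∀ t : ℝ, t ≤ r + 1 → ∀ v, ∀ a : ℝ, 0 ≤ a →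
      (mu V).real {ω | a < T.mt t v ω ^ 2} ≤ C * Real.exp (-a / (C * rho r ^ 2)) := by
  obtain ⟨C, hC, hmgf⟩ := T.mgf_le hc R
  obtain ⟨Cx, hCx, hxt⟩ := T.xt_le R
  set C1 := C * (Cx + 1) with hC1
  have hC1' : 0 < C1 := by positivity
  refine ⟨4 * Real.exp C1 + 16 * C1, by positivity, fun r hr t ht v a ha => ?_⟩
  have hO : IsMask r (Ot t : Clk V → Set (Slot V)) := isMask_Ot ht
  obtain ⟨u, hu, -, -⟩ := T.exists_adj_ne v v v
  have hρ := rho_pos r
  have hρ1 := rho_le_one r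
  have hρ2 : rho r ^ 2 ≤ 1 := pow_le_one₀ hρ.le hρ1
  have hM : 0 < C1 * rho r ^ 2 := by positivity
  have hk : kap r ≤ rho r ^ 2 := by
    unfold kap
    have : rho r ^ 4 = rho r ^ 2 * rho r ^ 2 := by ring
    have h2 : 0 < rho r ^ 2 := by positivity
    nlinarith
  have hs : 0 ≤ √a / 2 := by positivity
  have hone : ∀ v u, T.G.Adj v u → (mu V).real {ω : Om V | √a / 2 ≤ |T.AO (Ot t) v u ω.1|}
      ≤ 2 * Real.exp C1 * Real.exp (-a / (16 * C1 * rho r ^ 2)) := by
    intro v u h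
    have h1 := T.MomB_markov hO v u hM hs (fun lam => (hmgf r hr t ht v u h lam).trans
      (Real.exp_le_exp.2 (mul_le_mul_of_nonneg_right (by
        have := hxt r hr t ht v u h
        rw [hC1, mul_assoc]
        exact mul_le_mul_of_nonneg_left (by linarith) hC.le) (by positivity))))
    have hmeas : MeasurableSet {x : Om0 V | √a / 2 ≤ |T.AO (Ot t) v u x|} :=
      measurableSet_le measurable_const (T.measurable_AO hO v u).abs
    have h2 := (mp_fst (V := V)).measureReal_preimage hmeas.nullMeasurableSet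
    have h3 : (mu V).real {ω : Om V | √a / 2 ≤ |T.AO (Ot t) v u ω.1|}
        = (mu0 V).real {x : Om0 V | √a / 2 ≤ |T.AO (Ot t) v u x|} := h2
    rw [h3]
    refine h1.trans ?_
    have e1 : -(√a / 2) ^ 2 / (4 * (C1 * rho r ^ 2)) = -a / (16 * C1 * rho r ^ 2) := by
      rw [div_pow, Real.sq_sqrt ha]; field_simp; ring
    rw [e1]
    refine mul_le_mul_of_nonneg_right (mul_le_mul_of_nonneg_left (Real.exp_le_exp.2 ?_)
      (by norm_num)) (Real.exp_pos _).le
    exact mul_le_of_le_one_right hC1'.le hρ2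
  have hsub : {ω | a < T.mt t v ω ^ 2} ≤ᵐ[mu V]
      (({ω : Om V | √a / 2 ≤ |T.AO (Ot t) v u ω.1|}
        ∪ {ω : Om V | √a / 2 ≤ |T.AO (Ot t) u v ω.1|} : Set (Om V))) := by
    filter_upwards [T.good_ae hO] with ω hω hlt
    have h1 : a < T.mt t v ω ^ 2 := hlt
    have h2 : √a < |T.mt t v ω| := by
      rw [← Real.sqrt_sq_eq_abs]
      exact Real.sqrt_lt_sqrt ha h1
    have h3 : |T.mt t v ω| ≤ |T.AO (Ot t) v u ω.1| + |T.AO (Ot t) u v ω.1| := by
      rw [← T.abs_acav_YO, ← T.abs_acav_YO]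
      have e1 : T.mt t v ω = Real.tanh (T.Hf v (T.YO (Ot t) ω)) := rfl
      rw [e1, hω.Hf_eq hu]
      refine (abs_tanh_le _).trans ((abs_add_le _ _).trans (add_le_add le_rfl ?_))
      exact (abs_gf_le T.θ_nonneg T.θ_lt_one _).trans
        (mul_le_of_le_one_left (abs_nonneg _) T.θ_lt_one.le)
    by_contra hcon
    have hcon' : ¬ (√a / 2 ≤ |T.AO (Ot t) v u ω.1| ∨ √a / 2 ≤ |T.AO (Ot t) u v ω.1|) := hcon
    push Not at hcon'
    linarith [hcon'.1, hcon'.2]
  have h4 : (mu V).real {ω | a < T.mt t v ω ^ 2}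
      ≤ 4 * Real.exp C1 * Real.exp (-a / (16 * C1 * rho r ^ 2)) := by
    have e1 := ENNReal.toReal_mono (measure_ne_top (mu V) _) (measure_mono_ae hsub)
    have e2 := measureReal_union_le (μ := mu V) {ω : Om V | √a / 2 ≤ |T.AO (Ot t) v u ω.1|}
      {ω : Om V | √a / 2 ≤ |T.AO (Ot t) u v ω.1|}
    have e3 := hone v u hu
    have e4 := hone u v hu.symm
    have e5 : (mu V).real {ω | a < T.mt t v ω ^ 2} ≤ _ := e1
    have e6 : (mu V).real {ω | a < T.mt t v ω ^ 2} ≤ _ := e5.trans e2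
    linarith
  refine h4.trans (mul_le_mul (by linarith) (Real.exp_le_exp.2 ?_) (Real.exp_pos _).le
    (by positivity))
  rw [neg_div, neg_div, neg_le_neg_iff]
  refine div_le_div_of_nonneg_left ha (by positivity) ?_
  have := Real.exp_pos C1
  exact mul_le_mul_of_nonneg_right (by linarith) (by positivity)

theorem zeta_msg_lower (hc : ((T.d : ℝ) - 1) * T.θ ^ 2 = 1) (R : ℕ) :
    ∃ c : ℝ, 0 < c ∧ ∀ r : ℤ, r ≤ R → ∀ t : ℝ, r ≤ t → t ≤ r + 1 →
      ∃ xs : ℝ, c * kap r ≤ xs ∧ ∀ v u, T.G.Adj v u →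
        c ≤ ∫ x, min (zeta T.θ (gf T.θ (T.AO (Ot t) v u x)) / xs) 1 ∂mu0 V := by
  obtain ⟨C, hC, hmgf⟩ := T.mgf_le hc R
  have h0 := T.θ_pos_of_crit hc
  have h1 := T.θ_lt_one
  set C2 := 48 * Real.exp (1 + 101 * C) * (101 * C) ^ 2 with hC2
  set L := max 1 (C2 / 2) with hL
  have hL1 : 1 ≤ L := le_max_left _ _
  have hL2 : C2 / 2 ≤ L := le_max_right _ _
  set a := (1 - T.θ ^ 2) * T.θ ^ 2 with ha
  have hθ2 : T.θ ^ 2 < 1 := pow_lt_one₀ h0.le h1 (by norm_num)
  have ha0 : 0 < a := mul_pos (sub_pos.2 hθ2) (by positivity)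
  have ha1 : a ≤ 1 := by nlinarith [sq_nonneg T.θ]
  obtain ⟨u0, hu0, -, -⟩ := T.exists_adj_ne T.o T.o T.o
  refine ⟨min (1 / 100) (a / (2 * L)), lt_min (by norm_num) (by positivity),
    fun r hr t ht1 ht => ⟨T.xt t T.o u0, ?_, fun v u h => ?_⟩⟩
  · have e1 := T.xt_lower hc ht1 hu0
    have e2 := mul_le_mul_of_nonneg_right (min_le_left (1 / 100) (a / (2 * L))) (kap_pos r).le
    linarith
  rw [T.xt_eq t hu0 h]
  have hO : IsMask r (Ot t : Clk V → Set (Slot V)) := isMask_Ot ht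
  have hA := T.bm_AO hO v u
  have hk := kap_pos r
  have hxl := T.xt_lower hc ht1 h
  have hx1 := T.xt_le_one t v u
  have hxe := T.xt_eq_sq t h
  set x0 := T.xt t v u with hx0
  have hx : 0 < x0 := by linarith
  have bT : BM fun x => Real.tanh (T.AO (Ot t) v u x) := hA.cont continuous_tanh'
  -- fourth moment
  have hM : 0 < 101 * C * x0 := by positivity
  have h4 : ∫ x, Real.tanh (T.AO (Ot t) v u x) ^ 4 ∂mu0 V ≤ C2 * x0 ^ 2 := by
    set lam := 1 / √(101 * C * x0) with hlam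
    have hl2 : lam ^ 2 = 1 / (101 * C * x0) := by rw [hlam, div_pow, Real.sq_sqrt hM.le, one_pow]
    have e1 := hmgf r hr t ht v u h lam
    have e2 : C * (x0 + kap r) * (lam ^ 2 + 1) ≤ 1 + 101 * C := by
      have f1 : C * (x0 + kap r) ≤ 101 * C * x0 := by nlinarith
      have f2 : 101 * C * x0 * (lam ^ 2 + 1) = 1 + 101 * C * x0 := by rw [hl2]; field_simp
      have f3 := mul_le_mul_of_nonneg_right f1 (show 0 ≤ lam ^ 2 + 1 by positivity)
      nlinarith
    have e3 := e1.trans (Real.exp_le_exp.2 e2)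
    have bC : BM fun x => Real.cosh (lam * T.AO (Ot t) v u x) :=
      hA.cont (φ := fun a => Real.cosh (lam * a)) (by fun_prop)
    have e4 : ∫ x, Real.tanh (T.AO (Ot t) v u x) ^ 4 ∂mu0 V
        ≤ ∫ x, (48 * (101 * C * x0) ^ 2) * Real.cosh (lam * T.AO (Ot t) v u x) ∂mu0 V := by
      refine integral_mono (bT.pow 4).integrable (bC.const_mul _).integrable fun x => ?_
      simp only
      set y := T.AO (Ot t) v u x
      have f1 : Real.tanh y ^ 4 ≤ y ^ 4 := by
        have := pow_le_pow_left₀ (abs_nonneg _) (abs_tanh_le y) 4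
        rwa [← abs_pow, ← abs_pow, abs_of_nonneg (by positivity),
          abs_of_nonneg (by positivity)] at this
      have f2 := MomBAux.pow_four_le_cosh (lam * y)
      have f3 : y ^ 4 = (101 * C * x0) ^ 2 * (lam * y) ^ 4 := by
        have : (lam * y) ^ 4 = (lam ^ 2) ^ 2 * y ^ 4 := by ring
        rw [this, hl2]; field_simp
      have f4 := mul_le_mul_of_nonneg_left f2 (sq_nonneg (101 * C * x0))
      linarith
    rw [integral_const_mul] at e4
    refine e4.trans ((mul_le_mul_of_nonneg_left e3 (by positivity)).trans (le_of_eq ?_))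
    rw [hC2]; ring
  have hL0 : 0 < L := by linarith
  have bQ : BM fun x => Real.tanh (T.AO (Ot t) v u x) ^ 2 / x0 := (bT.pow 2).div_const _
  have e1 : ∫ x, a / L * (Real.tanh (T.AO (Ot t) v u x) ^ 2 / x0
        - (Real.tanh (T.AO (Ot t) v u x) ^ 2 / x0) ^ 2 / (4 * L)) ∂mu0 V
      ≤ ∫ x, min (zeta T.θ (gf T.θ (T.AO (Ot t) v u x)) / x0) 1 ∂mu0 V := by
    have hz := continuous_zeta h0.le h1
    have hg := continuous_gf h0.le h1
    refine integral_mono ((bQ.sub ((bQ.pow 2).div_const _)).const_mul _).integrable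
      (hA.cont (φ := fun y => min (zeta T.θ (gf T.θ y) / x0) 1) (by fun_prop)).integrable
      fun x => ?_
    refine MomBAux.quad_le_min ha0.le ha1 hL1 (by positivity) ?_
    rw [← mul_div_assoc]
    refine div_le_div_of_nonneg_right ?_ hx.le
    have := zeta_ge h0.le h1 (gf T.θ (T.AO (Ot t) v u x))
    rw [tanh_gf h0.le h1, mul_pow, ← mul_assoc] at this
    exact this
  refine (min_le_right _ _).trans (le_trans ?_ e1)
  have e2 : ∫ x, (Real.tanh (T.AO (Ot t) v u x) ^ 2 / x0) ^ 2 / (4 * L) ∂mu0 V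
      = (∫ x, Real.tanh (T.AO (Ot t) v u x) ^ 4 ∂mu0 V) / (x0 ^ 2 * (4 * L)) := by
    rw [← integral_div]
    refine integral_congr_ae (Eventually.of_forall fun x => ?_)
    simp only
    field_simp
  rw [integral_const_mul, integral_sub bQ.integrable ((bQ.pow 2).div_const _).integrable, e2,
    integral_div, ← hxe, div_self hx.ne']
  have e3 : (∫ x, Real.tanh (T.AO (Ot t) v u x) ^ 4 ∂mu0 V) / (x0 ^ 2 * (4 * L)) ≤ 1 / 2 := by
    rw [div_le_iff₀ (by positivity)]
    have : C2 * x0 ^ 2 ≤ 2 * L * x0 ^ 2 := mul_le_mul_of_nonneg_right (by linarith) (sq_nonneg _)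
    linarith
  have e4 : a / (2 * L) = a / L * (1 / 2) := by field_simp
  rw [e4]
  exact mul_le_mul_of_nonneg_left (by linarith) (by positivity)

end Ctx

end Crest.Agent.R160
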