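import Crest.Agent.R160.PostSym

/-! The posterior law of the spins given a deterministic set of observations. -/

set_option autoImplicit false

namespace Crest.Agent.R160

open MeasureTheory ProbabilityTheory Set Filter Topology
open scoped ENNReal

universe u

variable {V : Type u}

namespace Ctx

variable (T : Ctx V)

/-- Lévy's upward theorem along an increasing sequence of observation sets -/
theorem levy_FD {A : ℕ → Set (Slot V)} (hA : Monotone A) (X : Om V → ℝ) :
    ∀ᵐ ω ∂mu V, Tendsto (fun n => ((mu V)[X | T.FD (A n)]) ω) atTop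
      (𝓝 (((mu V)[X | T.FD (⋃ n, A n)]) ω)) := by
  let ℱ : Filtration ℕ (inferInstance : MeasurableSpace (Om V)) :=
    ⟨fun n => T.FD (A n), fun a b h => T.FD_mono (hA h), fun n => T.FD_le _⟩
  have h := tendsto_ae_condExp (ℱ := ℱ) (μ := mu V) X
  rw [T.FD_iUnion]
  exact h

theorem tendsto_tanh_an (O : Set (Slot V)) (v : V) {C : Finset V} (hC : C ⊆ T.nb v) :
    ∀ᵐ ω ∂mu V, Tendsto (fun n => Real.tanh (T.an n v C (O.indicator (T.Yf ω)))) atTop
      (𝓝 (((mu V)[fun ω => T.spin ω v | T.FD (O ∩ {i | i.1 ∈ T.Reg v C})]) ω)) := by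
  have hmono : Monotone (fun n => O ∩ T.SC n v C) := fun a b h =>
    inter_subset_inter_right _ (T.SC_mono v C h)
  have h1 := T.levy_FD hmono (fun ω => T.spin ω v)
  rw [← inter_iUnion, T.iUnion_SC] at h1
  have h2 := ae_all_iff.2 fun n => T.post_an O n v hC
  filter_upwards [h1, h2] with ω h1 h2
  simpa only [h2] using h1

theorem conv_ae (O : Set (Slot V)) : ∀ᵐ ω ∂mu V, T.Conv (O.indicator (T.Yf ω)) := by
  classical
  have := T.countable_V
  unfold Conv
  refine ae_all_iff.2 fun v => ae_all_iff.2 fun u => ?_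
  filter_upwards [T.tendsto_tanh_an O v (Finset.erase_subset u (T.nb v))] with ω hω _
  exact ⟨_, (tendsto_add_atTop_iff_nat 1).1 hω⟩

theorem good_ae_det {R : ℤ} {O : Set (Slot V)} (hO : ∀ i ∈ O, i.2 ≤ R) :
    ∀ᵐ ω ∂mu V, T.Good (O.indicator (T.Yf ω)) := by
  filter_upwards [T.conv_ae O] with ω hω
  exact hω.good (bdd_indicator hO (T.abs_Yf_le ω))

/-- posterior mean given the observations in a region -/
theorem post_det {R : ℤ} {O : Set (Slot V)} (hO : ∀ i ∈ O, i.2 ≤ R) (v : V) {C : Finset V}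
    (hC : C ⊆ T.nb v) :
    (mu V)[fun ω => T.spin ω v | T.FD (O ∩ {i | i.1 ∈ T.Reg v C})]
      =ᵐ[mu V] fun ω => Real.tanh (T.af v C (O.indicator (T.Yf ω))) := by
  filter_upwards [T.tendsto_tanh_an O v hC, T.conv_ae O] with ω h1 h2
  have h3 := h2.tendsto_an (bdd_indicator hO (T.abs_Yf_le ω)) v hC
  have h4 := (continuous_tanh'.tendsto _).comp h3
  exact tendsto_nhds_unique h1 h4

theorem post_mf {R : ℤ} {O : Set (Slot V)} (hO : ∀ i ∈ O, i.2 ≤ R) (v : V) :
    (mu V)[fun ω => T.spin ω v | T.FD O] =ᵐ[mu V] fun ω => T.mf v (O.indicator (T.Yf ω)) := by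
  have h := T.post_det hO v (Finset.Subset.refl (T.nb v))
  rw [T.Reg_nb] at h
  simp only [mem_univ, ofPred_true, inter_univ] at h
  exact h

theorem post_alpha {R : ℤ} {O : Set (Slot V)} (hO : ∀ i ∈ O, i.2 ≤ R) {v u : V}
    (h : T.G.Adj v u) :
    (mu V)[fun ω => T.spin ω v | T.FD (O ∩ {i | i.1 ∈ T.half v u})]
      =ᵐ[mu V] fun ω => T.alpha v u (O.indicator (T.Yf ω)) := by
  classical
  have h1 := T.post_det hO v (Finset.erase_subset u (T.nb v))
  have h3 : T.Reg v ((T.nb v).erase u) = T.half v u := by convert T.Reg_erase h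
  rw [h3] at h1
  filter_upwards [h1, T.good_ae_det hO] with ω h1 h2
  rw [h1, h2 v u h]
  unfold acav
  congr

/-- test-function form -/
theorem post_test {R : ℤ} {O : Set (Slot V)} (hO : ∀ i ∈ O, i.2 ≤ R) (v : V) {C : Finset V}
    (hC : C ⊆ T.nb v) {F : Dat V → ℝ} (hF : Measurable F)
    (hb : ∃ M, ∀ Y, Bdd R Y → |F Y| ≤ M)
    (hloc : ∀ Y Y' : Dat V, (∀ i : Slot V, i.1 ∈ T.Reg v C → Y i = Y' i) → F Y = F Y') :
    ∫ ω, T.spin ω v * F (O.indicator (T.Yf ω)) ∂mu V
      = ∫ ω, Real.tanh (T.af v C (O.indicator (T.Yf ω))) * F (O.indicator (T.Yf ω)) ∂mu V := by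
  obtain ⟨M, hM⟩ := hb
  set A : Set (Slot V) := O ∩ {i | i.1 ∈ T.Reg v C} with hA
  have hFA : ∀ ω, F (O.indicator (T.Yf ω)) = F (A.indicator (T.Yf ω)) := by
    intro ω
    refine hloc _ _ fun i hi => ?_
    by_cases hiO : i ∈ O
    · rw [indicator_of_mem hiO, indicator_of_mem (show i ∈ A from ⟨hiO, hi⟩)]
    · rw [indicator_of_notMem hiO, indicator_of_notMem (fun h : i ∈ A => hiO h.1)]
  have hG : BM (fun ω => F (O.indicator (T.Yf ω))) :=
    ⟨hF.comp (T.measurable_YD O), M, fun ω => hM _ (bdd_indicator hO (T.abs_Yf_le ω))⟩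
  have hGm : AEStronglyMeasurable[T.FD A] (fun ω => F (O.indicator (T.Yf ω))) (mu V) := by
    simp only [hFA]
    exact (hF.comp (T.measurable_YD_FD (Subset.refl A))).stronglyMeasurable.aestronglyMeasurable
  have h1 := integral_mul_condExp (T.FD_le A) (T.bm_spin v).ab hG.ab hGm
  simp only [mul_comm (T.spin _ v), mul_comm (Real.tanh _)]
  rw [← h1]
  refine integral_congr_ae ?_
  filter_upwards [T.post_det hO v hC] with ω hω
  rw [hω]

/-- more observations give a larger second moment -/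
theorem alpha_sq_mono_det {R : ℤ} {O O' : Set (Slot V)} (hO' : ∀ i ∈ O', i.2 ≤ R) (h : O ⊆ O')
    {v u : V} (huv : T.G.Adj v u) :
    ∫ ω, T.alpha v u (O.indicator (T.Yf ω)) ^ 2 ∂mu V
      ≤ ∫ ω, T.alpha v u (O'.indicator (T.Yf ω)) ^ 2 ∂mu V := by
  have hO : ∀ i ∈ O, i.2 ≤ R := fun i hi => hO' i (h hi)
  have h1 := integral_condExp_sq_mono (μ := mu V)
    (T.FD_mono (inter_subset_inter_left {i : Slot V | i.1 ∈ T.half v u} h)) (T.FD_le _)
    (T.bm_spin v).ab
  refine le_trans (le_of_eq ?_) (h1.trans (le_of_eq ?_))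
  · refine integral_congr_ae ?_
    filter_upwards [T.post_alpha hO huv] with ω hω
    rw [hω]
  · refine integral_congr_ae ?_
    filter_upwards [T.post_alpha hO' huv] with ω hω
    rw [hω]

/-- convergence along increasing sets of observations -/
theorem maskLim_det {R : ℤ} {O : ℕ → Set (Slot V)} (hO : ∀ n, ∀ i ∈ O n, i.2 ≤ R)
    (hmono : Monotone O) :
    ∀ᵐ ω ∂mu V, ∀ v, Tendsto (fun n => T.mf v ((O n).indicator (T.Yf ω))) atTop
      (𝓝 (T.mf v ((⋃ n, O n).indicator (T.Yf ω)))) := by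
  have := T.countable_V
  refine ae_all_iff.2 fun v => ?_
  have hU : ∀ i ∈ ⋃ n, O n, i.2 ≤ R := by
    intro i hi
    obtain ⟨n, hn⟩ := mem_iUnion.1 hi
    exact hO n i hn
  have h2 := ae_all_iff.2 fun n => T.post_mf (hO n) v
  filter_upwards [T.levy_FD hmono (fun ω => T.spin ω v), h2, T.post_mf hU v] with ω h1 h2 h3
  simpa only [h2, h3] using h1

/-- the innovation of a new observation is uniform and independent of the old observations -/
theorem innov_det {R : ℤ} {O : Set (Slot V)} (hO : ∀ i ∈ O, i.2 ≤ R) {i : Slot V} (hi : i ∉ O)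
    {Γ : Dat V × unitInterval → ℝ} (hΓ : BM Γ) :
    ∫ ω, Γ (O.indicator (T.Yf ω), projIcc 0 1 zero_le_one
        (Fc (kap i.2 * T.mf i.1 (O.indicator (T.Yf ω))) (T.Yf ω i))) ∂mu V
      = ∫ ω, (∫ ξ : unitInterval, Γ (O.indicator (T.Yf ω), ξ)) ∂mu V := by
  obtain ⟨M, hM⟩ := hΓ.bdd
  have hκ : |kap i.2| ≤ 1 / 2 := by
    rw [abs_of_pos (kap_pos _)]; exact kap_le_half _
  -- the integrand as a function of (old observations, spin, fresh noise)
  let Φ : (Dat V × ℝ) × unitInterval → ℝ := fun p =>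
    Γ (p.1.1, projIcc 0 1 zero_le_one
      (Fc (kap i.2 * T.mf i.1 p.1.1) (p.1.2 * Psi (kap i.2) p.2)))
  have hΦ : BM Φ := by
    refine hΓ.comp (Measurable.prodMk (by fun_prop) ?_)
    refine continuous_projIcc.measurable.comp ?_
    refine measurable_Fc.comp (f := fun p : (Dat V × ℝ) × unitInterval =>
      (kap i.2 * T.mf i.1 p.1.1, p.1.2 * Psi (kap i.2) p.2)) (Measurable.prodMk ?_ ?_)
    · exact ((T.measurable_mf i.1).comp (by fun_prop)).const_mul _
    · refine Measurable.mul (by fun_prop) ?_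
      exact measurable_Psi.comp (f := fun p : (Dat V × ℝ) × unitInterval =>
        (kap i.2, (p.2 : ℝ))) (by fun_prop)
  let γ : Dat V × ℝ → ℝ := fun q => ∫ ξ : unitInterval, Φ (q, ξ)
  have hγ : BM γ := by
    refine ⟨(hΦ.meas.stronglyMeasurable.integral_prod_right' (ν := volume)).measurable, M,
      fun q => ?_⟩
    have := norm_integral_le_of_norm_le_const (μ := (volume : Measure unitInterval))
      (f := fun ξ => Φ (q, ξ)) (C := M) (ae_of_all _ fun ξ => hM _)
    simpa using this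
  let X : Om V → Dat V × ℝ := fun ω => (O.indicator (T.Yf ω), T.spin ω i.1)
  have hX : Measurable X := (T.measurable_YD O).prodMk (T.measurable_spin i.1)
  have hcoord : Measurable (fun x : Om0 V => x (Idx.w i.1 i.2)) := measurable_pi_apply _
  have hdep : ∀ b : Bool, DependsOn (fun x : Om0 V => X (x, b)) {Idx.w i.1 i.2}ᶜ := by
    intro b x y hxy
    have hs : ∀ v, T.spin (x, b) v = T.spin (y, b) v := by
      intro v
      unfold spin
      congr 1
      refine T.dependsOn_s0 v fun j hj => hxy j ?_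
      obtain ⟨s, rfl⟩ := hj
      simp
    refine Prod.ext ?_ (hs _)
    funext k
    by_cases hk : k ∈ O
    · simp only [X, indicator_of_mem hk, Yf, hs, Zv]
      congr 3
      refine hxy _ ?_
      intro h
      simp only [mem_singleton_iff, Idx.w.injEq] at h
      exact hi (by rw [show i = k from Prod.ext h.1.symm h.2.symm]; exact hk)
    · simp only [X, indicator_of_notMem hk]
  have hfix : ∀ b : Bool, ∫ x, Φ (X (x, b), x (Idx.w i.1 i.2)) ∂mu0 V
      = ∫ x, γ (X (x, b)) ∂mu0 V := by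
    intro b
    have hXb : Measurable (fun x : Om0 V => X (x, b)) := hX.comp (by fun_prop)
    have hind : IndepFun (fun x : Om0 V => X (x, b)) (fun x : Om0 V => x (Idx.w i.1 i.2))
        (mu0 V) :=
      indepFun_of_dependsOn hXb hcoord (hdep b) (B := {Idx.w i.1 i.2})
        (fun x y hxy => hxy _ rfl) disjoint_compl_left
    rw [integral_indep hind hXb hcoord hΦ]
    refine integral_congr_ae (ae_of_all _ fun x => ?_)
    exact integral_comp_mp (f := fun ξ => Φ (X (x, b), ξ)) (mp_coord (Idx.w i.1 i.2))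
      (hΦ.meas.comp (by fun_prop)).aestronglyMeasurable
  have hΦX : BM (fun ω : Om V => Φ (X ω, ω.1 (Idx.w i.1 i.2))) :=
    hΦ.comp (hX.prodMk (hcoord.comp measurable_fst))
  have hγX : BM (fun ω : Om V => γ (X ω)) := hγ.comp hX
  have step1 : ∫ ω, Φ (X ω, ω.1 (Idx.w i.1 i.2)) ∂mu V = ∫ ω, γ (X ω) ∂mu V := by
    have hb : ∀ b : Bool, Measurable (fun x : Om0 V => ((x, b) : Om V)) := fun b => by fun_prop
    rw [integral_mu hΦX.integrable, integral_mu hγX.integrable, integral_div, integral_div,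
      integral_add (hΦX.comp (hb true)).integrable (hΦX.comp (hb false)).integrable,
      integral_add (hγX.comp (hb true)).integrable (hγX.comp (hb false)).integrable,
      hfix true, hfix false]
  have hγ1 : BM (fun y : Dat V => γ (y, 1)) := hγ.comp (by fun_prop)
  have hγ2 : BM (fun y : Dat V => γ (y, -1)) := hγ.comp (by fun_prop)
  have hF : BM (fun y : Dat V => (γ (y, 1) - γ (y, -1)) / 2) := (hγ1.sub hγ2).div_const 2
  have hS : BM (fun y : Dat V => (γ (y, 1) + γ (y, -1)) / 2) := (hγ1.add hγ2).div_const 2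
  have hFY := hF.comp (T.measurable_YD O)
  have hSY := hS.comp (T.measurable_YD O)
  have hmY : BM (fun ω => T.mf i.1 (O.indicator (T.Yf ω))) :=
    ⟨(T.measurable_mf i.1).comp (T.measurable_YD O), 1, fun ω => T.abs_mf_le _ _⟩
  have step2 := T.post_test hO i.1 (Finset.Subset.refl (T.nb i.1)) hF.meas
    (by obtain ⟨C, hC⟩ := hF.bdd; exact ⟨C, fun Y _ => hC Y⟩)
    (by
      intro Y Y' h
      have : Y = Y' := funext fun k => h k (by rw [T.Reg_nb]; exact mem_univ _)
      rw [this])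
  calc _ = ∫ ω, Φ (X ω, ω.1 (Idx.w i.1 i.2)) ∂mu V := rfl
    _ = ∫ ω, γ (X ω) ∂mu V := step1
    _ = ∫ ω, ((γ (O.indicator (T.Yf ω), 1) + γ (O.indicator (T.Yf ω), -1)) / 2
          + T.spin ω i.1 * ((γ (O.indicator (T.Yf ω), 1) - γ (O.indicator (T.Yf ω), -1)) / 2))
          ∂mu V := by
        refine integral_congr_ae (ae_of_all _ fun ω => ?_)
        simp only [X]
        rcases T.spin_eq ω i.1 with h | h <;> rw [h] <;> ring
    _ = ∫ ω, ((γ (O.indicator (T.Yf ω), 1) + γ (O.indicator (T.Yf ω), -1)) / 2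
          + T.mf i.1 (O.indicator (T.Yf ω))
            * ((γ (O.indicator (T.Yf ω), 1) - γ (O.indicator (T.Yf ω), -1)) / 2)) ∂mu V := by
        rw [integral_add hSY.integrable ((T.bm_spin i.1).mul hFY).integrable,
          integral_add hSY.integrable (hmY.mul hFY).integrable, step2]
        rfl
    _ = _ := by
        refine integral_congr_ae (ae_of_all _ fun ω => ?_)
        have h := mixture_uniform hκ (T.abs_mf_le i.1 (O.indicator (T.Yf ω)))
          (fun ξ => Γ (O.indicator (T.Yf ω), ξ)) (hΓ.meas.comp (by fun_prop)) M (fun ξ => hM _)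
        simp only [γ, Φ, one_mul, neg_mul]
        rw [← h]
        ring

end Ctx

end Crest.Agent.R160
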