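import Crest.Agent.R160.Space
import Crest.Agent.R160.BP

/-! The posterior law of a spin given finitely many observations (calibration argument). -/

set_option autoImplicit false

namespace Crest.Agent.R160

open MeasureTheory ProbabilityTheory Set Filter Topology
open scoped ENNReal

universe u

variable {V : Type u}

theorem indicator_const_smul' (O : Set (Slot V)) (s : ℝ) (Y : Dat V) :
    O.indicator (s • Y) = s • O.indicator Y := by
  funext i
  by_cases h : i ∈ O <;> simp [h]

/-! ### calibrated pairs (observation vector, field) -/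

instance symMeasurableAdd : MeasurableAdd₂ (Dat V × ℝ) :=
  ⟨(measurable_fst.fst.add measurable_snd.fst).prodMk
    (measurable_fst.snd.add measurable_snd.snd)⟩

instance symMeasurableNeg : MeasurableNeg (Dat V × ℝ) :=
  ⟨measurable_fst.neg.prodMk measurable_snd.neg⟩

instance symMeasurableSMulDat : MeasurableSMul₂ ℝ (Dat V) :=
  ⟨measurable_pi_lambda _ fun i => measurable_fst.mul ((measurable_pi_apply i).comp measurable_snd)⟩

instance symMeasurableSMul : MeasurableSMul₂ ℝ (Dat V × ℝ) :=
  ⟨(measurable_fst.smul measurable_snd.fst).prodMk (measurable_fst.mul measurable_snd.snd)⟩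

/-- the tilting weight `exp (-a)` -/
noncomputable def symW (x : Dat V × ℝ) : ℝ≥0∞ := ENNReal.ofReal (Real.exp (-x.2))

theorem measurable_symW : Measurable (symW : Dat V × ℝ → ℝ≥0∞) := by
  unfold symW; fun_prop

theorem symW_add (x y : Dat V × ℝ) : symW (x + y) = symW x * symW y := by
  simp only [symW, Prod.snd_add, neg_add, Real.exp_add]
  rw [ENNReal.ofReal_mul (Real.exp_pos _).le]

theorem symW_ne_top (x : Dat V × ℝ) : symW x ≠ ∞ := ENNReal.ofReal_ne_top

/-- after tilting by `exp (-field)` the law of `X` is symmetric; `X` only uses the coordinates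
in `D` -/
structure SymD (X : Om0 V → Dat V × ℝ) (D : Set (Idx V)) : Prop where
  meas : Measurable X
  dep : DependsOn X D
  sym : ∀ G : Dat V × ℝ → ℝ≥0∞, Measurable G →
    ∫⁻ ω, G (X ω) * symW (X ω) ∂mu0 V = ∫⁻ ω, G (-X ω) * symW (X ω) ∂mu0 V

theorem SymD.mono {X : Om0 V → Dat V × ℝ} {D D' : Set (Idx V)} (h : SymD X D) (hD : D ⊆ D') :
    SymD X D' := ⟨h.meas, h.dep.mono hD, h.sym⟩

theorem SymD.zero (D : Set (Idx V)) : SymD (fun _ : Om0 V => (0 : Dat V × ℝ)) D :=
  ⟨measurable_const, fun _ _ _ => rfl, fun G _ => by simp only [neg_zero]⟩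

theorem SymD.add {X Y : Om0 V → Dat V × ℝ} {D D' : Set (Idx V)} (hX : SymD X D) (hY : SymD Y D')
    (hd : Disjoint D D') : SymD (fun ω => X ω + Y ω) (D ∪ D') := by
  refine ⟨hX.meas.add hY.meas, fun x y hxy => ?_, fun G hG => ?_⟩
  · show X x + Y x = X y + Y y
    rw [hX.dep (fun i hi => hxy i (Or.inl hi)), hY.dep (fun i hi => hxy i (Or.inr hi))]
  have hi := indepFun_of_dependsOn hX.meas hY.meas hX.dep hY.dep hd
  have hW := measurable_symW (V := V)
  have hYm := hY.meas
  have e1 := lintegral_indep hi hX.meas hY.meas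
    (F := fun p => G (p.1 + p.2) * symW (p.1 + p.2)) (by fun_prop)
  have e2 := lintegral_indep hi hX.meas hY.meas
    (F := fun p => G (-(p.1 + p.2)) * symW (p.1 + p.2)) (by fun_prop)
  dsimp only at e1 e2
  rw [e1, e2]
  have e3 : ∀ x : Dat V × ℝ, ∫⁻ ω', G (x + Y ω') * symW (x + Y ω') ∂mu0 V
      = (∫⁻ ω', G (x + -Y ω') * symW (Y ω') ∂mu0 V) * symW x := by
    intro x
    rw [← hY.sym (fun y => G (x + y)) (by fun_prop), ← lintegral_mul_const' _ _ (symW_ne_top x)]
    refine lintegral_congr fun ω' => ?_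
    rw [symW_add]; ring
  have e4 : ∀ x : Dat V × ℝ, ∫⁻ ω', G (-(x + Y ω')) * symW (x + Y ω') ∂mu0 V
      = (∫⁻ ω', G (-x + -Y ω') * symW (Y ω') ∂mu0 V) * symW x := by
    intro x
    rw [← lintegral_mul_const' _ _ (symW_ne_top x)]
    refine lintegral_congr fun ω' => ?_
    rw [symW_add, neg_add]; ring
  simp only [e3, e4]
  refine hX.sym (fun x => ∫⁻ ω', G (x + -Y ω') * symW (Y ω') ∂mu0 V) ?_
  exact Measurable.lintegral_prod_right' (f := fun p : (Dat V × ℝ) × Om0 V =>
    G (p.1 + -Y p.2) * symW (Y p.2)) (by fun_prop)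

theorem SymD.sum {ι : Type*} (s : Finset ι) {X : ι → Om0 V → Dat V × ℝ} {D : ι → Set (Idx V)}
    (h : ∀ i ∈ s, SymD (X i) (D i)) (hd : ∀ i ∈ s, ∀ j ∈ s, i ≠ j → Disjoint (D i) (D j)) :
    SymD (fun ω => ∑ i ∈ s, X i ω) (⋃ i ∈ s, D i) := by
  classical
  induction s using Finset.induction_on with
  | empty => simpa using SymD.zero _
  | insert a s ha ih =>
    simp only [Finset.sum_insert ha, Finset.set_biUnion_insert]
    refine (h a (Finset.mem_insert_self _ _)).add (ih (fun i hi => h i (Finset.mem_insert_of_mem hi))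
      (fun i hi j hj => hd i (Finset.mem_insert_of_mem hi) j (Finset.mem_insert_of_mem hj))) ?_
    simp only [disjoint_iUnion_right]
    intro i hi
    exact hd a (Finset.mem_insert_self _ _) i (Finset.mem_insert_of_mem hi)
      (fun e => ha (e ▸ hi))

/-- the real-valued form of the symmetry -/
theorem SymD.integral {X : Om0 V → Dat V × ℝ} {D : Set (Idx V)} (hX : SymD X D)
    {g : Dat V × ℝ → ℝ} (hg : Measurable g) (h0 : ∀ x, 0 ≤ g x) :
    ∫ ω, g (X ω) * Real.exp (-(X ω).2) ∂mu0 V = ∫ ω, g (-X ω) * Real.exp (-(X ω).2) ∂mu0 V := by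
  have hm := hX.meas
  rw [integral_eq_lintegral_of_nonneg_ae
      (Eventually.of_forall fun ω => mul_nonneg (h0 _) (Real.exp_pos _).le)
      (Measurable.aestronglyMeasurable (by fun_prop)),
    integral_eq_lintegral_of_nonneg_ae
      (Eventually.of_forall fun ω => mul_nonneg (h0 _) (Real.exp_pos _).le)
      (Measurable.aestronglyMeasurable (by fun_prop))]
  congr 1
  simp only [ENNReal.ofReal_mul (h0 _)]
  exact hX.sym (fun x => ENNReal.ofReal (g x)) (by fun_prop)

/-- a single observation is calibrated -/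
theorem symD_slot (v : V) (r : ℤ) :
    SymD (fun ω => (({(v, r)} : Set (Slot V)).indicator (fun _ => Zv ω (v, r)),
      Real.artanh (kap r * Zv ω (v, r)))) {Idx.w v r} := by
  have hκ : |kap r| ≤ 1 / 2 := by rw [abs_of_pos (kap_pos r)]; exact kap_le_half r
  set Ψ : ℝ → Dat V × ℝ := fun y => (({(v, r)} : Set (Slot V)).indicator (fun _ => y),
      Real.artanh (kap r * y)) with hΨ
  have hΨm : Measurable Ψ := by
    refine Measurable.prodMk ((measurable_indicator_dat _).comp
      (measurable_pi_lambda _ fun _ => measurable_id)) ?_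
    exact measurable_artanh.comp (measurable_const.mul measurable_id)
  have hΨn : ∀ y, -Ψ y = Ψ (-y) := by
    intro y
    simp only [hΨ, Prod.neg_mk, mul_neg, artanh_neg']
    congr 1
    rw [← indicator_neg']
    rfl
  have hP : Measurable (fun ξ : unitInterval => Psi (kap r) ξ) := by
    unfold Psi; fun_prop
  refine ⟨hΨm.comp (measurable_Zv (v, r)), fun x y hxy => ?_, fun G hG => ?_⟩
  · have : Zv x (v, r) = Zv y (v, r) := by
      simp only [Zv]; rw [hxy _ rfl]
    simp only [this]
  have hW := measurable_symW (V := V)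
  have key := slot_sym hκ (fun y => G (Ψ y)) (hG.comp hΨm)
  have e1 := (mp_coord (Idx.w v r)).lintegral_comp
    (f := fun ξ : unitInterval => G (Ψ (Psi (kap r) ξ)) * symW (Ψ (Psi (kap r) ξ))) (by fun_prop)
  have e2 := (mp_coord (Idx.w v r)).lintegral_comp
    (f := fun ξ : unitInterval => G (Ψ (-Psi (kap r) ξ)) * symW (Ψ (Psi (kap r) ξ))) (by fun_prop)
  show ∫⁻ ω, G (Ψ (Zv ω (v, r))) * symW (Ψ (Zv ω (v, r))) ∂mu0 V
    = ∫⁻ ω, G (-Ψ (Zv ω (v, r))) * symW (Ψ (Zv ω (v, r))) ∂mu0 V
  simp only [hΨn]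
  exact e1.trans (key.trans e2.symm)

namespace Ctx

variable (T : Ctx V)

/-- passing a calibrated pair through an edge -/
theorem symD_edge {X : Om0 V → Dat V × ℝ} {D : Set (Idx V)} (hX : SymD X D) {s : Sym2 V}
    (hs : Idx.e s ∉ D) :
    SymD (fun ω => T.eta ω s • ((X ω).1, gf T.θ (X ω).2)) (insert (Idx.e s) D) := by
  have hm := hX.meas
  have hη := T.measurable_eta s
  have hg : Measurable (gf T.θ) := measurable_gf
  have hW := measurable_symW (V := V)
  refine ⟨by fun_prop, fun x y hxy => ?_, fun G hG => ?_⟩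
  · have e1 : T.eta x s = T.eta y s :=
      T.dependsOn_eta s (fun i hi => hxy i (by rw [mem_singleton_iff.1 hi]; exact mem_insert _ _))
    have e2 : X x = X y := hX.dep (fun i hi => hxy i (mem_insert_of_mem _ hi))
    simp only [e1, e2]
  set ψ : Dat V × ℝ → Dat V × ℝ := fun x => (x.1, gf T.θ x.2) with hψ
  have hψm : Measurable ψ := by simp only [hψ]; fun_prop
  have hψn : ∀ x, ψ (-x) = -ψ x := fun x => by simp [hψ, gf_neg]
  have e1 := T.lintegral_eta s hm hX.dep hs
    (F := fun p : ℝ × (Dat V × ℝ) => G (p.1 • ψ p.2) * symW (p.1 • ψ p.2)) (by fun_prop)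
  have e2 := T.lintegral_eta s hm hX.dep hs
    (F := fun p : ℝ × (Dat V × ℝ) => G (-(p.1 • ψ p.2)) * symW (p.1 • ψ p.2)) (by fun_prop)
  show ∫⁻ ω, G (T.eta ω s • ψ (X ω)) * symW (T.eta ω s • ψ (X ω)) ∂mu0 V
    = ∫⁻ ω, G (-(T.eta ω s • ψ (X ω))) * symW (T.eta ω s • ψ (X ω)) ∂mu0 V
  dsimp only at e1 e2
  rw [e1, e2]
  simp only [one_smul, neg_smul, neg_neg]
  -- every term as an integral of `G (ψ X) * exp (..) * symW X`
  have hA : ∀ ε : ℝ, ∫⁻ ω, G (ψ (X ω)) * ENNReal.ofReal (Real.exp (ε * gf T.θ (X ω).2)) ∂mu0 V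
      = ∫⁻ ω, G (ψ (X ω)) * ENNReal.ofReal (Real.exp ((X ω).2 + ε * gf T.θ (X ω).2))
          * symW (X ω) ∂mu0 V := by
    intro ε
    refine lintegral_congr fun ω => ?_
    rw [mul_assoc, symW, ← ENNReal.ofReal_mul (Real.exp_pos _).le, ← Real.exp_add]
    congr 3; ring
  have hB : ∀ ε : ℝ, ∫⁻ ω, G (-ψ (X ω)) * ENNReal.ofReal (Real.exp (ε * gf T.θ (X ω).2)) ∂mu0 V
      = ∫⁻ ω, G (ψ (X ω)) * ENNReal.ofReal (Real.exp (-(X ω).2 - ε * gf T.θ (X ω).2))
          * symW (X ω) ∂mu0 V := by
    intro ε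
    rw [hX.sym (fun x => G (ψ x) * ENNReal.ofReal (Real.exp (-x.2 - ε * gf T.θ x.2)))
      (by fun_prop)]
    refine lintegral_congr fun ω => ?_
    rw [mul_assoc, symW, ← ENNReal.ofReal_mul (Real.exp_pos _).le, ← Real.exp_add, hψn]
    congr 3
    simp only [Prod.snd_neg, gf_neg]; ring
  have w1 : ∀ x, symW (ψ x) = ENNReal.ofReal (Real.exp (-1 * gf T.θ x.2)) := fun x => by
    simp [symW, hψ]
  have w2 : ∀ x, symW (-ψ x) = ENNReal.ofReal (Real.exp (1 * gf T.θ x.2)) := fun x => by
    simp [symW, hψ]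
  simp only [w1, w2]
  rw [hA, hA, hB, hB, ← lintegral_const_mul' _ _ ENNReal.ofReal_ne_top,
    ← lintegral_const_mul' _ _ ENNReal.ofReal_ne_top,
    ← lintegral_const_mul' _ _ ENNReal.ofReal_ne_top,
    ← lintegral_const_mul' _ _ ENNReal.ofReal_ne_top,
    ← lintegral_add_left (by fun_prop), ← lintegral_add_left (by fun_prop)]
  refine lintegral_congr fun ω => ?_
  have h0 := T.θ_nonneg
  have h1 := T.θ_lt_one
  have hp : 0 ≤ (1 + T.θ) / 2 := by linarith
  have hq : 0 ≤ (1 - T.θ) / 2 := by linarith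
  have key : ∀ a b c d : ℝ, (1 + T.θ) / 2 * Real.exp a + (1 - T.θ) / 2 * Real.exp b
        = (1 + T.θ) / 2 * Real.exp c + (1 - T.θ) / 2 * Real.exp d →
      ENNReal.ofReal ((1 + T.θ) / 2) * ENNReal.ofReal (Real.exp a)
        + ENNReal.ofReal ((1 - T.θ) / 2) * ENNReal.ofReal (Real.exp b)
      = ENNReal.ofReal ((1 + T.θ) / 2) * ENNReal.ofReal (Real.exp c)
        + ENNReal.ofReal ((1 - T.θ) / 2) * ENNReal.ofReal (Real.exp d) := by
    intro a b c d h
    rw [← ENNReal.ofReal_mul hp, ← ENNReal.ofReal_mul hq, ← ENNReal.ofReal_mul hp,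
      ← ENNReal.ofReal_mul hq,
      ← ENNReal.ofReal_add (by positivity) (by positivity),
      ← ENNReal.ofReal_add (by positivity) (by positivity), h]
  have key2 := key ((X ω).2 + -1 * gf T.θ (X ω).2) (-(X ω).2 - 1 * gf T.θ (X ω).2)
    (-(X ω).2 - -1 * gf T.θ (X ω).2) ((X ω).2 + 1 * gf T.θ (X ω).2) (by
      have := edge_weight h0 h1 (X ω).2
      convert this using 4 <;> ring)
  calc _ = G (ψ (X ω)) * symW (X ω) * (ENNReal.ofReal ((1 + T.θ) / 2)
          * ENNReal.ofReal (Real.exp ((X ω).2 + -1 * gf T.θ (X ω).2))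
        + ENNReal.ofReal ((1 - T.θ) / 2)
          * ENNReal.ofReal (Real.exp (-(X ω).2 - 1 * gf T.θ (X ω).2))) := by ring
    _ = _ := by rw [key2]; ring

theorem indicator_SC (O : Set (Slot V)) (n : ℕ) (v : V) {C : Finset V} (hC : C ⊆ T.nb v)
    (Y : Dat V) :
    (O ∩ T.SC n v C).indicator Y
      = ∑ r ∈ Finset.Icc (-(n : ℤ)) n, (O ∩ {(v, r)}).indicator Y
        + ∑ c ∈ C, (O ∩ T.Sn n c v).indicator Y := by
  classical
  funext i
  simp only [Pi.add_apply, Finset.sum_apply]
  have hadj : ∀ c ∈ C, T.G.Adj v c := fun c hc => T.mem_nb.1 (hC hc)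
  by_cases hi : i ∈ O ∩ T.SC n v C
  · rw [indicator_of_mem hi]
    obtain ⟨hO, ⟨h1, h2⟩ | ⟨c, hc, hic⟩⟩ := hi
    · rw [Finset.sum_eq_single_of_mem i.2 (by simp only [Finset.mem_Icc]; omega),
        Finset.sum_eq_zero, add_zero, indicator_of_mem]
      · exact ⟨hO, by rw [← h1]; rfl⟩
      · intro c hc
        refine indicator_of_notMem (fun h => ?_) _
        have := T.Sn_subset n c v h.2
        rw [mem_ofPred_eq, h1] at this
        exact T.not_mem_half (hadj c hc).symm this
      · intro r _ hr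
        refine indicator_of_notMem (fun h => hr ?_) _
        rw [mem_singleton_iff.1 h.2]
    · have hic' : i.1 ∈ T.half c v := T.Sn_subset n c v hic
      rw [Finset.sum_eq_single_of_mem c hc, Finset.sum_eq_zero, zero_add, indicator_of_mem]
      · exact ⟨hO, hic⟩
      · intro r _
        refine indicator_of_notMem (fun h => ?_) _
        rw [mem_singleton_iff.1 h.2] at hic'
        exact T.not_mem_half (hadj c hc).symm hic'
      · intro c' hc' hne
        refine indicator_of_notMem (fun h => ?_) _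
        exact Set.disjoint_left.1 (T.half_disjoint (hadj c' hc') (hadj c hc) hne)
          (T.Sn_subset n c' v h.2) hic'
  · rw [indicator_of_notMem hi, Finset.sum_eq_zero, Finset.sum_eq_zero, add_zero]
    · intro c hc
      exact indicator_of_notMem (fun h => hi ⟨h.1, Or.inr ⟨c, hc, h.2⟩⟩) _
    · intro r hr
      refine indicator_of_notMem (fun h => hi ⟨h.1, Or.inl ?_⟩) _
      rw [mem_singleton_iff.1 h.2]
      simp only [Finset.mem_Icc] at hr
      exact ⟨rfl, by omega⟩

theorem symD_slot' (O : Set (Slot V)) (v : V) (r : ℤ) :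
    SymD (fun ω => ((O ∩ {(v, r)}).indicator (T.Bf v ω),
      Real.artanh (kap r * O.indicator (T.Bf v ω) (v, r)))) {Idx.w v r} := by
  by_cases h : (v, r) ∈ O
  · convert symD_slot v r using 3 with ω ω
    · rw [inter_eq_right.2 (singleton_subset_iff.2 h)]
      refine indicator_congr fun i hi => ?_
      rw [mem_singleton_iff.1 hi, T.Bf_self]
    · rw [indicator_of_mem h, T.Bf_self]
  · convert SymD.zero (V := V) _ using 2 with ω
    rw [inter_singleton_eq_empty.2 h, indicator_empty, indicator_of_notMem h, mul_zero,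
      Real.artanh_zero]
    rfl

theorem symD_an_of_fn (O : Set (Slot V)) (n : ℕ)
    (ih : ∀ v u, T.G.Adj v u → SymD (fun ω => ((O ∩ T.Sn n v u).indicator (T.Bf v ω),
      T.fn n v u (O.indicator (T.Bf v ω)))) (loc (T.half v u)))
    (v : V) {C : Finset V} (hC : C ⊆ T.nb v) :
    SymD (fun ω => ((O ∩ T.SC n v C).indicator (T.Bf v ω), T.an n v C (O.indicator (T.Bf v ω))))
      (loc (T.Reg v C)) := by
  have hadj : ∀ c ∈ C, T.G.Adj v c := fun c hc => T.mem_nb.1 (hC hc)
  have hv : ∀ c ∈ C, v ∉ T.half c v := fun c hc => T.not_mem_half (hadj c hc).symm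
  have h1 := SymD.sum (Finset.Icc (-(n : ℤ)) n) (fun r _ => T.symD_slot' O v r)
    (fun r _ r' _ hne => by simpa using hne)
  have h2 := SymD.sum C (fun c hc => T.symD_edge (ih c v (hadj c hc).symm)
    (e_not_mem_loc (c := c) (hv c hc))) (fun c hc c' hc' hne => by
      rw [Set.disjoint_left]
      rintro j (rfl | hj) (hj' | hj')
      · simp only [Idx.e.injEq, Sym2.congr_right] at hj'
        exact hne hj'
      · exact e_not_mem_loc (hv c' hc') hj'
      · rw [hj'] at hj
        exact e_not_mem_loc (hv c hc) hj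
      · exact Set.disjoint_left.1
          (loc_disjoint (T.half_disjoint (hadj c hc) (hadj c' hc') hne)) hj hj')
  have h3 := (h1.add h2 (by
    simp only [disjoint_iUnion_left, disjoint_iUnion_right, disjoint_singleton_left]
    rintro c hc r - (h | h)
    · cases h
    · exact hv c hc h)).mono (D' := loc (T.Reg v C)) (by
    simp only [union_subset_iff, iUnion_subset_iff, singleton_subset_iff, insert_subset_iff]
    refine ⟨fun r _ => Or.inl rfl, fun c hc => ⟨?_, loc_mono fun w hw => Or.inr ⟨c, hc, hw⟩⟩⟩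
    exact e_mem_loc (Or.inl rfl) (Or.inr ⟨c, hc, T.self_mem_half (hadj c hc).symm⟩))
  convert h3 using 2 with ω
  refine Prod.ext ?_ ?_
  · simp only [Prod.fst_add, Prod.fst_sum, Prod.smul_mk]
    rw [T.indicator_SC O n v hC]
    congr 1
    refine Finset.sum_congr rfl fun c hc => ?_
    rw [T.Bf_adj (hadj c hc) ω, indicator_const_smul']
  · simp only [Prod.snd_add, Prod.snd_sum, Prod.smul_mk, an, hn, smul_eq_mul]
    congr 1
    refine Finset.sum_congr rfl fun c hc => ?_
    rw [T.Bf_adj (hadj c hc) ω, indicator_const_smul']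
    exact odd_smul (F := fun Y => gf T.θ (T.fn n c v Y))
      (fun Y => by simp only [T.fn_neg, gf_neg]) (T.eta_eq ω _) _

theorem symD_fn (O : Set (Slot V)) (n : ℕ) : ∀ v u, T.G.Adj v u →
    SymD (fun ω => ((O ∩ T.Sn n v u).indicator (T.Bf v ω),
      T.fn n v u (O.indicator (T.Bf v ω)))) (loc (T.half v u)) := by
  classical
  induction n with
  | zero =>
    intro v u _
    convert SymD.zero (V := V) _ using 2 with ω
    rw [T.Sn_zero, inter_empty, indicator_empty]
    rfl
  | succ n ih =>
    intro v u h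
    have := T.symD_an_of_fn O n ih v (Finset.erase_subset u (T.nb v))
    simp only [T.fn_succ, T.Sn_succ n h]
    rw [← T.Reg_erase h]
    convert this

theorem symD_an (O : Set (Slot V)) (n : ℕ) (v : V) {C : Finset V} (hC : C ⊆ T.nb v) :
    SymD (fun ω => ((O ∩ T.SC n v C).indicator (T.Bf v ω), T.an n v C (O.indicator (T.Bf v ω))))
      (loc (T.Reg v C)) := T.symD_an_of_fn O n (T.symD_fn O n) v hC

/-- the σ-algebra generated by the observations in `A` -/
@[reducible] noncomputable def FD (A : Set (Slot V)) : MeasurableSpace (Om V) :=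
  MeasurableSpace.comap (fun ω => A.indicator (T.Yf ω)) inferInstance

theorem measurable_YD (A : Set (Slot V)) : Measurable (fun ω => A.indicator (T.Yf ω)) :=
  (measurable_indicator_dat A).comp T.measurable_Yf

theorem FD_le (A : Set (Slot V)) : T.FD A ≤ (inferInstance : MeasurableSpace (Om V)) :=
  (T.measurable_YD A).comap_le

theorem measurable_YD_FD {A B : Set (Slot V)} (h : A ⊆ B) :
    Measurable[T.FD B] (fun ω => A.indicator (T.Yf ω)) := by
  have h1 : Measurable[T.FD B] (fun ω => B.indicator (T.Yf ω)) := comap_measurable _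
  have h2 := (measurable_indicator_dat A).comp h1
  convert h2 using 2 with ω
  simp only [Function.comp, indicator_indicator, inter_eq_left.2 h]

theorem FD_mono {A B : Set (Slot V)} (h : A ⊆ B) : T.FD A ≤ T.FD B :=
  (T.measurable_YD_FD h).comap_le

theorem FD_iUnion (A : ℕ → Set (Slot V)) : T.FD (⋃ n, A n) = ⨆ n, T.FD (A n) := by
  refine le_antisymm ?_ (iSup_le fun n => T.FD_mono (subset_iUnion A n))
  refine Measurable.comap_le (@measurable_pi_lambda _ _ _ (⨆ n, T.FD (A n)) _ _ fun i => ?_)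
  by_cases hi : i ∈ ⋃ n, A n
  · obtain ⟨n, hn⟩ := mem_iUnion.1 hi
    have h1 : Measurable[T.FD (A n)] (fun ω => (A n).indicator (T.Yf ω) i) :=
      (measurable_pi_apply i).comp (T.measurable_YD_FD (subset_refl (A n)))
    simp only [indicator_of_mem hn] at h1
    simp only [indicator_of_mem hi]
    exact h1.mono (le_iSup (fun n => T.FD (A n)) n) le_rfl
  · simp only [indicator_of_notMem hi]
    exact measurable_const

/-- finite-depth posterior (the calibration argument) -/
theorem post_an (O : Set (Slot V)) (n : ℕ) (v : V) {C : Finset V} (hC : C ⊆ T.nb v) :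
    (mu V)[fun ω => T.spin ω v | T.FD (O ∩ T.SC n v C)]
      =ᵐ[mu V] fun ω => Real.tanh (T.an n v C (O.indicator (T.Yf ω))) := by
  set A := O ∩ T.SC n v C with hA
  have hcong : ∀ Y : Dat V, T.an n v C (O.indicator Y) = T.an n v C (A.indicator Y) := by
    intro Y
    refine T.an_congr n v hC fun i hi => ?_
    by_cases h : i ∈ O
    · rw [indicator_of_mem h, indicator_of_mem (show i ∈ A from ⟨h, hi⟩)]
    · rw [indicator_of_notMem h, indicator_of_notMem (show i ∉ A from fun h' => h h'.1)]
  have hS := T.symD_an O n v hC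
  simp only [hcong] at hS ⊢
  rw [← hA] at hS
  have hth : Measurable Real.tanh := continuous_tanh'.measurable
  have ham := T.measurable_an n v C
  have hbm : ∀ {α : Type u} [MeasurableSpace α] {Z : α → Dat V}, Measurable Z →
      BM (fun x => Real.tanh (T.an n v C (Z x))) := fun hZ =>
    BM.of_le (hth.comp (ham.comp hZ)) 1 fun x => (Real.abs_tanh_lt_one _).le
  symm
  refine ae_eq_condExp_of_forall_setIntegral_eq (T.FD_le A) (T.bm_spin v).integrable
    (fun s _ _ => (hbm (T.measurable_YD A)).integrable.integrableOn) ?_ ?_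
  · rintro s ⟨S, hSm, rfl⟩ -
    have hsm : MeasurableSet ((fun ω => A.indicator (T.Yf ω)) ⁻¹' S) := T.measurable_YD A hSm
    have hB : Measurable (fun x => A.indicator (T.Bf v x)) :=
      (measurable_indicator_dat A).comp (T.measurable_Bf v)
    have hI : BM (S.indicator (fun _ => (1 : ℝ))) := BM.indicator_one hSm
    have hIm := hI.meas
    rw [← sub_eq_zero, ← integral_sub (hbm (T.measurable_YD A)).integrable.integrableOn
      (T.bm_spin v).integrable.integrableOn, ← integral_indicator hsm]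
    set F : ℝ × Om0 V → ℝ := fun p =>
      (Real.tanh (T.an n v C (p.1 • A.indicator (T.Bf v p.2))) - p.1)
        * S.indicator (fun _ => (1 : ℝ)) (p.1 • A.indicator (T.Bf v p.2)) with hF
    have hBs : ∀ s : ℝ, Measurable (fun x => s • A.indicator (T.Bf v x)) := fun s =>
      (measurable_const (a := s)).smul hB
    have hFb : ∀ s : ℝ, BM (fun x => F (s, x)) := fun s =>
      ((hbm (Z := fun x => s • A.indicator (T.Bf v x)) (hBs s)).sub
        (BM.const s)).mul (hI.comp (h := fun x => s • A.indicator (T.Bf v x))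
          (hBs s))
    have hZ : Measurable (fun p : ℝ × Om0 V => p.1 • A.indicator (T.Bf v p.2)) :=
      measurable_fst.smul (hB.comp measurable_snd)
    have hFm : Measurable F :=
      ((hth.comp (ham.comp hZ)).sub measurable_fst).mul (hIm.comp hZ)
    have e1 := T.integral_spin v hFm (hFb 1) (hFb (-1))
    have e2 := hS.integral (g := fun x => S.indicator (fun _ => (1 : ℝ)) x.1 * (Real.cosh x.2)⁻¹)
      ((hIm.comp measurable_fst).mul (Real.continuous_cosh.measurable.comp measurable_snd).inv)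
      (fun x => mul_nonneg (indicator_nonneg (fun _ _ => zero_le_one) _)
        (inv_nonneg.2 (Real.cosh_pos _).le))
    have e3 : ∀ x, F (1, x) = -(S.indicator (fun _ => (1 : ℝ)) (A.indicator (T.Bf v x))
        * (Real.cosh (T.an n v C (A.indicator (T.Bf v x))))⁻¹
        * Real.exp (-T.an n v C (A.indicator (T.Bf v x)))) := by
      intro x
      have := one_sub_tanh_eq (T.an n v C (A.indicator (T.Bf v x)))
      simp only [hF, one_smul]
      rw [mul_assoc, mul_comm (_⁻¹), ← this]; ring
    have e4 : ∀ x, F (-1, x) = S.indicator (fun _ => (1 : ℝ)) (-A.indicator (T.Bf v x))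
        * (Real.cosh (-T.an n v C (A.indicator (T.Bf v x))))⁻¹
        * Real.exp (-T.an n v C (A.indicator (T.Bf v x))) := by
      intro x
      have := one_sub_tanh_eq (T.an n v C (A.indicator (T.Bf v x)))
      simp only [hF, one_smul, neg_smul, T.an_neg, Real.tanh_neg, Real.cosh_neg]
      rw [mul_assoc, mul_comm (_⁻¹), ← this]; ring
    have e5 : ∫ x, (F (1, x) + F (-1, x)) / 2 ∂mu0 V = 0 := by
      rw [integral_div, integral_add (hFb 1).integrable (hFb (-1)).integrable]
      simp only [e3, e4, integral_neg]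
      simp only [Prod.neg_mk] at e2
      rw [e2]; simp
    rw [← e5, ← e1]
    refine integral_congr_ae (Eventually.of_forall fun ω => ?_)
    have e6 : T.spin ω v • A.indicator (T.Bf v ω.1) = A.indicator (T.Yf ω) := by
      rw [T.Yf_eq_smul v ω, indicator_const_smul']
    simp only [hF, e6]
    by_cases h : A.indicator (T.Yf ω) ∈ S
    · rw [indicator_of_mem h, indicator_of_mem (by exact h), mul_one]
    · rw [indicator_of_notMem h, indicator_of_notMem (by exact h), mul_zero]
  · exact (hth.comp (ham.comp (T.measurable_YD_FD (subset_refl A)))).stronglyMeasurable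
      |>.aestronglyMeasurable

end Ctx

end Crest.Agent.R160
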