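import Crest.Agent.R160.MomB

/-! The unexplained parts of the vertex and edge terms. -/

set_option autoImplicit false

namespace Crest.Agent.R160

open MeasureTheory ProbabilityTheory Set Filter Topology
open scoped ENNReal

universe u

variable {V : Type u}

/-- clipping to `[-c, c]` -/
def clipA (c x : ℝ) : ℝ := max (-c) (min c x)

theorem measurable_clipA (c : ℝ) : Measurable (clipA c) :=
  measurable_const.max (measurable_const.min measurable_id)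

theorem abs_clipA_le {c : ℝ} (hc : 0 ≤ c) (x : ℝ) : |clipA c x| ≤ c := by
  unfold clipA
  rw [abs_le]
  exact ⟨le_max_left _ _, max_le (by linarith) (min_le_left _ _)⟩

theorem abs_sub_clipA_le {c m : ℝ} (hm : |m| ≤ c) (x : ℝ) : |m - clipA c x| ≤ |m - x| := by
  unfold clipA
  obtain ⟨h1, h2⟩ := abs_le.1 hm
  have h3 := le_abs_self (m - x)
  have h4 := neg_abs_le (m - x)
  rw [abs_le]
  rcases le_total c x with h | h
  · rw [min_eq_left h, max_eq_right (by linarith)]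
    constructor <;> linarith [abs_nonneg (m - x)]
  · rw [min_eq_right h]
    rcases le_total (-c) x with h' | h'
    · rw [max_eq_right h']; constructor <;> linarith
    · rw [max_eq_left h']; constructor <;> linarith [abs_nonneg (m - x)]

theorem measurable_Xi_comp {α : Type*} {m : MeasurableSpace α} {θ : ℝ} (h0 : 0 ≤ θ) (h1 : θ < 1)
    {f g : α → ℝ} (hf : Measurable[m] f) (hg : Measurable[m] g) :
    Measurable[m] (fun x => Xi θ (f x) (g x)) := by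
  have h : Measurable (fun p : ℝ × ℝ => Xi θ p.1 p.2) := (continuous_Xi h0 h1).measurable
  have h2 : Measurable[m] (fun x => (f x, g x)) := hf.prodMk hg
  exact Measurable.comp (g := fun p : ℝ × ℝ => Xi θ p.1 p.2) (f := fun x => (f x, g x)) h h2

namespace Ctx

variable (T : Ctx V)

/-- vertex term at time `t` -/
noncomputable def lt (t : ℝ) (v : V) (ω : Om V) : ℝ := lcosh (T.Hf v (T.Yt t ω))

/-- edge term at time `t` -/
noncomputable def et (t : ℝ) (u v : V) (ω : Om V) : ℝ := T.xiE u v (T.Yt t ω)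

theorem bdd_Yt {R : ℕ} {t : ℝ} (ht : t ≤ R + 1) (ω : Om V) : Bdd (R : ℤ) (T.Yt t ω) :=
  T.bdd_YO (isMask_Ot (r := (R : ℤ)) (by exact_mod_cast ht)) ω

theorem bm_lt (t : ℝ) (v : V) : BM (T.lt t v) := by
  have ht : t ≤ (⌈t⌉₊ : ℕ) + 1 := (Nat.le_ceil t).trans (by linarith)
  refine BM.of_le (continuous_lcosh.measurable.comp ((T.measurable_Hf v).comp (T.measurable_Yt t)))
    (T.Hmax ⌈t⌉₊) fun ω => ?_
  rw [lt, abs_of_nonneg (lcosh_nonneg _)]
  exact (lcosh_le_abs _).trans (T.abs_Hf_le (T.bdd_Yt ht ω) v)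

theorem bm_et (t : ℝ) (u v : V) : BM (T.et t u v) := by
  have ht : t ≤ (⌈t⌉₊ : ℕ) + 1 := (Nat.le_ceil t).trans (by linarith)
  refine BM.of_le ((T.measurable_xiE u v).comp (T.measurable_Yt t))
    (2 * T.Hmax ⌈t⌉₊ / (1 - T.θ)) fun ω => ?_
  rw [et, abs_of_nonneg (T.xiE_nonneg _ _ _)]
  exact T.xiE_le (T.bdd_Yt ht ω) u v

theorem lt_nonneg (t : ℝ) (v : V) (ω : Om V) : 0 ≤ T.lt t v ω := lcosh_nonneg _

theorem et_nonneg (t : ℝ) (u v : V) (ω : Om V) : 0 ≤ T.et t u v ω := T.xiE_nonneg _ _ _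

theorem lt_le {R : ℕ} {t : ℝ} (ht : t ≤ R + 1) (v : V) (ω : Om V) : T.lt t v ω ≤ T.Hmax R :=
  (lcosh_le_abs _).trans (T.abs_Hf_le (T.bdd_Yt ht ω) v)

theorem et_le {R : ℕ} {t : ℝ} (ht : t ≤ R + 1) (u v : V) (ω : Om V) :
    T.et t u v ω ≤ 2 * T.Hmax R / (1 - T.θ) :=
  T.xiE_le (T.bdd_Yt ht ω) u v

theorem lt_Tg (g : T.G ≃g T.G) (t : ℝ) (v : V) (ω : Om V) :
    T.lt t v (T.Tg g ω) = T.lt t (g v) ω := by
  simp only [lt, T.Yt_Tg, T.Hf_aut]

theorem et_Tg (g : T.G ≃g T.G) (t : ℝ) (u v : V) (ω : Om V) :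
    T.et t u v (T.Tg g ω) = T.et t (g u) (g v) ω := by
  simp only [et, T.Yt_Tg, T.xiE_aut]

theorem et_flip (t : ℝ) (u v : V) (ω : Om V) : T.et t u v (flip ω) = T.et t u v ω := by
  simp only [et, Yt, T.YO_flip, T.xiE_neg]

theorem et_comm (t : ℝ) (u v : V) : T.et t u v = T.et t v u :=
  funext fun _ => T.xiE_comm _ _ _

/-- the bound for the magnetisation -/
noncomputable def cA (R : ℕ) : ℝ := Real.tanh (T.Hmax R)

/-- the Lipschitz constant of `artanh` on `[-cA, cA]` -/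
noncomputable def LA (R : ℕ) : ℝ := 1 / (1 - T.cA R ^ 2)

/-- the approximation of the field by a function of the innovations -/
noncomputable def KA (R : ℕ) (t : ℝ) (v : V) (ω : Om V) : ℝ :=
  Real.artanh (clipA (T.cA R) (T.Pt t (T.mt t v) ω))

theorem cA_nonneg (R : ℕ) : 0 ≤ T.cA R := by
  have := tanh_mono (T.Hmax_nonneg R)
  rwa [Real.tanh_zero] at this

theorem cA_lt_one (R : ℕ) : T.cA R < 1 := Real.tanh_lt_one _

theorem LA_pos (R : ℕ) : 0 < T.LA R := by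
  have h0 := T.cA_nonneg R
  have h1 := T.cA_lt_one R
  exact one_div_pos.2 (by nlinarith)

theorem abs_mt_le_cA {R : ℕ} {t : ℝ} (ht : t ≤ R + 1) (v : V) (ω : Om V) :
    |T.mt t v ω| ≤ T.cA R := by
  rw [mt, mf, abs_tanh_eq]
  exact tanh_mono (T.abs_Hf_le (T.bdd_Yt ht ω) v)

theorem Hf_Yt_eq (t : ℝ) (v : V) (ω : Om V) : T.Hf v (T.Yt t ω) = Real.artanh (T.mt t v ω) := by
  rw [mt, mf, Real.artanh_tanh]

theorem abs_artanh_sub_le_LA (R : ℕ) {x y : ℝ} (hx : |x| ≤ T.cA R) (hy : |y| ≤ T.cA R) :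
    |Real.artanh x - Real.artanh y| ≤ T.LA R * |x - y| := by
  have := abs_artanh_sub_le (T.cA_lt_one R) hx hy
  rwa [div_eq_mul_one_div, mul_comm] at this

theorem abs_Hf_sub_KA {R : ℕ} {t : ℝ} (ht : t ≤ R + 1) (v : V) (ω : Om V) :
    |T.Hf v (T.Yt t ω) - T.KA R t v ω| ≤ T.LA R * |T.res t (T.mt t v) ω| := by
  rw [T.Hf_Yt_eq]
  exact (T.abs_artanh_sub_le_LA R (T.abs_mt_le_cA ht v ω) (abs_clipA_le (T.cA_nonneg R) _)).trans
    (mul_le_mul_of_nonneg_left (abs_sub_clipA_le (T.abs_mt_le_cA ht v ω) _) (T.LA_pos R).le)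

theorem abs_Hf_le_LA {R : ℕ} {t : ℝ} (ht : t ≤ R + 1) (v : V) (ω : Om V) :
    |T.Hf v (T.Yt t ω)| ≤ T.LA R * |T.mt t v ω| := by
  have := T.abs_artanh_sub_le_LA R (T.abs_mt_le_cA ht v ω) (y := 0)
    (by rw [abs_zero]; exact T.cA_nonneg R)
  rwa [Real.artanh_zero, sub_zero, sub_zero, ← T.Hf_Yt_eq] at this

theorem abs_KA_le (R : ℕ) (t : ℝ) (v : V) (ω : Om V) :
    |T.KA R t v ω| ≤ T.LA R * |T.Pt t (T.mt t v) ω| := by
  have h0 : |(0 : ℝ)| ≤ T.cA R := by rw [abs_zero]; exact T.cA_nonneg R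
  have h1 := T.abs_artanh_sub_le_LA R (abs_clipA_le (T.cA_nonneg R) (T.Pt t (T.mt t v) ω)) h0
  have h2 := abs_sub_clipA_le h0 (T.Pt t (T.mt t v) ω)
  rw [zero_sub, zero_sub, abs_neg, abs_neg] at h2
  rw [Real.artanh_zero, sub_zero, sub_zero] at h1
  exact h1.trans (mul_le_mul_of_nonneg_left h2 (T.LA_pos R).le)

theorem measurable_KA (R : ℕ) (t : ℝ) (v : V) : Measurable[T.calW t] (T.KA R t v) :=
  measurable_artanh.comp ((measurable_clipA _).comp stronglyMeasurable_condExp.measurable)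

theorem bm_KA (R : ℕ) (t : ℝ) (v : V) : BM (T.KA R t v) :=
  BM.of_le ((T.measurable_KA R t v).mono (T.calW_le t) le_rfl) (Real.artanh (T.cA R)) fun _ =>
    abs_artanh_le_artanh (T.cA_lt_one R) (abs_clipA_le (T.cA_nonneg R) _)

theorem AB_res_mt (t : ℝ) (v : V) : AB (mu V) (T.res t (T.mt t v)) := T.AB_res t (T.bm_mt t v).ab

theorem measurable_XiKA (R : ℕ) (t : ℝ) (u v : V) :
    Measurable[T.calW t] (fun ω => Xi T.θ (T.KA R t u ω) (T.KA R t v ω)) :=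
  measurable_Xi_comp T.θ_nonneg T.θ_lt_one (T.measurable_KA R t u) (T.measurable_KA R t v)

theorem bm_XiKA (R : ℕ) (t : ℝ) (u v : V) :
    BM (fun ω => Xi T.θ (T.KA R t u ω) (T.KA R t v ω)) := by
  obtain ⟨C, hC⟩ := (T.bm_KA R t u).bdd
  obtain ⟨D, hD⟩ := (T.bm_KA R t v).bdd
  refine BM.of_le ((T.measurable_XiKA R t u v).mono (T.calW_le t) le_rfl) ((C + D) / (1 - T.θ))
    fun ω => ?_
  rw [abs_of_nonneg (Xi_nonneg T.θ_nonneg T.θ_lt_one _ _)]
  refine (Xi_le T.θ_nonneg T.θ_lt_one _ _).trans ?_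
  exact div_le_div_of_nonneg_right (add_le_add (hC ω) (hD ω)) (sub_pos.2 T.θ_lt_one).le

/-- the residual of the edge term is controlled by the distance to `Xi θ K_u K_v` -/
theorem res_et_le_XiKA (R : ℕ) (t : ℝ) (u v : V) :
    ∫ ω, T.res t (T.et t u v) ω ^ 2 ∂mu V
      ≤ ∫ ω, (T.et t u v ω - Xi T.θ (T.KA R t u ω) (T.KA R t v ω)) ^ 2 ∂mu V :=
  proj_le (T.calW_le t) (T.bm_et t u v).ab (T.bm_XiKA R t u v).ab
    (T.measurable_XiKA R t u v).stronglyMeasurable.aestronglyMeasurable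

theorem res_lt_le (R : ℕ) : ∃ C : ℝ, 0 < C ∧ ∀ t : ℝ, t ≤ R + 1 → ∀ v,
    ∫ ω, T.res t (T.lt t v) ω ^ 2 ∂mu V ≤ C * T.delta t := by
  refine ⟨T.LA R ^ 2, pow_pos (T.LA_pos R) 2, fun t ht v => ?_⟩
  have hG : BM (fun ω => lcosh (T.KA R t v ω)) := (T.bm_KA R t v).cont continuous_lcosh
  have hGm : Measurable[T.calW t] (fun ω => lcosh (T.KA R t v ω)) :=
    continuous_lcosh.measurable.comp (T.measurable_KA R t v)
  refine (proj_le (T.calW_le t) (T.bm_lt t v).ab hG.ab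
    hGm.stronglyMeasurable.aestronglyMeasurable).trans ?_
  rw [← T.delta_eq t v, ← integral_const_mul]
  refine integral_mono (((T.bm_lt t v).sub hG).pow 2).integrable
    (((T.AB_res_mt t v).pow 2).const_mul _).integrable fun ω => ?_
  have h := (abs_lcosh_sub_le _ _).trans (T.abs_Hf_sub_KA ht v ω)
  have h2 := pow_le_pow_left₀ (abs_nonneg _) h 2
  rw [sq_abs, mul_pow, sq_abs] at h2
  exact h2

theorem res_et_le (R : ℕ) : ∃ C : ℝ, 0 < C ∧ ∀ t : ℝ, t ≤ R + 1 → ∀ u v,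
    ∫ ω, T.res t (T.et t u v) ω ^ 2 ∂mu V ≤ C * T.delta t := by
  have hθ : 0 < 1 - T.θ := sub_pos.2 T.θ_lt_one
  have hL := T.LA_pos R
  refine ⟨4 * (T.LA R / (1 - T.θ)) ^ 2, by positivity, fun t ht u v => ?_⟩
  refine (T.res_et_le_XiKA R t u v).trans ?_
  have iu := ((T.AB_res_mt t u).pow 2).integrable
  have iv := ((T.AB_res_mt t v).pow 2).integrable
  have e : 4 * (T.LA R / (1 - T.θ)) ^ 2 * T.delta t = ∫ ω, 2 * (T.LA R / (1 - T.θ)) ^ 2
      * (T.res t (T.mt t u) ω ^ 2 + T.res t (T.mt t v) ω ^ 2) ∂mu V := by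
    rw [integral_const_mul, integral_add iu iv, T.delta_eq, T.delta_eq]; ring
  rw [e]
  refine integral_mono (((T.bm_et t u v).sub (T.bm_XiKA R t u v)).pow 2).integrable
    ((iu.add iv).const_mul _) fun ω => ?_
  have h : |T.et t u v ω - Xi T.θ (T.KA R t u ω) (T.KA R t v ω)|
      ≤ T.LA R / (1 - T.θ) * (|T.res t (T.mt t u) ω| + |T.res t (T.mt t v) ω|) := by
    refine (abs_Xi_sub_le T.θ_nonneg T.θ_lt_one _ _ _ _).trans ?_
    refine (div_le_div_of_nonneg_right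
      (add_le_add (T.abs_Hf_sub_KA ht u ω) (T.abs_Hf_sub_KA ht v ω)) hθ.le).trans (le_of_eq ?_)
    ring
  have h2 := pow_le_pow_left₀ (abs_nonneg _) h 2
  rw [sq_abs, mul_pow] at h2
  refine h2.trans ?_
  have h3 : (|T.res t (T.mt t u) ω| + |T.res t (T.mt t v) ω|) ^ 2
      ≤ 2 * (T.res t (T.mt t u) ω ^ 2 + T.res t (T.mt t v) ω ^ 2) := by
    rw [← sq_abs (T.res t (T.mt t u) ω), ← sq_abs (T.res t (T.mt t v) ω)]
    nlinarith [sq_nonneg (|T.res t (T.mt t u) ω| - |T.res t (T.mt t v) ω|)]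
  calc _ ≤ (T.LA R / (1 - T.θ)) ^ 2
        * (2 * (T.res t (T.mt t u) ω ^ 2 + T.res t (T.mt t v) ω ^ 2)) :=
        mul_le_mul_of_nonneg_left h3 (sq_nonneg _)
    _ = _ := by ring

theorem integral_mt_sq_sub_pos_le (t : ℝ) (v : V) {z : ℝ} (hz : 0 ≤ z) :
    ∫ ω, max (T.mt t v ω ^ 2 - z) 0 ∂mu V ≤ (mu V).real {ω | z < T.mt t v ω ^ 2} := by
  have hs : MeasurableSet {ω | z < T.mt t v ω ^ 2} :=
    measurableSet_lt measurable_const ((T.bm_mt t v).pow 2).meas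
  rw [← integral_indicator_one hs]
  refine integral_mono
    ((T.bm_mt t v).cont (φ := fun a => max (a ^ 2 - z) 0) (by fun_prop)).integrable
    (BM.indicator_one hs).integrable fun ω => ?_
  by_cases h : ω ∈ {ω | z < T.mt t v ω ^ 2}
  · rw [indicator_of_mem h]
    have h1 : T.mt t v ω ^ 2 ≤ 1 := (sq_le_one_iff_abs_le_one _).2 (T.abs_mt_le t v ω)
    exact max_le (by simp only [Pi.one_apply]; linarith) zero_le_one
  · rw [indicator_of_notMem h]
    exact max_le (sub_nonpos.2 (not_lt.1 h)) le_rfl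

theorem _root_.Crest.Agent.R160.rateA_pointwise {a b c d x y z : ℝ} (hx : |x| ≤ 2) (hy : |y| ≤ 2) :
    ((|a| + |b| + |c| + |d|) * (|x| + |y|)) ^ 2
      ≤ 8 * (4 * z * (x ^ 2 + y ^ 2) + 8 * (max (a ^ 2 - z) 0 + max (b ^ 2 - z) 0
        + max (c ^ 2 - z) 0 + max (d ^ 2 - z) 0)) := by
  have h1 : (|a| + |b| + |c| + |d|) ^ 2 ≤ 4 * (a ^ 2 + b ^ 2 + c ^ 2 + d ^ 2) := by
    rw [← sq_abs a, ← sq_abs b, ← sq_abs c, ← sq_abs d]
    nlinarith [sq_nonneg (|a| - |b|), sq_nonneg (|a| - |c|), sq_nonneg (|a| - |d|),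
      sq_nonneg (|b| - |c|), sq_nonneg (|b| - |d|), sq_nonneg (|c| - |d|)]
  have h2 : (|x| + |y|) ^ 2 ≤ 2 * (x ^ 2 + y ^ 2) := by
    rw [← sq_abs x, ← sq_abs y]
    nlinarith [sq_nonneg (|x| - |y|)]
  have hx2 : x ^ 2 ≤ 4 := by rw [← sq_abs x]; nlinarith [abs_nonneg x]
  have hy2 : y ^ 2 ≤ 4 := by rw [← sq_abs y]; nlinarith [abs_nonneg y]
  set P := max (a ^ 2 - z) 0 + max (b ^ 2 - z) 0 + max (c ^ 2 - z) 0 + max (d ^ 2 - z) 0 with hP
  have hP0 : 0 ≤ P := by positivity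
  have hS : a ^ 2 + b ^ 2 + c ^ 2 + d ^ 2 ≤ 4 * z + P := by
    linarith [le_max_left (a ^ 2 - z) 0, le_max_left (b ^ 2 - z) 0, le_max_left (c ^ 2 - z) 0,
      le_max_left (d ^ 2 - z) 0]
  have hQ : 0 ≤ x ^ 2 + y ^ 2 := by positivity
  calc _ = (|a| + |b| + |c| + |d|) ^ 2 * (|x| + |y|) ^ 2 := mul_pow _ _ _
    _ ≤ (4 * (a ^ 2 + b ^ 2 + c ^ 2 + d ^ 2)) * (2 * (x ^ 2 + y ^ 2)) :=
        mul_le_mul h1 h2 (sq_nonneg _) (by positivity)
    _ ≤ (4 * (4 * z + P)) * (2 * (x ^ 2 + y ^ 2)) :=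
        mul_le_mul_of_nonneg_right (by linarith) (by positivity)
    _ = 8 * (4 * z * (x ^ 2 + y ^ 2) + P * (x ^ 2 + y ^ 2)) := by ring
    _ ≤ _ := by nlinarith [mul_le_mul_of_nonneg_left (add_le_add hx2 hy2) hP0]

theorem res_et_le_crit (hc : ((T.d : ℝ) - 1) * T.θ ^ 2 = 1) (R : ℕ) :
    ∃ C : ℝ, 0 < C ∧ ∀ r : ℤ, r ≤ R → ∀ t : ℝ, t ≤ r + 1 → ∀ u v, ∀ lam : ℝ, 1 ≤ lam →
      ∫ ω, T.res t (T.et t u v) ω ^ 2 ∂mu V
        ≤ C * rho r * (lam * T.delta t + Real.exp (-lam)) := by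
  have hθ : 0 < 1 - T.θ := sub_pos.2 T.θ_lt_one
  have hL := T.LA_pos R
  obtain ⟨C1, hC1, htail⟩ := T.mt_tail hc R
  set A : ℝ := (T.LA R ^ 2 / (1 - T.θ) ^ 2) ^ 2 with hA
  have hA0 : 0 < A := by positivity
  refine ⟨256 * A * C1, by positivity, fun r hr t ht u v lam hlam => ?_⟩
  have htR : t ≤ R + 1 := ht.trans (by
    have : (r : ℝ) ≤ (R : ℝ) := by exact_mod_cast hr
    linarith)
  have hρ := rho_pos r
  have hρ1 := rho_le_one r
  set z : ℝ := C1 * rho r ^ 2 * (lam + 1 / rho r) with hz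
  have hz0 : 0 ≤ z := by positivity
  have hzle : z ≤ 2 * C1 * rho r * lam := by
    have e : z = C1 * rho r * (rho r * lam + 1) := by rw [hz]; field_simp
    rw [e]
    have : rho r * lam + 1 ≤ 2 * lam := by nlinarith
    nlinarith [mul_pos hC1 hρ]
  -- tails
  have hE : ∀ w, ∫ ω, max (T.mt t w ω ^ 2 - z) 0 ∂mu V ≤ C1 * rho r * Real.exp (-lam) := by
    intro w
    refine (T.integral_mt_sq_sub_pos_le t w hz0).trans ((htail r hr t ht w z hz0).trans ?_)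
    have e : -z / (C1 * rho r ^ 2) = -lam + -(1 / rho r) := by rw [hz]; field_simp; ring
    have h1 : Real.exp (-(1 / rho r)) ≤ rho r := by
      rw [Real.exp_neg, inv_le_comm₀ (Real.exp_pos _) hρ, ← one_div]
      linarith [Real.add_one_le_exp (1 / rho r)]
    rw [e, Real.exp_add, mul_assoc, mul_comm (rho r)]
    exact mul_le_mul_of_nonneg_left (mul_le_mul_of_nonneg_left h1 (Real.exp_pos _).le) hC1.le
  have hE' : ∀ w, ∫ ω, max (T.Pt t (T.mt t w) ω ^ 2 - z) 0 ∂mu V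
      ≤ C1 * rho r * Real.exp (-lam) := fun w =>
    (integral_condExp_sq_sub_pos_le (T.calW_le t) (T.bm_mt t w).ab z).trans (hE w)
  have hcont : Continuous (fun a : ℝ => max (a ^ 2 - z) 0) := by fun_prop
  have iu := ((T.AB_res_mt t u).pow 2).integrable
  have iv := ((T.AB_res_mt t v).pow 2).integrable
  have im : ∀ w, Integrable (fun ω => max (T.mt t w ω ^ 2 - z) 0) (mu V) := fun w =>
    ((T.bm_mt t w).cont hcont).integrable
  have ip : ∀ w, Integrable (fun ω => max (T.Pt t (T.mt t w) ω ^ 2 - z) 0) (mu V) := fun w =>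
    ((T.AB_Pt t (T.bm_mt t w).ab).cont hcont).integrable
  have hres : ∀ w, ∀ᵐ ω ∂mu V, |T.res t (T.mt t w) ω| ≤ 2 := by
    intro w
    have h1 : ∀ᵐ ω ∂mu V, |T.Pt t (T.mt t w) ω| ≤ 1 :=
      condExp_abs_le (Eventually.of_forall (T.abs_mt_le t w))
    filter_upwards [h1] with ω hω
    exact (abs_sub _ _).trans (by linarith [T.abs_mt_le t w ω])
  refine (T.res_et_le_XiKA R t u v).trans ?_
  have i1 : Integrable (fun ω => 4 * z * (T.res t (T.mt t u) ω ^ 2 + T.res t (T.mt t v) ω ^ 2))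
      (mu V) := (iu.add iv).const_mul _
  have i2 : Integrable (fun ω => max (T.mt t u ω ^ 2 - z) 0 + max (T.mt t v ω ^ 2 - z) 0)
      (mu V) := (im u).add (im v)
  have i3 : Integrable (fun ω => max (T.mt t u ω ^ 2 - z) 0 + max (T.mt t v ω ^ 2 - z) 0
      + max (T.Pt t (T.mt t u) ω ^ 2 - z) 0) (mu V) := i2.add (ip u)
  have i4 : Integrable (fun ω => max (T.mt t u ω ^ 2 - z) 0 + max (T.mt t v ω ^ 2 - z) 0
      + max (T.Pt t (T.mt t u) ω ^ 2 - z) 0 + max (T.Pt t (T.mt t v) ω ^ 2 - z) 0) (mu V) :=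
    i3.add (ip v)
  have i5 : Integrable (fun ω => 8 * (max (T.mt t u ω ^ 2 - z) 0 + max (T.mt t v ω ^ 2 - z) 0
      + max (T.Pt t (T.mt t u) ω ^ 2 - z) 0 + max (T.Pt t (T.mt t v) ω ^ 2 - z) 0)) (mu V) :=
    i4.const_mul _
  have hmono : ∫ ω, (T.et t u v ω - Xi T.θ (T.KA R t u ω) (T.KA R t v ω)) ^ 2 ∂mu V
      ≤ ∫ ω, 8 * A * (4 * z * (T.res t (T.mt t u) ω ^ 2 + T.res t (T.mt t v) ω ^ 2)
        + 8 * (max (T.mt t u ω ^ 2 - z) 0 + max (T.mt t v ω ^ 2 - z) 0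
          + max (T.Pt t (T.mt t u) ω ^ 2 - z) 0 + max (T.Pt t (T.mt t v) ω ^ 2 - z) 0)) ∂mu V := by
    refine integral_mono_ae (((T.bm_et t u v).sub (T.bm_XiKA R t u v)).pow 2).integrable
      ((i1.add i5).const_mul _) ?_
    filter_upwards [hres u, hres v] with ω hu hv
    have h : |T.et t u v ω - Xi T.θ (T.KA R t u ω) (T.KA R t v ω)|
        ≤ T.LA R ^ 2 / (1 - T.θ) ^ 2 * ((|T.mt t u ω| + |T.mt t v ω| + |T.Pt t (T.mt t u) ω|
          + |T.Pt t (T.mt t v) ω|) * (|T.res t (T.mt t u) ω| + |T.res t (T.mt t v) ω|)) := by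
      refine (abs_Xi_sub_le' T.θ_nonneg T.θ_lt_one _ _ _ _).trans ?_
      refine (div_le_div_of_nonneg_right (mul_le_mul
        (add_le_add (add_le_add (add_le_add (T.abs_Hf_le_LA htR u ω) (T.abs_Hf_le_LA htR v ω))
          (T.abs_KA_le R t u ω)) (T.abs_KA_le R t v ω))
        (add_le_add (T.abs_Hf_sub_KA htR u ω) (T.abs_Hf_sub_KA htR v ω)) (by positivity)
        (by positivity)) (by positivity)).trans (le_of_eq ?_)
      ring
    have h2 := pow_le_pow_left₀ (abs_nonneg _) h 2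
    rw [sq_abs, mul_pow, ← hA] at h2
    refine h2.trans ?_
    refine (mul_le_mul_of_nonneg_left (rateA_pointwise (z := z) hu hv) hA0.le).trans (le_of_eq ?_)
    ring
  refine hmono.trans ?_
  rw [integral_const_mul, integral_add i1 i5, integral_const_mul, integral_const_mul,
    integral_add iu iv, T.delta_eq, T.delta_eq, integral_add i3 (ip v), integral_add i2 (ip u),
    integral_add (im u) (im v)]
  have hδ := T.delta_nonneg t
  have h5 : 4 * z * (T.delta t + T.delta t) ≤ 32 * (C1 * rho r * (lam * T.delta t)) := by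
    have h6 := mul_le_mul_of_nonneg_right hzle hδ
    have h7 : 0 ≤ C1 * rho r * (lam * T.delta t) := by positivity
    nlinarith
  calc _ ≤ 8 * A * (32 * (C1 * rho r * (lam * T.delta t))
        + 8 * (4 * (C1 * rho r * Real.exp (-lam)))) := by
        refine mul_le_mul_of_nonneg_left (add_le_add h5 ?_) (by positivity)
        linarith [hE u, hE v, hE' u, hE' v]
    _ = _ := by ring

end Ctx

end Crest.Agent.R160
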