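import Crest.Agent.R160.MomB

/-! Decay of the covariance along a ray. -/

set_option autoImplicit false

namespace Crest.Agent.R160

open MeasureTheory ProbabilityTheory Set Filter Topology
open scoped ENNReal

universe u

variable {V : Type u}

namespace Ctx

variable (T : Ctx V)

private theorem ray_point {θ : ℝ} (h0 : 0 ≤ θ) (h1 : θ < 1) {φ : ℝ → ℝ} (hφ1 : ∀ a, φ a ≤ 1)
    (hanti : ∀ a b, |a| ≤ |b| → φ b ≤ φ a) (s g : ℝ) :
    (1 + θ) / 2 * φ (s + 1 * g) + (1 - θ) / 2 * φ (s + -1 * g)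
      ≤ 1 - (1 - θ) / 2 * (1 - φ g) := by
  have e1 := hφ1 (s + 1 * g)
  have e2 := hφ1 (s + -1 * g)
  have e3 := hφ1 g
  by_cases h : |g| ≤ |s + 1 * g|
  · have := hanti _ _ h
    nlinarith
  · have h' : |g| ≤ |s + -1 * g| := by
      have h2 : |2 * g| ≤ |s + 1 * g| + |s + -1 * g| := by
        have := abs_sub (s + 1 * g) (s + -1 * g)
        rwa [show s + 1 * g - (s + -1 * g) = 2 * g by ring] at this
      rw [abs_mul, abs_two] at h2
      push Not at h
      linarith
    have := hanti _ _ h'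
    nlinarith

private theorem ray_factor_nonneg {R : ℤ} {O : Clk V → Set (Slot V)} (hO : IsMask R O)
    {φ : ℝ → ℝ} (hφ : Continuous φ) (hφ0 : ∀ a, 0 ≤ φ a) (c v : V) :
    0 ≤ 1 - (1 - T.θ) / 2 * ∫ x, (1 - φ (gf T.θ (T.AO O c v x))) ∂mu0 V := by
  have h0 := T.θ_nonneg
  have h1 := T.θ_lt_one
  have hb : BM (fun x => 1 - φ (gf T.θ (T.AO O c v x))) :=
    (BM.const 1).sub (((T.bm_AO hO c v).cont (continuous_gf h0 h1)).cont hφ)
  have : ∫ x, (1 - φ (gf T.θ (T.AO O c v x))) ∂mu0 V ≤ ∫ _x, (1 : ℝ) ∂mu0 V :=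
    integral_mono hb.integrable (integrable_const _) fun x => by
      have := hφ0 (gf T.θ (T.AO O c v x))
      dsimp only
      linarith
  rw [integral_const, probReal_univ, one_smul] at this
  nlinarith

open Classical in
private theorem ray_step {R : ℤ} {O : Clk V → Set (Slot V)} (hO : IsMask R O) (hl : IsLocal O)
    {φ : ℝ → ℝ} (hφ : Continuous φ) (hφ1 : ∀ a, φ a ≤ 1)
    (hanti : ∀ a b, |a| ≤ |b| → φ b ≤ φ a) {v u c : V} (hvc : T.G.Adj v c) (hcu : c ≠ u)
    {P : Om0 V → ℝ} (hP : BM P) (hP0 : ∀ x, 0 ≤ P x) {D : Set V} (hPD : DependsOn P (loc D))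
    (hvD : v ∉ D) (hD : Disjoint D (T.half c v)) :
    ∫ x, P x * φ (T.AO O v u x) ∂mu0 V
      ≤ (∫ x, P x ∂mu0 V)
        * (1 - (1 - T.θ) / 2 * ∫ x, (1 - φ (gf T.θ (T.AO O c v x))) ∂mu0 V) := by
  have h0 := T.θ_nonneg
  have h1 := T.θ_lt_one
  set g : Om0 V → ℝ := fun x => gf T.θ (T.AO O c v x) with hg
  set s : Om0 V → ℝ := fun x => T.HO O v x
    + ∑ c' ∈ ((T.nb v).erase u).erase c, T.eta x s(v, c') * gf T.θ (T.AO O c' v x) with hs
  have bm_eta : ∀ e : Sym2 V, BM (fun x => T.eta x e) := fun e =>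
    BM.of_le (T.measurable_eta e) 1 fun x => by rcases T.eta_eq x e with h | h <;> simp [h]
  have bg : BM g := (T.bm_AO hO c v).cont (continuous_gf h0 h1)
  have bs : BM s := (T.bm_HO hO v).add (BM.sum _ fun c' _ =>
    (bm_eta _).mul ((T.bm_AO hO c' v).cont (continuous_gf h0 h1)))
  have hcm : c ∈ (T.nb v).erase u := Finset.mem_erase.2 ⟨hcu, T.mem_nb.2 hvc⟩
  have e1 : ∫ x, P x * φ (T.AO O v u x) ∂mu0 V
      = ∫ x, P x * φ (s x + T.eta x s(v, c) * g x) ∂mu0 V := by
    refine integral_congr_ae ?_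
    filter_upwards [T.AO_rec hO] with x hx
    rw [hx v u, ← Finset.add_sum_erase _ _ hcm]
    simp only [hs, hg]
    congr 2
    ring
  have hdep : DependsOn (fun x => (s x, g x, P x)) {Idx.e s(v, c)}ᶜ := by
    intro a b hab
    have key : ∀ A : Set (Idx V), Idx.e s(v, c) ∉ A → ∀ i ∈ A, a i = b i := by
      intro A hA i hi
      refine hab i fun h => hA ?_
      rw [mem_singleton_iff] at h
      rwa [← h]
    have kA : ∀ c', T.G.Adj v c' → T.AO O c' v a = T.AO O c' v b := fun c' hc' =>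
      T.dependsOn_AO hl hc'.symm (key _ (e_not_mem_loc (T.not_mem_half hc'.symm)))
    have k1 : T.HO O v a = T.HO O v b := by
      refine T.dependsOn_HO hl v (key _ ?_)
      rw [Sym2.eq_swap]
      exact e_not_mem_loc (fun h => hvc.ne (mem_singleton_iff.1 h).symm)
    have k2 : s a = s b := by
      simp only [hs]
      rw [k1]
      congr 1
      refine Finset.sum_congr rfl fun c' hc' => ?_
      have hc1 := Finset.mem_erase.1 hc'
      have hc2 := T.mem_nb.1 (Finset.mem_erase.1 hc1.2).2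
      rw [kA c' hc2]
      congr 1
      refine T.dependsOn_eta s(v, c') (key _ fun h => ?_)
      rw [mem_singleton_iff, Idx.e.injEq, Sym2.congr_right] at h
      exact hc1.1 h.symm
    have k3 : g a = g b := by simp only [hg]; rw [kA c hvc]
    have k4 : P a = P b := hPD (key _ (e_not_mem_loc hvD))
    simp only [k2, k3, k4]
  have hF : Measurable (fun z : ℝ × ℝ × ℝ × ℝ => z.2.2.2 * φ (z.2.1 + z.1 * z.2.2.1)) := by
    have : Continuous (fun z : ℝ × ℝ × ℝ × ℝ => z.2.2.2 * φ (z.2.1 + z.1 * z.2.2.1)) := by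
      fun_prop
    exact this.measurable
  have b1 : BM (fun x => P x * φ (s x + 1 * g x)) :=
    hP.mul ((bs.add (bg.const_mul 1)).cont hφ)
  have b2 : BM (fun x => P x * φ (s x + -1 * g x)) :=
    hP.mul ((bs.add (bg.const_mul (-1))).cont hφ)
  have e2 := T.integral_eta s(v, c) (X := fun x => (s x, g x, P x))
    (bs.meas.prodMk (bg.meas.prodMk hP.meas)) hdep (fun h => h rfl) hF b1 b2
  have b3 : BM (fun x => 1 - (1 - T.θ) / 2 * (1 - φ (g x))) :=
    (BM.const 1).sub (((BM.const 1).sub (bg.cont hφ)).const_mul _)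
  have hdep3 : DependsOn (fun x => 1 - (1 - T.θ) / 2 * (1 - φ (g x))) (loc (T.half c v)) := by
    intro a b hab
    simp only [hg]
    rw [T.dependsOn_AO hl hvc.symm hab]
  have e3 := integral_mul_of_dependsOn hP b3 hPD hdep3 (loc_disjoint hD)
  have e4 : ∫ x, (1 - (1 - T.θ) / 2 * (1 - φ (g x))) ∂mu0 V
      = 1 - (1 - T.θ) / 2 * ∫ x, (1 - φ (g x)) ∂mu0 V := by
    rw [integral_sub (integrable_const _) (((BM.const 1).sub (bg.cont hφ)).const_mul _).integrable,
      integral_const, probReal_univ, one_smul, integral_const_mul]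
  rw [e1]
  refine le_trans (le_of_eq e2) ?_
  rw [← e4, ← e3, ← integral_const_mul, ← integral_const_mul,
    ← integral_add (b1.const_mul _).integrable (b2.const_mul _).integrable]
  refine integral_mono ((b1.const_mul _).add (b2.const_mul _)).integrable
    (hP.mul b3).integrable fun x => ?_
  have := mul_le_mul_of_nonneg_left (ray_point h0 h1 hφ1 hanti (s x) (g x)) (hP0 x)
  dsimp only
  linarith

theorem ray_prod {R : ℤ} {O : Clk V → Set (Slot V)} (hO : IsMask R O) (hl : IsLocal O)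
    {φ : ℝ → ℝ} (hφ : Continuous φ) (hφ0 : ∀ a, 0 ≤ φ a) (hφ1 : ∀ a, φ a ≤ 1)
    (hanti : ∀ a b, |a| ≤ |b| → φ b ≤ φ a) {p : ℕ → V} {k : ℕ} (hp : T.NB p k) {c : ℕ → V}
    (hc : ∀ j, j < k → T.G.Adj (p (j + 1)) (c j) ∧ c j ≠ p j ∧ c j ≠ p (j + 2)) :
    ∫ x, ∏ j ∈ Finset.range k, φ (T.AO O (p (j + 1)) (p j) x) ∂mu0 V
      ≤ ∏ j ∈ Finset.range k, (1 - (1 - T.θ) / 2
          * ∫ x, (1 - φ (gf T.θ (T.AO O (c j) (p (j + 1)) x))) ∂mu0 V) := by
  induction k generalizing p c with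
  | zero => simp
  | succ k ih =>
    have hp' : T.NB (fun j => p (j + 1)) k :=
      ⟨fun i hi => hp.1 (i + 1) (by omega), fun i hi => hp.2 (i + 1) (by omega)⟩
    have ih' := ih hp' (c := fun j => c (j + 1)) fun j hj => hc (j + 1) (by omega)
    obtain ⟨hc1, hc2, hc3⟩ := hc 0 (by omega)
    simp only [Finset.prod_range_succ']
    have hsub : ∀ j, j < k → T.half (p (j + 1 + 1)) (p (j + 1)) ⊆ T.half (p (1 + 1)) (p 1) :=
      fun j hj => hp.half_subset (i := 1) (j := j + 1) (by omega) (by omega)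
    have hstep := T.ray_step hO hl hφ hφ1 hanti (u := p 0) hc1 hc2
      (P := fun x => ∏ j ∈ Finset.range k, φ (T.AO O (p (j + 1 + 1)) (p (j + 1)) x))
      (BM.prod _ fun j _ => (T.bm_AO hO _ _).cont hφ)
      (fun x => Finset.prod_nonneg fun j _ => hφ0 _)
      (D := {w | ∃ j, j < k ∧ w ∈ T.half (p (j + 1 + 1)) (p (j + 1))})
      (fun a b hab => Finset.prod_congr rfl fun j hj => by
        have hj' := Finset.mem_range.1 hj
        have hs : T.half (p (j + 1 + 1)) (p (j + 1))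
            ⊆ {w | ∃ j, j < k ∧ w ∈ T.half (p (j + 1 + 1)) (p (j + 1))} :=
          fun w hw => ⟨j, hj', hw⟩
        rw [T.dependsOn_AO hl (hp.1 (j + 1) (by omega)).symm
          fun i hi => hab i (loc_mono hs hi)])
      (fun ⟨j, hj, hw⟩ => T.not_mem_half (hp.1 1 (by omega)).symm (hsub j hj hw))
      (Set.disjoint_left.2 fun w ⟨j, hj, hw⟩ hw' =>
        Set.disjoint_left.1 (T.half_disjoint (hp.1 1 (by omega)) hc1 hc3.symm) (hsub j hj hw) hw')
    exact hstep.trans (mul_le_mul_of_nonneg_right ih' (T.ray_factor_nonneg hO hφ hφ0 _ _))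

private theorem AO_glueU (O : Clk V → Set (Slot V)) (v u : V) (x y : Om0 V) :
    T.AO O v u (glue (Uset V) x y) = T.AO (fun _ => O (clock x)) v u y := by
  unfold AO
  rw [T.BO_glueU]
  rfl

private theorem exists_side {p : ℕ → V} {k : ℕ} :
    ∃ c : ℕ → V, ∀ j, j < k → T.G.Adj (p (j + 1)) (c j) ∧ c j ≠ p j ∧ c j ≠ p (j + 2) := by
  choose c hc using fun j => T.exists_adj_ne (p (j + 1)) (p j) (p (j + 2))
  exact ⟨c, fun j _ => hc j⟩

private theorem side_disjoint {p : ℕ → V} {k : ℕ} (hp : T.NB p k) {c : ℕ → V}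
    (hc : ∀ j, j < k → T.G.Adj (p (j + 1)) (c j) ∧ c j ≠ p j ∧ c j ≠ p (j + 2)) {i j : ℕ}
    (hij : i < j) (hj : j < k) :
    Disjoint (T.half (c i) (p (i + 1))) (T.half (c j) (p (j + 1))) := by
  have h1 : T.half (c j) (p (j + 1)) ⊆ T.half (p (j + 1)) (p j) :=
    T.half_subset (hp.1 j hj).symm (hc j hj).1 (hc j hj).2.1
  have h2 : T.half (p (j + 1)) (p j) ⊆ T.half (p (i + 1 + 1)) (p (i + 1)) :=
    hp.half_subset (by omega) (by omega)
  exact (T.half_disjoint (hc i (by omega)).1 (hp.1 (i + 1) (by omega))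
    (hc i (by omega)).2.2).mono_right (h1.trans h2)

private theorem tail_prod (hc : ((T.d : ℝ) - 1) * T.θ ^ 2 = 1) (r : ℤ)
    {O : Clk V → Set (Slot V)} (hO : IsMask r O) (hOt : ∀ c, Ot r c ⊆ O c) {p : ℕ → V} {k : ℕ}
    (hp : T.NB p k) :
    ∫ x, ∏ j ∈ Finset.range k, Real.exp (-zeta T.θ (T.AO O (p (j + 1)) (p j) x)) ∂mu0 V
      ≤ (1 - (1 - T.θ) / 2 * ((1 - T.θ ^ 2) * T.θ ^ 2) * (kap r / 100)) ^ k := by
  have h0 := T.θ_nonneg
  have h1 := T.θ_lt_one
  have hθ2 : 0 ≤ 1 - T.θ ^ 2 := by nlinarith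
  set a : ℝ := (1 - T.θ) / 2 * ((1 - T.θ ^ 2) * T.θ ^ 2) with ha
  have ha0 : 0 ≤ a := by
    have : 0 ≤ 1 - T.θ := by linarith
    positivity
  have ha1 : a ≤ 1 := by
    have e1 : (1 - T.θ ^ 2) * T.θ ^ 2 ≤ 1 := by nlinarith [sq_nonneg T.θ, sq_nonneg (T.θ ^ 2)]
    have e2 : 0 ≤ (1 - T.θ ^ 2) * T.θ ^ 2 := by positivity
    nlinarith
  have hφ : Continuous fun b => Real.exp (-zeta T.θ b) :=
    Real.continuous_exp.comp (continuous_zeta h0 h1).neg
  have hφ0 : ∀ b, 0 ≤ Real.exp (-zeta T.θ b) := fun b => (Real.exp_pos _).le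
  have hφ1 : ∀ b, Real.exp (-zeta T.θ b) ≤ 1 := fun b =>
    Real.exp_le_one_iff.2 (neg_nonpos.2 (zeta_nonneg h0 h1 b))
  have hanti : ∀ b b', |b| ≤ |b'| → Real.exp (-zeta T.θ b') ≤ Real.exp (-zeta T.θ b) :=
    fun b b' h => Real.exp_le_exp.2 (neg_le_neg (zeta_mono h0 h1 h))
  obtain ⟨c, hcs⟩ := T.exists_side (p := p) (k := k)
  have hOr : IsMask r (Ot (r : ℝ) : Clk V → Set (Slot V)) := isMask_Ot (by linarith)
  set ψ : ℕ → Om0 V → ℝ := fun j x =>
    ∫ y, Real.tanh (T.AO (Ot r) (c j) (p (j + 1)) (glue (Uset V) x y)) ^ 2 ∂mu0 V with hψ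
  have bt : ∀ j, BM (fun x => Real.tanh (T.AO (Ot r) (c j) (p (j + 1)) x) ^ 2) := fun j =>
    ((T.bm_AO hOr _ _).cont continuous_tanh').pow 2
  have bψ : ∀ j, BM (ψ j) := by
    intro j
    refine BM.of_le ?_ 1 fun x => ?_
    · exact (((bt j).meas.comp (measurable_glue (Uset V))).stronglyMeasurable.integral_prod_right'
        (ν := mu0 V)).measurable
    · have := norm_integral_le_of_norm_le_const (μ := mu0 V) (C := 1)
        (f := fun y => Real.tanh (T.AO (Ot r) (c j) (p (j + 1)) (glue (Uset V) x y)) ^ 2)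
        (Eventually.of_forall fun y => by
          rw [Real.norm_eq_abs, abs_pow]
          exact pow_le_one₀ (abs_nonneg _) (Real.abs_tanh_lt_one _).le)
      simpa using this
  have dψ : ∀ j, j < k → DependsOn (ψ j) (loc (T.half (c j) (p (j + 1)))) := by
    intro j hj x x' hx
    simp only [hψ]
    refine integral_congr_ae (Eventually.of_forall fun y => ?_)
    have : T.AO (Ot r) (c j) (p (j + 1)) (glue (Uset V) x y)
        = T.AO (Ot r) (c j) (p (j + 1)) (glue (Uset V) x' y) := by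
      refine T.dependsOn_AO (isLocal_Ot _) (hcs j hj).1.symm fun i hi => ?_
      by_cases hU : i ∈ Uset V
      · rw [glue_of_mem hU, glue_of_mem hU, hx i hi]
      · rw [glue_of_not_mem hU, glue_of_not_mem hU]
    simp only [this]
  have iψ : ∀ j, j < k → ∫ x, ψ j x ∂mu0 V = T.xt r (c j) (p (j + 1)) := by
    intro j hj
    rw [T.xt_eq_sq r (hcs j hj).1.symm, integral_glueU (bt j).integrable]
  have b1 : ∀ j, BM (fun x => 1 - a * ψ j x) := fun j => (BM.const 1).sub ((bψ j).const_mul a)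
  rw [integral_glueU (BM.prod _ fun j _ => (T.bm_AO hO _ _).cont hφ).integrable]
  calc ∫ x, ∫ y, ∏ j ∈ Finset.range k,
          Real.exp (-zeta T.θ (T.AO O (p (j + 1)) (p j) (glue (Uset V) x y))) ∂mu0 V ∂mu0 V
      ≤ ∫ x, ∏ j ∈ Finset.range k, (1 - a * ψ j x) ∂mu0 V := by
        refine integral_mono_of_nonneg (Eventually.of_forall fun x =>
          integral_nonneg fun y => Finset.prod_nonneg fun j _ => hφ0 _)
          (BM.prod _ fun j _ => b1 j).integrable (Eventually.of_forall fun x => ?_)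
        have hOx : IsMask r (fun _ : Clk V => O (clock x)) := isMask_const (hO.le _)
        have hOx' : IsMask r (fun _ : Clk V => Ot (r : ℝ) (clock x)) := isMask_const (hOr.le _)
        simp only [T.AO_glueU]
        refine (T.ray_prod hOx (isLocal_const _) hφ hφ0 hφ1 hanti hp hcs).trans ?_
        refine Finset.prod_le_prod (fun j _ => T.ray_factor_nonneg hOx hφ hφ0 _ _) fun j hj => ?_
        have hj' := Finset.mem_range.1 hj
        have hadj := (hcs j hj').1.symm
        have e1 : ψ j x ≤ ∫ y, Real.tanh (T.AO (fun _ => O (clock x)) (c j) (p (j + 1)) y) ^ 2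
            ∂mu0 V := by
          simp only [hψ, T.AO_glueU]
          rw [← T.integral_alpha_sq hOx hadj, ← T.integral_alpha_sq hOx' hadj]
          exact T.alpha_sq_mono_det (hO.le _) (hOt _) hadj
        have bA := T.bm_AO hOx (c j) (p (j + 1))
        have e2 : (1 - T.θ ^ 2) * T.θ ^ 2
              * ∫ y, Real.tanh (T.AO (fun _ => O (clock x)) (c j) (p (j + 1)) y) ^ 2 ∂mu0 V
            ≤ ∫ y, (1 - Real.exp (-zeta T.θ
              (gf T.θ (T.AO (fun _ => O (clock x)) (c j) (p (j + 1)) y)))) ∂mu0 V := by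
          rw [← integral_const_mul]
          refine integral_mono (((bA.cont continuous_tanh').pow 2).const_mul _).integrable
            ((BM.const 1).sub ((bA.cont (continuous_gf h0 h1)).cont hφ)).integrable fun y => ?_
          have := one_sub_exp_neg_zeta_ge h0 h1
            (gf T.θ (T.AO (fun _ => O (clock x)) (c j) (p (j + 1)) y))
          rw [tanh_gf h0 h1, mul_pow, ← mul_assoc] at this
          exact this
        have e3 : (1 - T.θ ^ 2) * T.θ ^ 2 * ψ j x ≤ _ :=
          (mul_le_mul_of_nonneg_left e1 (by positivity)).trans e2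
        have e4 := mul_le_mul_of_nonneg_left e3 (show 0 ≤ (1 - T.θ) / 2 by linarith)
        rw [ha]
        linarith
    _ = ∏ j ∈ Finset.range k, ∫ x, (1 - a * ψ j x) ∂mu0 V := by
        refine integral_prod_of_dependsOn _ (fun j _ => b1 j)
          (A := fun j => loc (T.half (c j) (p (j + 1)))) (fun j hj x x' hx => ?_)
          fun i hi j hj hij => loc_disjoint ?_
        · simp only [dψ j (Finset.mem_range.1 hj) hx]
        · rcases lt_or_gt_of_ne hij with h | h
          · exact T.side_disjoint hp hcs h (Finset.mem_range.1 hj)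
          · exact (T.side_disjoint hp hcs h (Finset.mem_range.1 hi)).symm
    _ ≤ ∏ _j ∈ Finset.range k, (1 - a * (kap r / 100)) := by
        have e : ∀ j ∈ Finset.range k, ∫ x, (1 - a * ψ j x) ∂mu0 V
            = 1 - a * T.xt r (c j) (p (j + 1)) := by
          intro j hj
          rw [integral_sub (integrable_const _) ((bψ j).const_mul a).integrable, integral_const,
            probReal_univ, one_smul, integral_const_mul, iψ j (Finset.mem_range.1 hj)]
        rw [Finset.prod_congr rfl e]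
        refine Finset.prod_le_prod (fun j _ => ?_) fun j hj => ?_
        · have := T.xt_le_one r (c j) (p (j + 1))
          nlinarith
        · have := T.xt_lower hc (r := r) (t := r) le_rfl (hcs j (Finset.mem_range.1 hj)).1.symm
          nlinarith
    _ = _ := by rw [Finset.prod_const, Finset.card_range]

theorem tailHyp (r : ℤ) : T.TailHyp r := by
  have h0 := T.θ_nonneg
  have h1 := T.θ_lt_one
  have hd : (0 : ℝ) ≤ (T.d : ℝ) - 1 := by
    have : (3 : ℝ) ≤ T.d := by exact_mod_cast T.hd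
    linarith
  have bJ : ∀ {O : Clk V → Set (Slot V)}, IsMask r O → ∀ w,
      BM (fun ω => T.Jo w (T.YO O ω) ^ 2) := fun hO w =>
    (BM.of_le ((T.measurable_Jo w).comp (T.measurable_YO hO)) 1 fun ω => T.abs_Jo_le _ _).pow 2
  rcases T.hθ.lt_or_eq with hc | hc
  · refine ⟨fun k => (((T.d : ℝ) - 1) * T.θ ^ 2) ^ k,
      summable_geometric_of_lt_one (by positivity) hc, fun k => by positivity,
      fun O hO _ w => ?_⟩
    set k := T.G.dist T.o w
    have : ∫ ω, T.Jo w (T.YO O ω) ^ 2 ∂mu V ≤ ∫ _ω, (T.θ ^ 2) ^ k ∂mu V := by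
      refine integral_mono (bJ hO w).integrable (integrable_const _) fun ω => ?_
      dsimp only
      rw [← pow_mul, mul_comm 2 k, pow_mul]
      exact pow_le_pow_left₀ (T.Jf_nonneg _ _ _) (T.Jf_le_pow _ _ _) 2
    rw [integral_const, probReal_univ, one_smul] at this
    dsimp only
    rw [mul_pow]
    gcongr
  · have hθ : 0 < T.θ := by
      rcases h0.eq_or_lt with h | h
      · rw [← h] at hc; norm_num at hc
      · exact h
    have hθ2 : 0 < 1 - T.θ ^ 2 := by nlinarith
    set b : ℝ := (1 - T.θ) / 2 * ((1 - T.θ ^ 2) * T.θ ^ 2) * (kap r / 100) with hb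
    have hk := kap_pos r
    have hk1 := kap_le_half r
    have hb0 : 0 < b := by
      have : 0 < 1 - T.θ := by linarith
      positivity
    have hb1 : b ≤ 1 := by
      have e1 : (1 - T.θ ^ 2) * T.θ ^ 2 ≤ 1 := by nlinarith [sq_nonneg T.θ, sq_nonneg (T.θ ^ 2)]
      have e2 : 0 ≤ (1 - T.θ ^ 2) * T.θ ^ 2 := by positivity
      have e3 : (1 - T.θ) / 2 * ((1 - T.θ ^ 2) * T.θ ^ 2) ≤ 1 := by nlinarith
      exact mul_le_one₀ e3 (by positivity) (by linarith)
    refine ⟨fun k => (1 - b) ^ k, summable_geometric_of_lt_one (by linarith) (by linarith),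
      fun k => pow_nonneg (by linarith) k, fun O hO hOt w => ?_⟩
    set k := T.G.dist T.o w
    have hp : T.NB (T.geo w) k := T.geo_NB w
    set p := T.geo w
    have hφ : Continuous fun b => Real.exp (-zeta T.θ b) :=
      Real.continuous_exp.comp (continuous_zeta h0 h1).neg
    have bP : BM (fun x => ∏ j ∈ Finset.range k,
        Real.exp (-zeta T.θ (T.AO O (p (j + 1)) (p j) x))) :=
      BM.prod _ fun j _ => (T.bm_AO hO _ _).cont hφ
    have e1 : ∫ ω, T.Jo w (T.YO O ω) ^ 2 ∂mu V ≤ ∫ ω, (T.θ ^ 2) ^ k * ∏ j ∈ Finset.range k,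
        Real.exp (-zeta T.θ (T.AO O (p (j + 1)) (p j) ω.1)) ∂mu V := by
      refine integral_mono_ae (bJ hO w).integrable
        ((bP.comp measurable_fst).const_mul _).integrable ?_
      filter_upwards [T.good_ae hO] with ω hω
      have a1 := hω.Spath_ge hp (i := 0) (l := k) (by omega)
      simp only [zero_add] at a1
      have a2 : ∀ j, zeta T.θ (T.acav (p (j + 1)) (p j) (T.YO O ω))
          = zeta T.θ (T.AO O (p (j + 1)) (p j) ω.1) := fun j =>
        T.even_acav_YO O _ _ (F := zeta T.θ) zeta_neg ω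
      simp only [a2] at a1
      calc T.Jo w (T.YO O ω) ^ 2 ≤ (T.θ ^ k * Real.exp (-T.Spath p k (T.YO O ω))) ^ 2 :=
            pow_le_pow_left₀ (T.Jf_nonneg _ _ _) (T.Jf_le _ _ _) 2
        _ = (T.θ ^ 2) ^ k * Real.exp (-(2 * T.Spath p k (T.YO O ω))) := by
            rw [mul_pow, ← pow_mul, mul_comm k 2, pow_mul, sq (Real.exp _), ← Real.exp_add]
            congr 2
            ring
        _ ≤ _ := by
            rw [← Real.exp_sum, Finset.sum_neg_distrib]
            gcongr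
            linarith
    rw [integral_const_mul, integral_comp_mp (f := fun x => ∏ j ∈ Finset.range k,
        Real.exp (-zeta T.θ (T.AO O (p (j + 1)) (p j) x))) mp_fst
        bP.meas.aestronglyMeasurable] at e1
    have e2 := T.tail_prod hc r hO hOt hp
    calc ((T.d : ℝ) - 1) ^ k * ∫ ω, T.Jo w (T.YO O ω) ^ 2 ∂mu V
        ≤ ((T.d : ℝ) - 1) ^ k * ((T.θ ^ 2) ^ k * (1 - b) ^ k) := by
          gcongr
          exact e1.trans (by gcongr)
      _ = (1 - b) ^ k := by rw [← mul_assoc, ← mul_pow, hc, one_pow, one_mul]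

theorem bad_ray (hc : ((T.d : ℝ) - 1) * T.θ ^ 2 = 1) (R : ℕ) :
    ∃ c : ℝ, 0 < c ∧ ∀ r : ℤ, r ≤ R → ∀ t : ℝ, r ≤ t → t ≤ r + 1 →
      ∀ (p : ℕ → V) (l : ℕ), T.NB p l →
        (mu0 V).real {x | ∑ j ∈ Finset.range l, zeta T.θ (T.AO (Ot t) (p (j + 1)) (p j) x)
          < c * kap r * l} ≤ Real.exp (-(c * l)) := by
  have h0 := T.θ_nonneg
  have h1 := T.θ_lt_one
  obtain ⟨c₁, hc₁, H⟩ := T.zeta_msg_lower hc R
  set c₂ : ℝ := (1 - T.θ) * c₁ / 8 with hc₂
  have hc₂0 : 0 < c₂ := by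
    have : 0 < 1 - T.θ := by linarith
    positivity
  refine ⟨min c₂ (c₂ * c₁), lt_min hc₂0 (by positivity), fun r hr t ht ht' p l hp => ?_⟩
  obtain ⟨xs, hxs, hx⟩ := H r hr t ht ht'
  have hk := kap_pos r
  have hxs0 : 0 < xs := lt_of_lt_of_le (by positivity) hxs
  have hO : IsMask r (Ot t : Clk V → Set (Slot V)) := isMask_Ot ht'
  have hm : Continuous fun b => min (zeta T.θ b / xs) 1 :=
    ((continuous_zeta h0 h1).div_const xs).min continuous_const
  have hm0 : ∀ b, 0 ≤ min (zeta T.θ b / xs) 1 := fun b =>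
    le_min (div_nonneg (zeta_nonneg h0 h1 b) hxs0.le) zero_le_one
  have hφ : Continuous fun b => Real.exp (-min (zeta T.θ b / xs) 1) :=
    Real.continuous_exp.comp hm.neg
  obtain ⟨c, hcs⟩ := T.exists_side (p := p) (k := l)
  have e1 := T.ray_prod hO (isLocal_Ot t) hφ (fun b => (Real.exp_pos _).le)
    (fun b => Real.exp_le_one_iff.2 (neg_nonpos.2 (hm0 b)))
    (fun b b' h => Real.exp_le_exp.2 (neg_le_neg (min_le_min_right _
      (div_le_div_of_nonneg_right (zeta_mono h0 h1 h) hxs0.le)))) hp hcs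
  have e2 : ∏ j ∈ Finset.range l, (1 - (1 - T.θ) / 2 * ∫ x, (1 - Real.exp (-min (zeta T.θ
        (gf T.θ (T.AO (Ot t) (c j) (p (j + 1)) x)) / xs) 1)) ∂mu0 V)
      ≤ ∏ _j ∈ Finset.range l, Real.exp (-(2 * c₂)) := by
    refine Finset.prod_le_prod (fun j _ => T.ray_factor_nonneg hO hφ
      (fun b => (Real.exp_pos _).le) _ _) fun j hj => ?_
    have hadj := (hcs j (Finset.mem_range.1 hj)).1.symm
    have bA := (T.bm_AO hO (c j) (p (j + 1))).cont (continuous_gf h0 h1)
    have a1 : 1 / 2 * ∫ x, min (zeta T.θ (gf T.θ (T.AO (Ot t) (c j) (p (j + 1)) x)) / xs) 1 ∂mu0 V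
        ≤ ∫ x, (1 - Real.exp (-min (zeta T.θ
          (gf T.θ (T.AO (Ot t) (c j) (p (j + 1)) x)) / xs) 1)) ∂mu0 V := by
      rw [← integral_const_mul]
      refine integral_mono ((bA.cont hm).const_mul _).integrable
        ((BM.const 1).sub (bA.cont hφ)).integrable fun x => ?_
      have b0 := hm0 (gf T.θ (T.AO (Ot t) (c j) (p (j + 1)) x))
      have b1 := min_le_right (zeta T.θ (gf T.θ (T.AO (Ot t) (c j) (p (j + 1)) x)) / xs) 1
      dsimp only
      generalize min (zeta T.θ (gf T.θ (T.AO (Ot t) (c j) (p (j + 1)) x)) / xs) 1 = y at b0 b1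
      have b2 : Real.exp (-y) * (y + 1) ≤ 1 := by
        calc Real.exp (-y) * (y + 1) ≤ Real.exp (-y) * Real.exp y := by
              gcongr; exact Real.add_one_le_exp y
          _ = 1 := by rw [← Real.exp_add]; simp
      have b3 := Real.exp_pos (-y)
      nlinarith
    have a2 := hx _ _ hadj
    have a3 := Real.add_one_le_exp (-(2 * c₂))
    have a4 := mul_le_mul_of_nonneg_left ((mul_le_mul_of_nonneg_left a2
      (show (0 : ℝ) ≤ 1 / 2 by norm_num)).trans a1) (show 0 ≤ (1 - T.θ) / 2 by linarith)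
    rw [hc₂] at a3 ⊢
    linarith
  rw [Finset.prod_const, Finset.card_range, ← Real.exp_nat_mul] at e2
  have bP : BM (fun x => ∏ j ∈ Finset.range l,
      Real.exp (-min (zeta T.θ (T.AO (Ot t) (p (j + 1)) (p j) x) / xs) 1)) :=
    BM.prod _ fun j _ => (T.bm_AO hO _ _).cont hφ
  have e3 := mul_meas_ge_le_integral_of_nonneg (μ := mu0 V)
    (Eventually.of_forall fun x => Finset.prod_nonneg fun j _ => (Real.exp_pos _).le)
    bP.integrable (Real.exp (-(c₂ * l)))
  have hl0 : (0 : ℝ) ≤ l := Nat.cast_nonneg _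
  have e4 : (mu0 V).real {x | ∑ j ∈ Finset.range l, zeta T.θ (T.AO (Ot t) (p (j + 1)) (p j) x)
          < min c₂ (c₂ * c₁) * kap r * l}
      ≤ (mu0 V).real {x | Real.exp (-(c₂ * l)) ≤ ∏ j ∈ Finset.range l,
        Real.exp (-min (zeta T.θ (T.AO (Ot t) (p (j + 1)) (p j) x) / xs) 1)} := by
    refine measureReal_mono fun x hx => ?_
    rw [mem_ofPred_eq] at hx ⊢
    rw [← Real.exp_sum, Finset.sum_neg_distrib, Real.exp_le_exp, neg_le_neg_iff]
    calc ∑ j ∈ Finset.range l, min (zeta T.θ (T.AO (Ot t) (p (j + 1)) (p j) x) / xs) 1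
        ≤ ∑ j ∈ Finset.range l, zeta T.θ (T.AO (Ot t) (p (j + 1)) (p j) x) / xs :=
          Finset.sum_le_sum fun j _ => min_le_left _ _
      _ = (∑ j ∈ Finset.range l, zeta T.θ (T.AO (Ot t) (p (j + 1)) (p j) x)) / xs := by
          rw [Finset.sum_div]
      _ ≤ c₂ * l := by
          rw [div_le_iff₀ hxs0]
          calc _ ≤ min c₂ (c₂ * c₁) * kap r * l := hx.le
            _ ≤ c₂ * c₁ * kap r * l := by gcongr; exact min_le_right _ _
            _ = c₂ * l * (c₁ * kap r) := by ring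
            _ ≤ c₂ * l * xs := by gcongr
  refine e4.trans (le_of_mul_le_mul_left (a := Real.exp (-(c₂ * l))) ?_ (Real.exp_pos _))
  refine e3.trans (e1.trans (e2.trans ?_))
  rw [← Real.exp_add, Real.exp_le_exp]
  have := mul_le_mul_of_nonneg_right (min_le_left c₂ (c₂ * c₁)) hl0
  linarith

end Ctx

end Crest.Agent.R160
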