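import Crest.Agent.R160.Defs

/-! Elementary one-variable facts about `tanh`, `artanh`, `gf`, `zeta`, `lcosh`, `Ainv`, `Xi`,
`rho`, `kap`. -/

set_option autoImplicit false

namespace Crest.Agent.R160

open MeasureTheory ProbabilityTheory Set Filter Topology
open scoped ENNReal

/-! ### tanh and artanh -/

theorem lip_of_deriv_on {f f' : ℝ → ℝ} {C : ℝ} {s : Set ℝ} (hs : Convex ℝ s)
    (hf : ∀ x ∈ s, HasDerivAt f (f' x) x) (hb : ∀ x ∈ s, |f' x| ≤ C) {a b : ℝ}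
    (ha : a ∈ s) (hb' : b ∈ s) : |f a - f b| ≤ C * |a - b| :=
  hs.norm_image_sub_le_of_norm_hasDerivWithin_le (f' := f')
    (fun x hx => (hf x hx).hasDerivWithinAt) hb hb' ha

theorem lip_of_deriv {f f' : ℝ → ℝ} {C : ℝ}
    (hf : ∀ x, HasDerivAt f (f' x) x) (hb : ∀ x, |f' x| ≤ C) (a b : ℝ) :
    |f a - f b| ≤ C * |a - b| :=
  lip_of_deriv_on convex_univ (fun x _ => hf x) (fun x _ => hb x) (mem_univ a) (mem_univ b)

theorem one_sub_tanh_sq (a : ℝ) : 1 - Real.tanh a ^ 2 = 1 / Real.cosh a ^ 2 := by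
  have hc := (Real.cosh_pos a).ne'
  rw [Real.tanh_eq_sinh_div_cosh]
  field_simp
  exact Real.cosh_sq_sub_sinh_sq a

theorem hasDerivAt_tanh (x : ℝ) : HasDerivAt Real.tanh (1 - Real.tanh x ^ 2) x := by
  have hc := (Real.cosh_pos x).ne'
  have h := (Real.hasDerivAt_sinh x).div (Real.hasDerivAt_cosh x) hc
  have e : Real.tanh = Real.sinh / Real.cosh := by
    funext y; exact Real.tanh_eq_sinh_div_cosh y
  rw [one_sub_tanh_sq, e]
  refine h.congr_deriv ?_
  have := Real.cosh_sq_sub_sinh_sq x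
  congr 1
  linarith

theorem hasDerivAt_artanh {x : ℝ} (hx : |x| < 1) :
    HasDerivAt Real.artanh (1 / (1 - x ^ 2)) x := by
  have h := abs_lt.1 hx
  have h1 : 1 + x ≠ 0 := by linarith
  have h2 : 1 - x ≠ 0 := by linarith
  have d1 : HasDerivAt (fun y : ℝ => Real.log (1 + y)) (1 / (1 + x)) x := by
    simpa using ((hasDerivAt_id x).const_add 1).log h1
  have d2 : HasDerivAt (fun y : ℝ => Real.log (1 - y)) (-1 / (1 - x)) x := by
    simpa using ((hasDerivAt_id x).const_sub 1).log h2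
  have d3 := (d1.sub d2).const_mul (1 / 2)
  have ev : Real.artanh =ᶠ[𝓝 x] fun y => 1 / 2 * (Real.log (1 + y) - Real.log (1 - y)) := by
    filter_upwards [Ioo_mem_nhds h.1 h.2] with y hy
    rw [Real.artanh_eq_half_log ⟨hy.1.le, hy.2.le⟩,
      Real.log_div (by linarith [hy.1]) (by linarith [hy.2])]
  refine HasDerivAt.congr_of_eventuallyEq ?_ ev
  refine HasDerivAt.congr_deriv d3 ?_
  have h3 : 1 - x ^ 2 = (1 + x) * (1 - x) := by ring
  rw [h3]
  field_simp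
  ring

theorem one_add_mul_pos {x y : ℝ} (hx : |x| < 1) (hy : |y| < 1) : 0 < 1 + x * y := by
  have h : |x * y| < 1 := by
    rw [abs_mul]
    exact mul_lt_one_of_nonneg_of_lt_one_left (abs_nonneg x) hx hy.le
  linarith [(abs_lt.1 h).1]

theorem artanh_neg' (x : ℝ) : Real.artanh (-x) = -Real.artanh x := by
  unfold Real.artanh
  have : (1 + -x) / (1 - -x) = ((1 + x) / (1 - x))⁻¹ := by
    rw [inv_div, sub_neg_eq_add, sub_eq_add_neg]
  rw [this, Real.sqrt_inv, Real.log_inv]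

theorem measurable_artanh : Measurable Real.artanh := by
  unfold Real.artanh
  fun_prop

theorem continuous_tanh' : Continuous Real.tanh := by
  exact continuous_iff_continuousAt.2 fun x => (hasDerivAt_tanh x).continuousAt

theorem tanh_mono : Monotone Real.tanh := by
  refine monotone_of_deriv_nonneg (fun x => (hasDerivAt_tanh x).differentiableAt) fun x => ?_
  rw [(hasDerivAt_tanh x).deriv]
  have := Real.tanh_sq_lt_one x
  linarith

theorem tanh_add' (a b : ℝ) :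
    Real.tanh (a + b) = (Real.tanh a + Real.tanh b) / (1 + Real.tanh a * Real.tanh b) := by
  have ha := (Real.cosh_pos a).ne'
  have hb := (Real.cosh_pos b).ne'
  have hab := (Real.cosh_pos (a + b)).ne'
  rw [Real.cosh_add] at hab
  simp only [Real.tanh_eq_sinh_div_cosh, Real.sinh_add, Real.cosh_add]
  have h2 : 1 + Real.sinh a / Real.cosh a * (Real.sinh b / Real.cosh b)
      = (Real.cosh a * Real.cosh b + Real.sinh a * Real.sinh b) / (Real.cosh a * Real.cosh b) := by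
    field_simp
  rw [h2]
  field_simp

theorem abs_tanh_sub_le (a b : ℝ) : |Real.tanh a - Real.tanh b| ≤ |a - b| := by
  have := lip_of_deriv (C := 1) hasDerivAt_tanh (fun x => by
    have h1 := Real.tanh_sq_lt_one x
    have h2 := sq_nonneg (Real.tanh x)
    rw [abs_le]; constructor <;> linarith) a b
  simpa using this

theorem abs_tanh_le (a : ℝ) : |Real.tanh a| ≤ |a| := by
  simpa using abs_tanh_sub_le a 0

theorem abs_tanh_eq (a : ℝ) : |Real.tanh a| = Real.tanh |a| := by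
  rcases le_total 0 a with h | h
  · rw [abs_of_nonneg h, abs_of_nonneg]
    simpa using tanh_mono h
  · rw [abs_of_nonpos h, Real.tanh_neg, abs_of_nonpos]
    simpa using tanh_mono h

theorem abs_tanh_add_le (a b : ℝ) : |Real.tanh (a + b)| ≤ |Real.tanh a| + |Real.tanh b| := by
  rw [abs_tanh_eq, abs_tanh_eq a, abs_tanh_eq b]
  have h1 : Real.tanh |a + b| ≤ Real.tanh (|a| + |b|) := tanh_mono (abs_add_le a b)
  have ha : 0 ≤ Real.tanh |a| := by simpa using tanh_mono (abs_nonneg a)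
  have hb : 0 ≤ Real.tanh |b| := by simpa using tanh_mono (abs_nonneg b)
  rw [tanh_add'] at h1
  refine h1.trans (div_le_self (add_nonneg ha hb) ?_)
  have := mul_nonneg ha hb
  linarith

theorem tanh_add_artanh (a : ℝ) {x : ℝ} (hx : |x| < 1) :
    Real.tanh (a + Real.artanh x) - Real.tanh a
      = (1 - Real.tanh a ^ 2) * (x / (1 + Real.tanh a * x)) := by
  have hx' : x ∈ Ioo (-1 : ℝ) 1 := by simpa [abs_lt] using hx
  have h := (one_add_mul_pos (Real.abs_tanh_lt_one a) hx).ne'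
  rw [tanh_add', Real.tanh_artanh hx']
  field_simp
  ring

theorem abs_artanh_sub_le {c x y : ℝ} (hc : c < 1) (hx : |x| ≤ c) (hy : |y| ≤ c) :
    |Real.artanh x - Real.artanh y| ≤ |x - y| / (1 - c ^ 2) := by
  have hc0 : 0 ≤ c := (abs_nonneg x).trans hx
  have hc2 : 0 < 1 - c ^ 2 := by nlinarith
  have := lip_of_deriv_on (C := 1 / (1 - c ^ 2)) (s := Icc (-c) c) (convex_Icc _ _)
    (f := Real.artanh) (f' := fun z => 1 / (1 - z ^ 2))
    (fun z hz => hasDerivAt_artanh (by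
      rw [abs_lt]; constructor <;> linarith [hz.1, hz.2]))
    (fun z hz => by
      have hz2 : z ^ 2 ≤ c ^ 2 := sq_le_sq' hz.1 hz.2
      rw [abs_of_pos (by apply one_div_pos.2; linarith)]
      exact one_div_le_one_div_of_le hc2 (by linarith))
    (abs_le.1 hx) (abs_le.1 hy)
  rw [div_eq_mul_one_div, mul_comm]
  exact this

theorem abs_artanh_le {x : ℝ} (hx : |x| ≤ 1 / 2) : |Real.artanh x| ≤ 2 * |x| := by
  have h := abs_artanh_sub_le (c := 1 / 2) (x := x) (y := 0) (by norm_num) hx (by norm_num)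
  simp only [Real.artanh_zero, sub_zero] at h
  have h0 := abs_nonneg x
  refine h.trans ?_
  rw [div_le_iff₀ (by norm_num)]
  linarith

theorem abs_artanh_le_artanh {c x : ℝ} (hc : c < 1) (hx : |x| ≤ c) :
    |Real.artanh x| ≤ Real.artanh c := by
  have h := abs_le.1 hx
  have hc0 : 0 ≤ c := (abs_nonneg x).trans hx
  rw [abs_le]
  constructor
  · rw [← artanh_neg']
    exact Real.artanh_le_artanh (by linarith) (by linarith) h.1
  · exact Real.artanh_le_artanh (by linarith) hc h.2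

theorem one_sub_tanh_eq (a : ℝ) : 1 - Real.tanh a = Real.exp (-a) * (Real.cosh a)⁻¹ := by
  have ha := (Real.cosh_pos a).ne'
  rw [Real.tanh_eq_sinh_div_cosh, ← Real.cosh_sub_sinh]
  field_simp

theorem one_add_tanh_eq (a : ℝ) : 1 + Real.tanh a = Real.exp a * (Real.cosh a)⁻¹ := by
  have := one_sub_tanh_eq (-a)
  simpa using this

theorem cosh_add_sinh_mul_tanh_le (lam a : ℝ) :
    Real.cosh (lam * a) + Real.sinh (lam * a) * Real.tanh a ≤ Real.cosh ((|lam| + 1) * a) := by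
  have ha := Real.cosh_pos a
  have h1 : Real.cosh (lam * a) + Real.sinh (lam * a) * Real.tanh a
      = Real.cosh (lam * a + a) / Real.cosh a := by
    rw [Real.tanh_eq_sinh_div_cosh, Real.cosh_add]
    field_simp
  rw [h1]
  refine (div_le_self (Real.cosh_pos _).le (Real.one_le_cosh a)).trans ?_
  rw [Real.cosh_le_cosh, show lam * a + a = (lam + 1) * a by ring, abs_mul, abs_mul]
  refine mul_le_mul_of_nonneg_right ?_ (abs_nonneg a)
  rw [abs_of_nonneg (by positivity : 0 ≤ |lam| + 1)]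
  simpa using abs_add_le lam 1

/-- lower bound for `1 - tanh` of a sum -/
theorem one_sub_tanh_sum_ge {ι : Type*} (s : Finset ι) (a : ι → ℝ) :
    (∏ i ∈ s, (1 - Real.tanh (a i))) *
        (2 - ((∏ i ∈ s, (1 + Real.tanh (a i))) + ∏ i ∈ s, (1 - Real.tanh (a i))) / 2)
      ≤ 1 - Real.tanh (∑ i ∈ s, a i) := by
  have hC : 0 < ∏ i ∈ s, (Real.cosh (a i))⁻¹ :=
    Finset.prod_pos fun i _ => inv_pos.2 (Real.cosh_pos _)
  have h1 : ∏ i ∈ s, (1 - Real.tanh (a i))
      = Real.exp (-∑ i ∈ s, a i) * ∏ i ∈ s, (Real.cosh (a i))⁻¹ := by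
    rw [← Finset.sum_neg_distrib, Real.exp_sum, ← Finset.prod_mul_distrib]
    exact Finset.prod_congr rfl fun i _ => one_sub_tanh_eq _
  have h2 : ∏ i ∈ s, (1 + Real.tanh (a i))
      = Real.exp (∑ i ∈ s, a i) * ∏ i ∈ s, (Real.cosh (a i))⁻¹ := by
    rw [Real.exp_sum, ← Finset.prod_mul_distrib]
    exact Finset.prod_congr rfl fun i _ => one_add_tanh_eq _
  rw [h1, h2, one_sub_tanh_eq]
  set S := ∑ i ∈ s, a i
  set C := ∏ i ∈ s, (Real.cosh (a i))⁻¹
  have h3 : (Real.exp S * C + Real.exp (-S) * C) / 2 = Real.cosh S * C := by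
    rw [Real.cosh_eq]; ring
  rw [h3, mul_assoc]
  refine mul_le_mul_of_nonneg_left ?_ (Real.exp_pos _).le
  have hS := Real.cosh_pos S
  rw [← one_div, le_div_iff₀ hS]
  nlinarith [sq_nonneg (Real.cosh S * C - 1)]

/-! ### the message map -/

section gf

variable {θ : ℝ}

theorem abs_mul_tanh_le (h0 : 0 ≤ θ) (a : ℝ) : |θ * Real.tanh a| ≤ θ := by
  rw [abs_mul, abs_of_nonneg h0]
  exact mul_le_of_le_one_right h0 (Real.abs_tanh_lt_one a).le

theorem abs_mul_tanh_lt (h0 : 0 ≤ θ) (h1 : θ < 1) (a : ℝ) : |θ * Real.tanh a| < 1 :=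
  (abs_mul_tanh_le h0 a).trans_lt h1

theorem one_sub_sq_pos (h0 : 0 ≤ θ) (h1 : θ < 1) (a : ℝ) :
    0 < 1 - θ ^ 2 * Real.tanh a ^ 2 := by
  have h := abs_mul_tanh_lt h0 h1 a
  have : (θ * Real.tanh a) ^ 2 < 1 := (sq_lt_one_iff_abs_lt_one _).2 h
  rw [mul_pow] at this
  linarith

theorem hasDerivAt_gf (h0 : 0 ≤ θ) (h1 : θ < 1) (x : ℝ) :
    HasDerivAt (gf θ) (θ * (1 - Real.tanh x ^ 2) / (1 - θ ^ 2 * Real.tanh x ^ 2)) x := by
  have h := (hasDerivAt_artanh (abs_mul_tanh_lt h0 h1 x)).comp x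
    ((hasDerivAt_tanh x).const_mul θ)
  refine HasDerivAt.congr_deriv h ?_
  rw [mul_pow]
  ring

theorem abs_gf_le_artanh (h0 : 0 ≤ θ) (h1 : θ < 1) (a : ℝ) : |gf θ a| ≤ Real.artanh θ :=
  abs_artanh_le_artanh h1 (abs_mul_tanh_le h0 a)

theorem gf_neg (a : ℝ) : gf θ (-a) = -gf θ a := by
  unfold gf
  rw [Real.tanh_neg, mul_neg, artanh_neg']

theorem gf_zero : gf θ 0 = 0 := by
  simp [gf]

theorem measurable_gf : Measurable (gf θ) := by
  exact measurable_artanh.comp (continuous_tanh'.measurable.const_mul θ)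

theorem tanh_gf (h0 : 0 ≤ θ) (h1 : θ < 1) (a : ℝ) : Real.tanh (gf θ a) = θ * Real.tanh a := by
  have := abs_mul_tanh_lt h0 h1 a
  exact Real.tanh_artanh (by simpa [abs_lt] using abs_lt.1 this)

theorem abs_gf_sub_le (h0 : 0 ≤ θ) (h1 : θ < 1) (a b : ℝ) :
    |gf θ a - gf θ b| ≤ θ * |a - b| := by
  refine lip_of_deriv (hasDerivAt_gf h0 h1) (fun x => ?_) a b
  have h2 := one_sub_sq_pos h0 h1 x
  have h3 := Real.tanh_sq_lt_one x
  have h4 := sq_nonneg (Real.tanh x)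
  have h5 : θ ^ 2 ≤ 1 := by nlinarith
  rw [abs_of_nonneg (div_nonneg (mul_nonneg h0 (by linarith)) h2.le), div_le_iff₀ h2]
  refine mul_le_mul_of_nonneg_left ?_ h0
  nlinarith

theorem abs_gf_le (h0 : 0 ≤ θ) (h1 : θ < 1) (a : ℝ) : |gf θ a| ≤ θ * |a| := by
  simpa [gf_zero] using abs_gf_sub_le h0 h1 a 0

theorem continuous_gf (h0 : 0 ≤ θ) (h1 : θ < 1) : Continuous (gf θ) := by
  exact continuous_iff_continuousAt.2 fun x => (hasDerivAt_gf h0 h1 x).continuousAt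

/-- the weight obtained by passing a calibrated field through an edge is even -/
theorem edge_weight (h0 : 0 ≤ θ) (h1 : θ < 1) (a : ℝ) :
    (1 + θ) / 2 * Real.exp (a - gf θ a) + (1 - θ) / 2 * Real.exp (-a - gf θ a)
      = (1 + θ) / 2 * Real.exp (-a + gf θ a) + (1 - θ) / 2 * Real.exp (a + gf θ a) := by
  have e1 := one_sub_tanh_eq (gf θ a)
  have e2 := one_add_tanh_eq (gf θ a)
  rw [tanh_gf h0 h1, Real.tanh_eq_sinh_div_cosh] at e1 e2
  have hc := (Real.cosh_pos a).ne'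
  have hg := (Real.cosh_pos (gf θ a)).ne'
  have f1 : Real.cosh a - θ * Real.sinh a
      = Real.cosh a * (Real.exp (-gf θ a) * (Real.cosh (gf θ a))⁻¹) := by
    rw [← e1]; field_simp
  have f2 : Real.cosh a + θ * Real.sinh a
      = Real.cosh a * (Real.exp (gf θ a) * (Real.cosh (gf θ a))⁻¹) := by
    rw [← e2]; field_simp
  have l : (1 + θ) / 2 * Real.exp (a - gf θ a) + (1 - θ) / 2 * Real.exp (-a - gf θ a)
      = Real.exp (-gf θ a) * (Real.cosh a + θ * Real.sinh a) := by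
    rw [sub_eq_add_neg a, sub_eq_add_neg (-a), Real.exp_add, Real.exp_add, Real.cosh_eq,
      Real.sinh_eq]
    ring
  have r : (1 + θ) / 2 * Real.exp (-a + gf θ a) + (1 - θ) / 2 * Real.exp (a + gf θ a)
      = Real.exp (gf θ a) * (Real.cosh a - θ * Real.sinh a) := by
    rw [Real.exp_add, Real.exp_add, Real.cosh_eq, Real.sinh_eq]
    ring
  rw [l, r, f1, f2]
  ring

/-! ### zeta, lcosh -/

theorem one_le_zarg (h0 : 0 ≤ θ) (h1 : θ < 1) (a : ℝ) :
    1 ≤ 1 + (1 - θ ^ 2) * Real.sinh a ^ 2 := by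
  have h5 : 0 ≤ 1 - θ ^ 2 := by nlinarith
  have := mul_nonneg h5 (sq_nonneg (Real.sinh a))
  linarith

theorem zarg_eq (a : ℝ) : 1 + (1 - θ ^ 2) * Real.sinh a ^ 2
    = Real.cosh a ^ 2 * (1 - θ ^ 2 * Real.tanh a ^ 2) := by
  have hc := (Real.cosh_pos a).ne'
  rw [Real.tanh_eq_sinh_div_cosh]
  field_simp
  have := Real.cosh_sq_sub_sinh_sq a
  linarith

theorem hasDerivAt_zeta (h0 : 0 ≤ θ) (h1 : θ < 1) (x : ℝ) :
    HasDerivAt (zeta θ)
      (2 * (1 - θ ^ 2) * Real.tanh x / (1 - θ ^ 2 * Real.tanh x ^ 2)) x := by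
  have hz := (lt_of_lt_of_le one_pos (one_le_zarg h0 h1 x)).ne'
  have h2 := (one_sub_sq_pos h0 h1 x).ne'
  have hc := (Real.cosh_pos x).ne'
  have h := (((((Real.hasDerivAt_sinh x).pow 2).const_mul (1 - θ ^ 2))).const_add 1).log hz
  refine HasDerivAt.congr_deriv h ?_
  have hs : Real.sinh x = Real.tanh x * Real.cosh x := by
    rw [Real.tanh_eq_sinh_div_cosh]; field_simp
  simp only [Pi.pow_apply]
  rw [zarg_eq, hs]
  field_simp
  norm_num
  ring

theorem abs_zeta_deriv_le (h0 : 0 ≤ θ) (h1 : θ < 1) (x : ℝ) :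
    |2 * (1 - θ ^ 2) * Real.tanh x / (1 - θ ^ 2 * Real.tanh x ^ 2)| ≤ 2 * |Real.tanh x| := by
  have h2 := one_sub_sq_pos h0 h1 x
  have h5 : 0 ≤ 1 - θ ^ 2 := by nlinarith
  have h3 := Real.tanh_sq_lt_one x
  rw [abs_div, abs_of_pos h2, div_le_iff₀ h2, abs_mul, abs_of_nonneg (by positivity)]
  have h6 : 1 - θ ^ 2 ≤ 1 - θ ^ 2 * Real.tanh x ^ 2 := by nlinarith [sq_nonneg θ]
  have := mul_le_mul_of_nonneg_left h6 (abs_nonneg (Real.tanh x))
  linarith

theorem hasDerivAt_lcosh (x : ℝ) : HasDerivAt lcosh (Real.tanh x) x := by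
  have h := (Real.hasDerivAt_cosh x).log (Real.cosh_pos x).ne'
  rw [Real.tanh_eq_sinh_div_cosh]
  exact h

theorem zeta_neg (a : ℝ) : zeta θ (-a) = zeta θ a := by
  simp [zeta]

theorem zeta_nonneg (h0 : 0 ≤ θ) (h1 : θ < 1) (a : ℝ) : 0 ≤ zeta θ a := by
  exact Real.log_nonneg (one_le_zarg h0 h1 a)

theorem zeta_mono (h0 : 0 ≤ θ) (h1 : θ < 1) {a b : ℝ} (h : |a| ≤ |b|) : zeta θ a ≤ zeta θ b := by
  have h5 : 0 ≤ 1 - θ ^ 2 := by nlinarith
  refine Real.log_le_log (lt_of_lt_of_le one_pos (one_le_zarg h0 h1 a)) ?_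
  have : Real.sinh a ^ 2 ≤ Real.sinh b ^ 2 := by
    rw [sq_le_sq, Real.abs_sinh, Real.abs_sinh]
    exact Real.sinh_le_sinh.2 h
  nlinarith

theorem continuous_zeta (h0 : 0 ≤ θ) (h1 : θ < 1) : Continuous (zeta θ) := by
  exact continuous_iff_continuousAt.2 fun x => (hasDerivAt_zeta h0 h1 x).continuousAt

theorem exp_neg_zeta (h0 : 0 ≤ θ) (h1 : θ < 1) (a : ℝ) :
    Real.exp (-zeta θ a) = (1 - Real.tanh a ^ 2) / (1 - θ ^ 2 * Real.tanh a ^ 2) := by
  have hz := lt_of_lt_of_le one_pos (one_le_zarg h0 h1 a)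
  have h2 := (one_sub_sq_pos h0 h1 a).ne'
  have hc := (Real.cosh_pos a).ne'
  unfold zeta
  rw [Real.exp_neg, Real.exp_log hz, zarg_eq, one_sub_tanh_sq]
  field_simp

theorem one_sub_exp_neg_zeta_ge (h0 : 0 ≤ θ) (h1 : θ < 1) (a : ℝ) :
    (1 - θ ^ 2) * Real.tanh a ^ 2 ≤ 1 - Real.exp (-zeta θ a) := by
  have h2 := one_sub_sq_pos h0 h1 a
  have h5 : 0 ≤ 1 - θ ^ 2 := by nlinarith
  rw [exp_neg_zeta h0 h1]
  have : 1 - (1 - Real.tanh a ^ 2) / (1 - θ ^ 2 * Real.tanh a ^ 2)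
      = (1 - θ ^ 2) * Real.tanh a ^ 2 / (1 - θ ^ 2 * Real.tanh a ^ 2) := by
    rw [one_sub_div h2.ne']
    congr 1
    ring
  rw [this]
  refine le_div_self (by positivity) h2 ?_
  have : 0 ≤ θ ^ 2 * Real.tanh a ^ 2 := by positivity
  linarith

theorem zeta_ge (h0 : 0 ≤ θ) (h1 : θ < 1) (a : ℝ) :
    (1 - θ ^ 2) * Real.tanh a ^ 2 ≤ zeta θ a := by
  refine (one_sub_exp_neg_zeta_ge h0 h1 a).trans ?_
  have := Real.add_one_le_exp (-zeta θ a)
  linarith

theorem abs_zeta_sub_le (h0 : 0 ≤ θ) (h1 : θ < 1) (a b : ℝ) :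
    |zeta θ a - zeta θ b| ≤ 2 * |a - b| := by
  refine lip_of_deriv (hasDerivAt_zeta h0 h1) (fun x => ?_) a b
  refine (abs_zeta_deriv_le h0 h1 x).trans ?_
  have := Real.abs_tanh_lt_one x
  linarith

theorem abs_zeta_sub_le' (h0 : 0 ≤ θ) (h1 : θ < 1) (a b : ℝ) :
    |zeta θ a - zeta θ b| ≤ 2 * (|a| + |b|) * |a - b| := by
  refine lip_of_deriv_on (s := Icc (-(|a| + |b|)) (|a| + |b|)) (convex_Icc _ _)
    (fun x _ => hasDerivAt_zeta h0 h1 x) (fun x hx => ?_) (abs_le.1 ?_) (abs_le.1 ?_)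
  · refine (abs_zeta_deriv_le h0 h1 x).trans ?_
    have h2 := abs_tanh_le x
    have h3 : |x| ≤ |a| + |b| := abs_le.2 hx
    linarith
  · have := abs_nonneg b
    linarith
  · have := abs_nonneg a
    linarith

theorem lcosh_neg (a : ℝ) : lcosh (-a) = lcosh a := by
  simp [lcosh]

theorem lcosh_nonneg (a : ℝ) : 0 ≤ lcosh a := by
  exact Real.log_nonneg (Real.one_le_cosh a)

theorem continuous_lcosh : Continuous lcosh := by
  exact continuous_iff_continuousAt.2 fun x => (hasDerivAt_lcosh x).continuousAt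

theorem abs_lcosh_sub_le (a b : ℝ) : |lcosh a - lcosh b| ≤ |a - b| := by
  simpa using lip_of_deriv (C := 1) hasDerivAt_lcosh (fun x => (Real.abs_tanh_lt_one x).le) a b

theorem lcosh_le_abs (a : ℝ) : lcosh a ≤ |a| := by
  have := abs_lcosh_sub_le a 0
  simp only [lcosh, Real.cosh_zero, Real.log_one, sub_zero] at this
  exact (le_abs_self _).trans this

theorem exp_neg_two_lcosh (a : ℝ) : Real.exp (-(lcosh a + lcosh a)) = 1 - Real.tanh a ^ 2 := by
  have hc := Real.cosh_pos a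
  unfold lcosh
  rw [Real.exp_neg, Real.exp_add, Real.exp_log hc, one_sub_tanh_sq]
  field_simp

/-- one step of the jump formula -/
theorem jump_step (h0 : 0 ≤ θ) (h1 : θ < 1) (a a' b : ℝ) :
    Real.tanh (b + gf θ a') - Real.tanh (b + gf θ a)
      = θ * Real.exp (-zeta θ b) * (Real.tanh (a' + gf θ b) - Real.tanh (a + gf θ b)) := by
  have h2 := (one_sub_sq_pos h0 h1 b).ne'
  have d1 := (one_add_mul_pos (Real.abs_tanh_lt_one b) (abs_mul_tanh_lt h0 h1 a)).ne'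
  have d2 := (one_add_mul_pos (Real.abs_tanh_lt_one b) (abs_mul_tanh_lt h0 h1 a')).ne'
  have d3 := (one_add_mul_pos (Real.abs_tanh_lt_one a) (abs_mul_tanh_lt h0 h1 b)).ne'
  have d4 := (one_add_mul_pos (Real.abs_tanh_lt_one a') (abs_mul_tanh_lt h0 h1 b)).ne'
  simp only [tanh_add', tanh_gf h0 h1, exp_neg_zeta h0 h1]
  generalize Real.tanh a = x at *
  generalize Real.tanh a' = y at *
  generalize Real.tanh b = z at *
  have e1 : 1 + x * (θ * z) = 1 + z * (θ * x) := by ring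
  have e2 : 1 + y * (θ * z) = 1 + z * (θ * y) := by ring
  rw [e1, e2, div_sub_div _ _ d2 d1, div_sub_div _ _ d2 d1]
  have e3 : (y + θ * z) * (1 + z * (θ * x)) - (1 + z * (θ * y)) * (x + θ * z)
      = (1 - θ ^ 2 * z ^ 2) * (y - x) := by ring
  have e4 : (z + θ * y) * (1 + z * (θ * x)) - (1 + z * (θ * y)) * (z + θ * x)
      = θ * (1 - z ^ 2) * (y - x) := by ring
  rw [e3, e4]
  field_simp

theorem zeta_lcosh_symm (h0 : 0 ≤ θ) (h1 : θ < 1) (a b : ℝ) :
    zeta θ b + 2 * lcosh (a + gf θ b) = zeta θ a + 2 * lcosh (b + gf θ a) := by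
  have key : ∀ a b : ℝ, Real.exp (-(zeta θ b + 2 * lcosh (a + gf θ b)))
      = (1 - Real.tanh a ^ 2) * (1 - Real.tanh b ^ 2)
          / (1 + θ * Real.tanh a * Real.tanh b) ^ 2 := by
    intro a b
    have h2 := (one_sub_sq_pos h0 h1 b).ne'
    have d3 := (one_add_mul_pos (Real.abs_tanh_lt_one a) (abs_mul_tanh_lt h0 h1 b)).ne'
    rw [neg_add, Real.exp_add, two_mul, exp_neg_two_lcosh, exp_neg_zeta h0 h1, tanh_add',
      tanh_gf h0 h1]
    generalize Real.tanh a = x at *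
    generalize Real.tanh b = z at *
    have e1 : 1 + θ * x * z = 1 + x * (θ * z) := by ring
    have e2 : 1 - ((x + θ * z) / (1 + x * (θ * z))) ^ 2
        = (1 - x ^ 2) * (1 - θ ^ 2 * z ^ 2) / (1 + x * (θ * z)) ^ 2 := by
      rw [div_pow, one_sub_div (pow_ne_zero 2 d3)]
      congr 1
      ring
    rw [e1, e2]
    generalize 1 - θ ^ 2 * z ^ 2 = u at *
    generalize 1 + x * (θ * z) = w at *
    field_simp
  have h := key a b
  have h' := key b a
  have : Real.exp (-(zeta θ b + 2 * lcosh (a + gf θ b)))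
      = Real.exp (-(zeta θ a + 2 * lcosh (b + gf θ a))) := by
    rw [h, h']; ring
  exact neg_injective (Real.exp_injective this)

/-! ### Ainv, Xi -/

theorem cav_lip (h0 : 0 ≤ θ) (h1 : θ < 1) (a b a' b' : ℝ) :
    (1 - θ) * (|a - a'| + |b - b'|)
      ≤ |a + gf θ b - (a' + gf θ b')| + |b + gf θ a - (b' + gf θ a')| := by
  have e1 := abs_gf_sub_le h0 h1 a a'
  have e2 := abs_gf_sub_le h0 h1 b b'
  have f1 : |a - a'| ≤ |a + gf θ b - (a' + gf θ b')| + |gf θ b - gf θ b'| := by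
    have : a - a' = (a + gf θ b - (a' + gf θ b')) - (gf θ b - gf θ b') := by ring
    rw [this]
    exact abs_sub _ _
  have f2 : |b - b'| ≤ |b + gf θ a - (b' + gf θ a')| + |gf θ a - gf θ a'| := by
    have : b - b' = (b + gf θ a - (b' + gf θ a')) - (gf θ a - gf θ a') := by ring
    rw [this]
    exact abs_sub _ _
  linarith

theorem Ainv_spec (h0 : 0 ≤ θ) (h1 : θ < 1) (H1 H2 : ℝ) :
    Ainv θ H1 H2 + gf θ (H2 - gf θ (Ainv θ H1 H2)) = H1 := by
  refine Classical.epsilon_spec (p := fun a : ℝ => a + gf θ (H2 - gf θ a) = H1) ?_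
  have hc : Continuous fun a : ℝ => a + gf θ (H2 - gf θ a) :=
    continuous_id.add ((continuous_gf h0 h1).comp (continuous_const.sub (continuous_gf h0 h1)))
  have hM : 0 ≤ Real.artanh θ := Real.artanh_nonneg h0
  have hb := fun x => abs_le.1 (abs_gf_le_artanh h0 h1 x)
  have := intermediate_value_Icc (a := H1 - Real.artanh θ) (b := H1 + Real.artanh θ)
    (by linarith) hc.continuousOn
  obtain ⟨a, -, ha⟩ := this (show H1 ∈ Icc _ _ from
    ⟨by have := (hb (H2 - gf θ (H1 - Real.artanh θ))).2; linarith,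
     by have := (hb (H2 - gf θ (H1 + Real.artanh θ))).1; linarith⟩)
  exact ⟨a, ha⟩

theorem Ainv_eq (h0 : 0 ≤ θ) (h1 : θ < 1) (a b : ℝ) :
    Ainv θ (a + gf θ b) (b + gf θ a) = a := by
  have h := Ainv_spec h0 h1 (a + gf θ b) (b + gf θ a)
  set a' := Ainv θ (a + gf θ b) (b + gf θ a)
  have h2 := cav_lip h0 h1 a' (b + gf θ a - gf θ a') a b
  rw [h, sub_add_cancel, sub_self, sub_self, abs_zero, add_zero] at h2
  have h3 := abs_nonneg (a' - a)
  have h4 := abs_nonneg (b + gf θ a - gf θ a' - b)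
  have h5 : |a' - a| + |b + gf θ a - gf θ a' - b| ≤ 0 := by
    by_contra hcon
    have := mul_pos (sub_pos.2 h1) (not_le.1 hcon)
    linarith
  have : |a' - a| = 0 := by linarith
  exact sub_eq_zero.1 (abs_eq_zero.1 this)

theorem exists_cav (h0 : 0 ≤ θ) (h1 : θ < 1) (H1 H2 : ℝ) :
    ∃ a b : ℝ, H1 = a + gf θ b ∧ H2 = b + gf θ a :=
  ⟨Ainv θ H1 H2, H2 - gf θ (Ainv θ H1 H2), (Ainv_spec h0 h1 H1 H2).symm, by ring⟩

theorem Xi_eq (h0 : 0 ≤ θ) (h1 : θ < 1) (a b : ℝ) :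
    Xi θ (a + gf θ b) (b + gf θ a) = (zeta θ a + zeta θ b) / 2 := by
  unfold Xi
  rw [Ainv_eq h0 h1, Ainv_eq h0 h1]

theorem Xi_comm (H1 H2 : ℝ) : Xi θ H1 H2 = Xi θ H2 H1 := by
  unfold Xi
  rw [add_comm]

theorem Xi_nonneg (h0 : 0 ≤ θ) (h1 : θ < 1) (H1 H2 : ℝ) : 0 ≤ Xi θ H1 H2 := by
  unfold Xi
  have := zeta_nonneg h0 h1 (Ainv θ H1 H2)
  have := zeta_nonneg h0 h1 (Ainv θ H2 H1)
  positivity

theorem Xi_neg (h0 : 0 ≤ θ) (h1 : θ < 1) (H1 H2 : ℝ) : Xi θ (-H1) (-H2) = Xi θ H1 H2 := by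
  obtain ⟨a, b, rfl, rfl⟩ := exists_cav h0 h1 H1 H2
  have e1 : -(a + gf θ b) = -a + gf θ (-b) := by rw [gf_neg]; ring
  have e2 : -(b + gf θ a) = -b + gf θ (-a) := by rw [gf_neg]; ring
  rw [e1, e2, Xi_eq h0 h1, Xi_eq h0 h1, zeta_neg, zeta_neg]

theorem abs_Xi_sub_le (h0 : 0 ≤ θ) (h1 : θ < 1) (H1 H2 K1 K2 : ℝ) :
    |Xi θ H1 H2 - Xi θ K1 K2| ≤ (|H1 - K1| + |H2 - K2|) / (1 - θ) := by
  obtain ⟨a, b, rfl, rfl⟩ := exists_cav h0 h1 H1 H2
  obtain ⟨a', b', rfl, rfl⟩ := exists_cav h0 h1 K1 K2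
  rw [Xi_eq h0 h1, Xi_eq h0 h1, le_div_iff₀ (sub_pos.2 h1)]
  refine le_trans ?_ (cav_lip h0 h1 a b a' b')
  rw [mul_comm]
  refine mul_le_mul_of_nonneg_left ?_ (sub_pos.2 h1).le
  have e1 := abs_le.1 (abs_zeta_sub_le h0 h1 a a')
  have e2 := abs_le.1 (abs_zeta_sub_le h0 h1 b b')
  rw [abs_le]
  constructor <;> linarith [e1.1, e1.2, e2.1, e2.2]

theorem abs_Xi_sub_le' (h0 : 0 ≤ θ) (h1 : θ < 1) (H1 H2 K1 K2 : ℝ) :
    |Xi θ H1 H2 - Xi θ K1 K2|
      ≤ (|H1| + |H2| + |K1| + |K2|) * (|H1 - K1| + |H2 - K2|) / (1 - θ) ^ 2 := by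
  obtain ⟨a, b, rfl, rfl⟩ := exists_cav h0 h1 H1 H2
  obtain ⟨a', b', rfl, rfl⟩ := exists_cav h0 h1 K1 K2
  have hθ := sub_pos.2 h1
  rw [Xi_eq h0 h1, Xi_eq h0 h1, le_div_iff₀ (pow_pos hθ 2)]
  have c1 := cav_lip h0 h1 a b a' b'
  have c2 := cav_lip h0 h1 a b 0 0
  have c3 := cav_lip h0 h1 a' b' 0 0
  simp only [gf_zero, add_zero, sub_zero] at c2 c3
  have e1 := abs_le.1 (abs_zeta_sub_le' h0 h1 a a')
  have e2 := abs_le.1 (abs_zeta_sub_le' h0 h1 b b')
  have n1 := abs_nonneg a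
  have n2 := abs_nonneg b
  have n3 := abs_nonneg a'
  have n4 := abs_nonneg b'
  have n5 := abs_nonneg (a - a')
  have n6 := abs_nonneg (b - b')
  have e3 : |(zeta θ a + zeta θ b) / 2 - (zeta θ a' + zeta θ b') / 2|
      ≤ (|a| + |b| + |a'| + |b'|) * (|a - a'| + |b - b'|) := by
    have m1 := mul_nonneg (add_nonneg n1 n3) n6
    have m2 := mul_nonneg (add_nonneg n2 n4) n5
    rw [abs_le]
    constructor <;> nlinarith [e1.1, e1.2, e2.1, e2.2]
  calc |(zeta θ a + zeta θ b) / 2 - (zeta θ a' + zeta θ b') / 2| * (1 - θ) ^ 2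
      ≤ (|a| + |b| + |a'| + |b'|) * (|a - a'| + |b - b'|) * (1 - θ) ^ 2 :=
        mul_le_mul_of_nonneg_right e3 (pow_pos hθ 2).le
    _ = ((1 - θ) * (|a| + |b|) + (1 - θ) * (|a'| + |b'|)) * ((1 - θ) * (|a - a'| + |b - b'|)) := by
        ring
    _ ≤ _ := by
        refine mul_le_mul (by linarith) c1 (by positivity) (by positivity)

theorem Xi_le (h0 : 0 ≤ θ) (h1 : θ < 1) (H1 H2 : ℝ) : Xi θ H1 H2 ≤ (|H1| + |H2|) / (1 - θ) := by
  have h := abs_Xi_sub_le h0 h1 H1 H2 0 0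
  have h00 : Xi θ 0 0 = 0 := by
    have := Xi_eq h0 h1 0 0
    simpa [gf_zero, zeta] using this
  simp only [h00, sub_zero] at h
  exact (le_abs_self _).trans h

theorem continuous_Xi (h0 : 0 ≤ θ) (h1 : θ < 1) :
    Continuous (fun p : ℝ × ℝ => Xi θ p.1 p.2) := by
  have hθ := sub_pos.2 h1
  refine (LipschitzWith.of_dist_le' (K := 2 / (1 - θ)) fun p q => ?_).continuous
  rw [Real.dist_eq]
  refine (abs_Xi_sub_le h0 h1 _ _ _ _).trans ?_
  have e1 : |p.1 - q.1| ≤ dist p q := by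
    rw [← Real.dist_eq, Prod.dist_eq]; exact le_max_left _ _
  have e2 : |p.2 - q.2| ≤ dist p q := by
    rw [← Real.dist_eq, Prod.dist_eq]; exact le_max_right _ _
  rw [div_mul_eq_mul_div]
  exact div_le_div_of_nonneg_right (by linarith) hθ.le

end gf

/-! ### rho, kap -/

theorem rho_pos (r : ℤ) : 0 < rho r := by
  unfold rho
  positivity

theorem rho_le_one (r : ℤ) : rho r ≤ 1 := by
  unfold rho
  exact zpow_le_one_of_nonpos₀ (by norm_num) (min_le_right _ _)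

theorem rho_of_nonpos {r : ℤ} (h : r ≤ 0) : rho r = (2 : ℝ) ^ r := by
  unfold rho
  rw [min_eq_left h]

theorem kap_pos (r : ℤ) : 0 < kap r := by
  unfold kap
  have := rho_pos r
  positivity

theorem kap_le_half (r : ℤ) : kap r ≤ 1 / 2 := by
  unfold kap
  have : rho r ^ 4 ≤ 1 := pow_le_one₀ (rho_pos r).le (rho_le_one r)
  linarith

theorem kap_le_rho (r : ℤ) : kap r ≤ rho r := by
  unfold kap
  have h : rho r ^ 4 ≤ rho r ^ 1 :=
    pow_le_pow_of_le_one (rho_pos r).le (rho_le_one r) (by norm_num)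
  have := rho_pos r
  rw [pow_one] at h
  linarith

theorem kap_of_nonneg {r : ℤ} (h : 0 ≤ r) : kap r = 1 / 2 := by
  unfold kap rho
  rw [min_eq_right h]
  norm_num

theorem kap_eq (r : ℤ) : kap r = (2 : ℝ) ^ (4 * min r 0 - 1) := by
  unfold kap rho
  rw [zpow_sub₀ (by norm_num), zpow_one, mul_comm (4 : ℤ), zpow_mul]
  norm_cast

theorem kap_sub_le {R : ℕ} {r : ℤ} (h : r ≤ R) (j : ℕ) :
    kap (r - j) ≤ 2 ^ R * kap r * (1 / 2) ^ j := by
  rw [kap_eq, kap_eq]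
  have : (2 : ℝ) ^ R * 2 ^ (4 * min r 0 - 1) * (1 / 2) ^ j
      = 2 ^ ((R : ℤ) + (4 * min r 0 - 1) + -(j : ℤ)) := by
    rw [zpow_add₀ (by norm_num), zpow_add₀ (by norm_num), zpow_neg, zpow_natCast, zpow_natCast,
      one_div, inv_pow]
  rw [this]
  exact zpow_le_zpow_right₀ (by norm_num) (by omega)

theorem kap_le_kap_pred (r : ℤ) : kap r ≤ 16 * kap (r - 1) := by
  rw [kap_eq, kap_eq]
  have : (16 : ℝ) * 2 ^ (4 * min (r - 1) 0 - 1) = 2 ^ (4 + (4 * min (r - 1) 0 - 1)) := by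
    rw [zpow_add₀ (by norm_num)]; norm_num
  rw [this]
  exact zpow_le_zpow_right₀ (by norm_num) (by omega)

/-- the signal strengths up to round `r ≤ R` are summable, with sum `≤ 2^(R+1) kap r` -/
theorem summable_kap (r : ℤ) : Summable (fun s : ℤ => if s ≤ r then kap s else 0) := by
  have hinj : Function.Injective fun j : ℕ => r - (j : ℤ) := fun i j h => by
    simp only at h; omega
  rw [← hinj.summable_iff (fun x hx => if_neg fun hle => hx ⟨(r - x).toNat, by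
    simp only; omega⟩)]
  refine Summable.of_nonneg_of_le (fun j => ?_) (fun j => ?_)
    (summable_geometric_two.mul_left (2 ^ r.toNat * kap r))
  · simp only [Function.comp]
    rw [if_pos (by omega)]
    exact (kap_pos _).le
  · simp only [Function.comp]
    rw [if_pos (by omega)]
    exact kap_sub_le (by omega) j

theorem tsum_kap_le {R : ℕ} {r : ℤ} (h : r ≤ R) :
    ∑' s : ℤ, (if s ≤ r then kap s else 0) ≤ 2 ^ (R + 1) * kap r := by
  have hinj : Function.Injective fun j : ℕ => r - (j : ℤ) := fun i j h => by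
    simp only at h; omega
  have hsupp : Function.support (fun s : ℤ => if s ≤ r then kap s else 0)
      ⊆ Set.range fun j : ℕ => r - (j : ℤ) := by
    intro x hx
    by_contra hcon
    exact hx (if_neg fun hle => hcon ⟨(r - x).toNat, by simp only; omega⟩)
  rw [← hinj.tsum_eq hsupp]
  have hs := (summable_kap r).comp_injective hinj
  have := hs.tsum_le_tsum (fun j => ?_) (summable_geometric_two.mul_left (2 ^ R * kap r))
  · rw [tsum_mul_left, tsum_geometric_two] at this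
    refine le_trans this (le_of_eq ?_)
    ring
  · simp only [Function.comp]
    rw [if_pos (by omega)]
    exact kap_sub_le h j

end Crest.Agent.R160
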