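import Crest.Agent.R160.Defs

/-! Graph-theoretic facts about regular trees. -/

set_option autoImplicit false

namespace Crest.Agent.R160

open Set

universe u

variable {V : Type u}

namespace Ctx

variable (T : Ctx V)

theorem θ_lt_one : T.θ < 1 := by
  have h := T.hθ
  have hd : (3 : ℝ) ≤ T.d := by exact_mod_cast T.hd
  by_contra hc
  push Not at hc
  have : 1 ≤ T.θ ^ 2 := one_le_pow₀ hc
  nlinarith

theorem mem_nb {v c : V} : c ∈ T.nb v ↔ T.G.Adj v c := by
  unfold nb
  exact @SimpleGraph.mem_neighborFinset V T.G v (T.lf v) c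

theorem card_nb (v : V) : (T.nb v).card = T.d := by
  exact T.hreg v

private theorem dist_zero_iff {a v : V} : T.G.dist a v = 0 ↔ a = v :=
  T.hT.connected.dist_eq_zero_iff

private theorem adj_cases (a : V) {v w : V} (h : T.G.Adj v w) :
    T.G.dist a v = T.G.dist a w + 1 ∨ T.G.dist a w = T.G.dist a v + 1 :=
  T.hT.dist_eq_dist_add_one_of_adj a h

private theorem dist_adj {v w : V} (h : T.G.Adj v w) : T.G.dist v w = 1 :=
  SimpleGraph.dist_eq_one_iff_adj.2 h

private theorem exists_parent {a v : V} (h : v ≠ a) :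
    ∃ x, T.G.Adj v x ∧ T.G.dist a x + 1 = T.G.dist a v := by
  obtain ⟨p, hp⟩ := T.hT.connected.exists_walk_length_eq_dist v a
  cases p with
  | nil => exact absurd rfl h
  | @cons _ x _ hx q =>
    refine ⟨x, hx, ?_⟩
    have h1 : T.G.dist x a ≤ q.length := SimpleGraph.dist_le q
    simp only [SimpleGraph.Walk.length_cons] at hp
    rw [SimpleGraph.dist_comm] at h1 hp
    rcases T.adj_cases a hx with h2 | h2 <;> omega

private theorem finite_dist_le_aux (v : V) (n : ℕ) : {w | T.G.dist v w ≤ n}.Finite := by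
  induction n with
  | zero =>
    refine (Set.finite_singleton v).subset fun w hw => ?_
    simp only [mem_ofPred_eq, Nat.le_zero] at hw
    exact (T.dist_zero_iff.1 hw).symm
  | succ n ih =>
    refine (ih.union (ih.biUnion (t := fun u => (T.nb u : Set V))
      fun u _ => (T.nb u).finite_toSet)).subset fun w hw => ?_
    simp only [mem_ofPred_eq] at hw
    by_cases h : T.G.dist v w ≤ n
    · exact Or.inl h
    · have hne : w ≠ v := by
        rintro rfl
        simp at h
      obtain ⟨x, hx, hd⟩ := T.exists_parent hne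
      refine Or.inr (mem_biUnion (x := x) (show T.G.dist v x ≤ n by omega) ?_)
      exact Finset.mem_coe.2 (T.mem_nb.2 hx.symm)

theorem countable_V (T : Ctx V) : Countable V := by
  have h : (univ : Set V) = ⋃ n : ℕ, {w | T.G.dist T.o w ≤ n} := by
    ext w
    simp only [mem_univ, mem_iUnion, mem_ofPred_eq, true_iff]
    exact ⟨_, le_rfl⟩
  rw [← Set.countable_univ_iff, h]
  exact Set.countable_iUnion fun n => (T.finite_dist_le_aux T.o n).countable

theorem exists_adj_ne (v a b : V) : ∃ c, T.G.Adj v c ∧ c ≠ a ∧ c ≠ b := by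
  classical
  have h : (({a, b} : Finset V)).card < (T.nb v).card := by
    rw [T.card_nb]
    have := T.hd
    have := Finset.card_le_two (a := a) (b := b)
    omega
  obtain ⟨c, hc, hc'⟩ := Finset.exists_mem_notMem_of_card_lt_card h
  simp only [Finset.mem_insert, Finset.mem_singleton, not_or] at hc'
  exact ⟨c, T.mem_nb.1 hc, hc'.1, hc'.2⟩

theorem exists_two_adj (v a : V) :
    ∃ c₁ c₂, T.G.Adj v c₁ ∧ T.G.Adj v c₂ ∧ c₁ ≠ a ∧ c₂ ≠ a ∧ c₁ ≠ c₂ := by
  obtain ⟨c₁, h1, h1a, -⟩ := T.exists_adj_ne v a a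
  obtain ⟨c₂, h2, h2a, h21⟩ := T.exists_adj_ne v a c₁
  exact ⟨c₁, c₂, h1, h2, h1a, h2a, h21.symm⟩

theorem par_spec {a v : V} (h : v ≠ a) :
    T.G.Adj v (T.par a v) ∧ T.G.dist a (T.par a v) + 1 = T.G.dist a v := by
  have h' := T.exists_parent h
  unfold par
  rw [dif_pos h']
  exact h'.choose_spec

theorem par_unique {a v x : V} (hx : T.G.Adj v x) (hd : T.G.dist a x + 1 = T.G.dist a v) :
    x = T.par a v := by
  have hva : v ≠ a := by
    rintro rfl
    simp at hd
  obtain ⟨hy, hyd⟩ := T.par_spec hva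
  obtain ⟨p, hp⟩ := T.hT.connected.exists_walk_length_eq_dist a x
  obtain ⟨q, hq⟩ := T.hT.connected.exists_walk_length_eq_dist a (T.par a v)
  have hp' : (p.concat hx.symm).IsPath :=
    SimpleGraph.Walk.isPath_of_length_eq_dist _ (by rw [SimpleGraph.Walk.length_concat]; omega)
  have hq' : (q.concat hy.symm).IsPath :=
    SimpleGraph.Walk.isPath_of_length_eq_dist _ (by rw [SimpleGraph.Walk.length_concat]; omega)
  have := T.hT.isAcyclic.path_unique ⟨_, hp'⟩ ⟨_, hq'⟩
  have h2 : p.concat hx.symm = q.concat hy.symm := congrArg Subtype.val this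
  obtain ⟨h3, -⟩ := SimpleGraph.Walk.concat_inj h2
  exact h3

/-- induction along the tree -/
theorem tree_induction (a : V) {P : V → Prop} (h0 : P a)
    (hs : ∀ v x, T.G.Adj v x → T.G.dist a x = T.G.dist a v + 1 → P v → P x) (v : V) : P v := by
  induction hn : T.G.dist a v generalizing v with
  | zero => exact (T.dist_zero_iff.1 hn) ▸ h0
  | succ n ih =>
    have hva : v ≠ a := by
      rintro rfl
      simp at hn
    obtain ⟨hy, hyd⟩ := T.par_spec hva
    exact hs _ _ hy.symm hyd.symm (ih _ (by omega))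

theorem self_mem_half {v x : V} (h : T.G.Adj v x) : v ∈ T.half v x := by
  show T.G.dist v v < T.G.dist v x
  rw [T.dist_adj h]
  simp

theorem not_mem_half {v x : V} (h : T.G.Adj v x) : x ∉ T.half v x := by
  show ¬ T.G.dist x v < T.G.dist x x
  simp

theorem mem_half_iff_not {v x w : V} (h : T.G.Adj v x) : w ∈ T.half v x ↔ w ∉ T.half x v := by
  show T.G.dist w v < T.G.dist w x ↔ ¬ T.G.dist w x < T.G.dist w v
  rcases T.adj_cases w h with h2 | h2 <;> omega

theorem dist_of_mem_half {v x w : V} (h : T.G.Adj v x) (hw : w ∈ T.half v x) :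
    T.G.dist x w = T.G.dist v w + 1 := by
  have hw' : T.G.dist w v < T.G.dist w x := hw
  rw [SimpleGraph.dist_comm (u := x), SimpleGraph.dist_comm (u := v)]
  rcases T.adj_cases w h with h2 | h2 <;> omega

theorem mem_half_iff {v x w : V} (h : T.G.Adj v x) :
    w ∈ T.half v x ↔ w = v ∨ ∃ c, T.G.Adj v c ∧ c ≠ x ∧ w ∈ T.half c v := by
  constructor
  · intro hw
    have hw' : T.G.dist w v < T.G.dist w x := hw
    by_cases hwv : w = v
    · exact Or.inl hwv
    · obtain ⟨hy, hyd⟩ := T.par_spec (a := w) (v := v) (Ne.symm hwv)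
      refine Or.inr ⟨_, hy, ?_, ?_⟩
      · intro he
        rw [he] at hyd
        omega
      · show T.G.dist w (T.par w v) < T.G.dist w v
        omega
  · rintro (rfl | ⟨c, hc, hcx, hw⟩)
    · exact T.self_mem_half h
    · have hw' : T.G.dist w c < T.G.dist w v := hw
      show T.G.dist w v < T.G.dist w x
      have h1 : T.G.dist w c + 1 = T.G.dist w v := by
        rcases T.adj_cases w hc with h2 | h2 <;> omega
      rcases T.adj_cases w h with h2 | h2
      · exact absurd ((T.par_unique hc h1).trans (T.par_unique h h2.symm).symm) hcx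
      · omega

theorem half_subset {v x c : V} (h : T.G.Adj v x) (hc : T.G.Adj v c) (hcx : c ≠ x) :
    T.half c v ⊆ T.half v x := by
  intro w hw
  exact (T.mem_half_iff h).2 (Or.inr ⟨c, hc, hcx, hw⟩)

theorem half_disjoint {v c c' : V} (hc : T.G.Adj v c) (hc' : T.G.Adj v c') (hne : c ≠ c') :
    Disjoint (T.half c v) (T.half c' v) := by
  rw [Set.disjoint_left]
  intro w hw hw'
  exact (T.mem_half_iff_not hc').1 (T.half_subset hc' hc hne hw) hw'

theorem exists_mem_half {v w : V} (h : w ≠ v) : ∃ c, T.G.Adj v c ∧ w ∈ T.half c v := by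
  obtain ⟨hy, hyd⟩ := T.par_spec (a := w) (v := v) h.symm
  refine ⟨_, hy, ?_⟩
  show T.G.dist w (T.par w v) < T.G.dist w v
  omega

theorem par_mem_half {v x w : V} (h : T.G.Adj v x) (hw : w ∈ T.half v x) (hwv : w ≠ v) :
    T.par v w ∈ T.half v x := by
  obtain ⟨hy, hyd⟩ := T.par_spec hwv
  have hw' : T.G.dist w v < T.G.dist w x := hw
  show T.G.dist (T.par v w) v < T.G.dist (T.par v w) x
  rw [SimpleGraph.dist_comm (u := w), SimpleGraph.dist_comm (u := w)] at hw'
  rw [SimpleGraph.dist_comm (u := T.par v w), SimpleGraph.dist_comm (u := T.par v w)]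
  rcases T.adj_cases x hy with h2 | h2 <;> omega

open Classical in
theorem Reg_erase {v x : V} (h : T.G.Adj v x) : T.Reg v ((T.nb v).erase x) = T.half v x := by
  ext w
  rw [T.mem_half_iff h]
  simp only [Reg, mem_ofPred_eq, Finset.mem_erase, T.mem_nb]
  constructor
  · rintro (h1 | ⟨c, ⟨h1, h2⟩, h3⟩)
    · exact Or.inl h1
    · exact Or.inr ⟨c, h2, h1, h3⟩
  · rintro (h1 | ⟨c, h1, h2, h3⟩)
    · exact Or.inl h1
    · exact Or.inr ⟨c, ⟨h2, h1⟩, h3⟩

theorem Reg_nb (v : V) : T.Reg v (T.nb v) = univ := by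
  ext w
  simp only [Reg, mem_ofPred_eq, T.mem_nb, mem_univ, iff_true]
  by_cases h : w = v
  · exact Or.inl h
  · exact Or.inr (T.exists_mem_half h)

/-! ### non-backtracking paths -/

theorem NB.mono {T : Ctx V} {p : ℕ → V} {k k' : ℕ} (h : T.NB p k) (hk : k' ≤ k) : T.NB p k' := by
  exact ⟨fun i hi => h.1 i (by omega), fun i hi => h.2 i (by omega)⟩

theorem NB.shift {T : Ctx V} {p : ℕ → V} {k : ℕ} (h : T.NB p k) (i : ℕ) :
    T.NB (fun j => p (i + j)) (k - i) := by
  exact ⟨fun j hj => h.1 (i + j) (by omega), fun j hj => h.2 (i + j) (by omega)⟩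

theorem NB.rev {T : Ctx V} {p : ℕ → V} {k : ℕ} (h : T.NB p k) : T.NB (fun j => p (k - j)) k := by
  refine ⟨fun j hj => ?_, fun j hj => ?_⟩
  · have := (h.1 (k - (j + 1)) (by omega)).symm
    rwa [show k - (j + 1) + 1 = k - j by omega] at this
  · have := (h.2 (k - (j + 2)) (by omega)).symm
    rwa [show k - (j + 2) + 2 = k - j by omega] at this

theorem NB.snoc {T : Ctx V} {p : ℕ → V} {k : ℕ} (h : T.NB p (k + 1)) {x : V}
    (hx : T.G.Adj (p (k + 1)) x) (hne : x ≠ p k) :
    T.NB (Function.update p (k + 2) x) (k + 2) := by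
  refine ⟨fun j hj => ?_, fun j hj => ?_⟩
  · rw [Function.update_of_ne (show j ≠ k + 2 by omega)]
    by_cases hjk : j = k + 1
    · subst hjk
      rw [Function.update_self]
      exact hx
    · rw [Function.update_of_ne (show j + 1 ≠ k + 2 by omega)]
      exact h.1 j (by omega)
  · rw [Function.update_of_ne (show j ≠ k + 2 by omega)]
    by_cases hjk : j = k
    · subst hjk
      rw [Function.update_self]
      exact hne
    · rw [Function.update_of_ne (show j + 2 ≠ k + 2 by omega)]
      exact h.2 j (by omega)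

theorem NB.cons {T : Ctx V} {p : ℕ → V} {k : ℕ} (h : T.NB p (k + 1)) {x : V}
    (hx : T.G.Adj x (p 0)) (hne : x ≠ p 1) :
    T.NB (fun j => Nat.casesOn j x p) (k + 2) := by
  refine ⟨fun j hj => ?_, fun j hj => ?_⟩
  · cases j with
    | zero => exact hx
    | succ j => exact h.1 j (by omega)
  · cases j with
    | zero => exact hne.symm
    | succ j => exact h.2 j (by omega)

theorem NB.half_subset {T : Ctx V} {p : ℕ → V} {k : ℕ} (h : T.NB p k) {i j : ℕ} (hij : i ≤ j)
    (hj : j + 1 ≤ k) : T.half (p (j + 1)) (p j) ⊆ T.half (p (i + 1)) (p i) := by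
  induction j, hij using Nat.le_induction with
  | base => exact subset_rfl
  | succ j hij ih =>
    refine subset_trans ?_ (ih (by omega))
    exact T.half_subset (h.1 j (by omega)).symm (h.1 (j + 1) (by omega)) (h.2 j (by omega))

theorem NB.mem_half {T : Ctx V} {p : ℕ → V} {k : ℕ} (h : T.NB p k) {i j : ℕ} (hij : i < j)
    (hj : j ≤ k) : p j ∈ T.half (p (i + 1)) (p i) := by
  obtain ⟨j, rfl⟩ : ∃ j', j = j' + 1 := ⟨j - 1, by omega⟩
  exact h.half_subset (by omega) hj (T.self_mem_half (h.1 j (by omega)).symm)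

theorem NB.dist_eq {T : Ctx V} {p : ℕ → V} {k : ℕ} (h : T.NB p k) {i j : ℕ} (hij : i ≤ j)
    (hj : j ≤ k) : T.G.dist (p i) (p j) = j - i := by
  induction hn : j - i generalizing i with
  | zero =>
    have : i = j := by omega
    subst this
    simp
  | succ n ih =>
    have h1 := T.dist_of_mem_half (h.1 i (by omega)).symm (h.mem_half (i := i) (by omega) hj)
    rw [h1, ih (by omega) (by omega)]

/-- every edge extends to non-backtracking paths of any length -/
theorem exists_NB {v x : V} (h : T.G.Adj v x) (k : ℕ) :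
    ∃ p : ℕ → V, T.NB p k ∧ p 0 = v ∧ p 1 = x := by
  have key : ∀ k : ℕ, ∃ p : ℕ → V, T.NB p (k + 1) ∧ p 0 = v ∧ p 1 = x := by
    intro k
    induction k with
    | zero =>
      refine ⟨fun j => Nat.casesOn j v (fun _ => x), ⟨fun i hi => ?_, fun i hi => by omega⟩,
        rfl, rfl⟩
      obtain rfl : i = 0 := by omega
      exact h
    | succ k ih =>
      obtain ⟨p, hp, h0, h1⟩ := ih
      obtain ⟨c, hc, hne, -⟩ := T.exists_adj_ne (p (k + 1)) (p k) (p k)
      refine ⟨_, hp.snoc hc hne, ?_, ?_⟩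
      · rw [Function.update_of_ne (by omega), h0]
      · rw [Function.update_of_ne (by omega), h1]
  obtain ⟨p, hp, h0, h1⟩ := key k
  exact ⟨p, hp.mono (by omega), h0, h1⟩

private theorem dist_iter_par (w : V) (m : ℕ) (hm : m ≤ T.G.dist T.o w) :
    T.G.dist T.o ((T.par T.o)^[m] w) = T.G.dist T.o w - m := by
  induction m with
  | zero => simp
  | succ m ih =>
    rw [Function.iterate_succ_apply']
    have h1 := ih (by omega)
    have hne : (T.par T.o)^[m] w ≠ T.o := by
      intro he
      rw [he] at h1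
      simp at h1
      omega
    have := (T.par_spec hne).2
    omega

theorem geo_NB (w : V) : T.NB (T.geo w) (T.G.dist T.o w) := by
  have hd : ∀ j, j ≤ T.G.dist T.o w → T.G.dist T.o (T.geo w j) = j := by
    intro j hj
    unfold geo
    rw [T.dist_iter_par w _ (by omega)]
    omega
  refine ⟨fun j hj => ?_, fun j hj he => ?_⟩
  · have hne : T.geo w (j + 1) ≠ T.o := by
      intro he
      have := hd (j + 1) hj
      rw [he] at this
      simp at this
    have he : T.geo w j = T.par T.o (T.geo w (j + 1)) := by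
      unfold geo
      rw [show T.G.dist T.o w - j = (T.G.dist T.o w - (j + 1)) + 1 by omega,
        Function.iterate_succ_apply']
    rw [he]
    exact (T.par_spec hne).1.symm
  · have h1 := hd (j + 2) hj
    rw [he, hd j (by omega)] at h1
    omega

theorem geo_zero (w : V) : T.geo w 0 = T.o := by
  have := T.dist_iter_par w _ le_rfl
  rw [Nat.sub_self] at this
  exact (T.dist_zero_iff.1 this).symm

theorem geo_last (w : V) : T.geo w (T.G.dist T.o w) = w := by
  unfold geo
  simp

/-! ### balls -/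

theorem mem_ball {n : ℕ} {w : V} : w ∈ T.ball n ↔ T.G.dist T.o w ≤ n := by
  classical
  induction n generalizing w with
  | zero =>
    simp only [ball, Finset.mem_singleton, Nat.le_zero, T.dist_zero_iff]
    exact eq_comm
  | succ n ih =>
    simp only [ball, Finset.mem_union, Finset.mem_biUnion, ih, T.mem_nb]
    constructor
    · rintro (h | ⟨u, hu, huw⟩)
      · omega
      · rcases T.adj_cases T.o huw with h2 | h2 <;> omega
    · intro hw
      by_cases h : T.G.dist T.o w ≤ n
      · exact Or.inl h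
      · have hne : w ≠ T.o := by
          rintro rfl
          simp at h
        obtain ⟨hy, hyd⟩ := T.par_spec hne
        exact Or.inr ⟨_, by omega, hy.symm⟩

theorem ball_mono {n n' : ℕ} (h : n ≤ n') : T.ball n ⊆ T.ball n' := by
  intro w hw
  rw [T.mem_ball] at hw ⊢
  omega

private theorem card_sphere_le (k : ℕ) (s : Finset V) (hs : ∀ w ∈ s, T.G.dist T.o w = k) :
    (s.card : ℝ) ≤ 2 * ((T.d : ℝ) - 1) ^ k := by
  classical
  have hd : (3 : ℝ) ≤ T.d := by exact_mod_cast T.hd
  induction k generalizing s with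
  | zero =>
    have : s ⊆ {T.o} := fun w hw => Finset.mem_singleton.2 (T.dist_zero_iff.1 (hs w hw)).symm
    have h1 := Finset.card_le_card this
    rw [Finset.card_singleton] at h1
    have h2 : (s.card : ℝ) ≤ 1 := by exact_mod_cast h1
    simp only [pow_zero]
    linarith
  | succ k ih =>
    have hne : ∀ w ∈ s, w ≠ T.o := by
      intro w hw he
      have := hs w hw
      rw [he] at this
      simp at this
    rcases Nat.eq_zero_or_pos k with rfl | hk
    · have : s ⊆ T.nb T.o := fun w hw =>
        T.mem_nb.2 (SimpleGraph.dist_eq_one_iff_adj.1 (hs w hw))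
      have h1 := Finset.card_le_card this
      rw [T.card_nb] at h1
      have h2 : (s.card : ℝ) ≤ T.d := by exact_mod_cast h1
      simp only [zero_add, pow_one]
      linarith
    · set s' := s.image (T.par T.o) with hs'
      have h1 : ∀ u ∈ s', T.G.dist T.o u = k := by
        intro u hu
        obtain ⟨w, hw, rfl⟩ := Finset.mem_image.1 hu
        have := (T.par_spec (hne w hw)).2
        have := hs w hw
        omega
      have h2 : s ⊆ s'.biUnion fun u => (T.nb u).erase (T.par T.o u) := by
        intro w hw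
        refine Finset.mem_biUnion.2 ⟨T.par T.o w, Finset.mem_image_of_mem _ hw, ?_⟩
        refine Finset.mem_erase.2 ⟨?_, T.mem_nb.2 (T.par_spec (hne w hw)).1.symm⟩
        intro he
        have h3 := h1 _ (Finset.mem_image_of_mem (T.par T.o) hw)
        have h4 : T.par T.o w ≠ T.o := by
          intro he'
          rw [he'] at h3
          simp at h3
          omega
        have h5 := (T.par_spec h4).2
        rw [← he, hs w hw] at h5
        omega
      have h3 : s.card ≤ s'.card * (T.d - 1) := by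
        refine (Finset.card_le_card h2).trans (Finset.card_biUnion_le_card_mul _ _ _ ?_)
        intro u hu
        have h4 : u ≠ T.o := by
          intro he'
          have := h1 u hu
          rw [he'] at this
          simp at this
          omega
        rw [Finset.card_erase_of_mem (T.mem_nb.2 (T.par_spec h4).1), T.card_nb]
      have h4 : (s.card : ℝ) ≤ s'.card * ((T.d : ℝ) - 1) := by
        have h5 : 1 ≤ T.d := le_trans (by norm_num) T.hd
        have : ((s'.card * (T.d - 1) : ℕ) : ℝ) = s'.card * ((T.d : ℝ) - 1) := by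
          push_cast [Nat.cast_sub h5]
          ring
        rw [← this]
        exact_mod_cast h3
      calc (s.card : ℝ) ≤ s'.card * ((T.d : ℝ) - 1) := h4
        _ ≤ 2 * ((T.d : ℝ) - 1) ^ k * ((T.d : ℝ) - 1) :=
          mul_le_mul_of_nonneg_right (ih s' h1) (by linarith)
        _ = 2 * ((T.d : ℝ) - 1) ^ (k + 1) := by ring

/-- spheres have at most `2 (d-1)^k` points -/
theorem sum_ball_le (F : ℕ → ℝ) (hF : ∀ k, 0 ≤ F k) (s : Finset V) (n₁ n₂ : ℕ)
    (hs : ∀ w ∈ s, n₁ ≤ T.G.dist T.o w ∧ T.G.dist T.o w < n₂) :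
    ∑ w ∈ s, F (T.G.dist T.o w) ≤ ∑ k ∈ Finset.Ico n₁ n₂, 2 * ((T.d : ℝ) - 1) ^ k * F k := by
  classical
  rw [← Finset.sum_fiberwise_of_maps_to (s := s) (t := Finset.Ico n₁ n₂)
    (g := fun w => T.G.dist T.o w) (fun w hw => Finset.mem_Ico.2 (hs w hw))]
  refine Finset.sum_le_sum fun k _ => ?_
  rw [Finset.sum_congr rfl (g := fun _ => F k)
    (fun w hw => by rw [(Finset.mem_filter.1 hw).2]), Finset.sum_const, nsmul_eq_mul]
  refine mul_le_mul_of_nonneg_right ?_ (hF k)
  exact T.card_sphere_le k _ fun w hw => (Finset.mem_filter.1 hw).2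

theorem finite_dist_le (v : V) (n : ℕ) : {w | T.G.dist v w ≤ n}.Finite := by
  exact T.finite_dist_le_aux v n

/-! ### automorphisms -/

private theorem exists_bij_ext (u u' : V) (s : Set V) (f : V → V)
    (hs : s ⊆ T.G.neighborSet u) (hf : MapsTo f s (T.G.neighborSet u')) (hi : InjOn f s) :
    ∃ E : V → V, BijOn E (T.G.neighborSet u) (T.G.neighborSet u') ∧ ∀ x ∈ s, E x = f x := by
  classical
  have hc : Fintype.card (T.nb u) = (T.nb u').card := by
    rw [Fintype.card_coe, T.card_nb, T.card_nb]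
  obtain ⟨g, hg⟩ := Set.MapsTo.exists_equiv_extend_of_card_eq hc
    (s := {x : T.nb u | (x : V) ∈ s}) (f := fun x => f x)
    (fun x hx => Finset.mem_coe.2 (T.mem_nb.2 (hf hx)))
    (fun x hx y hy hxy => Subtype.ext (hi hx hy hxy))
  refine ⟨fun x => if h : x ∈ T.nb u then (g ⟨x, h⟩ : V) else x, ⟨?_, ?_, ?_⟩, ?_⟩
  · intro x hx
    have hx' : x ∈ T.nb u := T.mem_nb.2 hx
    simp only [dif_pos hx']
    exact T.mem_nb.1 (g ⟨x, hx'⟩).2
  · intro x hx y hy hxy
    have hx' : x ∈ T.nb u := T.mem_nb.2 hx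
    have hy' : y ∈ T.nb u := T.mem_nb.2 hy
    simp only [dif_pos hx', dif_pos hy'] at hxy
    exact congrArg Subtype.val (g.injective (Subtype.ext hxy))
  · intro y hy
    have hy' : y ∈ T.nb u' := T.mem_nb.2 hy
    refine ⟨(g.symm ⟨y, hy'⟩ : V), T.mem_nb.1 (g.symm ⟨y, hy'⟩).2, ?_⟩
    simp only [dif_pos (g.symm ⟨y, hy'⟩).2, Subtype.coe_eta, Equiv.apply_symm_apply]
  · intro x hx
    have hx' : x ∈ T.nb u := T.mem_nb.2 (hs hx)
    simp only [dif_pos hx']
    exact hg ⟨x, hx'⟩ hx

private theorem exists_bij_one {u u' x y : V} (hx : T.G.Adj u x) (hy : T.G.Adj u' y) :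
    ∃ E : V → V, BijOn E (T.G.neighborSet u) (T.G.neighborSet u') ∧ E x = y := by
  obtain ⟨E, hE, h⟩ := T.exists_bij_ext u u' {x} (fun _ => y)
    (by rintro _ rfl; exact hx) (fun _ _ => hy) (by rintro _ rfl _ rfl _; rfl)
  exact ⟨E, hE, h x rfl⟩

private theorem exists_bij_two {u u' x x' y y' : V} (hx : T.G.Adj u x) (hx' : T.G.Adj u x')
    (hy : T.G.Adj u' y) (hy' : T.G.Adj u' y') (h1 : x ≠ x') (h2 : y ≠ y') :
    ∃ E : V → V, BijOn E (T.G.neighborSet u) (T.G.neighborSet u') ∧ E x = y ∧ E x' = y' := by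
  classical
  obtain ⟨E, hE, h⟩ := T.exists_bij_ext u u' {x, x'} (fun z => if z = x then y else y')
    (by rintro _ (rfl | rfl); exacts [hx, hx'])
    (by
      intro z _
      by_cases hz : z = x
      · simp only [if_pos hz]; exact hy
      · simp only [if_neg hz]; exact hy')
    (by
      rintro z (rfl | rfl) z' (rfl | rfl) h
      · rfl
      · simp only [if_true, if_neg h1.symm] at h; exact absurd h h2
      · simp only [if_true, if_neg h1.symm] at h; exact absurd h.symm h2
      · rfl)
  refine ⟨E, hE, ?_, ?_⟩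
  · rw [h x (Or.inl rfl), if_pos rfl]
  · rw [h x' (Or.inr rfl), if_neg h1.symm]

private theorem adj_iff_par (a v w : V) :
    T.G.Adj v w ↔ (v ≠ a ∧ w = T.par a v) ∨ (w ≠ a ∧ v = T.par a w) := by
  constructor
  · intro h
    rcases T.adj_cases a h with h2 | h2
    · refine Or.inl ⟨?_, T.par_unique h h2.symm⟩
      rintro rfl
      simp at h2
    · refine Or.inr ⟨?_, T.par_unique h.symm h2.symm⟩
      rintro rfl
      simp at h2
  · rintro (⟨h1, rfl⟩ | ⟨h1, rfl⟩)
    · exact (T.par_spec h1).1
    · exact (T.par_spec h1).1.symm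

private theorem exists_aut_of_local (a b : V) (E : V → V → V → V)
    (hE1 : ∀ u u', BijOn (E u u') (T.G.neighborSet u) (T.G.neighborSet u'))
    (hE2 : ∀ u u', u ≠ a → u' ≠ b → E u u' (T.par a u) = T.par b u') :
    ∃ g : T.G ≃g T.G, g a = b ∧ ∀ v, v ≠ a → g v = E (T.par a v) (g (T.par a v)) v := by
  let F : ℕ → V → V := fun n =>
    Nat.rec (fun _ => b) (fun _ Fn v => E (T.par a v) (Fn (T.par a v)) v) n
  let f : V → V := fun v => F (T.G.dist a v) v
  have f0 : f a = b := by simp [f, F]
  have fs : ∀ v, v ≠ a → f v = E (T.par a v) (f (T.par a v)) v := by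
    intro v hv
    have h := (T.par_spec hv).2
    simp only [f]
    rw [← h]
  have ne_of : ∀ {c v : V} {n : ℕ}, T.G.dist c v = n + 1 → v ≠ c := by
    intro c v n h he
    rw [he] at h
    simp at h
  have lev : ∀ n v, T.G.dist a v = n →
      T.G.dist b (f v) = n ∧ (v ≠ a → f (T.par a v) = T.par b (f v)) := by
    intro n
    induction n with
    | zero =>
      intro v hv
      obtain rfl := T.dist_zero_iff.1 hv
      exact ⟨by rw [f0]; simp, fun h => absurd rfl h⟩
    | succ n ih =>
      intro v hv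
      have hva := ne_of hv
      obtain ⟨hy, hyd⟩ := T.par_spec hva
      have hu := (ih (T.par a v) (by omega)).1
      have hadj : T.G.Adj (f (T.par a v)) (f v) := by
        rw [fs v hva]
        exact (hE1 _ _).mapsTo hy.symm
      have hd : T.G.dist b (f v) = n + 1 := by
        rcases T.adj_cases b hadj with h2 | h2
        · exfalso
          have hua : T.par a v ≠ a := ne_of (n := T.G.dist b (f v)) (by omega)
          have hub : f (T.par a v) ≠ b := ne_of h2
          have h3 := T.par_unique hadj h2.symm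
          rw [← hE2 _ _ hua hub, fs v hva] at h3
          have h4 := (hE1 _ _).injOn hy.symm (T.par_spec hua).1 h3
          have h5 := (T.par_spec hua).2
          rw [← h4] at h5
          omega
        · omega
      exact ⟨hd, fun _ => T.par_unique hadj.symm (by omega)⟩
  have flev : ∀ v, T.G.dist b (f v) = T.G.dist a v := fun v => (lev _ v rfl).1
  have fpar : ∀ v, v ≠ a → f (T.par a v) = T.par b (f v) := fun v => (lev _ v rfl).2
  have fne : ∀ v, f v ≠ b ↔ v ≠ a := by
    intro v
    rw [ne_comm, Ne, ← T.dist_zero_iff, flev, T.dist_zero_iff, ne_comm]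
  have finj : Function.Injective f := by
    have : ∀ n v w, T.G.dist a v = n → f v = f w → v = w := by
      intro n
      induction n with
      | zero =>
        intro v w hv h
        have hw : T.G.dist a w = 0 := by rw [← flev, ← h, flev, hv]
        exact (T.dist_zero_iff.1 hv).symm.trans (T.dist_zero_iff.1 hw)
      | succ n ih =>
        intro v w hv h
        have hw : T.G.dist a w = n + 1 := by rw [← flev, ← h, flev, hv]
        have hva := ne_of hv
        have hwa := ne_of hw
        have h1 : T.par a v = T.par a w := by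
          refine ih _ _ (by have := (T.par_spec hva).2; omega) ?_
          rw [fpar v hva, fpar w hwa, h]
        rw [fs v hva, fs w hwa, ← h1] at h
        refine (hE1 _ _).injOn (T.par_spec hva).1.symm ?_ h
        rw [h1]
        exact (T.par_spec hwa).1.symm
    exact fun v w h => this _ v w rfl h
  have fsurj : Function.Surjective f := by
    intro y
    refine T.tree_induction b (P := fun y => ∃ v, f v = y) ⟨a, f0⟩ ?_ y
    rintro _ x hx hd ⟨u, rfl⟩
    obtain ⟨v, hv, hvx⟩ := (hE1 u (f u)).surjOn hx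
    have hv' : T.G.Adj u v := hv
    rcases (T.adj_iff_par a u v).1 hv' with ⟨h1, h2⟩ | ⟨h1, h2⟩
    · exfalso
      rw [h2, hE2 _ _ h1 ((fne u).2 h1)] at hvx
      have := (T.par_spec ((fne u).2 h1)).2
      rw [hvx] at this
      omega
    · exact ⟨v, by rw [fs v h1, ← h2, hvx]⟩
  refine ⟨⟨Equiv.ofBijective f ⟨finj, fsurj⟩, ?_⟩, f0, fs⟩
  intro v w
  show T.G.Adj (f v) (f w) ↔ T.G.Adj v w
  rw [T.adj_iff_par b, T.adj_iff_par a, fne, fne]
  refine or_congr (and_congr_right fun h => ?_) (and_congr_right fun h => ?_)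
  · rw [← fpar v h, finj.eq_iff]
  · rw [← fpar w h, finj.eq_iff]

/-- the automorphism group acts transitively on non-backtracking paths of a given length -/
theorem exists_aut {p q : ℕ → V} {k : ℕ} (hp : T.NB p k) (hq : T.NB q k) :
    ∃ g : T.G ≃g T.G, ∀ i, i ≤ k → g (p i) = q i := by
  classical
  set a := p 0 with ha
  set b := q 0 with hb
  have hpd : ∀ i, i ≤ k → T.G.dist a (p i) = i := fun i hi => hp.dist_eq (Nat.zero_le i) hi
  have hqd : ∀ i, i ≤ k → T.G.dist b (q i) = i := fun i hi => hq.dist_eq (Nat.zero_le i) hi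
  have hE : ∀ u u' : V, ∃ E : V → V, BijOn E (T.G.neighborSet u) (T.G.neighborSet u') ∧
      (u ≠ a → u' ≠ b → E (T.par a u) = T.par b u') ∧
      ∀ i, i < k → u = p i → u' = q i → E (p (i + 1)) = q (i + 1) := by
    intro u u'
    by_cases h2 : ∃ i, i < k ∧ u = p i ∧ u' = q i
    · obtain ⟨i, hi, rfl, rfl⟩ := h2
      have huniq : ∀ j, j < k → p i = p j → j = i := by
        intro j hj he
        have h3 := hpd j hj.le
        rw [← he, hpd i hi.le] at h3
        exact h3.symm
      by_cases h1 : p i ≠ a ∧ q i ≠ b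
      · have hx := T.par_spec h1.1
        have hy := T.par_spec h1.2
        obtain ⟨E, hE, e1, e2⟩ := T.exists_bij_two hx.1 (hp.1 i hi) hy.1 (hq.1 i hi)
          (by
            intro he
            have h3 := hx.2
            rw [he, hpd _ hi, hpd _ hi.le] at h3
            omega)
          (by
            intro he
            have h3 := hy.2
            rw [he, hqd _ hi, hqd _ hi.le] at h3
            omega)
        refine ⟨E, hE, fun _ _ => e1, fun j hj hj1 _ => ?_⟩
        obtain rfl := huniq j hj hj1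
        exact e2
      · obtain ⟨E, hE, e1⟩ := T.exists_bij_one (hp.1 i hi) (hq.1 i hi)
        refine ⟨E, hE, fun h3 h4 => absurd ⟨h3, h4⟩ h1, fun j hj hj1 _ => ?_⟩
        obtain rfl := huniq j hj hj1
        exact e1
    · by_cases h1 : u ≠ a ∧ u' ≠ b
      · obtain ⟨E, hE, e1⟩ := T.exists_bij_one (T.par_spec h1.1).1 (T.par_spec h1.2).1
        exact ⟨E, hE, fun _ _ => e1, fun j hj hj1 hj2 => absurd ⟨j, hj, hj1, hj2⟩ h2⟩
      · obtain ⟨x, hx, -, -⟩ := T.exists_adj_ne u u u
        obtain ⟨y, hy, -, -⟩ := T.exists_adj_ne u' u' u'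
        obtain ⟨E, hE, -⟩ := T.exists_bij_one hx hy
        exact ⟨E, hE, fun h3 h4 => absurd ⟨h3, h4⟩ h1,
          fun j hj hj1 hj2 => absurd ⟨j, hj, hj1, hj2⟩ h2⟩
  choose E hE1 hE2 hE3 using hE
  obtain ⟨g, hg0, hg⟩ := T.exists_aut_of_local a b E hE1 hE2
  refine ⟨g, fun i hi => ?_⟩
  induction i with
  | zero => exact hg0
  | succ i ih =>
    have hne : p (i + 1) ≠ a := by
      intro he
      have := hpd _ hi
      rw [he] at this
      simp at this
    have hpar : T.par a (p (i + 1)) = p i :=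
      (T.par_unique (hp.1 i hi).symm (by rw [hpd _ hi, hpd i (by omega)])).symm
    rw [hg _ hne, hpar, ih (by omega)]
    exact hE3 _ _ i hi rfl rfl

theorem exists_aut_vertex (v w : V) : ∃ g : T.G ≃g T.G, g v = w := by
  obtain ⟨g, hg⟩ := T.exists_aut (p := fun _ => v) (q := fun _ => w) (k := 0)
    ⟨fun i hi => by omega, fun i hi => by omega⟩ ⟨fun i hi => by omega, fun i hi => by omega⟩
  exact ⟨g, hg 0 le_rfl⟩

theorem exists_aut_edge {v x v' x' : V} (h : T.G.Adj v x) (h' : T.G.Adj v' x') :
    ∃ g : T.G ≃g T.G, g v = v' ∧ g x = x' := by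
  obtain ⟨p, hp, p0, p1⟩ := T.exists_NB h 1
  obtain ⟨q, hq, q0, q1⟩ := T.exists_NB h' 1
  obtain ⟨g, hg⟩ := T.exists_aut hp hq
  exact ⟨g, by rw [← p0, ← q0]; exact hg 0 (by omega), by rw [← p1, ← q1]; exact hg 1 le_rfl⟩

theorem dist_aut (g : T.G ≃g T.G) (v w : V) : T.G.dist (g v) (g w) = T.G.dist v w := by
  have key : ∀ (g : T.G ≃g T.G) (v w : V), T.G.dist (g v) (g w) ≤ T.G.dist v w := by
    intro g v w
    obtain ⟨p, hp⟩ := T.hT.connected.exists_walk_length_eq_dist v w
    have := SimpleGraph.dist_le (p.map g.toHom)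
    rw [SimpleGraph.Walk.length_map, hp] at this
    exact this
  refine le_antisymm (key g v w) ?_
  have := key g.symm (g v) (g w)
  rwa [RelIso.symm_apply_apply, RelIso.symm_apply_apply] at this

/-- sums over neighbours are transported by automorphisms -/
theorem sum_nb_aut (g : T.G ≃g T.G) (v : V) (F : V → ℝ) :
    ∑ c ∈ T.nb (g v), F c = ∑ c ∈ T.nb v, F (g c) := by
  symm
  refine Finset.sum_bijective g g.bijective (fun c => ?_) (fun _ _ => rfl)
  rw [T.mem_nb, T.mem_nb]
  exact g.map_rel_iff.symm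

open Classical in
theorem sum_nb_erase_aut (g : T.G ≃g T.G) (v x : V) (F : V → ℝ) :
    ∑ c ∈ (T.nb (g v)).erase (g x), F c = ∑ c ∈ (T.nb v).erase x, F (g c) := by
  symm
  refine Finset.sum_bijective g g.bijective (fun c => ?_) (fun _ _ => rfl)
  rw [Finset.mem_erase, Finset.mem_erase, T.mem_nb, T.mem_nb, g.injective.ne_iff]
  exact and_congr Iff.rfl g.map_rel_iff.symm

end Ctx

end Crest.Agent.R160
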