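import Crest.Agent.R160.Meas
import Crest.Agent.R160.Tree
import Crest.Agent.R160.Channel

/-! The probability space: gluing coordinates, independence, spins, symmetries. -/

set_option autoImplicit false

namespace Crest.Agent.R160

open MeasureTheory ProbabilityTheory Set Filter Topology
open scoped ENNReal

universe u

variable {V : Type u}

/-! ### the product space -/

theorem measurable_glue (A : Set (Idx V)) :
    Measurable (fun p : Om0 V × Om0 V => glue A p.1 p.2) := by
  classical
  refine measurable_pi_lambda _ fun j => ?_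
  by_cases h : j ∈ A
  · have : (fun p : Om0 V × Om0 V => glue A p.1 p.2 j) = fun p => p.1 j := by
      funext p; simp [glue, h]
    rw [this]; fun_prop
  · have : (fun p : Om0 V × Om0 V => glue A p.1 p.2 j) = fun p => p.2 j := by
      funext p; simp [glue, h]
    rw [this]; fun_prop

theorem mp_glue (A : Set (Idx V)) :
    MeasurePreserving (fun p : Om0 V × Om0 V => glue A p.1 p.2) ((mu0 V).prod (mu0 V)) (mu0 V) := by
  classical
  refine ⟨measurable_glue A, ?_⟩
  unfold mu0
  refine Measure.eq_infinitePi _ fun s t ht => ?_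
  rw [Measure.map_apply (measurable_glue A) (MeasurableSet.pi s.countable_toSet fun i _ => ht i)]
  have : (fun p : Om0 V × Om0 V => glue A p.1 p.2) ⁻¹' (Set.pi (s : Set (Idx V)) t)
      = (Set.pi (s.filter (· ∈ A) : Finset (Idx V)) t) ×ˢ
        (Set.pi (s.filter (fun j => ¬ j ∈ A) : Finset (Idx V)) t) := by
    ext p
    simp only [mem_preimage, Set.mem_pi, Finset.mem_coe, mem_prod, Finset.mem_filter]
    constructor
    · intro h
      refine ⟨fun i hi => ?_, fun i hi => ?_⟩
      · have := h i hi.1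
        simpa [glue, hi.2] using this
      · have := h i hi.1
        simpa [glue, hi.2] using this
    · rintro ⟨h1, h2⟩ i hi
      by_cases hA : i ∈ A
      · simpa [glue, hA] using h1 i ⟨hi, hA⟩
      · simpa [glue, hA] using h2 i ⟨hi, hA⟩
  rw [this, Measure.prod_prod, Measure.infinitePi_pi _ (fun i _ => ht i),
    Measure.infinitePi_pi _ (fun i _ => ht i), Finset.prod_filter_mul_prod_filter_not]

theorem glue_of_mem {A : Set (Idx V)} {j : Idx V} (h : j ∈ A) (x y : Om0 V) :
    glue A x y j = x j := by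
  simp [glue, h]

theorem glue_of_not_mem {A : Set (Idx V)} {j : Idx V} (h : j ∉ A) (x y : Om0 V) :
    glue A x y j = y j := by
  simp [glue, h]

theorem indepFun_of_dependsOn {α β : Type*} [MeasurableSpace α] [MeasurableSpace β]
    {X : Om0 V → α} {Y : Om0 V → β} (hX : Measurable X) (hY : Measurable Y)
    {A B : Set (Idx V)} (hA : DependsOn X A) (hB : DependsOn Y B) (hAB : Disjoint A B) :
    IndepFun X Y (mu0 V) := by
  rw [indepFun_iff_map_prod_eq_prod_map_map hX.aemeasurable hY.aemeasurable]
  have h1 : (mu0 V).map (fun ω => (X ω, Y ω))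
      = (((mu0 V).prod (mu0 V)).map (fun p : Om0 V × Om0 V => glue A p.1 p.2)).map
          (fun ω => (X ω, Y ω)) := by rw [(mp_glue A).map_eq]
  rw [h1, Measure.map_map (hX.prodMk hY) (measurable_glue A), Measure.map_prod_map _ _ hX hY]
  congr 1
  funext p
  have e1 : X (glue A p.1 p.2) = X p.1 := hA fun i hi => glue_of_mem hi _ _
  have e2 : Y (glue A p.1 p.2) = Y p.2 :=
    hB fun i hi => glue_of_not_mem (fun h => Set.disjoint_left.1 hAB h hi) _ _
  simp only [Function.comp_apply, e1, e2]
  rfl

theorem integral_mul_of_dependsOn {X Y : Om0 V → ℝ} (hX : BM X) (hY : BM Y)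
    {A B : Set (Idx V)} (hA : DependsOn X A) (hB : DependsOn Y B) (hAB : Disjoint A B) :
    ∫ ω, X ω * Y ω ∂mu0 V = (∫ ω, X ω ∂mu0 V) * ∫ ω, Y ω ∂mu0 V := by
  exact (indepFun_of_dependsOn hX.meas hY.meas hA hB hAB).integral_fun_mul_eq_mul_integral
    hX.meas.aestronglyMeasurable hY.meas.aestronglyMeasurable

theorem integral_prod_of_dependsOn {ι : Type*} (s : Finset ι) {X : ι → Om0 V → ℝ}
    (hX : ∀ i ∈ s, BM (X i)) {A : ι → Set (Idx V)} (hA : ∀ i ∈ s, DependsOn (X i) (A i))
    (hd : ∀ i ∈ s, ∀ j ∈ s, i ≠ j → Disjoint (A i) (A j)) :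
    ∫ ω, ∏ i ∈ s, X i ω ∂mu0 V = ∏ i ∈ s, ∫ ω, X i ω ∂mu0 V := by
  classical
  induction s using Finset.induction_on with
  | empty => simp
  | insert a s ha ih =>
    simp only [Finset.prod_insert ha]
    have hX' : ∀ i ∈ s, BM (X i) := fun i hi => hX i (Finset.mem_insert_of_mem hi)
    have hA' : ∀ i ∈ s, DependsOn (X i) (A i) := fun i hi => hA i (Finset.mem_insert_of_mem hi)
    rw [← ih hX' hA' fun i hi j hj => hd i (Finset.mem_insert_of_mem hi) j
      (Finset.mem_insert_of_mem hj)]
    refine integral_mul_of_dependsOn (hX a (Finset.mem_insert_self _ _)) (BM.prod s hX')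
      (hA a (Finset.mem_insert_self _ _)) (B := ⋃ i ∈ s, A i) ?_ ?_
    · intro x y h
      exact Finset.prod_congr rfl fun i hi => hA' i hi fun j hj => h j (mem_biUnion hi hj)
    · rw [Set.disjoint_iUnion₂_right]
      intro i hi
      exact hd a (Finset.mem_insert_self _ _) i (Finset.mem_insert_of_mem hi)
        (fun h => ha (h ▸ hi))

theorem mp_coord (j : Idx V) :
    MeasurePreserving (fun ω : Om0 V => ω j) (mu0 V) (volume : Measure unitInterval) := by
  exact measurePreserving_eval_infinitePi (fun _ : Idx V => (volume : Measure unitInterval)) j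

theorem loc_mono {A B : Set V} (h : A ⊆ B) : loc A ⊆ loc B := by
  intro j hj
  cases j with
  | e s => exact fun x hx => h (hj x hx)
  | u v r => exact h hj
  | w v r => exact h hj

theorem loc_disjoint {A B : Set V} (h : Disjoint A B) : Disjoint (loc A) (loc B) := by
  rw [Set.disjoint_left] at h ⊢
  intro j hA hB
  cases j with
  | e s =>
    induction s using Sym2.ind with
    | h a b => exact h (hA a (Sym2.mem_mk_left a b)) (hB a (Sym2.mem_mk_left a b))
  | u v r => exact h hA hB
  | w v r => exact h hA hB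

theorem e_not_mem_loc {A : Set V} {v c : V} (h : v ∉ A) : Idx.e s(v, c) ∉ loc A := by
  exact fun h' => h (h' v (Sym2.mem_mk_left v c))

theorem e_mem_loc {A : Set V} {v c : V} (hv : v ∈ A) (hc : c ∈ A) : Idx.e s(v, c) ∈ loc A := by
  intro x hx
  rcases Sym2.mem_iff.1 hx with rfl | rfl
  · exact hv
  · exact hc

theorem measurable_clock : Measurable (clock : Om0 V → Clk V) := by
  exact measurable_pi_lambda _ fun i => measurable_pi_apply _

theorem measurable_Zv (i : Slot V) : Measurable (fun ω : Om0 V => Zv ω i) := by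
  have h : Measurable (fun ω : Om0 V => ((kap i.2, (ω (.w i.1 i.2) : ℝ)) : ℝ × ℝ)) :=
    measurable_const.prodMk (measurable_subtype_coe.comp (measurable_pi_apply _))
  exact measurable_Psi.comp h

theorem abs_Zv_le (ω : Om0 V) (i : Slot V) : |Zv ω i| ≤ 1 := by
  refine abs_Psi_le ?_ (ω (.w i.1 i.2)).2
  rw [abs_of_pos (kap_pos _)]
  exact kap_le_half _

theorem ae_tau_injective [Countable V] :
    ∀ᵐ x ∂mu0 V, Function.Injective (tau (clock x)) := by
  have key : ∀ i j : Slot V, ∀ᵐ x ∂mu0 V, tau (clock x) i = tau (clock x) j → i = j := by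
    intro i j
    by_cases hij : i = j
    · exact Eventually.of_forall fun _ _ => hij
    have hne : (Idx.u i.1 i.2 : Idx V) ≠ Idx.u j.1 j.2 := by
      intro h
      injection h with h1 h2
      exact hij (Prod.ext h1 h2)
    have hS : MeasurableSet {p : unitInterval × unitInterval |
        (i.2 : ℝ) + (p.1 : ℝ) = (j.2 : ℝ) + (p.2 : ℝ)} :=
      measurableSet_eq_fun (by fun_prop) (by fun_prop)
    have hm := Measure.infinitePi_map_eval_prod
      (P := fun _ : Idx V => (volume : Measure unitInterval)) hne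
    have h0 : ((volume : Measure unitInterval).prod (volume : Measure unitInterval))
        {p : unitInterval × unitInterval | (i.2 : ℝ) + (p.1 : ℝ) = (j.2 : ℝ) + (p.2 : ℝ)} = 0 := by
      rw [Measure.measure_prod_null hS]
      refine Eventually.of_forall fun a => ?_
      refine Set.Subsingleton.measure_zero ?_ _
      intro b hb c hc
      simp only [mem_preimage, mem_ofPred_eq] at hb hc
      exact Subtype.ext (by linarith)
    rw [← hm, Measure.map_apply (by fun_prop) hS] at h0
    rw [ae_iff]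
    refine measure_mono_null ?_ h0
    intro x hx
    simp only [mem_ofPred_eq, Classical.not_imp] at hx
    exact hx.1
  have : ∀ᵐ x ∂mu0 V, ∀ i j : Slot V, tau (clock x) i = tau (clock x) j → i = j := by
    rw [ae_all_iff]
    intro i
    rw [ae_all_iff]
    exact key i
  filter_upwards [this] with x hx
  exact fun i j h => hx i j h

/-! ### the coin -/

theorem coin_apply (s : Set Bool) :
    coin s = (2 : ℝ≥0∞)⁻¹ * (s.indicator 1 true + s.indicator 1 false) := by
  simp only [coin, Measure.smul_apply, Measure.add_apply, smul_eq_mul, Measure.dirac_apply]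

theorem integral_coin (f : Bool → ℝ) : ∫ b, f b ∂coin = (f true + f false) / 2 := by
  unfold coin
  rw [integral_smul_measure, integral_add_measure Integrable.of_finite Integrable.of_finite,
    integral_dirac, integral_dirac]
  simp only [ENNReal.toReal_inv, ENNReal.toReal_ofNat, smul_eq_mul]
  ring

theorem ae_coin_iff {P : Bool → Prop} : (∀ᵐ b ∂coin, P b) ↔ P true ∧ P false := by
  rw [ae_iff, coin_apply]
  by_cases h1 : P true <;> by_cases h2 : P false <;> simp [h1, h2]

theorem mp_not : MeasurePreserving (fun b : Bool => !b) coin coin := by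
  refine ⟨Measurable.of_discrete, ?_⟩
  ext s hs
  rw [Measure.map_apply Measurable.of_discrete hs, coin_apply, coin_apply, add_comm]
  rfl

theorem mp_fst : MeasurePreserving (Prod.fst : Om V → Om0 V) (mu V) (mu0 V) := by
  exact measurePreserving_fst

theorem integral_mu {F : Om V → ℝ} (hF : Integrable F (mu V)) :
    ∫ ω, F ω ∂mu V = ∫ x, (F (x, true) + F (x, false)) / 2 ∂mu0 V := by
  unfold mu at hF ⊢
  rw [integral_prod _ hF]
  simp only [integral_coin]

theorem ae_mu_iff {P : Om V → Prop} (hP : MeasurableSet {ω | P ω}) :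
    (∀ᵐ ω ∂mu V, P ω) ↔ ∀ᵐ x ∂mu0 V, P (x, true) ∧ P (x, false) := by
  unfold mu
  rw [Measure.ae_prod_iff_ae_ae hP]
  simp only [ae_coin_iff]

theorem ae_mu0_of_ae_mu {P : Om V → Prop} (h : ∀ᵐ ω ∂mu V, P ω) :
    ∀ᵐ x ∂mu0 V, P (x, true) ∧ P (x, false) := by
  unfold mu at h
  simpa only [ae_coin_iff] using Measure.ae_ae_of_ae_prod h

theorem mp_flip : MeasurePreserving (flip : Om V → Om V) (mu V) (mu V) := by
  exact (MeasurePreserving.id (mu0 V)).prod mp_not

/-! ### freezing the clocks -/

theorem mp_glueC :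
    MeasurePreserving (fun p : Om0 V × Om V => glueC p.1 p.2) ((mu0 V).prod (mu V)) (mu V) := by
  have h1 : MeasurePreserving (MeasurableEquiv.prodAssoc (α := Om0 V) (β := Om0 V) (γ := Bool)).symm
      ((mu0 V).prod ((mu0 V).prod coin)) (((mu0 V).prod (mu0 V)).prod coin) :=
    (measurePreserving_prodAssoc (mu0 V) (mu0 V) coin).symm _
  exact ((mp_glue (Uset V)).prod (MeasurePreserving.id coin)).comp h1

theorem integral_glueC {F : Om V → ℝ} (hF : Integrable F (mu V)) :
    ∫ ω, F ω ∂mu V = ∫ x, ∫ ω, F (glueC x ω) ∂mu V ∂mu0 V := by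
  rw [← integral_comp_mp mp_glueC hF.aestronglyMeasurable]
  exact integral_prod _ (mp_glueC.integrable_comp_of_integrable hF)

theorem integral_glueU {F : Om0 V → ℝ} (hF : Integrable F (mu0 V)) :
    ∫ ω, F ω ∂mu0 V = ∫ x, ∫ ω, F (glue (Uset V) x ω) ∂mu0 V ∂mu0 V := by
  rw [← integral_comp_mp (mp_glue (Uset V)) hF.aestronglyMeasurable]
  exact integral_prod _ ((mp_glue (Uset V)).integrable_comp_of_integrable hF)

theorem ae_glueC {P : Om V → Prop} (hP : MeasurableSet {ω | P ω})
    (h : ∀ᵐ x ∂mu0 V, ∀ᵐ ω ∂mu V, P (glueC x ω)) : ∀ᵐ ω ∂mu V, P ω := by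
  have h1 : ∀ᵐ p ∂(mu0 V).prod (mu V), P (glueC p.1 p.2) :=
    (Measure.ae_prod_iff_ae_ae (mp_glueC.measurable hP)).2 h
  rw [← mp_glueC.map_eq]
  exact (ae_map_iff mp_glueC.measurable.aemeasurable hP).2 h1

@[simp] theorem clock_glueU (x y : Om0 V) : clock (glue (Uset V) x y) = clock x := by
  funext i
  exact glue_of_mem (A := Uset V) (j := Idx.u i.1 i.2) trivial x y

@[simp] theorem clock_glueC (x : Om0 V) (ω : Om V) : clock (glueC x ω).1 = clock x := by
  exact clock_glueU x ω.1

@[simp] theorem glueC_w (x : Om0 V) (ω : Om V) (v : V) (r : ℤ) :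
    (glueC x ω).1 (.w v r) = ω.1 (.w v r) := by
  exact glue_of_not_mem (A := Uset V) (j := Idx.w v r) (fun h => h) x ω.1

namespace Ctx

variable (T : Ctx V)

/-! ### edge signs and spins -/

theorem eta_eq (ω : Om0 V) (s : Sym2 V) : T.eta ω s = 1 ∨ T.eta ω s = -1 := by
  unfold eta
  split_ifs
  · exact Or.inl rfl
  · exact Or.inr rfl

theorem measurable_eta (s : Sym2 V) : Measurable (fun ω => T.eta ω s) := by
  unfold eta
  refine Measurable.ite ?_ measurable_const measurable_const
  exact measurableSet_lt (measurable_subtype_coe.comp (measurable_pi_apply _)) measurable_const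

theorem dependsOn_eta (s : Sym2 V) : DependsOn (fun ω => T.eta ω s) {Idx.e s} := by
  intro x y h
  simp only [eta, h _ (mem_singleton _)]

theorem eta_mul_self (ω : Om0 V) (s : Sym2 V) : T.eta ω s * T.eta ω s = 1 := by
  rcases T.eta_eq ω s with h | h <;> simp [h]

theorem measure_eta_one (s : Sym2 V) :
    mu0 V {ω | T.eta ω s = 1} = ENNReal.ofReal ((1 + T.θ) / 2) := by
  have hθ0 := T.θ_nonneg
  have hθ1 := T.θ_lt_one
  let a : unitInterval := ⟨(1 + T.θ) / 2, by constructor <;> linarith⟩
  have h1 : {ω : Om0 V | T.eta ω s = 1} = (fun ω : Om0 V => ω (.e s)) ⁻¹' (Iio a) := by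
    ext ω
    simp only [eta, mem_ofPred_eq, mem_preimage, mem_Iio]
    constructor
    · intro h
      by_contra hc
      have : ¬ ((ω (.e s) : ℝ) < (1 + T.θ) / 2) := hc
      rw [if_neg this] at h
      norm_num at h
    · intro h
      have : (ω (.e s) : ℝ) < (1 + T.θ) / 2 := h
      rw [if_pos this]
  rw [h1, (mp_coord (Idx.e s)).measure_preimage measurableSet_Iio.nullMeasurableSet,
    unitInterval.volume_Iio]

theorem measure_eta_neg (s : Sym2 V) :
    mu0 V {ω | T.eta ω s = -1} = ENNReal.ofReal ((1 - T.θ) / 2) := by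
  have hθ0 := T.θ_nonneg
  have hθ1 := T.θ_lt_one
  have h1 : {ω : Om0 V | T.eta ω s = -1} = {ω : Om0 V | T.eta ω s = 1}ᶜ := by
    ext ω
    simp only [mem_ofPred_eq, mem_compl_iff]
    rcases T.eta_eq ω s with h | h <;> rw [h] <;> norm_num
  rw [h1, prob_compl_eq_one_sub (measurableSet_eq_fun (T.measurable_eta s) measurable_const),
    T.measure_eta_one, ← ENNReal.ofReal_one, ← ENNReal.ofReal_sub _ (by linarith)]
  congr 1
  ring

theorem lintegral_eta_fun (s : Sym2 V) (G : ℝ → ℝ≥0∞) :
    ∫⁻ ω, G (T.eta ω s) ∂mu0 V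
      = ENNReal.ofReal ((1 + T.θ) / 2) * G 1 + ENNReal.ofReal ((1 - T.θ) / 2) * G (-1) := by
  have hm1 : MeasurableSet {ω : Om0 V | T.eta ω s = 1} :=
    measurableSet_eq_fun (T.measurable_eta s) measurable_const
  have hm2 : MeasurableSet {ω : Om0 V | T.eta ω s = -1} :=
    measurableSet_eq_fun (T.measurable_eta s) measurable_const
  have hpt : ∀ ω, G (T.eta ω s) = {ω : Om0 V | T.eta ω s = 1}.indicator (fun _ => G 1) ω
      + {ω : Om0 V | T.eta ω s = -1}.indicator (fun _ => G (-1)) ω := by
    intro ω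
    have hne : ¬ ((1 : ℝ) = -1) := by norm_num
    have hne' : ¬ ((-1 : ℝ) = 1) := by norm_num
    rcases T.eta_eq ω s with h | h <;> simp [indicator, h, hne, hne']
  simp only [hpt]
  rw [lintegral_add_left (measurable_const.indicator hm1), lintegral_indicator_const hm1,
    lintegral_indicator_const hm2, T.measure_eta_one, T.measure_eta_neg, mul_comm (G 1),
    mul_comm (G (-1))]

theorem lintegral_eta {α : Type*} [MeasurableSpace α] (s : Sym2 V) {X : Om0 V → α}
    (hX : Measurable X) {A : Set (Idx V)} (hA : DependsOn X A) (hs : Idx.e s ∉ A)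
    {F : ℝ × α → ℝ≥0∞} (hF : Measurable F) :
    ∫⁻ ω, F (T.eta ω s, X ω) ∂mu0 V
      = ENNReal.ofReal ((1 + T.θ) / 2) * ∫⁻ ω, F (1, X ω) ∂mu0 V
        + ENNReal.ofReal ((1 - T.θ) / 2) * ∫⁻ ω, F (-1, X ω) ∂mu0 V := by
  have hind : IndepFun (fun ω => T.eta ω s) X (mu0 V) :=
    indepFun_of_dependsOn (T.measurable_eta s) hX (T.dependsOn_eta s) hA
      (Set.disjoint_singleton_left.2 hs)
  rw [lintegral_indep hind (T.measurable_eta s) hX hF]
  exact T.lintegral_eta_fun s (fun a => ∫⁻ ω', F (a, X ω') ∂mu0 V)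

theorem integral_eta {α : Type*} [MeasurableSpace α] (s : Sym2 V) {X : Om0 V → α}
    (hX : Measurable X) {A : Set (Idx V)} (hA : DependsOn X A) (hs : Idx.e s ∉ A)
    {F : ℝ × α → ℝ} (hF : Measurable F) (h1 : BM (fun ω => F (1, X ω)))
    (h2 : BM (fun ω => F (-1, X ω))) :
    ∫ ω, F (T.eta ω s, X ω) ∂mu0 V
      = (1 + T.θ) / 2 * ∫ ω, F (1, X ω) ∂mu0 V + (1 - T.θ) / 2 * ∫ ω, F (-1, X ω) ∂mu0 V := by
  have hind : IndepFun (fun ω => T.eta ω s) X (mu0 V) :=
    indepFun_of_dependsOn (T.measurable_eta s) hX (T.dependsOn_eta s) hA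
      (Set.disjoint_singleton_left.2 hs)
  classical
  set E : Set (Om0 V) := {ω | T.eta ω s = 1} with hE
  have hEm : MeasurableSet E := measurableSet_eq_fun (T.measurable_eta s) measurable_const
  have hdep : DependsOn (E.indicator (fun _ => (1 : ℝ))) {Idx.e s} := by
    intro x y h
    have : T.eta x s = T.eta y s := T.dependsOn_eta s h
    simp only [hE, indicator, mem_ofPred_eq, this]
  have hdep' : DependsOn (Eᶜ.indicator (fun _ => (1 : ℝ))) {Idx.e s} := by
    intro x y h
    have : T.eta x s = T.eta y s := T.dependsOn_eta s h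
    simp only [hE, indicator, mem_compl_iff, mem_ofPred_eq, this]
  have hd1 : DependsOn (fun ω => F (1, X ω)) A := fun x y h => by simp only [hA h]
  have hd2 : DependsOn (fun ω => F (-1, X ω)) A := fun x y h => by simp only [hA h]
  have hdis : Disjoint ({Idx.e s} : Set (Idx V)) A := Set.disjoint_singleton_left.2 hs
  have hpt : ∀ ω, F (T.eta ω s, X ω) = E.indicator (fun _ => (1 : ℝ)) ω * F (1, X ω)
      + Eᶜ.indicator (fun _ => (1 : ℝ)) ω * F (-1, X ω) := by
    intro ω
    rcases T.eta_eq ω s with h | h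
    · have : ω ∈ E := h
      simp [this, h]
    · have : ω ∉ E := by
        intro h'
        have h'' : T.eta ω s = 1 := h'
        rw [h] at h''
        norm_num at h''
      simp [this, h]
  simp only [hpt]
  rw [integral_add ((BM.indicator_one hEm).mul h1).integrable
      ((BM.indicator_one hEm.compl).mul h2).integrable,
    integral_mul_of_dependsOn (BM.indicator_one hEm) h1 hdep hd1 hdis,
    integral_mul_of_dependsOn (BM.indicator_one hEm.compl) h2 hdep' hd2 hdis,
    integral_indicator hEm, integral_indicator hEm.compl]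
  have hθ0 := T.θ_nonneg
  have hθ1 := T.θ_lt_one
  have e1 : (mu0 V).real E = (1 + T.θ) / 2 := by
    rw [Measure.real, T.measure_eta_one s, ENNReal.toReal_ofReal (by linarith)]
  have e2 : (mu0 V).real Eᶜ = (1 - T.θ) / 2 := by
    rw [probReal_compl_eq_one_sub hEm, e1]; ring
  simp only [integral_const, MeasurableSet.univ, measureReal_restrict_apply, univ_inter,
    smul_eq_mul, mul_one, e1, e2]

theorem s0_eq_path (ω : Om0 V) {v : V} (p : T.G.Walk T.o v) (hp : p.IsPath) :
    T.s0 ω v = (p.edges.map (T.eta ω)).prod := by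
  unfold s0
  rw [(T.hT.existsUnique_path T.o v).choose_spec.2 p hp]

theorem s0_root (ω : Om0 V) : T.s0 ω T.o = 1 := by
  rw [T.s0_eq_path ω SimpleGraph.Walk.nil SimpleGraph.Walk.IsPath.nil]
  simp

theorem s0_adj (ω : Om0 V) {v x : V} (h : T.G.Adj v x) :
    T.s0 ω x = T.eta ω s(v, x) * T.s0 ω v := by
  have key : ∀ {v x : V}, T.G.Adj v x → T.G.dist T.o x = T.G.dist T.o v + 1 →
      T.s0 ω x = T.eta ω s(v, x) * T.s0 ω v := by
    intro v x h hd
    obtain ⟨p, hp⟩ := T.hT.connected.exists_walk_length_eq_dist T.o v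
    have hp1 : p.IsPath := SimpleGraph.Walk.isPath_of_length_eq_dist _ hp
    have hp2 : (p.concat h).IsPath :=
      SimpleGraph.Walk.isPath_of_length_eq_dist _ (by rw [SimpleGraph.Walk.length_concat]; omega)
    rw [T.s0_eq_path ω _ hp1, T.s0_eq_path ω _ hp2, SimpleGraph.Walk.edges_concat]
    simp [mul_comm]
  rcases T.hT.dist_eq_dist_add_one_of_adj T.o h with hd | hd
  · rw [key h.symm hd, Sym2.eq_swap (a := x), ← mul_assoc, T.eta_mul_self, one_mul]
  · exact key h hd

theorem s0_eq (ω : Om0 V) (v : V) : T.s0 ω v = 1 ∨ T.s0 ω v = -1 := by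
  refine T.tree_induction T.o (P := fun v => T.s0 ω v = 1 ∨ T.s0 ω v = -1)
    (Or.inl (T.s0_root ω)) (fun v x h _ ih => ?_) v
  rw [T.s0_adj ω h]
  rcases T.eta_eq ω s(v, x) with h1 | h1 <;> rcases ih with h2 | h2 <;> simp [h1, h2]

theorem measurable_s0 (v : V) : Measurable (fun ω => T.s0 ω v) := by
  refine T.tree_induction T.o (P := fun v => Measurable (fun ω => T.s0 ω v))
    (by simp only [T.s0_root]; exact measurable_const) (fun v x h _ ih => ?_) v
  simp only [fun ω => T.s0_adj ω h]
  exact (T.measurable_eta _).mul ih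

theorem s0_mul_self (ω : Om0 V) (v : V) : T.s0 ω v * T.s0 ω v = 1 := by
  rcases T.s0_eq ω v with h | h <;> simp [h]

theorem dependsOn_s0_mul_of_par {v w : V} {A : Set V}
    (hA : ∀ w ∈ A, w ≠ v → T.par v w ∈ A) (hw : w ∈ A) :
    DependsOn (fun ω => T.s0 ω v * T.s0 ω w) (loc A) := by
  refine T.tree_induction v
    (P := fun w => w ∈ A → DependsOn (fun ω => T.s0 ω v * T.s0 ω w) (loc A))
    (fun _ a b _ => by simp only [T.s0_mul_self]) (fun y z hyz hd ih hz => ?_) w hw
  have hzv : z ≠ v := by
    rintro rfl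
    simp at hd
  have hy : y ∈ A := by
    rw [T.par_unique hyz.symm hd.symm]
    exact hA z hz hzv
  intro a b hab
  have h1 : T.s0 a v * T.s0 a y = T.s0 b v * T.s0 b y := ih hy hab
  have h2 : T.eta a s(y, z) = T.eta b s(y, z) :=
    T.dependsOn_eta _ fun j hj => hab j (by rw [mem_singleton_iff.1 hj]; exact e_mem_loc hy hz)
  show T.s0 a v * T.s0 a z = T.s0 b v * T.s0 b z
  rw [T.s0_adj a hyz, T.s0_adj b hyz, h2]
  linear_combination (T.eta b s(y, z)) * h1

theorem dependsOn_s0' (v : V) : DependsOn (fun ω => T.s0 ω v) {j | ∃ s, j = Idx.e s} := by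
  intro a b hab
  have : T.eta a = T.eta b := by
    funext s
    exact T.dependsOn_eta s fun j hj => hab j ⟨s, hj⟩
  simp only [s0, this]

theorem s0_glueU (x y : Om0 V) (v : V) : T.s0 (glue (Uset V) x y) v = T.s0 y v := by
  refine T.dependsOn_s0' v ?_
  rintro j ⟨s, rfl⟩
  exact glue_of_not_mem (A := Uset V) (j := Idx.e s) (fun h => h) x y

theorem dependsOn_s0_mul {v x w : V} (h : T.G.Adj v x) (hw : w ∈ T.half v x) :
    DependsOn (fun ω => T.s0 ω v * T.s0 ω w) (loc (T.half v x)) := by
  exact T.dependsOn_s0_mul_of_par (fun w hw hwv => T.par_mem_half h hw hwv) hw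

theorem spin_eq (ω : Om V) (v : V) : T.spin ω v = 1 ∨ T.spin ω v = -1 := by
  unfold spin sgn
  rcases T.s0_eq ω.1 v with h | h <;> cases ω.2 <;> simp [h]

theorem measurable_spin (v : V) : Measurable (fun ω => T.spin ω v) := by
  unfold spin
  exact ((Measurable.of_discrete (f := sgn)).comp measurable_snd).mul
    ((T.measurable_s0 v).comp measurable_fst)

theorem bm_spin (v : V) : BM (fun ω => T.spin ω v) := by
  refine BM.of_le (T.measurable_spin v) 1 fun ω => ?_
  rcases T.spin_eq ω v with h | h <;> simp [h]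

theorem spin_adj (ω : Om V) {v x : V} (h : T.G.Adj v x) :
    T.spin ω x = T.eta ω.1 s(v, x) * T.spin ω v := by
  unfold spin
  rw [T.s0_adj ω.1 h]
  ring

/-- the spin at `v` is a fair sign independent of the gauge variables -/
theorem integral_spin (v : V) {F : ℝ × Om0 V → ℝ} (hF : Measurable F)
    (h1 : BM (fun x => F (1, x))) (h2 : BM (fun x => F (-1, x))) :
    ∫ ω, F (T.spin ω v, ω.1) ∂mu V = ∫ x, (F (1, x) + F (-1, x)) / 2 ∂mu0 V := by
  have hint : Integrable (fun ω : Om V => F (T.spin ω v, ω.1)) (mu V) := by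
    obtain ⟨C1, hC1⟩ := h1.bdd
    obtain ⟨C2, hC2⟩ := h2.bdd
    refine (BM.of_le (hF.comp ((T.measurable_spin v).prodMk measurable_fst)) (max C1 C2)
      fun ω => ?_).integrable
    rcases T.spin_eq ω v with h | h
    · simp only [Function.comp_apply, h]
      exact (hC1 _).trans (le_max_left _ _)
    · simp only [Function.comp_apply, h]
      exact (hC2 _).trans (le_max_right _ _)
  rw [integral_mu hint]
  congr 1
  funext x
  rcases T.s0_eq x v with h | h
  · simp [spin, sgn, h]
  · simp [spin, sgn, h, add_comm]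

theorem measurable_Yf : Measurable T.Yf := by
  exact measurable_pi_lambda _ fun i =>
    (T.measurable_spin i.1).mul ((measurable_Zv i).comp measurable_fst)

theorem measurable_Bf (v : V) : Measurable (T.Bf v) := by
  exact measurable_pi_lambda _ fun i =>
    ((T.measurable_s0 v).mul (T.measurable_s0 i.1)).mul (measurable_Zv i)

theorem abs_Yf_le (ω : Om V) (i : Slot V) : |T.Yf ω i| ≤ 1 := by
  have := abs_Zv_le ω.1 i
  unfold Yf
  rcases T.spin_eq ω i.1 with h | h <;> simpa [h] using this

theorem abs_Bf_le (v : V) (ω : Om0 V) (i : Slot V) : |T.Bf v ω i| ≤ 1 := by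
  have := abs_Zv_le ω i
  unfold Bf
  rcases T.s0_eq ω v with h | h <;> rcases T.s0_eq ω i.1 with h' | h' <;> simpa [h, h'] using this

theorem Yf_eq_smul (v : V) (ω : Om V) : T.Yf ω = T.spin ω v • T.Bf v ω.1 := by
  funext i
  have := T.s0_mul_self ω.1 v
  simp only [Yf, Bf, spin, Pi.smul_apply, smul_eq_mul]
  linear_combination (-(sgn ω.2 * T.s0 ω.1 i.1 * Zv ω.1 i)) * this

theorem Bf_adj {v c : V} (h : T.G.Adj v c) (ω : Om0 V) :
    T.Bf v ω = T.eta ω s(v, c) • T.Bf c ω := by
  funext i
  simp only [Bf, Pi.smul_apply, smul_eq_mul]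
  rw [T.s0_adj ω h.symm, Sym2.eq_swap (a := c)]
  ring

theorem Bf_self (v : V) (r : ℤ) (ω : Om0 V) : T.Bf v ω (v, r) = Zv ω (v, r) := by
  simp only [Bf, T.s0_mul_self, one_mul]

theorem dependsOn_Bf {v x : V} (h : T.G.Adj v x) {i : Slot V} (hi : i.1 ∈ T.half v x) :
    DependsOn (fun ω => T.Bf v ω i) (loc (T.half v x)) := by
  intro a b hab
  have h1 : T.s0 a v * T.s0 a i.1 = T.s0 b v * T.s0 b i.1 := T.dependsOn_s0_mul h hi hab
  have h2 : a (.w i.1 i.2) = b (.w i.1 i.2) := hab _ hi
  simp only [Bf, Zv, h1, h2]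

@[simp] theorem spin_glueC (x : Om0 V) (ω : Om V) (v : V) :
    T.spin (glueC x ω) v = T.spin ω v := by
  simp only [spin, glueC, T.s0_glueU]

@[simp] theorem Yf_glueC (x : Om0 V) (ω : Om V) : T.Yf (glueC x ω) = T.Yf ω := by
  funext i
  simp only [Yf, spin_glueC, Zv, glueC_w]

@[simp] theorem Bf_glueU (v : V) (x y : Om0 V) : T.Bf v (glue (Uset V) x y) = T.Bf v y := by
  funext i
  simp only [Bf, T.s0_glueU, Zv,
    glue_of_not_mem (A := Uset V) (j := Idx.w i.1 i.2) (fun h => h) x y]

/-- resampling the noise of one slot does not change spins -/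
theorem dependsOn_s0 (v : V) : DependsOn (fun ω => T.s0 ω v) {j | ∃ s, j = Idx.e s} := by
  exact T.dependsOn_s0' v

/-! ### symmetries -/

theorem idxMap_injective (g : T.G ≃g T.G) : Function.Injective (T.idxMap g) := by
  intro i j h
  cases i <;> cases j <;> simp only [idxMap, reduceCtorEq, Idx.e.injEq, Idx.u.injEq,
    Idx.w.injEq] at h ⊢
  · exact Sym2.map.injective g.injective h
  · exact ⟨g.injective h.1, h.2⟩
  · exact ⟨g.injective h.1, h.2⟩

theorem mp_T0 (g : T.G ≃g T.G) : MeasurePreserving (T.T0 g) (mu0 V) (mu0 V) := by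
  refine ⟨measurable_pi_lambda _ fun j => measurable_pi_apply _, ?_⟩
  exact Measure.map_infinitePi_infinitePi_of_inj
    (P := fun _ : Idx V => (volume : Measure unitInterval)) (T.idxMap_injective g)

theorem mp_Tg (g : T.G ≃g T.G) : MeasurePreserving (T.Tg g) (mu V) (mu V) := by
  classical
  have hm : Measurable (Function.uncurry
      (fun (x : Om0 V) (b : Bool) => if T.s0 x (g T.o) = 1 then b else !b)) := by
    refine Measurable.ite ?_ measurable_snd
      ((Measurable.of_discrete (f := fun b : Bool => !b)).comp measurable_snd)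
    exact measurableSet_eq_fun ((T.measurable_s0 _).comp measurable_fst) measurable_const
  refine (T.mp_T0 g).skew_product hm (Eventually.of_forall fun x => ?_)
  by_cases h : T.s0 x (g T.o) = 1
  · simp only [h, if_true]
    exact Measure.map_id
  · simp only [h, if_false]
    exact mp_not.map_eq

theorem s0_T0 (g : T.G ≃g T.G) (ω : Om0 V) (v : V) :
    T.s0 (T.T0 g ω) v = T.s0 ω (g T.o) * T.s0 ω (g v) := by
  refine T.tree_induction T.o
    (P := fun v => T.s0 (T.T0 g ω) v = T.s0 ω (g T.o) * T.s0 ω (g v))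
    (by rw [T.s0_root, T.s0_mul_self]) (fun v x h _ ih => ?_) v
  have hg : T.G.Adj (g v) (g x) := g.map_rel_iff.2 h
  have he : T.eta (T.T0 g ω) s(v, x) = T.eta ω s(g v, g x) := rfl
  rw [T.s0_adj _ h, T.s0_adj ω hg, ih, he]
  ring

theorem spin_Tg (g : T.G ≃g T.G) (ω : Om V) (v : V) : T.spin (T.Tg g ω) v = T.spin ω (g v) := by
  unfold spin Tg
  simp only [T.s0_T0]
  rcases T.s0_eq ω.1 (g T.o) with h | h
  · simp [h]
  · have : ¬ ((-1 : ℝ) = 1) := by norm_num
    rw [h, if_neg this]
    cases ω.2 <;> simp [sgn]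

theorem clock_T0 (g : T.G ≃g T.G) (ω : Om0 V) :
    clock (T.T0 g ω) = fun i => clock ω (T.slotMap g i) := by
  rfl

theorem Yf_Tg (g : T.G ≃g T.G) (ω : Om V) :
    T.Yf (T.Tg g ω) = fun i => T.Yf ω (T.slotMap g i) := by
  funext i
  simp only [Yf, T.spin_Tg]
  rfl

theorem Bf_T0 (g : T.G ≃g T.G) (v : V) (ω : Om0 V) :
    T.Bf v (T.T0 g ω) = fun i => T.Bf (g v) ω (T.slotMap g i) := by
  funext i
  have h1 := T.s0_mul_self ω (g T.o)
  have h2 : Zv (T.T0 g ω) i = Zv ω (T.slotMap g i) := rfl
  simp only [Bf, T.s0_T0, h2, slotMap]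
  linear_combination (T.s0 ω (g v) * T.s0 ω (g i.1) * Zv ω (g i.1, i.2)) * h1

theorem spin_flip (ω : Om V) (v : V) : T.spin (flip ω) v = -T.spin ω v := by
  unfold spin flip
  cases h : ω.2 <;> simp [sgn]

theorem Yf_flip (ω : Om V) : T.Yf (flip ω) = -T.Yf ω := by
  funext i
  simp only [Yf, T.spin_flip, Pi.neg_apply, neg_mul]
  rfl

/-- a connected set of vertices is closed under taking parents towards one of its points -/
theorem par_mem_of_connected {S : Set V} (hS : (T.G.induce S).Connected) {a v : V} (ha : a ∈ S)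
    (hv : v ∈ S) (hva : v ≠ a) : T.par a v ∈ S := by
  classical
  obtain ⟨q⟩ := hS.preconnected ⟨a, ha⟩ ⟨v, hv⟩
  let q' : T.G.Walk a v := q.map (SimpleGraph.Embedding.induce S).toHom
  have hq' : ∀ x ∈ q'.support, x ∈ S := by
    intro x hx
    have hx' : x ∈ (q.map (SimpleGraph.Embedding.induce S).toHom).support := hx
    rw [SimpleGraph.Walk.support_map, List.mem_map] at hx'
    obtain ⟨y, -, rfl⟩ := hx'
    exact y.2
  obtain ⟨hadj, hd⟩ := T.par_spec hva
  obtain ⟨p, hp⟩ := T.hT.connected.exists_walk_length_eq_dist a (T.par a v)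
  have hp2 : (p.concat hadj.symm).IsPath :=
    SimpleGraph.Walk.isPath_of_length_eq_dist _ (by rw [SimpleGraph.Walk.length_concat]; omega)
  have h1 : p.concat hadj.symm = q'.bypass :=
    ((T.hT.existsUnique_path a v).unique hp2 q'.bypass_isPath)
  refine hq' _ (q'.support_bypass_subset_support ?_)
  rw [← h1, SimpleGraph.Walk.support_concat]
  simp

theorem sgn_mul_self (b : Bool) : sgn b * sgn b = 1 := by
  cases b <;> simp [sgn]

open Classical in
theorem measure_gauge_cylinder (a : V) (η : V → Bool) (S : Finset V) (ha : a ∈ S)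
    (hS : ∀ v ∈ S, v ≠ a → T.par a v ∈ S) :
    mu0 V {x | ∀ v ∈ S, T.s0 x a * T.s0 x v = sgn (η a) * sgn (η v)}
      = ENNReal.ofReal (∏ e ∈ S.sym2 with e ∈ T.G.edgeSet,
          (if (Sym2.map η e).IsDiag then (1 + T.θ) / 2 else (1 - T.θ) / 2)) := by
  have hθ0 := T.θ_nonneg
  have hθ1 := T.θ_lt_one
  induction S using Finset.strongInduction with
  | H S ih =>
    obtain ⟨l, hl, hmax⟩ := S.exists_max_image (fun v => T.G.dist a v) ⟨a, ha⟩
    by_cases hla : l = a
    · have hSa : S = {a} := by
        refine Finset.eq_singleton_iff_unique_mem.2 ⟨ha, fun v hv => ?_⟩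
        have := hmax v hv
        rw [hla, SimpleGraph.dist_self, Nat.le_zero] at this
        exact (T.hT.connected.dist_eq_zero_iff.1 this).symm
      subst hSa
      have h1 : {x : Om0 V | ∀ v ∈ ({a} : Finset V),
          T.s0 x a * T.s0 x v = sgn (η a) * sgn (η v)} = univ := by
        ext x
        simp [T.s0_mul_self, sgn_mul_self]
      have h2 : (({a} : Finset V).sym2.filter (fun e => e ∈ T.G.edgeSet)) = ∅ := by
        simp
      rw [h1, h2]
      simp
    · obtain ⟨hadj, hd⟩ := T.par_spec hla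
      set p := T.par a l with hp
      have hpS : p ∈ S := hS l hl hla
      have hpl : p ≠ l := hadj.ne.symm
      have haS' : a ∈ S.erase l := Finset.mem_erase.2 ⟨Ne.symm hla, ha⟩
      have hpS' : p ∈ S.erase l := Finset.mem_erase.2 ⟨hpl, hpS⟩
      have hS' : ∀ v ∈ S.erase l, v ≠ a → T.par a v ∈ S.erase l := by
        intro v hv hva
        have hvS := Finset.mem_of_mem_erase hv
        refine Finset.mem_erase.2 ⟨fun h => ?_, hS v hvS hva⟩
        have h1 := (T.par_spec hva).2
        have h2 := hmax v hvS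
        rw [h] at h1
        omega
      have ih' := ih (S.erase l) (Finset.erase_ssubset hl) haS' hS'
      have hfilter : S.sym2.filter (fun e => e ∈ T.G.edgeSet)
          = insert s(l, p) ((S.erase l).sym2.filter (fun e => e ∈ T.G.edgeSet)) := by
        ext e
        induction e using Sym2.ind with
        | h x y =>
          simp only [Finset.mem_filter, Finset.mk_mem_sym2_iff, SimpleGraph.mem_edgeSet,
            Finset.mem_insert, Finset.mem_erase]
          constructor
          · rintro ⟨⟨hx, hy⟩, hxy⟩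
            have key : ∀ y ∈ S, T.G.Adj l y → y = p := by
              intro y hy hly
              refine T.par_unique hly ?_
              have := hmax y hy
              rcases T.hT.dist_eq_dist_add_one_of_adj a hly with h | h <;> omega
            by_cases hxl : x = l
            · subst hxl
              exact Or.inl (by rw [key y hy hxy])
            · by_cases hyl : y = l
              · subst hyl
                exact Or.inl (by rw [key x hx hxy.symm, Sym2.eq_swap])
              · exact Or.inr ⟨⟨⟨hxl, hx⟩, ⟨hyl, hy⟩⟩, hxy⟩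
          · rintro (h | ⟨⟨hx, hy⟩, hxy⟩)
            · rcases Sym2.eq_iff.1 h with ⟨rfl, rfl⟩ | ⟨rfl, rfl⟩
              · exact ⟨⟨hl, hpS⟩, hadj⟩
              · exact ⟨⟨hpS, hl⟩, hadj.symm⟩
            · exact ⟨⟨hx.2, hy.2⟩, hxy⟩
      have hnot : s(l, p) ∉ (S.erase l).sym2.filter (fun e => e ∈ T.G.edgeSet) := by
        simp
      rw [hfilter, Finset.prod_insert hnot]
      set D : Set (Om0 V) := {x | ∀ v ∈ S.erase l, T.s0 x a * T.s0 x v = sgn (η a) * sgn (η v)}
        with hD
      have hsplit : {x : Om0 V | ∀ v ∈ S, T.s0 x a * T.s0 x v = sgn (η a) * sgn (η v)}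
          = (fun x => T.eta x s(l, p)) ⁻¹' {sgn (η l) * sgn (η p)}
            ∩ (fun x => (x ∈ D : Prop)) ⁻¹' {True} := by
        ext x
        simp only [mem_ofPred_eq, mem_inter_iff, mem_preimage, mem_singleton_iff, eq_iff_iff,
          iff_true, hD]
        have h1 := T.s0_adj x hadj.symm
        rw [Sym2.eq_swap] at h1
        have h2 := sgn_mul_self (η a)
        have h3 := sgn_mul_self (η p)
        constructor
        · intro h
          refine ⟨?_, fun v hv => h v (Finset.mem_of_mem_erase hv)⟩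
          have h4 := h l hl
          have h5 := h p hpS
          rw [h1] at h4
          have h6 : T.eta x s(l, p) * (sgn (η a) * sgn (η p)) = sgn (η a) * sgn (η l) := by
            rw [← h5, ← h4]; ring
          linear_combination (sgn (η a) * sgn (η p)) * h6
            - (T.eta x s(l, p) * sgn (η p) * sgn (η p) - sgn (η l) * sgn (η p)) * h2
            - T.eta x s(l, p) * h3
        · rintro ⟨h4, h5⟩ v hv
          by_cases hvl : v = l
          · subst hvl
            have h6 := h5 p hpS'
            rw [h1, h4]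
            linear_combination (sgn (η v) * sgn (η p)) * h6 + (sgn (η v) * sgn (η a)) * h3
          · exact h5 v (Finset.mem_erase.2 ⟨hvl, hv⟩)
      have hDm : MeasurableSet D := by
        have : D = ⋂ v ∈ S.erase l, {x | T.s0 x a * T.s0 x v = sgn (η a) * sgn (η v)} := by
          ext x
          simp only [hD, mem_ofPred_eq, mem_iInter]
        rw [this]
        exact Finset.measurableSet_biInter _ fun v _ =>
          measurableSet_eq_fun ((T.measurable_s0 a).mul (T.measurable_s0 v)) measurable_const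
      have hdep : DependsOn (fun x => (x ∈ D : Prop)) (loc (S.erase l : Set V)) := by
        intro x y hxy
        have : ∀ v ∈ S.erase l, T.s0 x a * T.s0 x v = T.s0 y a * T.s0 y v := fun v hv =>
          T.dependsOn_s0_mul_of_par (A := (S.erase l : Set V)) hS' hv hxy
        simp only [hD, mem_ofPred_eq, eq_iff_iff]
        exact forall₂_congr fun v hv => by rw [this v hv]
      have hind : IndepFun (fun x => T.eta x s(l, p)) (fun x => (x ∈ D : Prop)) (mu0 V) :=
        indepFun_of_dependsOn (T.measurable_eta _) hDm.mem (T.dependsOn_eta _) hdep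
          (Set.disjoint_singleton_left.2 (e_not_mem_loc (by simp)))
      rw [hsplit, hind.measure_inter_preimage_eq_mul _ _ (measurableSet_singleton _)
        MeasurableSet.of_discrete]
      have hD' : (fun x => (x ∈ D : Prop)) ⁻¹' {True} = D := by
        ext x
        simp
      rw [hD', ih', ENNReal.ofReal_mul (by split_ifs <;> linarith)]
      congr 1
      have e1 := T.measure_eta_one s(l, p)
      have e2 := T.measure_eta_neg s(l, p)
      simp only [Sym2.map_mk, Sym2.mk_isDiag_iff]
      cases η l <;> cases η p <;> simp [sgn, preimage] <;> first | exact e1 | exact e2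

/-- the spins have the law of the free Ising state -/
theorem measure_cylinder (S : Finset V) (η : V → Bool)
    (hS : (T.G.induce (S : Set V)).Connected) :
    mu V {ω | ∀ v ∈ S, T.spin ω v = sgn (η v)}
      = ENNReal.ofReal (Crest.ProbabilityR.TreeIsing.isingWeight T.G T.θ S η) := by
  classical
  obtain ⟨⟨a, ha⟩⟩ := hS.nonempty
  have hpar : ∀ v ∈ S, v ≠ a → T.par a v ∈ S := fun v hv hva =>
    T.par_mem_of_connected hS ha hv hva
  have h0 := T.measure_gauge_cylinder a η S ha hpar
  set D : Set (Om0 V) := {x | ∀ v ∈ S, T.s0 x a * T.s0 x v = sgn (η a) * sgn (η v)} with hD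
  have hDm : MeasurableSet D := by
    have : D = ⋂ v ∈ S, {x | T.s0 x a * T.s0 x v = sgn (η a) * sgn (η v)} := by
      ext x
      simp only [hD, mem_ofPred_eq, mem_iInter]
    rw [this]
    exact Finset.measurableSet_biInter _ fun v _ =>
      measurableSet_eq_fun ((T.measurable_s0 a).mul (T.measurable_s0 v)) measurable_const
  have hEm : MeasurableSet {ω : Om V | ∀ v ∈ S, T.spin ω v = sgn (η v)} := by
    have : {ω : Om V | ∀ v ∈ S, T.spin ω v = sgn (η v)}
        = ⋂ v ∈ S, {ω | T.spin ω v = sgn (η v)} := by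
      ext x
      simp only [mem_ofPred_eq, mem_iInter]
    rw [this]
    exact Finset.measurableSet_biInter _ fun v _ =>
      measurableSet_eq_fun (T.measurable_spin v) measurable_const
  have hiff : ∀ (x : Om0 V) (b : Bool), (∀ v ∈ S, T.spin (x, b) v = sgn (η v)) ↔
      (x ∈ D ∧ sgn b * T.s0 x a = sgn (η a)) := by
    intro x b
    have h1 := sgn_mul_self b
    have h2 := sgn_mul_self (η a)
    have h3 := T.s0_mul_self x a
    simp only [spin, hD, mem_ofPred_eq]
    constructor
    · intro h
      refine ⟨fun v hv => ?_, h a ha⟩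
      rw [← h a ha, ← h v hv]
      linear_combination (-(T.s0 x a * T.s0 x v)) * h1
    · rintro ⟨h, h'⟩ v hv
      have h4 := h v hv
      linear_combination (sgn b * T.s0 x a) * h4 + (sgn (η a) * sgn (η v)) * h'
        + sgn (η v) * h2 - (sgn b * T.s0 x v) * h3
  have hslice : ∀ x : Om0 V,
      coin (Prod.mk x ⁻¹' {ω : Om V | ∀ v ∈ S, T.spin ω v = sgn (η v)})
        = D.indicator (fun _ => (2 : ℝ≥0∞)⁻¹) x := by
    intro x
    have hne : ¬ ((1 : ℝ) = -1) := by norm_num
    have hne' : ¬ ((-1 : ℝ) = 1) := by norm_num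
    rw [coin_apply]
    simp only [indicator, mem_preimage, mem_ofPred_eq, hiff, Pi.one_apply]
    by_cases hx : x ∈ D
    · rcases T.s0_eq x a with h | h <;> rcases Bool.eq_false_or_eq_true (η a) with h' | h' <;>
        simp [hx, h, h', sgn, hne, hne']
    · simp [hx]
  unfold mu
  rw [Measure.prod_apply hEm]
  simp only [hslice]
  rw [lintegral_indicator_const hDm, h0, Crest.ProbabilityR.TreeIsing.isingWeight,
    ENNReal.ofReal_mul (by norm_num)]
  congr 1
  rw [one_div, ENNReal.ofReal_inv_of_pos (by norm_num)]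
  simp

end Ctx

end Crest.Agent.R160
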