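import Crest.Agent.R160.Meas

/-! Orthogonal decomposition along a finite chain of σ-algebras. -/

set_option autoImplicit false

namespace Crest.Agent.R160

open MeasureTheory ProbabilityTheory Set Filter Topology
open scoped ENNReal

section

variable {Ω : Type*} {m' m m0 : MeasurableSpace Ω} {μ : Measure Ω} [IsProbabilityMeasure μ]
  {X A B F : Ω → ℝ}

omit [IsProbabilityMeasure μ] in
theorem aesm_sum {ι : Type*} (K : Finset ι) {D : ι → Ω → ℝ}
    (h : ∀ i ∈ K, AEStronglyMeasurable[m] (D i) μ) :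
    AEStronglyMeasurable[m] (fun ω => ∑ i ∈ K, D i ω) μ := by
  classical
  induction K using Finset.induction_on with
  | empty => simpa using aestronglyMeasurable_const
  | insert i K hiK ih =>
    simp only [Finset.sum_insert hiK]
    exact (h i (Finset.mem_insert_self i K)).add
      (ih fun j hj => h j (Finset.mem_insert_of_mem hj))

/-- Pythagoras -/
theorem integral_sq_add (hA : AB μ A) (hB : AB μ B) (h : ∫ ω, B ω * A ω ∂μ = 0) :
    ∫ ω, (A ω + B ω) ^ 2 ∂μ = (∫ ω, A ω ^ 2 ∂μ) + ∫ ω, B ω ^ 2 ∂μ := by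
  have h1 : ∀ ω, (A ω + B ω) ^ 2 = (A ω ^ 2 + B ω ^ 2) + 2 * (B ω * A ω) := fun ω => by ring
  simp only [h1]
  rw [integral_add ((hA.pow 2).add (hB.pow 2)).integrable ((hB.mul hA).const_mul 2).integrable,
    integral_add (hA.pow 2).integrable (hB.pow 2).integrable, integral_const_mul, h]
  ring

/-- martingale increments are orthogonal to the past -/
theorem orth_condExp (hm' : m' ≤ m) (hm : m ≤ m0) (hX : AB μ X) (hF : AB μ F)
    (hFm : AEStronglyMeasurable[m'] F μ) :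
    ∫ ω, F ω * ((μ[X | m]) ω - (μ[X | m']) ω) ∂μ = 0 := by
  simp only [mul_sub]
  rw [integral_sub (hF.mul (hX.condExp hm)).integrable
    (hF.mul (hX.condExp (hm'.trans hm))).integrable,
    integral_mul_condExp hm hX hF (hFm.mono hm'), integral_mul_condExp (hm'.trans hm) hX hF hFm,
    sub_self]

theorem integral_condExp_sub_sq' (hm' : m' ≤ m) (hm : m ≤ m0) (hX : AB μ X) :
    ∫ ω, ((μ[X | m]) ω - (μ[X | m']) ω) ^ 2 ∂μ
      = (∫ ω, (μ[X | m]) ω ^ 2 ∂μ) - ∫ ω, (μ[X | m']) ω ^ 2 ∂μ := by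
  have h0 := hm'.trans hm
  have h1 := integral_sq_add ((hX.condExp hm).sub (hX.condExp h0)) (hX.condExp h0)
    (orth_condExp hm' hm hX (hX.condExp h0) stronglyMeasurable_condExp.aestronglyMeasurable)
  simp only [sub_add_cancel] at h1
  rw [h1]
  ring

end

section

variable {Ω ι : Type*} {lo : MeasurableSpace Ω} {a b : ι → MeasurableSpace Ω}
  {m0 : MeasurableSpace Ω} {μ : Measure Ω} [IsProbabilityMeasure μ] {X G0 : Ω → ℝ}

theorem telescope (hX : AB μ X) (τ : ι → ℝ) (hG0 : AB μ G0)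
    (hG0m : AEStronglyMeasurable[lo] G0 μ) (Dt : ι → Ω → ℝ) (K : Finset ι)
    (hinj : Set.InjOn τ K) (hi : MeasurableSpace Ω) (hhi : hi ≤ m0) (hlohi : lo ≤ hi)
    (hab : ∀ i ∈ K, a i ≤ b i) (hlo : ∀ i ∈ K, lo ≤ a i) (hb : ∀ i ∈ K, b i ≤ hi)
    (hchain : ∀ i ∈ K, ∀ j ∈ K, τ i < τ j → b i ≤ a j)
    (hD : ∀ i ∈ K, @AB Ω m0 μ (Dt i)) (hDm : ∀ i ∈ K, AEStronglyMeasurable[b i] (Dt i) μ)
    (hD0 : ∀ i ∈ K, ∀ F : Ω → ℝ, @AB Ω m0 μ F → AEStronglyMeasurable[a i] F μ →
      ∫ ω, F ω * Dt i ω ∂μ = 0) :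
    ∫ ω, ((μ[X | hi]) ω - G0 ω - ∑ i ∈ K, Dt i ω) ^ 2 ∂μ
      = (∫ ω, ((μ[X | lo]) ω - G0 ω) ^ 2 ∂μ)
        + ((∫ ω, (μ[X | hi]) ω ^ 2 ∂μ) - (∫ ω, (μ[X | lo]) ω ^ 2 ∂μ)
            - ∑ i ∈ K, ∫ ω, ((μ[X | b i]) ω - (μ[X | a i]) ω) ^ 2 ∂μ)
        + ∑ i ∈ K, ∫ ω, ((μ[X | b i]) ω - (μ[X | a i]) ω - Dt i ω) ^ 2 ∂μ := by
  classical
  induction K using Finset.induction_on_max_value τ generalizing hi with
  | empty =>
    let : MeasurableSpace Ω := m0
    simp only [Finset.sum_empty, sub_zero, add_zero]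
    have hlo0 : lo ≤ m0 := hlohi.trans hhi
    have h1 := integral_sq_add (μ := μ) (A := fun ω => (μ[X | hi]) ω - (μ[X | lo]) ω)
      (B := fun ω => (μ[X | lo]) ω - G0 ω) ((hX.condExp hhi).sub (hX.condExp hlo0))
      ((hX.condExp hlo0).sub hG0)
      (orth_condExp hlohi hhi hX ((hX.condExp hlo0).sub hG0)
        (stronglyMeasurable_condExp.aestronglyMeasurable.sub hG0m))
    simp only [sub_add_sub_cancel] at h1
    rw [h1, integral_condExp_sub_sq' hlohi hhi hX]
    ring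
  | insert i K hiK hmax ih =>
    let : MeasurableSpace Ω := m0
    have hi' : i ∈ insert i K := Finset.mem_insert_self i K
    have hsub : ∀ j ∈ K, j ∈ insert i K := fun j hj => Finset.mem_insert_of_mem hj
    have hlt : ∀ j ∈ K, τ j < τ i := by
      intro j hj
      refine lt_of_le_of_ne (hmax j hj) fun h => hiK ?_
      rw [← hinj (Finset.mem_coe.2 (hsub j hj)) (Finset.mem_coe.2 hi') h]
      exact hj
    have hba : ∀ j ∈ K, b j ≤ a i := fun j hj => hchain j (hsub j hj) i hi' (hlt j hj)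
    have hb0 : b i ≤ m0 := (hb i hi').trans hhi
    have ha0 : a i ≤ m0 := (hab i hi').trans hb0
    have IH := ih (hinj.mono (by simp)) (a i) ha0 (hlo i hi') (fun j hj => hab j (hsub j hj))
      (fun j hj => hlo j (hsub j hj)) hba (fun j hj k hk => hchain j (hsub j hj) k (hsub k hk))
      (fun j hj => hD j (hsub j hj)) (fun j hj => hDm j (hsub j hj))
      (fun j hj => hD0 j (hsub j hj))
    have hC : @AB Ω m0 μ (fun ω => (μ[X | a i]) ω - G0 ω - ∑ j ∈ K, Dt j ω) :=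
      ((hX.condExp ha0).sub hG0).sub (AB.sum K fun j hj => hD j (hsub j hj))
    have hCm : AEStronglyMeasurable[a i]
        (fun ω => (μ[X | a i]) ω - G0 ω - ∑ j ∈ K, Dt j ω) μ := by
      refine (stronglyMeasurable_condExp.aestronglyMeasurable.sub (hG0m.mono (hlo i hi'))).sub ?_
      exact aesm_sum K fun j hj => (hDm j (hsub j hj)).mono (hba j hj)
    have hB : @AB Ω m0 μ (fun ω => (μ[X | b i]) ω - (μ[X | a i]) ω - Dt i ω) :=
      ((hX.condExp hb0).sub (hX.condExp ha0)).sub (hD i hi')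
    have hBm : AEStronglyMeasurable[b i]
        (fun ω => (μ[X | b i]) ω - (μ[X | a i]) ω - Dt i ω) μ :=
      (stronglyMeasurable_condExp.aestronglyMeasurable.sub
        (stronglyMeasurable_condExp.aestronglyMeasurable.mono (hab i hi'))).sub (hDm i hi')
    have hBC : ∫ ω, ((μ[X | a i]) ω - G0 ω - ∑ j ∈ K, Dt j ω)
        * ((μ[X | b i]) ω - (μ[X | a i]) ω - Dt i ω) ∂μ = 0 := by
      simp only [mul_sub (_ : ℝ) (_ - _) (Dt i _)]
      rw [integral_sub (hC.mul ((hX.condExp hb0).sub (hX.condExp ha0))).integrable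
        (hC.mul (hD i hi')).integrable, orth_condExp (hab i hi') hb0 hX hC hCm,
        hD0 i hi' _ hC hCm, sub_zero]
    have h1 := integral_sq_add hB hC hBC
    have h2 := integral_sq_add ((hX.condExp hhi).sub (hX.condExp hb0)) (hB.add hC)
      (orth_condExp (hb i hi') hhi hX (hB.add hC) (hBm.add (hCm.mono (hab i hi'))))
    have h3 := integral_condExp_sub_sq' (hb i hi') hhi hX
    have h4 := integral_condExp_sub_sq' (hab i hi') hb0 hX
    simp only [Finset.sum_insert hiK]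
    have h5 : ∀ ω, (μ[X | hi]) ω - G0 ω - (Dt i ω + ∑ j ∈ K, Dt j ω)
        = (μ[X | hi]) ω - (μ[X | b i]) ω + ((μ[X | b i]) ω - (μ[X | a i]) ω - Dt i ω
          + ((μ[X | a i]) ω - G0 ω - ∑ j ∈ K, Dt j ω)) := fun ω => by ring
    simp only [h5]
    rw [h2, h1, IH, h3, h4]
    ring

theorem telescope_nonneg (hX : AB μ X) (τ : ι → ℝ) (K : Finset ι)
    (hinj : Set.InjOn τ K) (hi : MeasurableSpace Ω) (hhi : hi ≤ m0) (hlohi : lo ≤ hi)
    (hab : ∀ i ∈ K, a i ≤ b i) (hlo : ∀ i ∈ K, lo ≤ a i) (hb : ∀ i ∈ K, b i ≤ hi)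
    (hchain : ∀ i ∈ K, ∀ j ∈ K, τ i < τ j → b i ≤ a j) :
    0 ≤ (∫ ω, (μ[X | hi]) ω ^ 2 ∂μ) - (∫ ω, (μ[X | lo]) ω ^ 2 ∂μ)
            - ∑ i ∈ K, ∫ ω, ((μ[X | b i]) ω - (μ[X | a i]) ω) ^ 2 ∂μ := by
  let : MeasurableSpace Ω := m0
  have hlo0 : lo ≤ m0 := hlohi.trans hhi
  have hb0 : ∀ i ∈ K, b i ≤ m0 := fun i h => (hb i h).trans hhi
  have ha0 : ∀ i ∈ K, a i ≤ m0 := fun i h => (hab i h).trans (hb0 i h)
  have h := telescope (lo := lo) (a := a) (b := b) hX τ (hX.condExp hlo0)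
    stronglyMeasurable_condExp.aestronglyMeasurable
    (fun i ω => (μ[X | b i]) ω - (μ[X | a i]) ω) K hinj hi hhi hlohi hab hlo hb hchain
    (fun i h => (hX.condExp (hb0 i h)).sub (hX.condExp (ha0 i h)))
    (fun i h => stronglyMeasurable_condExp.aestronglyMeasurable.sub
      (stronglyMeasurable_condExp.aestronglyMeasurable.mono (hab i h)))
    (fun i h F hF hFm => orth_condExp (hab i h) (hb0 i h) hX hF hFm)
  simp only [sub_self, ne_eq, OfNat.ofNat_ne_zero, not_false_eq_true, zero_pow, integral_zero,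
    Finset.sum_const_zero, add_zero, zero_add] at h
  rw [← h]
  exact integral_nonneg fun _ => sq_nonneg _

end

section

variable {Ω : Type*} {m' m m0 : MeasurableSpace Ω} {μ : Measure Ω} [IsProbabilityMeasure μ]
  {X : Ω → ℝ}

theorem integral_condExp_sub_sq (hm' : m' ≤ m) (hm : m ≤ m0) (hX : AB μ X) :
    ∫ ω, ((μ[X | m]) ω - (μ[X | m']) ω) ^ 2 ∂μ
      = (∫ ω, (μ[X | m]) ω ^ 2 ∂μ) - ∫ ω, (μ[X | m']) ω ^ 2 ∂μ := by
  exact integral_condExp_sub_sq' hm' hm hX

end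

/-- telescoping along a finite set ordered by `τ` -/
theorem telescope_set {ι κ : Type*} (Φ : Set κ → ℝ) (e : ι → κ) (τ : ι → ℝ) (O : Set κ)
    (K : Finset ι) (hinj : Set.InjOn τ K) :
    Φ (O ∪ e '' (K : Set ι)) - Φ O
      = ∑ i ∈ K, (Φ (insert (e i) (O ∪ e '' {j | j ∈ K ∧ τ j < τ i}))
          - Φ (O ∪ e '' {j | j ∈ K ∧ τ j < τ i})) := by
  classical
  induction K using Finset.induction_on_max_value τ with
  | empty => simp
  | insert i K hiK hmax ih =>
    have hi' : i ∈ insert i K := Finset.mem_insert_self i K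
    have hsub : ∀ j ∈ K, j ∈ insert i K := fun j hj => Finset.mem_insert_of_mem hj
    have hlt : ∀ j ∈ K, τ j < τ i := by
      intro j hj
      refine lt_of_le_of_ne (hmax j hj) fun h => hiK ?_
      rw [← hinj (Finset.mem_coe.2 (hsub j hj)) (Finset.mem_coe.2 hi') h]
      exact hj
    have h1 : {j | j ∈ insert i K ∧ τ j < τ i} = (K : Set ι) := by
      ext j
      simp only [Finset.mem_insert, mem_ofPred_eq, Finset.mem_coe]
      constructor
      · rintro ⟨rfl | h, h'⟩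
        · exact absurd h' (lt_irrefl _)
        · exact h
      · exact fun h => ⟨Or.inr h, hlt j h⟩
    have h2 : ∀ k ∈ K, {j | j ∈ insert i K ∧ τ j < τ k} = {j | j ∈ K ∧ τ j < τ k} := by
      intro k hk
      ext j
      simp only [Finset.mem_insert, mem_ofPred_eq]
      constructor
      · rintro ⟨rfl | h, h'⟩
        · exact absurd h' (not_lt.2 (hmax k hk))
        · exact ⟨h, h'⟩
      · exact fun h => ⟨Or.inr h.1, h.2⟩
    rw [Finset.sum_insert hiK, h1, Finset.sum_congr rfl fun k hk => by rw [h2 k hk],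
      ← ih (hinj.mono (by simp)), Finset.coe_insert, image_insert_eq, union_insert]
    ring

end Crest.Agent.R160
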