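import Crest.Agent.R160.Innov
import Crest.Agent.R160.Tele

/-! One step of the localisation process: definitions, the jump, the Palm bound. -/

set_option autoImplicit false

namespace Crest.Agent.R160

open MeasureTheory ProbabilityTheory Set Filter Topology
open scoped ENNReal

universe u

variable {V : Type u}

/-- the slots observed strictly before slot `i` rings -/
def Otau (i : Slot V) (c : Clk V) : Set (Slot V) := Ot (tau c i) c

open Classical in
/-- indicator that slot `i` has been observed before time `t` -/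
noncomputable def seen (i : Slot V) (t : ℝ) (c : Clk V) : ℝ := if i ∈ Ot t c then 1 else 0

/-- indicator that slot `i` rings during `[s, s')` -/
noncomputable def ring (i : Slot V) (s s' : ℝ) (c : Clk V) : ℝ := seen i s' c - seen i s c

theorem isMask_Otau' (i : Slot V) : IsMask i.2 (Otau i) := isMask_Otau i

theorem not_mem_Otau (i : Slot V) (c : Clk V) : i ∉ Otau i c := fun h => lt_irrefl _ h.2

theorem measurable_seen (i : Slot V) (t : ℝ) : Measurable (seen i t : Clk V → ℝ) := by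
  unfold seen
  exact Measurable.ite ((isMask_Ot (r := ⌈t⌉) (by linarith [Int.le_ceil t])).meas i)
    measurable_const measurable_const

theorem bm_seen (i : Slot V) (t : ℝ) : BM (seen i t : Clk V → ℝ) :=
  BM.of_le (measurable_seen i t) 1 fun c => by
    unfold seen
    split_ifs <;> simp

theorem ring_eq_one {i : Slot V} {s s' : ℝ} {c : Clk V} (h' : i ∈ Ot s' c) (h : i ∉ Ot s c) :
    ring i s s' c = 1 := by
  simp [ring, seen, h, h']

theorem ring_eq_zero {i : Slot V} {s s' : ℝ} (hs : s ≤ s') {c : Clk V}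
    (h : ¬ (i ∈ Ot s' c ∧ i ∉ Ot s c)) : ring i s s' c = 0 := by
  by_cases h1 : i ∈ Ot s c
  · simp [ring, seen, h1, Ot_mono hs c h1]
  · have h2 : i ∉ Ot s' c := fun h2 => h ⟨h2, h1⟩
    simp [ring, seen, h1, h2]

theorem ring_nonneg (i : Slot V) {s s' : ℝ} (hs : s ≤ s') (c : Clk V) : 0 ≤ ring i s s' c := by
  by_cases h : i ∈ Ot s' c ∧ i ∉ Ot s c
  · rw [ring_eq_one h.1 h.2]; norm_num
  · rw [ring_eq_zero hs h]

theorem ring_le_one (i : Slot V) {s s' : ℝ} (hs : s ≤ s') (c : Clk V) : ring i s s' c ≤ 1 := by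
  by_cases h : i ∈ Ot s' c ∧ i ∉ Ot s c
  · rw [ring_eq_one h.1 h.2]
  · rw [ring_eq_zero hs h]; norm_num

theorem bm_ring (i : Slot V) (s s' : ℝ) : BM (fun ω : Om V => ring i s s' (clock ω.1)) :=
  ((bm_seen i s').sub (bm_seen i s)).comp (measurable_clock.comp measurable_fst)

namespace Ctx

variable (T : Ctx V)

/-- the jump of the posterior mean at the root when slot `i` is added to the mask `O` -/
noncomputable def DO (O : Clk V → Set (Slot V)) (i : Slot V) (ω : Om V) : ℝ :=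
  T.mf T.o (T.YO (fun c => insert i (O c)) ω) - T.mf T.o (T.YO O ω)

/-- the predicted jump -/
noncomputable def Dpred (jt mm : V → Wsp V → ℝ) (s : ℝ) (i : Slot V) (ω : Om V) : ℝ :=
  jt i.1 (T.Xit s ω) * phi (kap i.2) (mm i.1 (T.Xit s ω)) (T.xi ω i)

/-- second moment of the posterior mean at the root -/
noncomputable def V2 (t : ℝ) : ℝ := ∫ ω, T.mt t T.o ω ^ 2 ∂mu V

/-- the part of the quadratic variation that is not due to jumps in the ball of radius `n` -/
noncomputable def gap (r : ℤ) (n : ℕ) (s s' : ℝ) : ℝ :=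
  T.V2 s' - T.V2 s
    - ∑ w ∈ T.ball n, ∫ ω, ring (w, r) s s' (clock ω.1) * T.DO (Otau (w, r)) (w, r) ω ^ 2 ∂mu V

/-- prediction error at time `s` -/
noncomputable def E1 (jt mm : V → Wsp V → ℝ) (s : ℝ) (w : V) (ω : Om V) : ℝ :=
  (T.Jo w (T.Yt s ω) - jt w (T.Xit s ω)) ^ 2
    + T.Jo w (T.Yt s ω) ^ 2 * (T.mt s w ω - mm w (T.Xit s ω)) ^ 2

/-- discretisation error -/
noncomputable def E2 (O : Clk V → Set (Slot V)) (i : Slot V) (ω : Om V) : ℝ :=
  (T.Jo i.1 (T.YO (Otau i) ω) - T.Jo i.1 (T.YO O ω)) ^ 2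
    + (T.mf i.1 (T.YO (Otau i) ω) - T.mf i.1 (T.YO O ω)) ^ 2

theorem bm_mf_YO {R : ℤ} {O : Clk V → Set (Slot V)} (hO : IsMask R O) (v : V) :
    BM (fun ω => T.mf v (T.YO O ω)) :=
  BM.of_le ((T.measurable_mf v).comp (T.measurable_YO hO)) 1 fun _ => T.abs_mf_le _ _

theorem bm_Jo_YO {R : ℤ} {O : Clk V → Set (Slot V)} (hO : IsMask R O) (w : V) :
    BM (fun ω => T.Jo w (T.YO O ω)) :=
  BM.of_le ((T.measurable_Jo w).comp (T.measurable_YO hO)) 1 fun _ => T.abs_Jo_le _ _

theorem bm_DO {R : ℤ} {O : Clk V → Set (Slot V)} (hO : IsMask R O) {i : Slot V} (hi : i.2 ≤ R) :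
    BM (T.DO O i) :=
  (T.bm_mf_YO (hO.insert hi) T.o).sub (T.bm_mf_YO hO T.o)

theorem bm_E2 {R : ℤ} {O : Clk V → Set (Slot V)} (hO : IsMask R O) (i : Slot V) :
    BM (T.E2 O i) :=
  (((T.bm_Jo_YO (isMask_Otau' i) i.1).sub (T.bm_Jo_YO hO i.1)).pow 2).add
    (((T.bm_mf_YO (isMask_Otau' i) i.1).sub (T.bm_mf_YO hO i.1)).pow 2)

theorem E2_nonneg (O : Clk V → Set (Slot V)) (i : Slot V) (ω : Om V) : 0 ≤ T.E2 O i ω :=
  add_nonneg (sq_nonneg _) (sq_nonneg _)

/-- the jump formula for a random mask -/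
theorem DO_eq {R : ℤ} {O : Clk V → Set (Slot V)} (hO : IsMask R O) {i : Slot V} (hi : i.2 ≤ R) :
    ∀ᵐ ω ∂mu V, i ∉ O (clock ω.1) →
      T.DO O i ω = T.Jo i.1 (T.YO O ω)
        * (kap i.2 * T.Yf ω i / (1 + T.mf i.1 (T.YO O ω) * (kap i.2 * T.Yf ω i))) := by
  filter_upwards [T.good_ae hO, T.good_ae (hO.insert hi)] with ω h1 h2 h3
  obtain ⟨w, r⟩ := i
  have key := T.jump (T.abs_Yf_le ω) (hO.le (clock ω.1)) (T.geo_NB w) (r := r)
    (by rw [T.geo_last]; exact h3) h1 (by rw [T.geo_last]; exact h2)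
  rw [T.geo_zero, T.geo_last] at key
  exact key

theorem DO_sq_le {R : ℤ} {O : Clk V → Set (Slot V)} (hO : IsMask R O) {i : Slot V}
    (hi : i.2 ≤ R) :
    ∀ᵐ ω ∂mu V, T.DO O i ω ^ 2 ≤ 4 * kap i.2 ^ 2 * T.Jo i.1 (T.YO O ω) ^ 2 := by
  filter_upwards [T.DO_eq hO hi] with ω h
  by_cases h1 : i ∈ O (clock ω.1)
  · have : T.DO O i ω = 0 := by
      unfold DO YO
      simp only [insert_eq_of_mem h1, sub_self]
    rw [this, zero_pow two_ne_zero]
    positivity
  · rw [h h1, ← phi_Fc (kap_pos _).le (kap_le_half _) (T.abs_mf_le _ _) (T.abs_Yf_le ω i), mul_pow,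
      mul_comm]
    refine mul_le_mul_of_nonneg_right ?_ (sq_nonneg _)
    rw [show 4 * kap i.2 ^ 2 = (2 * kap i.2) ^ 2 by ring]
    exact sq_le_sq' (abs_le.1 (abs_phi_le (kap_pos _).le (kap_le_half _) (T.abs_mf_le _ _)
      (Subtype.property _))).1 (abs_le.1 (abs_phi_le (kap_pos _).le (kap_le_half _)
      (T.abs_mf_le _ _) (Subtype.property _))).2

theorem DO_Otau_eq (i : Slot V) : ∀ᵐ ω ∂mu V,
    T.DO (Otau i) i ω = T.Jo i.1 (T.YO (Otau i) ω)
      * phi (kap i.2) (T.mf i.1 (T.YO (Otau i) ω)) (T.xi ω i) := by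
  filter_upwards [T.DO_eq (isMask_Otau' i) le_rfl] with ω h
  rw [h (not_mem_Otau i _),
    ← phi_Fc (kap_pos _).le (kap_le_half _) (T.abs_mf_le _ _) (T.abs_Yf_le ω i)]
  rfl

section pred

variable {jt mm : V → Wsp V → ℝ}

theorem bm_Dpred (hj : ∀ w, Measurable (jt w)) (hm : ∀ w, Measurable (mm w))
    (hj1 : ∀ w x, |jt w x| ≤ 1) (hm1 : ∀ w x, |mm w x| ≤ 1) (s : ℝ) (i : Slot V) :
    BM (T.Dpred jt mm s i) := by
  refine ((BM.of_le (hj i.1) 1 (hj1 i.1)).comp (T.measurable_Xit s)).mul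
    (BM.of_le ((measurable_phi (kap i.2)).comp (((hm i.1).comp (T.measurable_Xit s)).prodMk
      (measurable_subtype_coe.comp (T.measurable_xi i)))) (2 * kap i.2) fun ω => ?_)
  exact abs_phi_le (kap_pos _).le (kap_le_half _) (hm1 _ _) (Subtype.property _)

theorem bm_E1 (hj : ∀ w, Measurable (jt w)) (hm : ∀ w, Measurable (mm w))
    (hj1 : ∀ w x, |jt w x| ≤ 1) (hm1 : ∀ w x, |mm w x| ≤ 1) (s : ℝ) (w : V) :
    BM (T.E1 jt mm s w) := by
  have h1 : BM (fun ω => T.Jo w (T.Yt s ω)) :=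
    T.bm_Jo_YO (isMask_Ot (r := ⌈s⌉) (by linarith [Int.le_ceil s])) w
  have h2 := (BM.of_le (hj w) 1 (hj1 w)).comp (T.measurable_Xit s)
  have h3 := (BM.of_le (hm w) 1 (hm1 w)).comp (T.measurable_Xit s)
  exact ((h1.sub h2).pow 2).add ((h1.pow 2).mul (((T.bm_mt s w).sub h3).pow 2))

theorem err_sq_le {k J Js jt m ms mm p q : ℝ} (hk : 0 ≤ k) (hJ : |J| ≤ 1) (hms : |ms| ≤ 1)
    (hmm : |mm| ≤ 1) (hq : |q| ≤ 2 * k) (hpq : |p - q| ≤ 4 * k * |m - mm|) :
    (J * p - jt * q) ^ 2 ≤ 64 * k ^ 2 * ((Js - jt) ^ 2 + Js ^ 2 * (ms - mm) ^ 2)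
      + 400 * k ^ 2 * ((J - Js) ^ 2 + (m - ms) ^ 2) := by
  have h1 : |J - jt| ≤ |J - Js| + |Js - jt| := abs_sub_le _ _ _
  have h2 : |m - mm| ≤ |m - ms| + |ms - mm| := abs_sub_le _ _ _
  have h3 : |J| ≤ |Js| + |J - Js| := by
    have := abs_add_le Js (J - Js)
    rwa [add_sub_cancel] at this
  have h4 : |ms - mm| ≤ 2 := (abs_sub _ _).trans (by linarith)
  have h5 : |J| * |m - mm| ≤ |m - ms| + |Js| * |ms - mm| + 2 * |J - Js| := by
    have := abs_nonneg J
    have := abs_nonneg (m - ms)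
    have := abs_nonneg (ms - mm)
    have := abs_nonneg (J - Js)
    calc |J| * |m - mm| ≤ |J| * (|m - ms| + |ms - mm|) := by gcongr
      _ = |J| * |m - ms| + |J| * |ms - mm| := by ring
      _ ≤ 1 * |m - ms| + (|Js| + |J - Js|) * |ms - mm| := by gcongr
      _ ≤ _ := by nlinarith
  have h6 : |J * p - jt * q| ≤
      k * (2 * |Js - jt| + 4 * (|Js| * |ms - mm|) + 10 * |J - Js| + 4 * |m - ms|) := by
    rw [show J * p - jt * q = (J - jt) * q + J * (p - q) by ring]
    refine (abs_add_le _ _).trans ?_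
    rw [abs_mul, abs_mul]
    have a1 : |J - jt| * |q| ≤ (|J - Js| + |Js - jt|) * (2 * k) := by gcongr
    have a2 : |J| * |p - q| ≤ |J| * (4 * k * |m - mm|) := by gcongr
    have a3 : 4 * k * (|J| * |m - mm|) ≤
      4 * k * (|m - ms| + |Js| * |ms - mm| + 2 * |J - Js|) := by gcongr
    nlinarith
  rw [← sq_abs (J * p - jt * q), ← sq_abs (Js - jt), ← sq_abs (J - Js), ← sq_abs (m - ms),
    ← sq_abs Js, ← sq_abs (ms - mm), ← mul_pow]
  refine (pow_le_pow_left₀ (abs_nonneg _) h6 2).trans ?_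
  generalize |Js - jt| = a
  generalize |Js| * |ms - mm| = b
  generalize |J - Js| = c
  generalize |m - ms| = e
  have : (2 * a + 4 * b + 10 * c + 4 * e) ^ 2 ≤ 64 * (a ^ 2 + b ^ 2) + 400 * (c ^ 2 + e ^ 2) := by
    nlinarith [sq_nonneg (2 * a - 4 * b), sq_nonneg (2 * a - 10 * c), sq_nonneg (2 * a - 4 * e),
      sq_nonneg (4 * b - 10 * c), sq_nonneg (4 * b - 4 * e), sq_nonneg (10 * c - 4 * e),
      sq_nonneg a, sq_nonneg e]
  rw [mul_pow]
  nlinarith [sq_nonneg k]

theorem DO_sub_Dpred_sq_le (hm1 : ∀ w x, |mm w x| ≤ 1) (s : ℝ) (i : Slot V) :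
    ∀ᵐ ω ∂mu V, (T.DO (Otau i) i ω - T.Dpred jt mm s i ω) ^ 2
      ≤ 64 * kap i.2 ^ 2 * T.E1 jt mm s i.1 ω + 400 * kap i.2 ^ 2 * T.E2 (Ot s) i ω := by
  filter_upwards [T.DO_Otau_eq i] with ω h
  rw [h]
  exact err_sq_le (kap_pos _).le (T.abs_Jo_le _ _) (T.abs_mf_le _ _) (hm1 _ _)
    (abs_phi_le (kap_pos _).le (kap_le_half _) (hm1 _ _) (Subtype.property _))
    (abs_phi_sub_le (kap_pos _).le (kap_le_half _) (T.abs_mf_le _ _) (hm1 _ _)
      (Subtype.property _))

end pred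

open Classical in
/-- switch off the clock of slot `i` -/
noncomputable def upd (i : Slot V) (ω : Om V) : Om V :=
  (Function.update ω.1 (Idx.u i.1 i.2) 1, ω.2)

theorem measurable_upd (i : Slot V) : Measurable (upd i : Om V → Om V) := by
  classical
  refine Measurable.prodMk ?_ measurable_snd
  exact measurable_update_left.comp measurable_fst

theorem clock_upd_self (i : Slot V) (ω : Om V) : clock (upd i ω).1 i = 1 := by
  simp [clock, upd]

theorem clock_upd_ne {i j : Slot V} (h : j ≠ i) (ω : Om V) :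
    clock (upd i ω).1 j = clock ω.1 j := by
  classical
  have : (Idx.u j.1 j.2 : Idx V) ≠ Idx.u i.1 i.2 := by
    intro e
    injection e with e1 e2
    exact h (Prod.ext e1 e2)
  simp only [clock, upd]
  convert Function.update_of_ne this _ _

theorem Yf_upd (i : Slot V) (ω : Om V) : T.Yf (upd i ω) = T.Yf ω := by
  classical
  rw [← T.Yf_glueC (upd i ω).1 ω]
  congr 1
  refine Prod.ext ?_ rfl
  funext j
  change _ = glue (Uset V) (upd i ω).1 ω.1 j
  by_cases hj : j ∈ Uset V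
  · rw [glue_of_mem hj]
  · rw [glue_of_not_mem hj]
    have : j ≠ Idx.u i.1 i.2 := by
      rintro rfl
      exact hj trivial
    simp only [upd]
    convert Function.update_of_ne this _ _

theorem Ot_upd {i : Slot V} {s : ℝ} {ω : Om V} (h : i ∉ Ot s (clock ω.1)) {t : ℝ} (ht : t ≤ s) :
    Ot t (clock (upd i ω).1) = Ot t (clock ω.1) := by
  ext j
  by_cases hj : j = i
  · subst hj
    refine iff_of_false (fun h1 => ?_) fun h1 => h (Ot_mono ht _ h1)
    have h2 : ((clock (upd j ω).1 j : unitInterval) : ℝ) < 1 / 2 := h1.1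
    rw [clock_upd_self] at h2
    norm_num at h2
  · exact ⟨isLocal_Ot t _ _ j (clock_upd_ne hj ω), isLocal_Ot t _ _ j (clock_upd_ne hj ω).symm⟩

theorem Yt_upd {i : Slot V} {s : ℝ} {ω : Om V} (h : i ∉ Ot s (clock ω.1)) :
    T.Yt s (upd i ω) = T.Yt s ω := by
  unfold Yt YO
  rw [T.Yf_upd, Ot_upd h le_rfl]

theorem Xit_upd {i : Slot V} {s : ℝ} {ω : Om V} (h : i ∉ Ot s (clock ω.1)) :
    T.Xit s (upd i ω) = T.Xit s ω := by
  rw [T.Xit_eq', T.Xit_eq', T.Yf_upd]
  funext j
  unfold XiF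
  rw [Ot_upd h le_rfl]
  by_cases hj : j ∈ Ot s (clock ω.1)
  · have hne : j ≠ i := by rintro rfl; exact h hj
    have e : tau (clock (upd i ω).1) j = tau (clock ω.1) j := by
      unfold tau
      rw [clock_upd_ne hne]
    rw [if_pos hj, if_pos hj, clock_upd_ne hne]
    unfold xiOf
    rw [e, Ot_upd h (le_of_lt hj.2)]
  · rw [if_neg hj, if_neg hj]

theorem integral_coord_mul (i : Slot V) {f : unitInterval → ℝ} (hf : BM f) {F : Om V → ℝ}
    (hF : BM F) :
    ∫ ω, f (clock ω.1 i) * F (upd i ω) ∂mu V = (∫ u, f u) * ∫ ω, F (upd i ω) ∂mu V := by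
  classical
  have h1 : BM (fun x : Om0 V => f (x (Idx.u i.1 i.2))) := hf.comp (measurable_pi_apply _)
  have h2 := hF.comp (measurable_upd i)
  have h3 : BM (fun x : Om0 V => (F (upd i (x, true)) + F (upd i (x, false))) / 2) :=
    ((h2.comp measurable_prodMk_right).add (h2.comp measurable_prodMk_right)).div_const 2
  simp only [clock]
  rw [integral_mu ((h1.comp measurable_fst).mul h2).integrable, integral_mu h2.integrable,
    ← integral_comp_mp (mp_coord (Idx.u i.1 i.2)) hf.meas.aestronglyMeasurable,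
    ← integral_mul_of_dependsOn h1 h3 (A := {Idx.u i.1 i.2}) (B := {Idx.u i.1 i.2}ᶜ) ?_ ?_
      disjoint_compl_right]
  · refine integral_congr_ae (Eventually.of_forall fun x => ?_)
    simp only
    ring
  · intro x y h
    simp only [h _ (mem_singleton _)]
  · intro x y h
    have : ∀ b, upd i (x, b) = upd i (y, b) := by
      intro b
      refine Prod.ext ?_ rfl
      funext j
      simp only [upd]
      by_cases hj : j = Idx.u i.1 i.2
      · subst hj
        simp
      · rw [Function.update_of_ne hj, Function.update_of_ne hj]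
        exact h j hj
    simp only [this]

/-- Palm-type bound: the past does not know when an unobserved slot will ring -/
theorem palm (i : Slot V) {s s' : ℝ} (hs : s ≤ s') {G : Dat V × Wsp V → ℝ} (hG : BM G)
    (hG0 : ∀ p, 0 ≤ G p) :
    ∫ ω, ring i s s' (clock ω.1) * G (T.Yt s ω, T.Xit s ω) ∂mu V
      ≤ 2 * (s' - s) * ∫ ω, G (T.Yt s ω, T.Xit s ω) ∂mu V := by
  have hF : BM (fun ω => G (T.Yt s ω, T.Xit s ω)) :=
    hG.comp ((T.measurable_Yt s).prodMk (T.measurable_Xit s))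
  have hF' := hF.comp (measurable_upd i)
  have hci : Measurable fun ω : Om V => clock ω.1 i :=
    (measurable_pi_apply i).comp (measurable_clock.comp measurable_fst)
  set A : Set unitInterval := Subtype.val ⁻¹' Ico (s - i.2) (s' - i.2) with hA
  have mA : MeasurableSet A := measurable_subtype_coe measurableSet_Ico
  have mB : MeasurableSet (Ici halfI) := measurableSet_Ici
  have b1 := BM.indicator_one mA
  have b2 := BM.indicator_one mB
  have e1 := integral_coord_mul i b1 hF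
  have e2 := integral_coord_mul i b2 hF
  have i0 : 0 ≤ ∫ ω, G (T.Yt s (upd i ω), T.Xit s (upd i ω)) ∂mu V :=
    integral_nonneg fun ω => hG0 _
  have v1 : ∫ u, A.indicator (fun _ => (1 : ℝ)) u ≤ s' - s := by
    rw [integral_indicator mA, setIntegral_const, smul_eq_mul, mul_one, Measure.real,
      unitInterval.volume_apply]
    refine ENNReal.toReal_le_of_le_ofReal (by linarith) ?_
    refine (measure_mono (image_preimage_subset _ _)).trans ?_
    rw [Real.volume_Ico]
    exact le_of_eq (by congr 1; ring)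
  have v2 : ∫ u, (Ici halfI).indicator (fun _ => (1 : ℝ)) u = 1 / 2 := by
    rw [integral_indicator mB, setIntegral_const, smul_eq_mul, mul_one, Measure.real,
      unitInterval.volume_Ici, ENNReal.toReal_ofReal (by simp only [halfI]; norm_num)]
    simp only [halfI]
    norm_num
  have l1 : ∫ ω, ring i s s' (clock ω.1) * G (T.Yt s ω, T.Xit s ω) ∂mu V ≤
      ∫ ω, A.indicator (fun _ => (1 : ℝ)) (clock ω.1 i) *
        G (T.Yt s (upd i ω), T.Xit s (upd i ω)) ∂mu V := by
    refine integral_mono ((bm_ring i s s').mul hF).integrable ((b1.comp hci).mul hF').integrable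
      fun ω => ?_
    simp only
    by_cases h : i ∈ Ot s' (clock ω.1) ∧ i ∉ Ot s (clock ω.1)
    · have hm : clock ω.1 i ∈ A := by
        have h1 : tau (clock ω.1) i < s' := h.1.2
        have h2 : ¬ tau (clock ω.1) i < s := fun h3 => h.2 ⟨h.1.1, h3⟩
        unfold tau at h1 h2
        exact ⟨by linarith, by linarith⟩
      rw [ring_eq_one h.1 h.2, indicator_of_mem hm, T.Yt_upd h.2, T.Xit_upd h.2]
    · rw [ring_eq_zero hs h, zero_mul]
      exact mul_nonneg (indicator_nonneg (fun _ _ => zero_le_one) _) (hG0 _)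
  have l2 : ∫ ω, (Ici halfI).indicator (fun _ => (1 : ℝ)) (clock ω.1 i) *
        G (T.Yt s (upd i ω), T.Xit s (upd i ω)) ∂mu V ≤ ∫ ω, G (T.Yt s ω, T.Xit s ω) ∂mu V := by
    refine integral_mono ((b2.comp hci).mul hF').integrable hF.integrable fun ω => ?_
    simp only
    by_cases h : clock ω.1 i ∈ Ici halfI
    · have h1 : i ∉ Ot s (clock ω.1) := fun h2 => by
        have h3 : ((clock ω.1 i : unitInterval) : ℝ) < 1 / 2 := h2.1
        have h4 : (1 / 2 : ℝ) ≤ clock ω.1 i := h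
        linarith
      rw [indicator_of_mem h, T.Yt_upd h1, T.Xit_upd h1, one_mul]
    · rw [indicator_of_notMem h, zero_mul]
      exact hG0 _
  rw [e1] at l1
  rw [e2, v2] at l2
  have l3 := mul_le_mul_of_nonneg_right v1 i0
  have l4 := mul_le_mul_of_nonneg_left l2 (sub_nonneg.2 hs)
  linarith

end Ctx

end Crest.Agent.R160
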