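import Crest.Agent.R160.StepA

/-! One step of the localisation process: the orthogonal decomposition. -/

set_option autoImplicit false

namespace Crest.Agent.R160

open MeasureTheory ProbabilityTheory Set Filter Topology
open scoped ENNReal

universe u

variable {V : Type u}

theorem measurable_glueC (x : Om0 V) : Measurable (glueC x : Om V → Om V) :=
  mp_glueC.measurable.comp measurable_prodMk_left

open Classical in
/-- the vertices of `B` whose slot of round `r` rings during `[s, s')` -/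
noncomputable def ringSet (B : Finset V) (r : ℤ) (s s' : ℝ) (c : Clk V) : Finset V :=
  B.filter (fun w => (w, r) ∈ Ot s' c ∧ (w, r) ∉ Ot s c)

theorem sum_ring (B : Finset V) (r : ℤ) {s s' : ℝ} (hs : s ≤ s') (c : Clk V) (F : V → ℝ) :
    ∑ w ∈ B, ring (w, r) s s' c * F w = ∑ w ∈ ringSet B r s s' c, F w := by
  classical
  rw [ringSet, Finset.sum_filter]
  refine Finset.sum_congr rfl fun w _ => ?_
  by_cases h : (w, r) ∈ Ot s' c ∧ (w, r) ∉ Ot s c
  · rw [ring_eq_one h.1 h.2, one_mul, if_pos h]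
  · rw [ring_eq_zero hs h, zero_mul, if_neg h]

theorem mem_ringSet {B : Finset V} {r : ℤ} {s s' : ℝ} {c : Clk V} {w : V}
    (h : w ∈ ringSet B r s s' c) : (w, r) ∈ Ot s' c ∧ (w, r) ∉ Ot s c := by
  classical
  exact (Finset.mem_filter.1 h).2

theorem Ot_subset_Otau {i : Slot V} {s s' : ℝ} {c : Clk V} (h' : i ∈ Ot s' c) (h : i ∉ Ot s c) :
    Ot s c ⊆ Otau i c :=
  Ot_mono (le_of_not_gt fun h3 => h ⟨h'.1, h3⟩) c

theorem insert_Otau_subset {i : Slot V} {s' : ℝ} {c : Clk V} (h' : i ∈ Ot s' c) :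
    insert i (Otau i c) ⊆ Ot s' c :=
  insert_subset h' (Ot_mono h'.2.le c)

namespace Ctx

variable (T : Ctx V)

/-- the predicted jump for frozen clocks -/
noncomputable def DpF (jt mm : V → Wsp V → ℝ) (s : ℝ) (c : Clk V) (i : Slot V)
    (p : Dat V × unitInterval) : ℝ :=
  jt i.1 (T.XiF s c ((Ot s c).indicator p.1))
    * phi (kap i.2) (mm i.1 (T.XiF s c ((Ot s c).indicator p.1))) p.2

theorem measurable_XiF_fix (s : ℝ) (c : Clk V) : Measurable (fun Y : Dat V => T.XiF s c Y) := by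
  have h := (T.measurable_XiF s).comp (measurable_prodMk_left (x := c))
  simpa only [Function.comp_def] using h

theorem measurable_xiOf_fix (c : Clk V) (i : Slot V) :
    Measurable (fun Y : Dat V => T.xiOf c Y i) := by
  have h := (T.measurable_xiOf i).comp (measurable_prodMk_left (x := c))
  simpa only [Function.comp_def] using h

theorem measurable_pair_xiOf (c : Clk V) (i : Slot V) :
    Measurable (fun Y : Dat V => (Y, T.xiOf c Y i)) :=
  measurable_id.prodMk (T.measurable_xiOf_fix c i)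

theorem measurable_XiF_ind (s : ℝ) (c : Clk V) :
    Measurable (fun Y : Dat V => T.XiF s c ((Ot s c).indicator Y)) :=
  (T.measurable_XiF_fix s c).comp (measurable_indicator_dat _)

theorem bm_DpF {jt mm : V → Wsp V → ℝ} (hj : ∀ w, Measurable (jt w))
    (hm : ∀ w, Measurable (mm w)) (hj1 : ∀ w x, |jt w x| ≤ 1) (hm1 : ∀ w x, |mm w x| ≤ 1)
    (s : ℝ) (c : Clk V) (i : Slot V) : BM (T.DpF jt mm s c i) := by
  have h1 : Measurable (fun p : Dat V × unitInterval => T.XiF s c ((Ot s c).indicator p.1)) :=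
    (T.measurable_XiF_ind s c).comp measurable_fst
  refine (BM.of_le ((hj _).comp h1) 1 fun _ => hj1 _ _).mul (BM.of_le ?_ (2 * kap i.2) fun p => ?_)
  · exact (measurable_phi (kap i.2)).comp
      (((hm _).comp h1).prodMk (measurable_subtype_coe.comp measurable_snd))
  · exact abs_phi_le (kap_pos _).le (kap_le_half _) (hm1 _ _) p.2.2

theorem Xit_glueC (s : ℝ) (x : Om0 V) (ω : Om V) :
    T.Xit s (glueC x ω) = T.XiF s (clock x) ((Ot s (clock x)).indicator (T.Yf ω)) := by
  rw [T.Xit_eq', clock_glueC, T.Yf_glueC, T.XiF_indicator]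

theorem Dpred_glueC (jt mm : V → Wsp V → ℝ) (s : ℝ) (i : Slot V) (x : Om0 V) (ω : Om V) :
    T.Dpred jt mm s i (glueC x ω)
      = T.DpF jt mm s (clock x) i (T.Yf ω, T.xiOf (clock x) (T.Yf ω) i) := by
  simp only [Dpred, DpF, T.Xit_glueC, xi, clock_glueC, T.Yf_glueC]

theorem DO_glueC (O : Clk V → Set (Slot V)) (i : Slot V) (x : Om0 V) (ω : Om V) :
    T.DO O i (glueC x ω) = T.mf T.o ((insert i (O (clock x))).indicator (T.Yf ω))
      - T.mf T.o ((O (clock x)).indicator (T.Yf ω)) := by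
  simp only [DO, T.YO_glueC]

theorem mt_glueC (t : ℝ) (v : V) (x : Om0 V) (ω : Om V) :
    T.mt t v (glueC x ω) = T.mf v ((Ot t (clock x)).indicator (T.Yf ω)) := by
  simp only [mt, Yt, T.YO_glueC]

section frozen

variable {r : ℤ} {s s' : ℝ} {c : Clk V}

theorem frozen_le (h1 : s' ≤ r + 1) {A : Set (Slot V)} (hA : A ⊆ Ot s' c) :
    ∀ i ∈ A, i.2 ≤ r := fun i hi => (isMask_Ot h1).le c i (hA hi)

theorem frozen_gap (B : Finset V) (hs : s ≤ s') (h1 : s' ≤ r + 1)
    (hc : Function.Injective (tau c)) :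
    0 ≤ (∫ ω, T.mf T.o ((Ot s' c).indicator (T.Yf ω)) ^ 2 ∂mu V)
      - (∫ ω, T.mf T.o ((Ot s c).indicator (T.Yf ω)) ^ 2 ∂mu V)
      - ∑ w ∈ ringSet B r s s' c,
        ∫ ω, (T.mf T.o ((insert (w, r) (Otau (w, r) c)).indicator (T.Yf ω))
          - T.mf T.o ((Otau (w, r) c).indicator (T.Yf ω))) ^ 2 ∂mu V := by
  have key := telescope_nonneg (μ := mu V) (lo := T.FD (Ot s c))
    (a := fun w => T.FD (Otau (w, r) c)) (b := fun w => T.FD (insert (w, r) (Otau (w, r) c)))
    (T.bm_spin T.o).ab (fun w => tau c (w, r)) (ringSet B r s s' c)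
    (fun w _ w' _ h => congrArg Prod.fst (hc h)) (T.FD (Ot s' c)) (T.FD_le _)
    (T.FD_mono (Ot_mono hs c)) (fun w _ => T.FD_mono (subset_insert _ _))
    (fun w hw => T.FD_mono (Ot_subset_Otau (mem_ringSet hw).1 (mem_ringSet hw).2))
    (fun w hw => T.FD_mono (insert_Otau_subset (mem_ringSet hw).1))
    (fun w hw w' _ h => T.FD_mono (insert_Otau_subset ⟨(mem_ringSet hw).1.1, h⟩))
  have e1 := T.post_mf (frozen_le h1 (Subset.refl (Ot s' c))) T.o
  have e2 := T.post_mf (frozen_le h1 (Ot_mono hs c)) T.o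
  refine key.trans (le_of_eq ?_)
  congr 1
  · congr 1
    · exact integral_congr_ae (e1.mono fun ω h => by simp only [h])
    · exact integral_congr_ae (e2.mono fun ω h => by simp only [h])
  · refine Finset.sum_congr rfl fun w hw => integral_congr_ae ?_
    have a1 := insert_Otau_subset (mem_ringSet hw).1
    filter_upwards [T.post_mf (frozen_le h1 a1) T.o,
      T.post_mf (frozen_le h1 ((subset_insert _ _).trans a1)) T.o] with ω h h'
    simp only [h, h']

theorem frozen_id {jt mm : V → Wsp V → ℝ} (hj : ∀ w, Measurable (jt w))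
    (hm : ∀ w, Measurable (mm w)) (hj1 : ∀ w x, |jt w x| ≤ 1) (hm1 : ∀ w x, |mm w x| ≤ 1)
    {g0 : Wsp V → ℝ} (hg : BM g0) (B : Finset V) (hs : s ≤ s') (h1 : s' ≤ r + 1)
    (hc : Function.Injective (tau c)) :
    ∫ ω, (T.mf T.o ((Ot s' c).indicator (T.Yf ω)) - g0 (T.XiF s c ((Ot s c).indicator (T.Yf ω)))
        - ∑ w ∈ ringSet B r s s' c,
          T.DpF jt mm s c (w, r) (T.Yf ω, T.xiOf c (T.Yf ω) (w, r))) ^ 2 ∂mu V
      = (∫ ω, (T.mf T.o ((Ot s c).indicator (T.Yf ω))
          - g0 (T.XiF s c ((Ot s c).indicator (T.Yf ω)))) ^ 2 ∂mu V)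
        + ((∫ ω, T.mf T.o ((Ot s' c).indicator (T.Yf ω)) ^ 2 ∂mu V)
          - (∫ ω, T.mf T.o ((Ot s c).indicator (T.Yf ω)) ^ 2 ∂mu V)
          - ∑ w ∈ ringSet B r s s' c,
            ∫ ω, (T.mf T.o ((insert (w, r) (Otau (w, r) c)).indicator (T.Yf ω))
              - T.mf T.o ((Otau (w, r) c).indicator (T.Yf ω))) ^ 2 ∂mu V)
        + ∑ w ∈ ringSet B r s s' c,
            ∫ ω, (T.mf T.o ((insert (w, r) (Otau (w, r) c)).indicator (T.Yf ω))
              - T.mf T.o ((Otau (w, r) c).indicator (T.Yf ω))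
              - T.DpF jt mm s c (w, r) (T.Yf ω, T.xiOf c (T.Yf ω) (w, r))) ^ 2 ∂mu V := by
  have hxi := T.measurable_pair_xiOf c
  have hXi := T.measurable_XiF_fix s c
  have key := telescope (μ := mu V) (lo := T.FD (Ot s c))
    (a := fun w => T.FD (Otau (w, r) c)) (b := fun w => T.FD (insert (w, r) (Otau (w, r) c)))
    (G0 := fun ω => g0 (T.XiF s c ((Ot s c).indicator (T.Yf ω))))
    (T.bm_spin T.o).ab (fun w => tau c (w, r))
    (hg.comp (hXi.comp (T.measurable_YD _))).ab
    ((hg.meas.comp (hXi.comp (T.measurable_YD_FD (Subset.refl _)))).stronglyMeasurable.aestronglyMeasurable)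
    (fun w ω => T.DpF jt mm s c (w, r) (T.Yf ω, T.xiOf c (T.Yf ω) (w, r)))
    (ringSet B r s s' c)
    (fun w _ w' _ h => congrArg Prod.fst (hc h)) (T.FD (Ot s' c)) (T.FD_le _)
    (T.FD_mono (Ot_mono hs c)) (fun w _ => T.FD_mono (subset_insert _ _))
    (fun w hw => T.FD_mono (Ot_subset_Otau (mem_ringSet hw).1 (mem_ringSet hw).2))
    (fun w hw => T.FD_mono (insert_Otau_subset (mem_ringSet hw).1))
    (fun w hw w' _ h => T.FD_mono (insert_Otau_subset ⟨(mem_ringSet hw).1.1, h⟩))
    (fun w _ => (((T.bm_DpF hj hm hj1 hm1 s c (w, r)).comp (hxi (w, r))).comp T.measurable_Yf).ab)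
    (fun w hw => ?_) (fun w hw F hF hFm => ?_)
  · have e1 := T.post_mf (frozen_le h1 (Subset.refl (Ot s' c))) T.o
    have e2 := T.post_mf (frozen_le h1 (Ot_mono hs c)) T.o
    have e3 : ∀ w ∈ ringSet B r s s' c, ∀ᵐ ω ∂mu V,
        ((mu V)[fun ω => T.spin ω T.o | T.FD (insert (w, r) (Otau (w, r) c))]) ω
          = T.mf T.o ((insert (w, r) (Otau (w, r) c)).indicator (T.Yf ω)) ∧
        ((mu V)[fun ω => T.spin ω T.o | T.FD (Otau (w, r) c)]) ω
          = T.mf T.o ((Otau (w, r) c).indicator (T.Yf ω)) := by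
      intro w hw
      have a1 := insert_Otau_subset (mem_ringSet hw).1
      exact (T.post_mf (frozen_le h1 a1) T.o).and
        (T.post_mf (frozen_le h1 ((subset_insert _ _).trans a1)) T.o)
    refine Eq.trans ?_ (key.trans ?_)
    · exact integral_congr_ae (e1.mono fun ω h => by simp only [h])
    · congr 1
      · congr 1
        · exact integral_congr_ae (e2.mono fun ω h => by simp only [h])
        · congr 1
          · congr 1
            · exact integral_congr_ae (e1.mono fun ω h => by simp only [h])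
            · exact integral_congr_ae (e2.mono fun ω h => by simp only [h])
          · exact Finset.sum_congr rfl fun w hw =>
              integral_congr_ae ((e3 w hw).mono fun ω h => by simp only [h.1, h.2])
      · exact Finset.sum_congr rfl fun w hw =>
          integral_congr_ae ((e3 w hw).mono fun ω h => by simp only [h.1, h.2])
  · -- measurability of the predicted jump
    have a0 := Ot_subset_Otau (mem_ringSet hw).1 (mem_ringSet hw).2
    have hm' := ((T.bm_DpF hj hm hj1 hm1 s c (w, r)).meas.comp (hxi (w, r))).comp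
      (T.measurable_YD_FD (Subset.refl (insert (w, r) (Otau (w, r) c))))
    refine Measurable.stronglyMeasurable (mα := T.FD (insert (w, r) (Otau (w, r) c))) ?_
      |>.aestronglyMeasurable
    convert hm' using 2 with ω
    have b1 : Ot s c ∩ insert (w, r) (Otau (w, r) c) = Ot s c :=
      inter_eq_left.2 (a0.trans (subset_insert _ _))
    have b2 : Ot (tau c (w, r)) c ∩ insert (w, r) (Otau (w, r) c) = Ot (tau c (w, r)) c :=
      inter_eq_left.2 (subset_insert _ _)
    simp only [Function.comp, DpF, xiOf, indicator_indicator, b1, b2,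
      indicator_of_mem (mem_insert _ _)]
  · -- orthogonality to the past
    have a0 := Ot_subset_Otau (mem_ringSet hw).1 (mem_ringSet hw).2
    have a1 := insert_Otau_subset (mem_ringSet hw).1
    obtain ⟨C, hC⟩ := hF.bdd
    have hC' : ∀ᵐ ω ∂mu V, |hFm.mk F ω| ≤ max C 0 := by
      filter_upwards [hC, hFm.ae_eq_mk] with ω h h'
      rw [← h']; exact h.trans (le_max_left _ _)
    obtain ⟨f, hf, hfb, hfe⟩ := exists_bdd_comp (μ := mu V)
      (fun ω => (Otau (w, r) c).indicator (T.Yf ω)) (le_max_right C 0)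
      hFm.stronglyMeasurable_mk hC'
    have hΓ : BM (fun p : Dat V × unitInterval => f p.1 * T.DpF jt mm s c (w, r) p) :=
      (BM.of_le (hf.comp measurable_fst) _ fun _ => hfb _).mul (T.bm_DpF hj hm hj1 hm1 s c (w, r))
    have hin := T.innov_det (frozen_le h1 ((subset_insert _ _).trans a1)) (not_mem_Otau (w, r) c) hΓ
    have hz : ∀ Y : Dat V, ∫ ξ : unitInterval, f Y * T.DpF jt mm s c (w, r) (Y, ξ) = 0 := by
      intro Y
      simp only [DpF]
      rw [integral_const_mul, integral_const_mul,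
        integral_phi (kap_pos _).le (kap_le_half _) (hm1 _ _), mul_zero, mul_zero]
    simp only [hz, integral_zero] at hin
    refine Eq.trans (integral_congr_ae ?_) hin
    filter_upwards [hfe, hFm.ae_eq_mk] with ω h h'
    have b1 : Ot s c ∩ Otau (w, r) c = Ot s c := inter_eq_left.2 a0
    rw [h', ← h]
    simp only [DpF, xiOf, indicator_indicator, b1]
    rfl

end frozen

theorem gap_eq (r : ℤ) (n : ℕ) (s s' : ℝ) :
    T.gap r n s s' = ∫ ω, (T.mt s' T.o ω ^ 2 - T.mt s T.o ω ^ 2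
      - ∑ w ∈ T.ball n, ring (w, r) s s' (clock ω.1) * T.DO (Otau (w, r)) (w, r) ω ^ 2) ∂mu V := by
  have h1 := (T.bm_mt s' T.o).pow 2
  have h2 := (T.bm_mt s T.o).pow 2
  have h3 : ∀ w : V, BM (fun ω => ring (w, r) s s' (clock ω.1) * T.DO (Otau (w, r)) (w, r) ω ^ 2) :=
    fun w => (bm_ring _ _ _).mul ((T.bm_DO (isMask_Otau' (w, r)) (i := (w, r)) le_rfl).pow 2)
  rw [integral_sub (h1.sub h2).integrable (BM.sum _ fun w _ => h3 w).integrable,
    integral_sub h1.integrable h2.integrable, integral_finsetSum _ fun w _ => (h3 w).integrable]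
  rfl

theorem bm_mf_YD (A : Set (Slot V)) (v : V) : BM (fun ω => T.mf v (A.indicator (T.Yf ω))) :=
  BM.of_le ((T.measurable_mf v).comp (T.measurable_YD A)) 1 fun _ => T.abs_mf_le _ _

theorem gap_nonneg (r : ℤ) (n : ℕ) {s s' : ℝ} (hs : s ≤ s') (h1 : s' ≤ r + 1) :
    0 ≤ T.gap r n s s' := by
  have := T.countable_V
  have h3 : ∀ w : V, BM (fun ω => ring (w, r) s s' (clock ω.1) * T.DO (Otau (w, r)) (w, r) ω ^ 2) :=
    fun w => (bm_ring _ _ _).mul ((T.bm_DO (isMask_Otau' (w, r)) (i := (w, r)) le_rfl).pow 2)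
  rw [T.gap_eq, integral_glueC ((((T.bm_mt s' T.o).pow 2).sub ((T.bm_mt s T.o).pow 2)).sub
    (BM.sum _ fun w _ => h3 w)).integrable]
  refine integral_nonneg_of_ae ?_
  filter_upwards [ae_tau_injective (V := V)] with x hx
  have key := T.frozen_gap (T.ball n) hs h1 hx
  simp only [clock_glueC, T.mt_glueC, T.DO_glueC, sum_ring _ r hs]
  have b1 := (T.bm_mf_YD (Ot s' (clock x)) T.o).pow 2
  have b2 := (T.bm_mf_YD (Ot s (clock x)) T.o).pow 2
  have b3 : ∀ w : V, BM _ := fun w => ((T.bm_mf_YD (insert (w, r) (Otau (w, r) (clock x))) T.o).sub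
    (T.bm_mf_YD (Otau (w, r) (clock x)) T.o)).pow 2
  rw [Pi.zero_apply, integral_sub (b1.sub b2).integrable (BM.sum _ fun w _ => b3 w).integrable,
    integral_sub b1.integrable b2.integrable, integral_finsetSum _ fun w _ => (b3 w).integrable]
  exact key

theorem main_id {jt mm : V → Wsp V → ℝ} (hj : ∀ w, Measurable (jt w))
    (hm : ∀ w, Measurable (mm w)) (hj1 : ∀ w x, |jt w x| ≤ 1) (hm1 : ∀ w x, |mm w x| ≤ 1)
    {g0 : Wsp V → ℝ} (hg : BM g0) (r : ℤ) (n : ℕ) {s s' : ℝ} (hs : s ≤ s') (h1 : s' ≤ r + 1) :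
    ∫ ω, (T.mt s' T.o ω - g0 (T.Xit s ω)
        - ∑ w ∈ T.ball n, ring (w, r) s s' (clock ω.1) * T.Dpred jt mm s (w, r) ω) ^ 2 ∂mu V
      = (∫ ω, (T.mt s T.o ω - g0 (T.Xit s ω)) ^ 2 ∂mu V) + T.gap r n s s'
        + ∑ w ∈ T.ball n, ∫ ω, ring (w, r) s s' (clock ω.1)
          * (T.DO (Otau (w, r)) (w, r) ω - T.Dpred jt mm s (w, r) ω) ^ 2 ∂mu V := by
  have := T.countable_V
  have hD : ∀ w : V, BM (T.DO (Otau (w, r)) (w, r)) := fun w =>
    T.bm_DO (isMask_Otau' (w, r)) (i := (w, r)) le_rfl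
  have hP : ∀ w : V, BM (T.Dpred jt mm s (w, r)) := fun w => T.bm_Dpred hj hm hj1 hm1 s (w, r)
  have hG : BM (fun ω => g0 (T.Xit s ω)) := hg.comp (T.measurable_Xit s)
  have f1 := (((T.bm_mt s' T.o).sub hG).sub
    (BM.sum (T.ball n) fun w _ => (bm_ring (w, r) s s').mul (hP w))).pow 2
  have f2 := ((T.bm_mt s T.o).sub hG).pow 2
  have f3 := (((T.bm_mt s' T.o).pow 2).sub ((T.bm_mt s T.o).pow 2)).sub
    (BM.sum (T.ball n) fun w _ => (bm_ring (w, r) s s').mul ((hD w).pow 2))
  have f4' : ∀ w : V, BM _ := fun w => (bm_ring (w, r) s s').mul (((hD w).sub (hP w)).pow 2)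
  have f4 := BM.sum (T.ball n) fun w _ => f4' w
  rw [T.gap_eq, ← integral_finsetSum _ fun w _ => (f4' w).integrable,
    ← integral_add f2.integrable f3.integrable, ← integral_add (f2.add f3).integrable f4.integrable,
    integral_glueC f1.integrable, integral_glueC ((f2.add f3).add f4).integrable]
  refine integral_congr_ae ?_
  filter_upwards [ae_tau_injective (V := V)] with x hx
  have key := T.frozen_id hj hm hj1 hm1 hg (T.ball n) hs h1 hx
  have hx' := measurable_glueC x
  rw [integral_add ((f2.add f3).comp hx').integrable (f4.comp hx').integrable,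
    integral_add (f2.comp hx').integrable (f3.comp hx').integrable]
  simp only [clock_glueC, T.mt_glueC, T.DO_glueC, T.Dpred_glueC, T.Xit_glueC, sum_ring _ r hs]
  have b1 := (T.bm_mf_YD (Ot s' (clock x)) T.o).pow 2
  have b2 := (T.bm_mf_YD (Ot s (clock x)) T.o).pow 2
  have b0 : ∀ w : V, BM _ := fun w => ((T.bm_mf_YD (insert (w, r) (Otau (w, r) (clock x))) T.o).sub
    (T.bm_mf_YD (Otau (w, r) (clock x)) T.o))
  have b3 : ∀ w : V, BM _ := fun w => (b0 w).pow 2
  have b4 : ∀ w : V, BM _ := fun w => ((b0 w).sub (((T.bm_DpF hj hm hj1 hm1 s (clock x) (w, r)).comp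
    (T.measurable_pair_xiOf (clock x) (w, r))).comp T.measurable_Yf)).pow 2
  rw [integral_sub (b1.sub b2).integrable (BM.sum _ fun w _ => b3 w).integrable,
    integral_sub b1.integrable b2.integrable, integral_finsetSum _ fun w _ => (b3 w).integrable,
    integral_finsetSum _ fun w _ => (b4 w).integrable]
  exact key

theorem one_step {jt mm : V → Wsp V → ℝ} (hj : ∀ w, Measurable (jt w))
    (hm : ∀ w, Measurable (mm w)) (hj1 : ∀ w x, |jt w x| ≤ 1) (hm1 : ∀ w x, |mm w x| ≤ 1)
    (r : ℤ) (n : ℕ) {s s' : ℝ} (hs : s ≤ s') (h1 : s' ≤ r + 1) :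
    T.delta s' ≤ T.delta s + T.gap r n s s'
      + ∑ w ∈ T.ball n, ∫ ω, ring (w, r) s s' (clock ω.1)
          * (T.DO (Otau (w, r)) (w, r) ω - T.Dpred jt mm s (w, r) ω) ^ 2 ∂mu V := by
  obtain ⟨g0, hg0, hg1, hge⟩ := exists_bdd_comp (μ := mu V) (T.Xit s) (C := 1) zero_le_one
    (G := T.Pt s (T.mt s T.o)) stronglyMeasurable_condExp
    (condExp_abs_le (Eventually.of_forall fun ω => T.abs_mt_le s T.o ω))
  have hg : BM g0 := BM.of_le hg0 1 hg1
  have hδ : ∫ ω, (T.mt s T.o ω - g0 (T.Xit s ω)) ^ 2 ∂mu V = T.delta s :=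
    integral_congr_ae (hge.mono fun ω h => by simp only [res] at h ⊢; rw [h])
  rw [← hδ, ← T.main_id hj hm hj1 hm1 hg r n hs h1]
  have hGW : BM (fun W : Wsp V => g0 (maskW s W) + ∑ w ∈ T.ball n,
      ring (w, r) s s' (fun i => (W i).1)
        * (jt w (maskW s W) * phi (kap r) (mm w (maskW s W)) (W (w, r)).2)) := by
    refine (hg.comp (measurable_maskW s)).add (BM.sum _ fun w _ => BM.mul ?_ (BM.mul ?_ ?_))
    · have h0 : Measurable (fun W : Wsp V => (fun i => (W i).1 : Clk V)) :=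
        measurable_pi_lambda _ fun i => measurable_fst.comp (measurable_pi_apply i)
      exact ((bm_seen (w, r) s').comp h0).sub ((bm_seen (w, r) s).comp h0)
    · exact BM.of_le ((hj w).comp (measurable_maskW s)) 1 fun _ => hj1 _ _
    · refine BM.of_le ?_ (2 * kap r) fun W =>
        abs_phi_le (kap_pos _).le (kap_le_half _) (hm1 _ _) (W (w, r)).2.2
      exact (measurable_phi (kap r)).comp (((hm w).comp (measurable_maskW s)).prodMk
        (measurable_subtype_coe.comp (measurable_snd.comp (measurable_pi_apply (w, r)))))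
  refine (T.delta_le_of hGW).trans (le_of_eq (integral_congr_ae (Eventually.of_forall fun ω => ?_)))
  have e0 : maskW s (T.Xit s' ω) = T.Xit s ω := maskW_maskW hs _
  simp only [e0]
  rw [← sub_sub]
  congr 2
  refine Finset.sum_congr rfl fun w _ => ?_
  by_cases h : (w, r) ∈ Ot s' (clock ω.1)
  · have e1 : T.Xit s' ω (w, r) = (clock ω.1 (w, r), T.xi ω (w, r)) := by
      rw [T.Xit_eq']; simp only [XiF, if_pos h]; rfl
    have e2 : ring (w, r) s s' (fun i => (T.Xit s' ω i).1) = ring (w, r) s s' (clock ω.1) := by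
      have e3 : ∀ t, (w, r) ∈ Ot t (fun i => (T.Xit s' ω i).1) ↔ (w, r) ∈ Ot t (clock ω.1) := by
        intro t
        simp only [Ot, active, tau, mem_ofPred_eq, e1]
      have e4 : ∀ t, seen (w, r) t (fun i => (T.Xit s' ω i).1) = seen (w, r) t (clock ω.1) := by
        intro t
        unfold seen
        by_cases h0 : (w, r) ∈ Ot t (clock ω.1)
        · rw [if_pos h0, if_pos ((e3 t).2 h0)]
        · rw [if_neg h0, if_neg fun h' => h0 ((e3 t).1 h')]
      simp only [ring, e4]
    rw [e2, e1]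
    rfl
  · have e1 : T.Xit s' ω (w, r) = (1, halfI) := by
      rw [T.Xit_eq']; simp only [XiF, if_neg h]
    have e2 : ring (w, r) s s' (fun i => (T.Xit s' ω i).1) = 0 := by
      refine ring_eq_zero hs fun h' => ?_
      have := h'.1.1
      simp only [active, e1] at this
      norm_num at this
    rw [e2, ring_eq_zero hs fun h' => h h'.1, zero_mul, zero_mul]

end Ctx

end Crest.Agent.R160
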