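import Crest.Agent.R160.StepA

/-! The jumps exhaust the quadratic variation. -/

set_option autoImplicit false

namespace Crest.Agent.R160

open MeasureTheory ProbabilityTheory Set Filter Topology
open scoped ENNReal

universe u

variable {V : Type u}

/-- a slot that rings during `[s, s') ⊆ [r, r+1]` belongs to round `r` -/
theorem round_eq_of_ring {r : ℤ} {s s' : ℝ} (h0 : (r : ℝ) ≤ s) (h1 : s' ≤ r + 1) {c : Clk V}
    {j : Slot V} (h' : j ∈ Ot s' c) (h : j ∉ Ot s c) : j.2 = r := by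
  have ha : (c j : ℝ) < 1 / 2 := h'.1
  have hb : (j.2 : ℝ) + (c j : ℝ) < s' := h'.2
  have hc : s ≤ (j.2 : ℝ) + (c j : ℝ) := not_lt.1 fun hlt => h ⟨h'.1, hlt⟩
  have h3 : (0 : ℝ) ≤ c j := (c j).2.1
  have h4 : (j.2 : ℝ) < ((r + 1 : ℤ) : ℝ) := by push_cast; linarith
  have h5 : ((r - 1 : ℤ) : ℝ) < (j.2 : ℝ) := by push_cast; linarith
  have h6 : j.2 < r + 1 := by exact_mod_cast h4
  have h7 : r - 1 < j.2 := by exact_mod_cast h5
  omega

namespace Ctx

variable (T : Ctx V)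

/-- observations before `s`, together with those before `s'` in the ball of radius `n` -/
def OKn (s s' : ℝ) (n : ℕ) (c : Clk V) : Set (Slot V) :=
  Ot s c ∪ (Ot s' c ∩ {j | j.1 ∈ T.ball n})

/-- observations before `s`, together with those before slot `i` rings in the ball of radius `n` -/
def An (s : ℝ) (i : Slot V) (n : ℕ) (c : Clk V) : Set (Slot V) :=
  Ot s c ∪ (Otau i c ∩ {j | j.1 ∈ T.ball n})

theorem isMask_OKn {r : ℤ} {s s' : ℝ} (hs : s ≤ s') (h1 : s' ≤ r + 1) (n : ℕ) :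
    IsMask r (T.OKn s s' n) :=
  (isMask_Ot (hs.trans h1)).union ((isMask_Ot h1).inter_const _)

theorem isMask_An {r : ℤ} {s : ℝ} (h1 : s ≤ r + 1) (w : V) (n : ℕ) :
    IsMask r (T.An s (w, r) n) :=
  (isMask_Ot h1).union ((isMask_Otau' (w, r)).inter_const _)

theorem iUnion_inter_ball (A : Set (Slot V)) :
    ⋃ n, (A ∩ {j : Slot V | j.1 ∈ T.ball n}) = A := by
  ext j
  simp only [mem_iUnion, mem_inter_iff, mem_ofPred_eq]
  exact ⟨fun ⟨_, h, _⟩ => h, fun h => ⟨T.G.dist T.o j.1, h, T.mem_ball.2 le_rfl⟩⟩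

theorem mono_OKn (s s' : ℝ) (c : Clk V) : Monotone (fun n => T.OKn s s' n c) :=
  fun _ _ h => union_subset_union_right _ (inter_subset_inter_right _ fun _ hj => T.ball_mono h hj)

theorem mono_An (s : ℝ) (i : Slot V) (c : Clk V) : Monotone (fun n => T.An s i n c) :=
  fun _ _ h => union_subset_union_right _ (inter_subset_inter_right _ fun _ hj => T.ball_mono h hj)

theorem iUnion_OKn {s s' : ℝ} (hs : s ≤ s') (c : Clk V) : ⋃ n, T.OKn s s' n c = Ot s' c := by
  unfold OKn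
  rw [← union_iUnion, T.iUnion_inter_ball]
  exact union_eq_right.2 (Ot_mono hs c)

theorem iUnion_An (s : ℝ) (i : Slot V) (c : Clk V) :
    ⋃ n, T.An s i n c = Ot s c ∪ Otau i c := by
  unfold An
  rw [← union_iUnion, T.iUnion_inter_ball]

/-- second moment of the posterior mean at the root for a deterministic set of observations -/
noncomputable def PhiD (A : Set (Slot V)) : ℝ :=
  ∫ ω, T.mf T.o (A.indicator (T.Yf ω)) ^ 2 ∂mu V

theorem PhiD_sub {R : ℤ} {A B : Set (Slot V)} (hB : ∀ i ∈ B, i.2 ≤ R) (h : A ⊆ B) :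
    T.PhiD B - T.PhiD A = ∫ ω, (T.mf T.o (B.indicator (T.Yf ω))
      - T.mf T.o (A.indicator (T.Yf ω))) ^ 2 ∂mu V := by
  have hA : ∀ i ∈ A, i.2 ≤ R := fun i hi => hB i (h hi)
  have h1 := integral_condExp_sub_sq (μ := mu V) (T.FD_mono h) (T.FD_le B) (T.bm_spin T.o).ab
  have e1 : T.PhiD B = ∫ ω, ((mu V)[fun ω => T.spin ω T.o | T.FD B]) ω ^ 2 ∂mu V := by
    refine integral_congr_ae ?_
    filter_upwards [T.post_mf hB T.o] with ω hω
    rw [hω]
  have e2 : T.PhiD A = ∫ ω, ((mu V)[fun ω => T.spin ω T.o | T.FD A]) ω ^ 2 ∂mu V := by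
    refine integral_congr_ae ?_
    filter_upwards [T.post_mf hA T.o] with ω hω
    rw [hω]
  rw [e1, e2, ← h1]
  refine integral_congr_ae ?_
  filter_upwards [T.post_mf hA T.o, T.post_mf hB T.o] with ω h1 h2
  rw [h1, h2]

/-- the exact identity for frozen clocks -/
theorem PhiD_OKn {r : ℤ} {s s' : ℝ} (h0 : (r : ℝ) ≤ s) (hs : s ≤ s') (h1 : s' ≤ r + 1) (n : ℕ)
    {c : Clk V} (hc : Function.Injective (tau c)) :
    T.PhiD (T.OKn s s' n c) - T.PhiD (Ot s c)
      = ∑ w ∈ T.ball n, ring (w, r) s s' c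
        * ∫ ω, (T.mf T.o ((insert (w, r) (T.An s (w, r) n c)).indicator (T.Yf ω))
          - T.mf T.o ((T.An s (w, r) n c).indicator (T.Yf ω))) ^ 2 ∂mu V := by
  classical
  set K : Finset V := (T.ball n).filter (fun w => (w, r) ∈ Ot s' c ∧ (w, r) ∉ Ot s c) with hK
  have hinj : Set.InjOn (fun w : V => tau c (w, r)) K := fun a _ b _ hab =>
    congrArg Prod.fst (hc hab)
  have htel := telescope_set T.PhiD (fun w : V => ((w, r) : Slot V)) (fun w : V => tau c (w, r))
    (Ot s c) K hinj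
  have e1 : T.OKn s s' n c = Ot s c ∪ (fun w : V => ((w, r) : Slot V)) '' (K : Set V) := by
    ext j
    simp only [OKn, mem_union, mem_inter_iff, mem_ofPred_eq, mem_image, Finset.mem_coe, hK,
      Finset.mem_filter]
    constructor
    · rintro (hj | ⟨hj, hb⟩)
      · exact Or.inl hj
      · by_cases hj' : j ∈ Ot s c
        · exact Or.inl hj'
        · have hr := round_eq_of_ring h0 h1 hj hj'
          obtain ⟨w, r'⟩ := j
          simp only at hr hb
          subst hr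
          exact Or.inr ⟨w, ⟨hb, hj, hj'⟩, rfl⟩
    · rintro (hj | ⟨w, ⟨hb, hj, -⟩, rfl⟩)
      · exact Or.inl hj
      · exact Or.inr ⟨hj, hb⟩
  have e2 : ∀ w ∈ K, Ot s c ∪ (fun w : V => ((w, r) : Slot V)) ''
      {j | j ∈ K ∧ tau c (j, r) < tau c (w, r)} = T.An s (w, r) n c := by
    intro w hw
    obtain ⟨-, hw1, -⟩ := Finset.mem_filter.1 hw
    ext j
    simp only [An, Otau, mem_union, mem_inter_iff, mem_ofPred_eq, mem_image, hK,
      Finset.mem_filter]
    constructor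
    · rintro (hj | ⟨x, ⟨⟨hb, hj, -⟩, hlt⟩, rfl⟩)
      · exact Or.inl hj
      · exact Or.inr ⟨⟨hj.1, hlt⟩, hb⟩
    · rintro (hj | ⟨hj, hb⟩)
      · exact Or.inl hj
      · by_cases hj' : j ∈ Ot s c
        · exact Or.inl hj'
        · have hj2 : j ∈ Ot s' c := ⟨hj.1, hj.2.trans hw1.2⟩
          have hr := round_eq_of_ring h0 h1 hj2 hj'
          obtain ⟨x, r'⟩ := j
          simp only at hr hb
          subst hr
          exact Or.inr ⟨x, ⟨⟨hb, hj2, hj'⟩, hj.2⟩, rfl⟩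
  rw [e1, htel, hK, Finset.sum_filter]
  refine Finset.sum_congr rfl fun w hw => ?_
  by_cases hring : (w, r) ∈ Ot s' c ∧ (w, r) ∉ Ot s c
  · rw [if_pos hring, ring_eq_one hring.1 hring.2, one_mul, ← hK,
      e2 w (Finset.mem_filter.2 ⟨hw, hring⟩)]
    exact T.PhiD_sub (((T.isMask_An (hs.trans h1) w n).insert (i := (w, r)) le_rfl).le c)
      (subset_insert _ _)
  · rw [if_neg hring, ring_eq_zero hs hring, zero_mul]

theorem integral_mf_YO_sq {R : ℤ} {O : Clk V → Set (Slot V)} (hO : IsMask R O) :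
    ∫ ω, T.mf T.o (T.YO O ω) ^ 2 ∂mu V = ∫ x, T.PhiD (O (clock x)) ∂mu0 V := by
  rw [integral_glueC ((T.bm_mf_YO hO T.o).pow 2).integrable]
  simp only [T.YO_glueC]
  rfl

theorem integrable_glueC {F : Om V → ℝ} (hF : Integrable F (mu V)) :
    Integrable (fun x => ∫ ω, F (glueC x ω) ∂mu V) (mu0 V) :=
  (mp_glueC.integrable_comp_of_integrable hF).integral_prod_left

/-- the exact identity -/
theorem integral_OKn {r : ℤ} {s s' : ℝ} (h0 : (r : ℝ) ≤ s) (hs : s ≤ s') (h1 : s' ≤ r + 1)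
    (n : ℕ) :
    (∫ ω, T.mf T.o (T.YO (T.OKn s s' n) ω) ^ 2 ∂mu V) - T.V2 s
      = ∑ w ∈ T.ball n, ∫ ω, ring (w, r) s s' (clock ω.1)
          * T.DO (T.An s (w, r) n) (w, r) ω ^ 2 ∂mu V := by
  have := T.countable_V
  have hOs : IsMask r (Ot s : Clk V → Set (Slot V)) := isMask_Ot (hs.trans h1)
  have hbm : ∀ w : V, BM (fun ω : Om V => ring (w, r) s s' (clock ω.1)
      * T.DO (T.An s (w, r) n) (w, r) ω ^ 2) := fun w =>
    (bm_ring (w, r) s s').mul ((T.bm_DO (T.isMask_An (hs.trans h1) w n) le_rfl).pow 2)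
  have i1 := integrable_glueC (((T.bm_mf_YO (T.isMask_OKn hs h1 n) T.o).pow 2).integrable (μ := mu V))
  have i2 := integrable_glueC (((T.bm_mf_YO hOs T.o).pow 2).integrable (μ := mu V))
  simp only [T.YO_glueC] at i1 i2
  change Integrable (fun x => T.PhiD (T.OKn s s' n (clock x))) (mu0 V) at i1
  change Integrable (fun x => T.PhiD (Ot s (clock x))) (mu0 V) at i2
  have e0 : T.V2 s = ∫ ω, T.mf T.o (T.YO (Ot s) ω) ^ 2 ∂mu V := rfl
  rw [e0, T.integral_mf_YO_sq (T.isMask_OKn hs h1 n), T.integral_mf_YO_sq hOs,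
    ← integral_sub i1 i2,
    Finset.sum_congr rfl fun w _ => integral_glueC (hbm w).integrable,
    ← integral_finsetSum _ fun w _ => integrable_glueC (hbm w).integrable]
  refine integral_congr_ae ?_
  filter_upwards [ae_tau_injective (V := V)] with x hx
  have h := T.PhiD_OKn h0 hs h1 n hx
  refine h.trans (Finset.sum_congr rfl fun w _ => ?_)
  rw [← integral_const_mul]
  simp only [clock_glueC, DO, T.YO_glueC]

theorem tendsto_OKn {r : ℤ} {s s' : ℝ} (hs : s ≤ s') (h1 : s' ≤ r + 1) :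
    Tendsto (fun n => ∫ ω, T.mf T.o (T.YO (T.OKn s s' n) ω) ^ 2 ∂mu V) atTop (𝓝 (T.V2 s')) := by
  have hlim := T.maskLim (O := fun n => T.OKn s s' n) (fun n => T.isMask_OKn hs h1 n)
    (T.mono_OKn s s')
  simp only [T.iUnion_OKn hs] at hlim
  refine tendsto_integral_of_dominated_convergence (fun _ => (1 : ℝ))
    (fun n => ((T.bm_mf_YO (T.isMask_OKn hs h1 n) T.o).pow 2).meas.aestronglyMeasurable)
    (integrable_const _) (fun n => Eventually.of_forall fun ω => ?_) ?_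
  · rw [Real.norm_eq_abs, abs_pow]
    exact pow_le_one₀ (abs_nonneg _) (T.abs_mf_le _ _)
  · filter_upwards [hlim] with ω hω
    exact (hω T.o).pow 2

theorem abs_DO_le (O : Clk V → Set (Slot V)) (i : Slot V) (ω : Om V) : |T.DO O i ω| ≤ 2 := by
  unfold DO
  refine (abs_sub _ _).trans ?_
  linarith [T.abs_mf_le T.o (T.YO (fun c => insert i (O c)) ω), T.abs_mf_le T.o (T.YO O ω)]

theorem tendsto_An {r : ℤ} {s s' : ℝ} (hs : s ≤ s') (h1 : s' ≤ r + 1) (w : V) :
    Tendsto (fun n => ∫ ω, ring (w, r) s s' (clock ω.1)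
        * T.DO (T.An s (w, r) n) (w, r) ω ^ 2 ∂mu V) atTop
      (𝓝 (∫ ω, ring (w, r) s s' (clock ω.1) * T.DO (Otau (w, r)) (w, r) ω ^ 2 ∂mu V)) := by
  have hA := fun n => T.isMask_An (hs.trans h1) w n
  have hlim1 := T.maskLim (O := fun n => T.An s (w, r) n) hA (T.mono_An s (w, r))
  have hlim2 := T.maskLim (O := fun n c => insert (w, r) (T.An s (w, r) n c))
    (fun n => (hA n).insert le_rfl) (fun c a b h => insert_subset_insert (T.mono_An s (w, r) c h))
  refine tendsto_integral_of_dominated_convergence (fun _ => (4 : ℝ))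
    (fun n => ((bm_ring (w, r) s s').mul
      ((T.bm_DO (hA n) le_rfl).pow 2)).meas.aestronglyMeasurable)
    (integrable_const _) (fun n => Eventually.of_forall fun ω => ?_) ?_
  · rw [Real.norm_eq_abs, abs_mul, abs_of_nonneg (ring_nonneg _ hs _), abs_pow]
    have h2 := T.abs_DO_le (T.An s (w, r) n) (w, r) ω
    have h3 : |T.DO (T.An s (w, r) n) (w, r) ω| ^ 2 ≤ 2 ^ 2 :=
      pow_le_pow_left₀ (abs_nonneg _) h2 2
    have h4 := mul_le_mul (ring_le_one (w, r) hs (clock ω.1)) h3 (by positivity) zero_le_one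
    linarith
  · filter_upwards [hlim1, hlim2] with ω h1 h2
    by_cases hring : (w, r) ∈ Ot s' (clock ω.1) ∧ (w, r) ∉ Ot s (clock ω.1)
    · have hle : s ≤ tau (clock ω.1) (w, r) :=
        not_lt.1 fun hlt => hring.2 ⟨hring.1.1, hlt⟩
      have hU : ⋃ n, T.An s (w, r) n (clock ω.1) = Otau (w, r) (clock ω.1) := by
        rw [T.iUnion_An]
        exact union_eq_right.2 (Ot_mono hle _)
      have e1 : T.YO (fun c => ⋃ n, T.An s (w, r) n c) ω = T.YO (Otau (w, r)) ω := by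
        unfold YO
        simp only
        rw [hU]
      have e2 : T.YO (fun c => ⋃ n, insert (w, r) (T.An s (w, r) n c)) ω
          = T.YO (fun c => insert (w, r) (Otau (w, r) c)) ω := by
        unfold YO
        simp only
        rw [← hU, insert_iUnion]
      have h3 := h1 T.o
      have h4 := h2 T.o
      rw [e1] at h3
      rw [e2] at h4
      exact ((h4.sub h3).pow 2).const_mul _
    · simp only [ring_eq_zero hs hring, zero_mul]
      exact tendsto_const_nhds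

theorem integral_ring_DO_le {r : ℤ} {s s' : ℝ} (hs : s ≤ s') {O : Clk V → Set (Slot V)}
    (hO : IsMask r O) (w : V) :
    ∫ ω, ring (w, r) s s' (clock ω.1) * T.DO O (w, r) ω ^ 2 ∂mu V
      ≤ ∫ ω, T.Jo w (T.YO O ω) ^ 2 ∂mu V := by
  refine integral_mono_ae
    ((bm_ring (w, r) s s').mul ((T.bm_DO hO (i := (w, r)) le_rfl).pow 2)).integrable
    ((T.bm_Jo_YO hO w).pow 2).integrable ?_
  filter_upwards [T.DO_sq_le hO (i := (w, r)) le_rfl] with ω hω
  have h1 := ring_le_one (w, r) hs (clock ω.1)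
  have h2 : kap r ^ 2 ≤ (1 / 2) ^ 2 := pow_le_pow_left₀ (kap_pos r).le (kap_le_half r) 2
  have h3 := mul_le_mul_of_nonneg_right h1 (sq_nonneg (T.DO O (w, r) ω))
  have h4 := mul_le_mul_of_nonneg_right h2 (sq_nonneg (T.Jo w (T.YO O ω)))
  change T.DO O (w, r) ω ^ 2 ≤ 4 * kap r ^ 2 * T.Jo w (T.YO O ω) ^ 2 at hω
  nlinarith

theorem gap_small {r : ℤ} (hT : T.TailHyp r) {s s' : ℝ} (h0 : (r : ℝ) ≤ s) (hs : s ≤ s')
    (h1 : s' ≤ r + 1) {ε : ℝ} (hε : 0 < ε) : ∃ n : ℕ, T.gap r n s s' ≤ ε := by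
  classical
  obtain ⟨tl, hsum, hnn, htl⟩ := hT
  have hd : (0 : ℝ) < (T.d : ℝ) - 1 := by
    have : (3 : ℝ) ≤ T.d := by exact_mod_cast T.hd
    linarith
  obtain ⟨n, hn⟩ : ∃ n : ℕ, ∀ m : ℕ, ∑ k ∈ Finset.Ico (n + 1) m, tl k ≤ ε / 2 := by
    obtain ⟨S, hS⟩ := summable_iff_vanishing_norm.1 hsum (ε / 2) (by positivity)
    refine ⟨S.sup id, fun m => ?_⟩
    have := hS (Finset.Ico (S.sup id + 1) m) (Finset.disjoint_left.2 fun k hk hkS => by
      have h2 : k ≤ S.sup id := Finset.le_sup (f := id) hkS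
      have h3 := (Finset.mem_Ico.1 hk).1
      omega)
    exact ((le_abs_self _).trans_lt this).le
  refine ⟨n, ?_⟩
  have hlim : Tendsto (fun m => (∫ ω, T.mf T.o (T.YO (T.OKn s s' m) ω) ^ 2 ∂mu V) - T.V2 s
      - ∑ w ∈ T.ball n, ∫ ω, ring (w, r) s s' (clock ω.1)
          * T.DO (T.An s (w, r) m) (w, r) ω ^ 2 ∂mu V) atTop (𝓝 (T.gap r n s s')) :=
    ((T.tendsto_OKn hs h1).sub_const _).sub
      (tendsto_finsetSum _ fun w _ => T.tendsto_An hs h1 w)
  refine le_of_tendsto hlim ?_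
  filter_upwards [eventually_ge_atTop n] with m hm
  rw [T.integral_OKn h0 hs h1 m, ← Finset.sum_sdiff (T.ball_mono hm), add_sub_cancel_right]
  have hb := T.sum_ball_le (fun k => tl k / ((T.d : ℝ) - 1) ^ k)
    (fun k => div_nonneg (hnn k) (pow_pos hd k).le) (T.ball m \ T.ball n) (n + 1) (m + 1)
    (fun w hw => by
      obtain ⟨h2, h3⟩ := Finset.mem_sdiff.1 hw
      rw [T.mem_ball] at h2 h3
      omega)
  have hb2 : ∑ k ∈ Finset.Ico (n + 1) (m + 1),
      2 * ((T.d : ℝ) - 1) ^ k * (tl k / ((T.d : ℝ) - 1) ^ k)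
      = 2 * ∑ k ∈ Finset.Ico (n + 1) (m + 1), tl k := by
    rw [Finset.mul_sum]
    refine Finset.sum_congr rfl fun k _ => ?_
    have := (pow_pos hd k).ne'
    field_simp
  rw [hb2] at hb
  refine le_trans (Finset.sum_le_sum fun w _ => ?_) (hb.trans (by linarith [hn (m + 1)]))
  have hA := T.isMask_An (hs.trans h1) w m
  refine (T.integral_ring_DO_le hs hA w).trans ?_
  rw [le_div_iff₀ (pow_pos hd _), mul_comm]
  exact htl _ hA (fun c => (Ot_mono h0 c).trans subset_union_left) w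

end Ctx

end Crest.Agent.R160
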