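import Crest.Agent.R160.StepB
import Crest.Agent.R160.StepC

/-! The Gronwall-type estimate inside one round. -/

set_option autoImplicit false

namespace Crest.Agent.R160

open MeasureTheory ProbabilityTheory Set Filter Topology
open scoped ENNReal

universe u

variable {V : Type u}

/-- the dyadic grid -/
noncomputable def grid (s0 s1 : ℝ) (N j : ℕ) : ℝ := s0 + (s1 - s0) * j / 2 ^ N

theorem grid_zero (s0 s1 : ℝ) (N : ℕ) : grid s0 s1 N 0 = s0 := by simp [grid]

theorem grid_last (s0 s1 : ℝ) (N : ℕ) : grid s0 s1 N (2 ^ N) = s1 := by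
  simp only [grid, Nat.cast_pow, Nat.cast_ofNat]
  field_simp
  ring

theorem grid_succ (s0 s1 : ℝ) (N j : ℕ) :
    grid s0 s1 N (j + 1) - grid s0 s1 N j = (s1 - s0) / 2 ^ N := by
  simp only [grid]; push_cast; ring

theorem grid_mono {s0 s1 : ℝ} (hs : s0 ≤ s1) (N : ℕ) {j j' : ℕ} (h : j ≤ j') :
    grid s0 s1 N j ≤ grid s0 s1 N j' := by
  have h1 : (j : ℝ) ≤ j' := by exact_mod_cast h
  have h2 : 0 ≤ s1 - s0 := by linarith
  simp only [grid]
  gcongr

/-- the last grid point before `x` -/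
noncomputable def gfl (s0 s1 : ℝ) (N : ℕ) (x : ℝ) : ℝ :=
  s0 + (s1 - s0) * ⌊2 ^ N * ((x - s0) / (s1 - s0))⌋ / 2 ^ N

theorem gfl_le {s0 s1 : ℝ} (hs : s0 < s1) (N : ℕ) (x : ℝ) : gfl s0 s1 N x ≤ x := by
  have h2 : 0 < s1 - s0 := by linarith
  have h1 := Int.floor_le (2 ^ N * ((x - s0) / (s1 - s0)))
  have h3 : (s1 - s0) * ⌊2 ^ N * ((x - s0) / (s1 - s0))⌋ / 2 ^ N
      ≤ (s1 - s0) * (2 ^ N * ((x - s0) / (s1 - s0))) / 2 ^ N := by gcongr
  have h4 : (s1 - s0) * (2 ^ N * ((x - s0) / (s1 - s0))) / 2 ^ N = x - s0 := by field_simp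
  unfold gfl
  linarith

theorem lt_gfl {s0 s1 : ℝ} (hs : s0 < s1) (N : ℕ) (x : ℝ) :
    x - (s1 - s0) / 2 ^ N < gfl s0 s1 N x := by
  have h2 : 0 < s1 - s0 := by linarith
  have h1 := Int.sub_one_lt_floor (2 ^ N * ((x - s0) / (s1 - s0)))
  have h3 : (s1 - s0) * (2 ^ N * ((x - s0) / (s1 - s0)) - 1) / 2 ^ N
      < (s1 - s0) * ⌊2 ^ N * ((x - s0) / (s1 - s0))⌋ / 2 ^ N := by gcongr
  have h4 : (s1 - s0) * (2 ^ N * ((x - s0) / (s1 - s0)) - 1) / 2 ^ N
      = x - s0 - (s1 - s0) / 2 ^ N := by field_simp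
  unfold gfl
  linarith

theorem gfl_mono {s0 s1 : ℝ} (hs : s0 < s1) (x : ℝ) : Monotone (fun N => gfl s0 s1 N x) := by
  refine monotone_nat_of_le_succ fun N => ?_
  have h2 : 0 < s1 - s0 := by linarith
  set y := (x - s0) / (s1 - s0)
  have h1 : 2 * ⌊2 ^ N * y⌋ ≤ ⌊2 ^ (N + 1) * y⌋ := by
    rw [Int.le_floor]
    have := Int.floor_le (2 ^ N * y)
    push_cast
    rw [pow_succ]
    linarith
  have h1' : (2 : ℝ) * ⌊2 ^ N * y⌋ ≤ ⌊2 ^ (N + 1) * y⌋ := by exact_mod_cast h1
  have h3 : (s1 - s0) * ⌊2 ^ N * y⌋ / 2 ^ N = (s1 - s0) * (2 * ⌊2 ^ N * y⌋) / 2 ^ (N + 1) := by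
    rw [pow_succ]; field_simp
  simp only [gfl]
  rw [h3]
  gcongr

theorem gfl_eq_grid {s0 s1 : ℝ} (hs : s0 < s1) {N j : ℕ} {x : ℝ} (h1 : grid s0 s1 N j ≤ x)
    (h2 : x < grid s0 s1 N (j + 1)) : gfl s0 s1 N x = grid s0 s1 N j := by
  have h0 : 0 < s1 - s0 := by linarith
  have h3 : ⌊2 ^ N * ((x - s0) / (s1 - s0))⌋ = (j : ℤ) := by
    rw [Int.floor_eq_iff]
    unfold grid at h1 h2
    push_cast at h2 ⊢
    have hp : (0 : ℝ) < 2 ^ N := by positivity
    constructor
    · rw [← mul_div_assoc, le_div_iff₀ h0]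
      have : (s1 - s0) * j / 2 ^ N ≤ x - s0 := by linarith
      rw [div_le_iff₀ hp] at this
      linarith
    · rw [← mul_div_assoc, div_lt_iff₀ h0]
      have : x - s0 < (s1 - s0) * (j + 1) / 2 ^ N := by linarith
      rw [lt_div_iff₀ hp] at this
      linarith
  simp [gfl, grid, h3]

theorem measurable_gfl (s0 s1 : ℝ) (N : ℕ) : Measurable (gfl s0 s1 N) := by
  unfold gfl
  refine measurable_const.add ((measurable_const.mul ?_).div_const _)
  exact (measurable_from_top (f := (Int.cast : ℤ → ℝ))).comp (Int.measurable_floor.comp (by fun_prop))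

namespace Ctx

variable (T : Ctx V)

theorem mesh_small (i : Slot V) {s0 s1 : ℝ} (hs : s0 ≤ s1) :
    Tendsto (fun N : ℕ => ∑ j ∈ Finset.range (2 ^ N),
      ∫ ω, ring i (grid s0 s1 N j) (grid s0 s1 N (j + 1)) (clock ω.1)
        * T.E2 (Ot (grid s0 s1 N j)) i ω ∂mu V) atTop (𝓝 0) := by
  rcases hs.eq_or_lt with rfl | hlt
  · simp [grid, ring]
  set O : ℕ → Clk V → Set (Slot V) := fun N c => Ot (gfl s0 s1 N (tau c i)) c with hO
  have htau : ∀ c : Clk V, tau c i ≤ i.2 + 1 := fun c => by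
    have := (c i).2.2
    unfold tau; linarith
  have hmask : ∀ N, IsMask i.2 (O N) := fun N =>
    isMask_Ot_fun ((measurable_gfl s0 s1 N).comp (measurable_tau i))
      fun c => (gfl_le hlt N _).trans (htau c)
  have hmono : ∀ c, Monotone (fun N => O N c) := fun c N N' h =>
    Ot_mono (gfl_mono hlt _ h) c
  have hU : (fun c => ⋃ N, O N c) = Otau i := by
    funext c
    refine Subset.antisymm (iUnion_subset fun N => Ot_mono (gfl_le hlt N _) c) fun j hj => ?_
    have h1 : 0 < tau c i - tau c j := sub_pos.2 hj.2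
    obtain ⟨N, hN⟩ := exists_pow_lt_of_lt_one (x := (tau c i - tau c j) / (s1 - s0))
      (y := (1 / 2 : ℝ)) (div_pos h1 (by linarith)) (by norm_num)
    refine mem_iUnion.2 ⟨N, hj.1, ?_⟩
    have h2 := lt_gfl hlt N (tau c i)
    rw [lt_div_iff₀ (by linarith), one_div, inv_pow, inv_mul_eq_div] at hN
    linarith
  have hlim : Tendsto (fun N => ∫ ω, T.E2 (O N) i ω ∂mu V) atTop (𝓝 (∫ _ω : Om V, (0 : ℝ) ∂mu V)) := by
    refine tendsto_integral_of_dominated_convergence (fun _ => 8)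
      (fun N => (T.bm_E2 (hmask N) i).meas.aestronglyMeasurable) (integrable_const _)
      (fun N => Eventually.of_forall fun ω => ?_) ?_
    · rw [Real.norm_eq_abs, abs_of_nonneg (T.E2_nonneg _ _ _)]
      have a1 := abs_le.1 (T.abs_Jo_le i.1 (T.YO (Otau i) ω))
      have a2 := abs_le.1 (T.abs_Jo_le i.1 (T.YO (O N) ω))
      have a3 := abs_le.1 (T.abs_mf_le i.1 (T.YO (Otau i) ω))
      have a4 := abs_le.1 (T.abs_mf_le i.1 (T.YO (O N) ω))
      unfold E2
      nlinarith
    · filter_upwards [T.maskLim hmask hmono] with ω hω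
      rw [hU] at hω
      have h1 := T.tendsto_Jf hω (T.geo i.1) (T.G.dist T.o i.1)
      have h2 := (((tendsto_const_nhds (x := T.Jo i.1 (T.YO (Otau i) ω))).sub h1).pow 2).add
        (((tendsto_const_nhds (x := T.mf i.1 (T.YO (Otau i) ω))).sub (hω i.1)).pow 2)
      simpa [E2, Jo] using h2
  rw [integral_zero] at hlim
  refine squeeze_zero (fun N => Finset.sum_nonneg fun j _ => integral_nonneg fun ω => ?_)
    (fun N => ?_) hlim
  · exact mul_nonneg (ring_nonneg i (grid_mono hs N (Nat.le_succ j)) _) (T.E2_nonneg _ _ _)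
  · have hbm : ∀ j, BM (fun ω : Om V => ring i (grid s0 s1 N j) (grid s0 s1 N (j + 1)) (clock ω.1)
        * T.E2 (Ot (grid s0 s1 N j)) i ω) := fun j =>
      (bm_ring i _ _).mul (T.bm_E2 (isMask_Ot (r := ⌈grid s0 s1 N j⌉)
        (by linarith [Int.le_ceil (grid s0 s1 N j)])) i)
    rw [← integral_finset_sum _ fun j _ => (hbm j).integrable]
    refine integral_mono (BM.sum _ fun j _ => hbm j).integrable (T.bm_E2 (hmask N) i).integrable
      fun ω => ?_
    have h1 : ∀ j, ring i (grid s0 s1 N j) (grid s0 s1 N (j + 1)) (clock ω.1)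
        * T.E2 (Ot (grid s0 s1 N j)) i ω
        = ring i (grid s0 s1 N j) (grid s0 s1 N (j + 1)) (clock ω.1) * T.E2 (O N) i ω := by
      intro j
      by_cases h : i ∈ Ot (grid s0 s1 N (j + 1)) (clock ω.1) ∧ i ∉ Ot (grid s0 s1 N j) (clock ω.1)
      · have h2 : grid s0 s1 N j ≤ tau (clock ω.1) i := by
          by_contra h3
          exact h.2 ⟨h.1.1, lt_of_not_ge h3⟩
        have h3 : T.YO (O N) ω = T.YO (Ot (grid s0 s1 N j)) ω := by
          simp only [YO, hO, gfl_eq_grid hlt h2 h.1.2]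
        simp only [E2, h3]
      · rw [ring_eq_zero (grid_mono hs N (Nat.le_succ j)) h, zero_mul, zero_mul]
    simp only [h1]
    rw [← Finset.sum_mul]
    have h2 : ∑ j ∈ Finset.range (2 ^ N),
        ring i (grid s0 s1 N j) (grid s0 s1 N (j + 1)) (clock ω.1) = ring i s0 s1 (clock ω.1) := by
      simp only [ring]
      rw [Finset.sum_range_sub (fun j => seen i (grid s0 s1 N j) (clock ω.1)), grid_last, grid_zero]
    rw [h2]
    exact mul_le_of_le_one_left (T.E2_nonneg _ _ _) (ring_le_one i hs _)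

theorem gap_self (r : ℤ) (n : ℕ) (s : ℝ) : T.gap r n s s = 0 := by
  simp [gap, ring]

theorem gap_add (r : ℤ) (n : ℕ) (s s' s'' : ℝ) :
    T.gap r n s s'' = T.gap r n s s' + T.gap r n s' s'' := by
  have h : ∀ w : V, ∫ ω, ring (w, r) s s'' (clock ω.1) * T.DO (Otau (w, r)) (w, r) ω ^ 2 ∂mu V
      = (∫ ω, ring (w, r) s s' (clock ω.1) * T.DO (Otau (w, r)) (w, r) ω ^ 2 ∂mu V)
        + ∫ ω, ring (w, r) s' s'' (clock ω.1) * T.DO (Otau (w, r)) (w, r) ω ^ 2 ∂mu V := by
    intro w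
    have hD := (T.bm_DO (isMask_Otau' (w, r)) (i := (w, r)) le_rfl).pow 2
    rw [← integral_add ((bm_ring _ _ _).mul hD).integrable ((bm_ring _ _ _).mul hD).integrable]
    refine integral_congr_ae (Eventually.of_forall fun ω => ?_)
    simp only [ring]; ring
  simp only [gap, h, Finset.sum_add_distrib]
  ring

theorem step_piece {r : ℤ} {K : ℝ} {s s' : ℝ} (hR : T.RateHyp s K) (hs : s ≤ s')
    (h1 : s' ≤ r + 1) {lam : ℝ} (hl : 1 ≤ lam) (n : ℕ) :
    T.delta s' ≤ T.delta s
      + 128 * kap r ^ 2 * K * (s' - s) * (lam * T.delta s + Real.exp (-lam)) + T.gap r n s s'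
      + 400 * kap r ^ 2 * ∑ w ∈ T.ball n,
          ∫ ω, ring (w, r) s s' (clock ω.1) * T.E2 (Ot s) (w, r) ω ∂mu V := by
  obtain ⟨jt, mm, hj, hm, hj1, hm1, hsum⟩ := hR lam hl
  have hmask : IsMask r (Ot s : Clk V → Set (Slot V)) := isMask_Ot (hs.trans h1)
  have key : ∀ w : V, ∫ ω, ring (w, r) s s' (clock ω.1)
        * (T.DO (Otau (w, r)) (w, r) ω - T.Dpred jt mm s (w, r) ω) ^ 2 ∂mu V
      ≤ 128 * kap r ^ 2 * (s' - s) * (∫ ω, T.E1 jt mm s w ω ∂mu V)
        + 400 * kap r ^ 2 * ∫ ω, ring (w, r) s s' (clock ω.1) * T.E2 (Ot s) (w, r) ω ∂mu V := by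
    intro w
    have hr := bm_ring (V := V) (w, r) s s'
    have hE1 := T.bm_E1 hj hm hj1 hm1 s w
    have hE2 := T.bm_E2 hmask (w, r)
    have hD := ((T.bm_DO (isMask_Otau' (w, r)) (i := (w, r)) le_rfl).sub
      (T.bm_Dpred hj hm hj1 hm1 s (w, r))).pow 2
    have hG : BM (fun p : Dat V × Wsp V => (T.Jo w p.1 - jt w p.2) ^ 2
        + T.Jo w p.1 ^ 2 * (T.mf w p.1 - mm w p.2) ^ 2) := by
      have b1 : BM (fun p : Dat V × Wsp V => T.Jo w p.1) :=
        BM.of_le ((T.measurable_Jo w).comp measurable_fst) 1 fun _ => T.abs_Jo_le _ _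
      have b2 : BM (fun p : Dat V × Wsp V => jt w p.2) :=
        BM.of_le ((hj w).comp measurable_snd) 1 fun _ => hj1 _ _
      have b3 : BM (fun p : Dat V × Wsp V => T.mf w p.1) :=
        BM.of_le ((T.measurable_mf w).comp measurable_fst) 1 fun _ => T.abs_mf_le _ _
      have b4 : BM (fun p : Dat V × Wsp V => mm w p.2) :=
        BM.of_le ((hm w).comp measurable_snd) 1 fun _ => hm1 _ _
      exact ((b1.sub b2).pow 2).add ((b1.pow 2).mul ((b3.sub b4).pow 2))
    have hp := T.palm (w, r) hs hG (fun p => by positivity)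
    have hp' : ∫ ω, ring (w, r) s s' (clock ω.1) * T.E1 jt mm s w ω ∂mu V
        ≤ 2 * (s' - s) * ∫ ω, T.E1 jt mm s w ω ∂mu V := hp
    calc _ ≤ ∫ ω, (64 * kap r ^ 2 * (ring (w, r) s s' (clock ω.1) * T.E1 jt mm s w ω)
            + 400 * kap r ^ 2 * (ring (w, r) s s' (clock ω.1) * T.E2 (Ot s) (w, r) ω)) ∂mu V := by
          refine integral_mono_ae (hr.mul hD).integrable
            (((hr.mul hE1).const_mul _).add ((hr.mul hE2).const_mul _)).integrable ?_
          filter_upwards [T.DO_sub_Dpred_sq_le (jt := jt) hm1 s (w, r)] with ω hω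
          have := mul_le_mul_of_nonneg_left hω (ring_nonneg (w, r) hs (clock ω.1))
          linarith
      _ = 64 * kap r ^ 2 * (∫ ω, ring (w, r) s s' (clock ω.1) * T.E1 jt mm s w ω ∂mu V)
            + 400 * kap r ^ 2
              * ∫ ω, ring (w, r) s s' (clock ω.1) * T.E2 (Ot s) (w, r) ω ∂mu V := by
          rw [integral_add ((hr.mul hE1).const_mul _).integrable
            ((hr.mul hE2).const_mul _).integrable, integral_const_mul, integral_const_mul]
      _ ≤ _ := by
          have := mul_le_mul_of_nonneg_left hp' (by positivity : 0 ≤ 64 * kap r ^ 2)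
          linarith
  have h2 := Finset.sum_le_sum (s := T.ball n) fun w _ => key w
  rw [Finset.sum_add_distrib, ← Finset.mul_sum, ← Finset.mul_sum] at h2
  have h3 : ∑ w ∈ T.ball n, ∫ ω, T.E1 jt mm s w ω ∂mu V
      ≤ K * (lam * T.delta s + Real.exp (-lam)) := hsum n
  have h4 := mul_le_mul_of_nonneg_left h3
    (mul_nonneg (by positivity) (sub_nonneg.2 hs) : 0 ≤ 128 * kap r ^ 2 * (s' - s))
  have h5 := T.one_step hj hm hj1 hm1 r n hs h1
  linarith

theorem step {r : ℤ} {K : ℝ} (hK : 0 ≤ K) (hT : T.TailHyp r)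
    (hR : ∀ t : ℝ, r ≤ t → t ≤ r + 1 → T.RateHyp t K) {s0 s1 : ℝ} (h0 : (r : ℝ) ≤ s0)
    (h01 : s0 ≤ s1) (h1 : s1 ≤ r + 1) {lam : ℝ} (hl : 1 ≤ lam) :
    T.delta s1 ≤ Real.exp (128 * kap r ^ 2 * K * (s1 - s0) * lam)
      * (T.delta s0 + 128 * kap r ^ 2 * K * (s1 - s0) * Real.exp (-lam)) := by
  set A := 128 * kap r ^ 2 * K with hA
  have hA0 : 0 ≤ A := by positivity
  have hl0 : 0 ≤ lam := by linarith
  -- estimate for a fixed ball and a fixed grid
  have key : ∀ n N : ℕ, T.delta s1 ≤ Real.exp (A * (s1 - s0) * lam)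
      * (T.delta s0 + A * (s1 - s0) * Real.exp (-lam) + T.gap r n s0 s1
        + 400 * kap r ^ 2 * ∑ w ∈ T.ball n, ∑ j ∈ Finset.range (2 ^ N),
          ∫ ω, ring (w, r) (grid s0 s1 N j) (grid s0 s1 N (j + 1)) (clock ω.1)
            * T.E2 (Ot (grid s0 s1 N j)) (w, r) ω ∂mu V) := by
    intro n N
    set g := grid s0 s1 N with hg
    set err : ℕ → ℝ := fun j => ∑ w ∈ T.ball n,
      ∫ ω, ring (w, r) (g j) (g (j + 1)) (clock ω.1) * T.E2 (Ot (g j)) (w, r) ω ∂mu V with herr
    have herr0 : ∀ j, 0 ≤ err j := fun j => Finset.sum_nonneg fun w _ => integral_nonneg fun ω =>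
      mul_nonneg (ring_nonneg _ (grid_mono h01 N (Nat.le_succ j)) _) (T.E2_nonneg _ _ _)
    have hind : ∀ j : ℕ, j ≤ 2 ^ N → T.delta (g j) ≤ Real.exp (A * (g j - s0) * lam)
        * (T.delta s0 + A * (g j - s0) * Real.exp (-lam) + T.gap r n s0 (g j)
          + 400 * kap r ^ 2 * ∑ l ∈ Finset.range j, err l) := by
      intro j
      induction j with
      | zero => intro _; simp [hg, grid_zero, T.gap_self]
      | succ j ih =>
        intro hj
        have ih' := ih (by omega)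
        have a0 : s0 ≤ g j := by
          have := grid_mono h01 N (Nat.zero_le j); rwa [grid_zero] at this
        have a1 : g j ≤ g (j + 1) := grid_mono h01 N (Nat.le_succ j)
        have a2 : g (j + 1) ≤ s1 := by
          have := grid_mono h01 N hj; rwa [grid_last] at this
        have hp := T.step_piece (hR (g j) (h0.trans a0) (a1.trans (a2.trans h1))) a1
          (a2.trans h1) hl n
        have hgap := T.gap_nonneg r n a1 (a2.trans h1)
        have hgap0 := T.gap_nonneg r n a0 (a1.trans (a2.trans h1))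
        rw [Finset.sum_range_succ, T.gap_add r n s0 (g j) (g (j + 1))]
        set c := A * (g (j + 1) - g j) with hc
        have hc0 : 0 ≤ c := mul_nonneg hA0 (sub_nonneg.2 a1)
        have e1 : A * (g (j + 1) - s0) = A * (g j - s0) + c := by rw [hc]; ring
        rw [e1, add_mul (A * (g j - s0)) c lam, Real.exp_add]
        set E := Real.exp (A * (g j - s0) * lam) with hE
        have hE1 : 1 ≤ E := Real.one_le_exp (mul_nonneg (mul_nonneg hA0 (sub_nonneg.2 a0)) hl0)
        have hF : c * lam + 1 ≤ Real.exp (c * lam) := Real.add_one_le_exp _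
        have hcl : 0 ≤ c * lam := mul_nonneg hc0 hl0
        set F := Real.exp (c * lam) with hF'
        set B := T.delta s0 + A * (g j - s0) * Real.exp (-lam) + T.gap r n s0 (g j)
          + 400 * kap r ^ 2 * ∑ l ∈ Finset.range j, err l with hB
        set Z := c * Real.exp (-lam) + T.gap r n (g j) (g (j + 1)) + 400 * kap r ^ 2 * err j
          with hZ
        have hZ0 : 0 ≤ Z := by
          have := herr0 j
          positivity
        have hd0 := T.delta_nonneg (g j)
        have b1 : T.delta (g (j + 1)) ≤ (c * lam + 1) * T.delta (g j) + Z := by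
          rw [hZ]; simp only [herr]; linarith
        have b2 : (c * lam + 1) * T.delta (g j) ≤ F * (E * B) :=
          mul_le_mul hF ih' hd0 (Real.exp_pos _).le
        have b3 : Z ≤ E * F * Z :=
          le_mul_of_one_le_left hZ0 (one_le_mul_of_one_le_of_one_le hE1 (by linarith))
        have e2 : T.delta s0 + (A * (g j - s0) + c) * Real.exp (-lam)
            + (T.gap r n s0 (g j) + T.gap r n (g j) (g (j + 1)))
            + 400 * kap r ^ 2 * (∑ l ∈ Finset.range j, err l + err j) = B + Z := by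
          rw [hB, hZ]; ring
        rw [e2]
        nlinarith
    have := hind (2 ^ N) le_rfl
    rw [hg, grid_last] at this
    rw [Finset.sum_comm]
    exact this
  have key2 : ∀ n : ℕ, T.delta s1 ≤ Real.exp (A * (s1 - s0) * lam)
      * (T.delta s0 + A * (s1 - s0) * Real.exp (-lam) + T.gap r n s0 s1) := by
    intro n
    have hlim := (((tendsto_finsetSum (T.ball n) fun w _ =>
      T.mesh_small (w, r) h01).const_mul (400 * kap r ^ 2)).const_add
        (T.delta s0 + A * (s1 - s0) * Real.exp (-lam) + T.gap r n s0 s1)).const_mul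
          (Real.exp (A * (s1 - s0) * lam))
    simp only [Finset.sum_const_zero, mul_zero, add_zero] at hlim
    exact ge_of_tendsto' hlim (key n)
  refine le_of_forall_pos_le_add fun ε hε => ?_
  have hE := Real.exp_pos (A * (s1 - s0) * lam)
  obtain ⟨n, hn⟩ := T.gap_small hT h0 h01 h1 (div_pos hε hE)
  refine (key2 n).trans ?_
  rw [le_div_iff₀ hE] at hn
  nlinarith

end Ctx

end Crest.Agent.R160
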